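import Crest.Agent.R298.Lev

/-!
# Row 298.  The annotated memo calculus: application nodes carry (a term convertible to) the product type of the function,
`mem M G` is `M` with the garbage `G`.  Steps never erase.
-/

set_option autoImplicit false
set_option linter.unusedSectionVars false
set_option linter.unusedVariables false

namespace Crest.Agent.R298

open scoped Classical
open Crest.LogicCS.PTS (Spec)

inductive ATm (S : Type) : Type
  | bv : ℕ → ATm S
  | fv : ℕ → Tm S → ATm S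
  | srt : S → ATm S
  | app : Tm S → ATm S → ATm S → ATm S
  | lam : ATm S → ATm S → ATm S
  | pi : ATm S → ATm S → ATm S
  | mem : ATm S → ATm S → ATm S

abbrev ASb (S : Type) := Var S → ATm S

variable {S : Type}

namespace ATm

def er : ATm S → Tm S
  | bv i => .bv i
  | fv n A => .fv n A
  | srt s => .srt s
  | app _ M N => .app (er M) (er N)
  | lam A M => .lam (er A) (er M)
  | pi A B => .pi (er A) (er B)
  | mem M _ => er M

def atm (a : Atom S) : ATm S := fv a.1 a.2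

def vr : ASb S
  | .inl i => bv i
  | .inr a => atm a

def ren (ξ : ℕ → ℕ) : ATm S → ATm S
  | bv i => bv (ξ i)
  | fv n A => fv n A
  | srt s => srt s
  | app T M N => app (Tm.ren ξ T) (ren ξ M) (ren ξ N)
  | lam A M => lam (ren ξ A) (ren (upr ξ) M)
  | pi A B => pi (ren ξ A) (ren (upr ξ) B)
  | mem M G => mem (ren ξ M) (ren ξ G)

def lift (M : ATm S) : ATm S := ren Nat.succ M

def up (σ : ASb S) : ASb S := vcons (bv 0) fun x => lift (σ x)

/-- the erased substitution -/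
def ers (σ : ASb S) : Sb S := fun x => er (σ x)

def sub (σ : ASb S) : ATm S → ATm S
  | bv i => σ (.inl i)
  | fv n A => σ (.inr (n, A))
  | srt s => srt s
  | app T M N => app (Tm.sub (ers σ) T) (sub σ M) (sub σ N)
  | lam A M => lam (sub σ A) (sub (up σ) M)
  | pi A B => pi (sub σ A) (sub (up σ) B)
  | mem M G => mem (sub σ M) (sub σ G)

def inst (N M : ATm S) : ATm S := sub (vcons N vr) M

noncomputable def cls (a : Atom S) (M : ATm S) : ATm S := sub (vupd (fun x => lift (vr x)) a (bv 0)) M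

def Occ (a : Atom S) : ATm S → Prop
  | bv _ => False
  | fv n A => a = (n, A)
  | srt _ => False
  | app T M N => Tm.Occ a T ∨ Occ a M ∨ Occ a N
  | lam A M => Occ a A ∨ Occ a M
  | pi A B => Occ a A ∨ Occ a B
  | mem M G => Occ a M ∨ Occ a G

def mx : ATm S → ℕ
  | bv _ => 0
  | fv n A => max (n + 1) (Tm.mx A)
  | srt _ => 0
  | app T M N => max (Tm.mx T) (max (mx M) (mx N))
  | lam A M => max (mx A) (mx M)
  | pi A B => max (mx A) (mx B)
  | mem M G => max (mx M) (mx G)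

def sz : ATm S → ℕ
  | bv _ => 1
  | fv _ _ => 1
  | srt _ => 1
  | app _ M N => sz M + sz N + 1
  | lam A M => sz A + sz M + 1
  | pi A B => sz A + sz B + 1
  | mem M G => sz M + sz G + 1

def prm (π : Equiv.Perm ℕ) : ATm S → ATm S
  | bv i => bv i
  | fv n A => fv (π n) (Tm.prm π A)
  | srt s => srt s
  | app T M N => app (Tm.prm π T) (prm π M) (prm π N)
  | lam A M => lam (prm π A) (prm π M)
  | pi A B => pi (prm π A) (prm π B)
  | mem M G => mem (prm π M) (prm π G)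

end ATm

open ATm

inductive Step : ATm S → ATm S → Prop
  | beta (T : Tm S) (A M N : ATm S) : Step (app T (lam A M) N) (mem (mem (inst N M) N) A)
  | perm (T : Tm S) (M G N : ATm S) : Step (app T (mem M G) N) (mem (app T M N) G)
  | appL (T : Tm S) {M M' : ATm S} (N : ATm S) : Step M M' → Step (app T M N) (app T M' N)
  | appR (T : Tm S) (M : ATm S) {N N' : ATm S} : Step N N' → Step (app T M N) (app T M N')
  | lamA {A A' : ATm S} (M : ATm S) : Step A A' → Step (lam A M) (lam A' M)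
  | lamM (A : ATm S) {M M' : ATm S} : Step M M' → Step (lam A M) (lam A M')
  | piA {A A' : ATm S} (B : ATm S) : Step A A' → Step (pi A B) (pi A' B)
  | piB (A : ATm S) {B B' : ATm S} : Step B B' → Step (pi A B) (pi A B')
  | memL {M M' : ATm S} (G : ATm S) : Step M M' → Step (mem M G) (mem M' G)
  | memR (M : ATm S) {G G' : ATm S} : Step G G' → Step (mem M G) (mem M G')

abbrev Steps (M N : ATm S) : Prop := Relation.ReflTransGen Step M N
def AWN (W : ATm S) : Prop := ∃ W', Steps W W' ∧ ∀ W'', ¬ Step W' W''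

inductive ATy (P : Spec S) : List (Atom S) → ATm S → Tm S → Prop
  | ax {s t : S} : P.ax s t → ATy P [] (srt s) (.srt t)
  | start {Γ : List (Atom S)} {a : Atom S} {s : S} : Ty P Γ a.2 (.srt s) → ATy P (a :: Γ) (atm a) a.2
  | weak {Γ : List (Atom S)} {M : ATm S} {B : Tm S} {a : Atom S} {s : S} :
      ATy P Γ M B → Ty P Γ a.2 (.srt s) → ATy P (a :: Γ) M B
  | prod {Γ : List (Atom S)} {A B : ATm S} {n : ℕ} {s₁ s₂ s₃ : S} :
      ATy P Γ A (.srt s₁) → (n, er A) ∉ Γ → ¬ Occ (n, er A) B →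
      ATy P ((n, er A) :: Γ) (inst (fv n (er A)) B) (.srt s₂) → P.rule s₁ s₂ s₃ → ATy P Γ (pi A B) (.srt s₃)
  | abs {Γ : List (Atom S)} {A M : ATm S} {B : Tm S} {n : ℕ} {s₁ s : S} :
      ATy P Γ A (.srt s₁) → (n, er A) ∉ Γ → ¬ Occ (n, er A) M → ¬ Tm.Occ (n, er A) B →
      ATy P ((n, er A) :: Γ) (inst (fv n (er A)) M) (Tm.inst (.fv n (er A)) B) →
      Ty P Γ (.pi (er A) B) (.srt s) → ATy P Γ (lam A M) (.pi (er A) B)
  | appl {Γ : List (Atom S)} {M N : ATm S} {T A B : Tm S} :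
      ATy P Γ M (.pi A B) → ATy P Γ N A → Cv T (.pi A B) → ATy P Γ (app T M N) (Tm.inst (er N) B)
  | mem {Γ : List (Atom S)} {M G : ATm S} {A C : Tm S} : ATy P Γ M A → ATy P Γ G C → ATy P Γ (mem M G) A
  | conv {Γ : List (Atom S)} {M : ATm S} {A B : Tm S} {s : S} :
      ATy P Γ M A → Ty P Γ B (.srt s) → Cv A B → ATy P Γ M B

def AMor (P : Spec S) (Δ Γ : List (Atom S)) (σ : ASb S) : Prop :=
  Ok P Δ ∧ ∀ a ∈ Γ, ATy P Δ (σ (.inr a)) (Tm.sub (ers σ) a.2)

/-- spine with head atom `a` (no `mem` on the spine) -/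
inductive ASp (a : Atom S) : ATm S → Prop
  | hd : ASp a (atm a)
  | app (T : Tm S) {M : ATm S} (N : ATm S) : ASp a M → ASp a (app T M N)

/-- every application node whose level is in `X` is neutral -/
inductive Dsp (P : Spec S) (X : Set (Set S)) : ATm S → Prop
  | bv (i : ℕ) : Dsp P X (bv i)
  | fv (n : ℕ) (A : Tm S) : Dsp P X (fv n A)
  | srt (s : S) : Dsp P X (srt s)
  | app {T : Tm S} {M N : ATm S} : Dsp P X M → Dsp P X N → (lv P T ∈ X → ∃ a, ASp a M) → Dsp P X (app T M N)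
  | lam {A M : ATm S} (L : ℕ) : Dsp P X A → (∀ n, L ≤ n → Dsp P X (inst (fv n (nf (er A))) M)) → Dsp P X (lam A M)
  | pi {A B : ATm S} (L : ℕ) : Dsp P X A → (∀ n, L ≤ n → Dsp P X (inst (fv n (nf (er A))) B)) → Dsp P X (pi A B)
  | mem {M G : ATm S} : Dsp P X M → Dsp P X G → Dsp P X (mem M G)

/-! ### part a: substitution algebra (copy of `Syn`, part a) -/

namespace ATm

theorem aa_er_ren (ξ : ℕ → ℕ) (M : ATm S) : er (ren ξ M) = Tm.ren ξ (er M) := by
  induction M generalizing ξ <;> simp only [ren, er, Tm.ren, *]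

theorem aa_ers_up (σ : ASb S) : ers (up σ) = Tm.up (ers σ) := by
  funext x
  rcases x with (_ | i) | a
  · rfl
  · exact aa_er_ren _ _
  · exact aa_er_ren _ _

theorem aa_ers_vr : ers (vr : ASb S) = Tm.vr := by
  funext x
  rcases x with i | a <;> rfl

theorem aa_ers_vcons (N : ATm S) (σ : ASb S) : ers (vcons N σ) = vcons (er N) (ers σ) := by
  funext x
  rcases x with (_ | i) | a <;> rfl

theorem er_sub (σ : ASb S) (M : ATm S) : er (sub σ M) = Tm.sub (ers σ) (er M) := by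
  induction M generalizing σ with
  | bv i => rfl
  | fv n A => rfl
  | srt s => rfl
  | app T M N ihM ihN => simp only [sub, er, Tm.sub, ihM, ihN]
  | lam A M ihA ihM => simp only [sub, er, Tm.sub, ihA, ihM, aa_ers_up]
  | pi A M ihA ihM => simp only [sub, er, Tm.sub, ihA, ihM, aa_ers_up]
  | mem M G ihM ihG => simp only [sub, er, ihM]

theorem er_inst (N M : ATm S) : er (inst N M) = Tm.inst (er N) (er M) := by
  rw [inst, er_sub, aa_ers_vcons, aa_ers_vr, Tm.inst]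

theorem ers_vr : ers (vr : ASb S) = Tm.vr := by
  exact aa_ers_vr

theorem ers_vcons (N : ATm S) (σ : ASb S) : ers (vcons N σ) = vcons (er N) (ers σ) := by
  exact aa_ers_vcons N σ

theorem ers_vupd (σ : ASb S) (a : Atom S) (N : ATm S) : ers (vupd σ a N) = vupd (ers σ) a (er N) := by
  funext x
  exact Function.apply_update (fun _ => er) σ (.inr a) N x

theorem ers_up (σ : ASb S) : ers (up σ) = Tm.up (ers σ) := by
  exact aa_ers_up σ

theorem sub_vr (M : ATm S) : sub vr M = M := by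
  have e : up (vr : ASb S) = vr := by
    funext x
    rcases x with (_ | i) | a <;> rfl
  induction M with
  | bv i => rfl
  | fv n A => rfl
  | srt s => rfl
  | app T M N ihM ihN => simp only [sub, ihM, ihN, ers_vr, R298.sub_vr]
  | lam A M ihA ihM => simp only [sub, e, ihA, ihM]
  | pi A M ihA ihM => simp only [sub, e, ihA, ihM]
  | mem M G ihM ihG => simp only [sub, ihM, ihG]

theorem aa_tren (ξ : ℕ → ℕ) (M : Tm S) : Tm.ren ξ M = Tm.sub (fun x => Tm.vr (Sum.map ξ id x)) M := by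
  have e : ∀ ξ : ℕ → ℕ, (Tm.up fun x => Tm.vr (Sum.map ξ id x) : Sb S) = fun x => Tm.vr (Sum.map (upr ξ) id x) :=
    fun ξ => by
      funext x
      rcases x with (_ | i) | a <;> rfl
  induction M generalizing ξ with
  | bv i => rfl
  | fv n A _ => rfl
  | srt s => rfl
  | app M N ihM ihN => simp only [Tm.ren, Tm.sub, ihM, ihN]
  | lam A M ihA ihM => simp only [Tm.ren, Tm.sub, ihA, ihM, e]
  | pi A M ihA ihM => simp only [Tm.ren, Tm.sub, ihA, ihM, e]

theorem aa_ren_ren (ξ ζ : ℕ → ℕ) (M : ATm S) : ren ξ (ren ζ M) = ren (ξ ∘ ζ) M := by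
  have e : ∀ ξ ζ : ℕ → ℕ, upr ξ ∘ upr ζ = upr (ξ ∘ ζ) := fun ξ ζ => by
    funext i
    cases i <;> rfl
  induction M generalizing ξ ζ with
  | bv i => rfl
  | fv n A => rfl
  | srt s => rfl
  | app T M N ihM ihN =>
    simp only [ren, ihM, ihN, aa_tren, R298.sub_sub]
    congr 2
    funext x
    rcases x with i | a <;> rfl
  | lam A M ihA ihM => simp only [ren, ihA, ihM, e]
  | pi A M ihA ihM => simp only [ren, ihA, ihM, e]
  | mem M G ihM ihG => simp only [ren, ihM, ihG]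

theorem aa_sub_ren (σ : ASb S) (ξ : ℕ → ℕ) (M : ATm S) :
    sub σ (ren ξ M) = sub (fun x => σ (Sum.map ξ id x)) M := by
  have e : ∀ (σ : ASb S) (ξ : ℕ → ℕ), (fun x => up σ (Sum.map (upr ξ) id x)) = up fun x => σ (Sum.map ξ id x) :=
    fun σ ξ => by
      funext x
      rcases x with (_ | i) | a <;> rfl
  induction M generalizing σ ξ with
  | bv i => rfl
  | fv n A => rfl
  | srt s => rfl
  | app T M N ihM ihN =>
    simp only [ren, sub, ihM, ihN, aa_tren, R298.sub_sub]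
    congr 2
    funext x
    rcases x with i | a <;> rfl
  | lam A M ihA ihM => simp only [ren, sub, ihA, ihM, e]
  | pi A M ihA ihM => simp only [ren, sub, ihA, ihM, e]
  | mem M G ihM ihG => simp only [ren, sub, ihM, ihG]

theorem aa_ren_sub (ξ : ℕ → ℕ) (σ : ASb S) (M : ATm S) : ren ξ (sub σ M) = sub (fun x => ren ξ (σ x)) M := by
  have e0 : ∀ (ξ : ℕ → ℕ) (M : ATm S), ren (upr ξ) (lift M) = lift (ren ξ M) := fun ξ M => by
    rw [lift, lift, aa_ren_ren, aa_ren_ren]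
    rfl
  have e : ∀ (ξ : ℕ → ℕ) (σ : ASb S), (fun x => ren (upr ξ) (up σ x)) = up fun x => ren ξ (σ x) := fun ξ σ => by
    funext x
    rcases x with (_ | i) | a
    · rfl
    · exact e0 _ _
    · exact e0 _ _
  induction M generalizing σ ξ with
  | bv i => rfl
  | fv n A => rfl
  | srt s => rfl
  | app T M N ihM ihN =>
    simp only [ren, sub, ihM, ihN, aa_tren, R298.sub_sub]
    congr 2
    funext x
    exact ((aa_er_ren _ _).trans (aa_tren _ _)).symm
  | lam A M ihA ihM => simp only [ren, sub, ihA, ihM, e]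
  | pi A M ihA ihM => simp only [ren, sub, ihA, ihM, e]
  | mem M G ihM ihG => simp only [ren, sub, ihM, ihG]

theorem aa_sub_up_lift (σ : ASb S) (M : ATm S) : sub (up σ) (lift M) = lift (sub σ M) := by
  rw [lift, lift, aa_sub_ren, aa_ren_sub]
  congr 1
  funext x
  rcases x with i | a <;> rfl

theorem aa_sub_vcons_lift (N : ATm S) (σ : ASb S) (M : ATm S) : sub (vcons N σ) (lift M) = sub σ M := by
  rw [lift, aa_sub_ren]
  congr 1
  funext x
  rcases x with i | a <;> rfl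

theorem sub_sub (σ τ : ASb S) (M : ATm S) : sub τ (sub σ M) = sub (fun x => sub τ (σ x)) M := by
  have e : ∀ σ τ : ASb S, (fun x => sub (up τ) (up σ x)) = up fun x => sub τ (σ x) := fun σ τ => by
    funext x
    rcases x with (_ | i) | a
    · rfl
    · exact aa_sub_up_lift _ _
    · exact aa_sub_up_lift _ _
  induction M generalizing σ τ with
  | bv i => rfl
  | fv n A => rfl
  | srt s => rfl
  | app T M N ihM ihN =>
    simp only [sub, ihM, ihN, R298.sub_sub]
    congr 2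
    funext x
    exact (er_sub _ _).symm
  | lam A M ihA ihM => simp only [sub, ihA, ihM, e]
  | pi A M ihA ihM => simp only [sub, ihA, ihM, e]
  | mem M G ihM ihG => simp only [sub, ihM, ihG]

theorem inst_sub_up (N : ATm S) (σ : ASb S) (M : ATm S) : inst N (sub (up σ) M) = sub (vcons N σ) M := by
  rw [inst, sub_sub]
  congr 1
  funext x
  rcases x with (_ | i) | a
  · rfl
  · exact (aa_sub_vcons_lift _ _ _).trans (sub_vr _)
  · exact (aa_sub_vcons_lift _ _ _).trans (sub_vr _)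

theorem sub_inst (σ : ASb S) (N M : ATm S) : sub σ (inst N M) = sub (vcons (sub σ N) σ) M := by
  rw [inst, sub_sub]
  congr 1
  funext x
  rcases x with (_ | i) | a <;> rfl

theorem sub_congr {σ τ : ASb S} {M : ATm S} (h1 : ∀ i, σ (.inl i) = τ (.inl i))
    (h2 : ∀ a, Occ a M → σ (.inr a) = τ (.inr a)) : sub σ M = sub τ M := by
  have e : ∀ {σ τ : ASb S}, (∀ i, σ (.inl i) = τ (.inl i)) → ∀ i, up σ (.inl i) = up τ (.inl i) := fun h i => by
    cases i with
    | zero => rfl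
    | succ i => exact congrArg lift (h i)
  induction M generalizing σ τ with
  | bv i => exact h1 i
  | fv n A => exact h2 _ rfl
  | srt s => rfl
  | app T M N ihM ihN =>
    simp only [sub]
    rw [ihM h1 fun a h => h2 a (.inr (.inl h)), ihN h1 fun a h => h2 a (.inr (.inr h)),
      R298.sub_congr (σ := ers σ) (τ := ers τ) (fun i => congrArg er (h1 i)) fun a h => congrArg er (h2 a (.inl h))]
  | lam A M ihA ihM =>
    simp only [sub]
    rw [ihA h1 fun a h => h2 a (.inl h), ihM (e h1) fun a h => congrArg lift (h2 a (.inr h))]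
  | pi A M ihA ihM =>
    simp only [sub]
    rw [ihA h1 fun a h => h2 a (.inl h), ihM (e h1) fun a h => congrArg lift (h2 a (.inr h))]
  | mem M G ihM ihG =>
    simp only [sub]
    rw [ihM h1 fun a h => h2 a (.inl h), ihG h1 fun a h => h2 a (.inr h)]

theorem sub_vupd_inst {a : Atom S} {B : ATm S} (h : ¬ Occ a B) (σ : ASb S) (N : ATm S) :
    sub (vupd σ a N) (inst (atm a) B) = sub (vcons N σ) B := by
  rw [sub_inst]
  refine sub_congr (fun i => ?_) fun b hb => ?_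
  · cases i with
    | zero => exact Function.update_self ..
    | succ i => exact Function.update_of_ne (a := .inl i) (a' := .inr a) Sum.inl_ne_inr N σ
  · have hne : b ≠ a := fun e => h (e ▸ hb)
    exact Function.update_of_ne (a := .inr b) (a' := .inr a) (fun e => hne (Sum.inr.inj e)) N σ

theorem inst_cls (a : Atom S) (M : ATm S) : inst (atm a) (cls a M) = M := by
  rw [inst, cls, sub_sub]
  refine Eq.trans ?_ (sub_vr M)
  congr 1
  funext x
  by_cases hx : x = .inr a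
  · subst hx
    rw [vupd, Function.update_self]
    rfl
  · rw [vupd, Function.update_of_ne hx, aa_sub_vcons_lift, sub_vr]

theorem cls_inst {a : Atom S} {M : ATm S} (h : ¬ Occ a M) : cls a (inst (atm a) M) = M := by
  rw [cls, sub_vupd_inst h]
  refine Eq.trans ?_ (sub_vr M)
  congr 1
  funext x
  rcases x with (_ | i) | a <;> rfl

theorem occ_er {a : Atom S} {M : ATm S} (h : Tm.Occ a (er M)) : Occ a M := by
  induction M with
  | bv i => exact h
  | fv n A => exact h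
  | srt s => exact h
  | app T M N ihM ihN => exact .inr (h.imp ihM ihN)
  | lam A M ihA ihM => exact h.imp ihA ihM
  | pi A M ihA ihM => exact h.imp ihA ihM
  | mem M G ihM ihG => exact .inl (ihM h)

theorem not_occ_of_mx {a : Atom S} {M : ATm S} (h : mx M ≤ a.1) : ¬ Occ a M := by
  induction M with
  | bv i => exact id
  | fv n A =>
    rintro rfl
    simp only [mx] at h
    omega
  | srt s => exact id
  | app T M N ihM ihN =>
    simp only [mx, max_le_iff] at h
    rintro (h' | h' | h')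
    · exact absurd (occ_lt_mx h').1 (not_lt.2 h.1)
    · exact ihM h.2.1 h'
    · exact ihN h.2.2 h'
  | lam A M ihA ihM =>
    simp only [mx, max_le_iff] at h
    exact fun h' => h'.elim (ihA h.1) (ihM h.2)
  | pi A M ihA ihM =>
    simp only [mx, max_le_iff] at h
    exact fun h' => h'.elim (ihA h.1) (ihM h.2)
  | mem A M ihA ihM =>
    simp only [mx, max_le_iff] at h
    exact fun h' => h'.elim (ihA h.1) (ihM h.2)

theorem mx_er (M : ATm S) : Tm.mx (er M) ≤ mx M := by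
  induction M <;> simp only [mx, er, Tm.mx] <;> omega

theorem aa_sz_ren (ξ : ℕ → ℕ) (M : ATm S) : sz (ren ξ M) = sz M := by
  induction M generalizing ξ <;> simp only [ren, sz, *]

theorem aa_sz_sub {σ : ASb S} (h : ∀ x, sz (σ x) = 1) (M : ATm S) : sz (sub σ M) = sz M := by
  have e : ∀ {σ : ASb S}, (∀ x, sz (σ x) = 1) → ∀ x, sz (up σ x) = 1 := fun h x => by
    rcases x with (_ | i) | a
    · rfl
    · exact (aa_sz_ren _ _).trans (h _)
    · exact (aa_sz_ren _ _).trans (h _)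
  induction M generalizing σ with
  | bv i => exact h _
  | fv n A => exact h _
  | srt s => rfl
  | app T M N ihM ihN => simp only [sub, sz, ihM h, ihN h]
  | lam A M ihA ihM => simp only [sub, sz, ihA h, ihM (e h)]
  | pi A M ihA ihM => simp only [sub, sz, ihA h, ihM (e h)]
  | mem M G ihM ihG => simp only [sub, sz, ihM h, ihG h]

theorem sz_inst_atm (a : Atom S) (M : ATm S) : sz (inst (atm a) M) = sz M := by
  refine aa_sz_sub (fun x => ?_) M
  rcases x with (_ | i) | b <;> rfl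

theorem er_prm (π : Equiv.Perm ℕ) (M : ATm S) : er (prm π M) = Tm.prm π (er M) := by
  induction M <;> simp only [prm, er, Tm.prm, *]

theorem prm_fix {π : Equiv.Perm ℕ} {M : ATm S} (h : ∀ n < mx M, π n = n) : prm π M = M := by
  induction M with
  | bv i => rfl
  | fv n A =>
    simp only [mx, lt_max_iff] at h
    rw [prm, h n (.inl (Nat.lt_succ_self n)), R298.prm_fix fun n hn => h n (.inr hn)]
  | srt s => rfl
  | app T M N ihM ihN =>
    simp only [mx, lt_max_iff] at h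
    rw [prm, R298.prm_fix fun n hn => h n (.inl hn), ihM fun n hn => h n (.inr (.inl hn)),
      ihN fun n hn => h n (.inr (.inr hn))]
  | lam A M ihA ihM =>
    simp only [mx, lt_max_iff] at h
    rw [prm, ihA fun n hn => h n (.inl hn), ihM fun n hn => h n (.inr hn)]
  | pi A M ihA ihM =>
    simp only [mx, lt_max_iff] at h
    rw [prm, ihA fun n hn => h n (.inl hn), ihM fun n hn => h n (.inr hn)]
  | mem A M ihA ihM =>
    simp only [mx, lt_max_iff] at h
    rw [prm, ihA fun n hn => h n (.inl hn), ihM fun n hn => h n (.inr hn)]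

theorem aa_tprm_ren (π : Equiv.Perm ℕ) (ξ : ℕ → ℕ) (M : Tm S) : Tm.prm π (Tm.ren ξ M) = Tm.ren ξ (Tm.prm π M) := by
  induction M generalizing ξ <;> simp only [Tm.ren, Tm.prm, *]

theorem aa_prm_ren (π : Equiv.Perm ℕ) (ξ : ℕ → ℕ) (M : ATm S) : prm π (ren ξ M) = ren ξ (prm π M) := by
  induction M generalizing ξ <;> simp only [ren, prm, aa_tprm_ren, *]

theorem aa_tprm_sub (π : Equiv.Perm ℕ) {σ τ : Sb S} (h1 : ∀ i, Tm.prm π (σ (.inl i)) = τ (.inl i))
    (h2 : ∀ n A, Tm.prm π (σ (.inr (n, A))) = τ (.inr (π n, Tm.prm π A))) (M : Tm S) :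
    Tm.prm π (Tm.sub σ M) = Tm.sub τ (Tm.prm π M) := by
  have e : ∀ {σ τ : Sb S}, (∀ i, Tm.prm π (σ (.inl i)) = τ (.inl i)) →
      ∀ i, Tm.prm π (Tm.up σ (.inl i)) = Tm.up τ (.inl i) := fun h i => by
    cases i with
    | zero => rfl
    | succ i => exact (aa_tprm_ren _ _ _).trans (congrArg Tm.lift (h i))
  induction M generalizing σ τ with
  | bv i => exact h1 i
  | fv n A _ => exact h2 n A
  | srt s => rfl
  | app M N ihM ihN => simp only [Tm.sub, Tm.prm, ihM h1 h2, ihN h1 h2]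
  | lam A M ihA ihM =>
    simp only [Tm.sub, Tm.prm]
    rw [ihA h1 h2, ihM (e h1) fun n A => (aa_tprm_ren _ _ _).trans (congrArg Tm.lift (h2 n A))]
  | pi A M ihA ihM =>
    simp only [Tm.sub, Tm.prm]
    rw [ihA h1 h2, ihM (e h1) fun n A => (aa_tprm_ren _ _ _).trans (congrArg Tm.lift (h2 n A))]

theorem aa_prm_sub (π : Equiv.Perm ℕ) {σ τ : ASb S} (h1 : ∀ i, prm π (σ (.inl i)) = τ (.inl i))
    (h2 : ∀ n A, prm π (σ (.inr (n, A))) = τ (.inr (π n, Tm.prm π A))) (M : ATm S) :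
    prm π (sub σ M) = sub τ (prm π M) := by
  have e : ∀ {σ τ : ASb S}, (∀ i, prm π (σ (.inl i)) = τ (.inl i)) →
      ∀ i, prm π (up σ (.inl i)) = up τ (.inl i) := fun h i => by
    cases i with
    | zero => rfl
    | succ i => exact (aa_prm_ren _ _ _).trans (congrArg lift (h i))
  induction M generalizing σ τ with
  | bv i => exact h1 i
  | fv n A => exact h2 n A
  | srt s => rfl
  | app T M N ihM ihN =>
    simp only [sub, prm]
    rw [ihM h1 h2, ihN h1 h2, aa_tprm_sub π (σ := ers σ) (τ := ers τ)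
      (fun i => (er_prm _ _).symm.trans (congrArg er (h1 i))) fun n A => (er_prm _ _).symm.trans (congrArg er (h2 n A))]
  | lam A M ihA ihM =>
    simp only [sub, prm]
    rw [ihA h1 h2, ihM (e h1) fun n A => (aa_prm_ren _ _ _).trans (congrArg lift (h2 n A))]
  | pi A M ihA ihM =>
    simp only [sub, prm]
    rw [ihA h1 h2, ihM (e h1) fun n A => (aa_prm_ren _ _ _).trans (congrArg lift (h2 n A))]
  | mem M G ihM ihG => simp only [sub, prm, ihM h1 h2, ihG h1 h2]

theorem prm_inst (π : Equiv.Perm ℕ) (N M : ATm S) : prm π (inst N M) = inst (prm π N) (prm π M) := by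
  refine aa_prm_sub π (fun i => ?_) (fun n A => rfl) M
  cases i <;> rfl

end ATm

variable {P : Spec S} {Γ Δ : List (Atom S)} {W W' M N G : ATm S} {A B T : Tm S} {s : S} {X : Set (Set S)}

/-! ### part b: steps -/

theorem Step.sub (h : Step W W') (σ : ASb S) : Step (sub σ W) (sub σ W') := by
  induction h generalizing σ with
  | beta T A M N => simpa only [ATm.sub, ATm.sub_inst, ATm.inst_sub_up] using Step.beta _ (A.sub σ) (M.sub (up σ)) (N.sub σ)
  | perm T M G N => exact .perm _ _ _ _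
  | appL T N _ ih => exact .appL _ _ (ih σ)
  | appR T N _ ih => exact .appR _ _ (ih σ)
  | lamA N _ ih => exact .lamA _ (ih σ)
  | lamM N _ ih => exact .lamM _ (ih _)
  | piA N _ ih => exact .piA _ (ih σ)
  | piB N _ ih => exact .piB _ (ih _)
  | memL N _ ih => exact .memL _ (ih σ)
  | memR N _ ih => exact .memR _ (ih σ)

theorem Step.red (h : Step W W') : Red (er W) (er W') := by
  induction h with
  | beta T A M N => exact .single (by simpa only [er, er_inst] using Beta.redex _ _ _)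
  | perm T M G N => exact .refl
  | appL T N _ ih => exact ih.lift (Tm.app · _) fun _ _ h => .appL _ h
  | appR T N _ ih => exact ih.lift (Tm.app _ ·) fun _ _ h => .appR _ h
  | lamA N _ ih => exact ih.lift (Tm.lam · _) fun _ _ h => .lamA _ h
  | lamM N _ ih => exact ih.lift (Tm.lam _ ·) fun _ _ h => .lamM _ h
  | piA N _ ih => exact ih.lift (Tm.pi · _) fun _ _ h => .piA _ h
  | piB N _ ih => exact ih.lift (Tm.pi _ ·) fun _ _ h => .piB _ h
  | memL N _ ih => exact ih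
  | memR N _ ih => exact .refl

theorem Steps.red (h : Steps W W') : Red (er W) (er W') := by
  induction h with
  | refl => exact .refl
  | tail _ h ih => exact ih.trans h.red

theorem anb_mx_tren (ξ : ℕ → ℕ) (M : Tm S) : Tm.mx (Tm.ren ξ M) = Tm.mx M := by
  induction M generalizing ξ <;> simp [Tm.mx, Tm.ren, *]

theorem anb_mx_ren (ξ : ℕ → ℕ) (M : ATm S) : mx (ren ξ M) = mx M := by
  induction M generalizing ξ <;> simp [mx, ren, anb_mx_tren, *]

theorem anb_mx_tsub (M : Tm S) {σ : Sb S} {k : ℕ} (h1 : ∀ a, σ (.inr a) = Tm.atm a) (h : ∀ i, Tm.mx (σ (.inl i)) ≤ k) :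
    Tm.mx (Tm.sub σ M) ≤ max k (Tm.mx M) := by
  induction M generalizing σ with
  | bv i => exact (h i).trans (le_max_left _ _)
  | srt s => exact le_max_right _ _
  | fv n A ih => rw [Tm.sub, h1]; exact le_max_right _ _
  | app M N i1 i2 => have := i1 h1 h; have := i2 h1 h; simp only [Tm.sub, Tm.mx]; omega
  | lam M N i1 i2 | pi M N i1 i2 =>
    have := i1 h1 h
    have := i2 (σ := Tm.up σ) (fun a => congrArg Tm.lift (h1 a)) (by
      rintro (_ | i)
      exacts [Nat.zero_le _, (anb_mx_tren _ _).trans_le (h i)])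
    simp only [Tm.sub, Tm.mx]
    omega

theorem anb_mx_sub (M : ATm S) {σ : ASb S} {k : ℕ} (h1 : ∀ a, σ (.inr a) = atm a) (h : ∀ i, mx (σ (.inl i)) ≤ k) :
    mx (sub σ M) ≤ max k (mx M) := by
  induction M generalizing σ with
  | bv i => exact (h i).trans (le_max_left _ _)
  | srt s => exact le_max_right _ _
  | fv n A => rw [sub, h1]; exact le_max_right _ _
  | app T M N i1 i2 =>
    have := i1 h1 h
    have := i2 h1 h
    have := anb_mx_tsub T (σ := ers σ) (fun a => congrArg er (h1 a)) fun i => (mx_er _).trans (h i)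
    simp only [sub, mx]
    omega
  | mem M N i1 i2 => have := i1 h1 h; have := i2 h1 h; simp only [sub, mx]; omega
  | lam M N i1 i2 | pi M N i1 i2 =>
    have := i1 h1 h
    have := i2 (σ := up σ) (fun a => congrArg lift (h1 a)) (by
      rintro (_ | i)
      exacts [Nat.zero_le _, (anb_mx_ren _ _).trans_le (h i)])
    simp only [sub, mx]
    omega

theorem Step.mx_le (h : Step W W') : mx W' ≤ mx W := by
  induction h with
  | beta T A M N =>
    have : mx (inst N M) ≤ max (mx N) (mx M) := anb_mx_sub M (fun _ => rfl) (by rintro (_ | i) <;> simp [vcons, vr, mx])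
    simp only [mx]
    omega
  | _ => simp only [mx]; omega

theorem anb_up_var {σ : ASb S} (hσ : ∀ x, ∃ y, σ x = vr y) : ∀ x, ∃ y, up σ x = vr y := by
  have : ∀ x, ∃ y, lift (σ x) = vr y := fun x => by
    obtain ⟨i | b, e⟩ := hσ x <;> rw [e]
    exacts [⟨.inl (i + 1), rfl⟩, ⟨.inr b, rfl⟩]
  rintro ((_ | i) | b)
  exacts [⟨.inl 0, rfl⟩, this _, this _]

theorem anb_step_var {σ : ASb S} (hσ : ∀ x, ∃ y, σ x = vr y) (h : Step (sub σ M) W') :
    ∃ M', Step M M' ∧ W' = sub σ M' := by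
  induction M generalizing σ W' with
  | bv i => obtain ⟨_ | _, e⟩ := hσ (.inl i) <;> rw [sub, e] at h <;> cases h
  | fv n A => obtain ⟨_ | _, e⟩ := hσ (.inr (n, A)) <;> rw [sub, e] at h <;> cases h
  | srt s => cases h
  | lam M N i1 i2 =>
    cases h with
    | lamA _ h => obtain ⟨P, h1, rfl⟩ := i1 hσ h; exact ⟨_, .lamA _ h1, rfl⟩
    | lamM _ h => obtain ⟨P, h1, rfl⟩ := i2 (anb_up_var hσ) h; exact ⟨_, .lamM _ h1, rfl⟩
  | pi M N i1 i2 =>
    cases h with
    | piA _ h => obtain ⟨P, h1, rfl⟩ := i1 hσ h; exact ⟨_, .piA _ h1, rfl⟩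
    | piB _ h => obtain ⟨P, h1, rfl⟩ := i2 (anb_up_var hσ) h; exact ⟨_, .piB _ h1, rfl⟩
  | mem M N i1 i2 =>
    cases h with
    | memL _ h => obtain ⟨P, h1, rfl⟩ := i1 hσ h; exact ⟨_, .memL _ h1, rfl⟩
    | memR _ h => obtain ⟨P, h1, rfl⟩ := i2 hσ h; exact ⟨_, .memR _ h1, rfl⟩
  | app T M N i1 i2 =>
    rw [sub] at h
    generalize e : sub σ M = M' at h
    have hv : ∀ x, σ x = M' → ∃ y, M' = vr y := fun x e => e ▸ hσ x
    cases h with
    | beta _ A P Q =>
      cases M with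
      | bv i => obtain ⟨_ | _, e⟩ := hv _ e <;> cases e
      | fv n A => obtain ⟨_ | _, e⟩ := hv _ e <;> cases e
      | lam A P => cases e; exact ⟨_, .beta _ _ _ _, by simp only [sub, ATm.sub_inst, ATm.inst_sub_up]⟩
      | _ => cases e
    | perm _ A P Q =>
      cases M with
      | bv i => obtain ⟨_ | _, e⟩ := hv _ e <;> cases e
      | fv n A => obtain ⟨_ | _, e⟩ := hv _ e <;> cases e
      | mem A P => cases e; exact ⟨_, .perm _ _ _ _, rfl⟩
      | _ => cases e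
    | appL _ _ h => subst e; obtain ⟨P, h1, rfl⟩ := i1 hσ h; exact ⟨_, .appL _ _ h1, rfl⟩
    | appR _ _ h => subst e; obtain ⟨P, h1, rfl⟩ := i2 hσ h; exact ⟨_, .appR _ _ h1, rfl⟩

/-- opening with an atom reflects steps -/
theorem step_inst_atm {a : Atom S} (h : Step (inst (atm a) M) W') : ∃ M', Step M M' ∧ W' = inst (atm a) M' := by
  refine anb_step_var ?_ h
  rintro ((_ | i) | b)
  exacts [⟨.inr a, rfl⟩, ⟨.inl i, rfl⟩, ⟨.inr b, rfl⟩]

theorem steps_inst_atm {a : Atom S} (h : Steps (inst (atm a) M) W') : ∃ M', Steps M M' ∧ W' = inst (atm a) M' := by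
  induction h with
  | refl => exact ⟨M, .refl, rfl⟩
  | tail _ hb ih =>
    obtain ⟨M', h1, rfl⟩ := ih
    obtain ⟨M'', h2, rfl⟩ := step_inst_atm hb
    exact ⟨M'', h1.tail h2, rfl⟩

theorem Steps.app {M' N' : ATm S} (T : Tm S) (h : Steps M M') (h' : Steps N N') : Steps (app T M N) (app T M' N') := by
  exact (h.lift (ATm.app T · N) fun _ _ h => .appL _ _ h).trans (h'.lift (ATm.app T M' ·) fun _ _ h => .appR _ _ h)

theorem Steps.lam {M' N' : ATm S} (h : Steps M M') (h' : Steps N N') : Steps (lam M N) (lam M' N') := by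
  exact (h.lift (ATm.lam · N) fun _ _ h => .lamA _ h).trans (h'.lift (ATm.lam M' ·) fun _ _ h => .lamM _ h)

theorem Steps.pi {M' N' : ATm S} (h : Steps M M') (h' : Steps N N') : Steps (pi M N) (pi M' N') := by
  exact (h.lift (ATm.pi · N) fun _ _ h => .piA _ h).trans (h'.lift (ATm.pi M' ·) fun _ _ h => .piB _ h)

theorem Steps.mem {M' N' : ATm S} (h : Steps M M') (h' : Steps N N') : Steps (mem M N) (mem M' N') := by
  exact (h.lift (ATm.mem · N) fun _ _ h => .memL _ h).trans (h'.lift (ATm.mem M' ·) fun _ _ h => .memR _ h)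

theorem anb_sim_redex (e : er M = .lam A B) (T : Tm S) (N : ATm S) :
    ∃ W', Relation.TransGen Step (app T M N) W' ∧ er W' = Tm.inst (er N) B := by
  induction M with
  | lam C M => cases e; exact ⟨_, .single (.beta _ _ _ _), er_inst _ _⟩
  | mem M G ih =>
    obtain ⟨W, h1, h2⟩ := ih e
    exact ⟨_, .head (.perm _ _ _ _) (h1.lift (mem · G) fun _ _ h => .memL _ h), h2⟩
  | _ => cases e

/-- simulation: push the `mem`s of the function part out with `perm`, then `beta` -/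
theorem step_sim {Q : Tm S} (h : Beta (er W) Q) : ∃ W', Relation.TransGen Step W W' ∧ er W' = Q := by
  induction W generalizing Q with
  | bv i => cases h
  | fv n A => cases h
  | srt s => cases h
  | lam M N i1 i2 =>
    cases h with
    | lamA _ h => obtain ⟨P, h1, rfl⟩ := i1 h; exact ⟨_, h1.lift (lam · N) fun _ _ h => .lamA _ h, rfl⟩
    | lamM _ h => obtain ⟨P, h1, rfl⟩ := i2 h; exact ⟨_, h1.lift (lam M ·) fun _ _ h => .lamM _ h, rfl⟩
  | pi M N i1 i2 =>
    cases h with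
    | piA _ h => obtain ⟨P, h1, rfl⟩ := i1 h; exact ⟨_, h1.lift (pi · N) fun _ _ h => .piA _ h, rfl⟩
    | piB _ h => obtain ⟨P, h1, rfl⟩ := i2 h; exact ⟨_, h1.lift (pi M ·) fun _ _ h => .piB _ h, rfl⟩
  | mem M N i1 i2 => obtain ⟨P, h1, rfl⟩ := i1 h; exact ⟨_, h1.lift (mem · N) fun _ _ h => .memL _ h, rfl⟩
  | app T M N i1 i2 =>
    rw [er] at h
    generalize e : er M = M' at h
    cases h with
    | redex A B _ => exact anb_sim_redex e T N
    | appL _ h => subst e; obtain ⟨P, h1, rfl⟩ := i1 h; exact ⟨_, h1.lift (app T · N) fun _ _ h => .appL _ _ h, rfl⟩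
    | appR _ h => subst e; obtain ⟨P, h1, rfl⟩ := i2 h; exact ⟨_, h1.lift (app T M ·) fun _ _ h => .appR _ _ h, rfl⟩

theorem steps_sim {Q : Tm S} (h : Red (er W) Q) : ∃ W', Steps W W' ∧ er W' = Q := by
  induction h with
  | refl => exact ⟨W, .refl, rfl⟩
  | tail _ hb ih =>
    obtain ⟨W', h1, rfl⟩ := ih
    obtain ⟨W'', h2, rfl⟩ := step_sim hb
    exact ⟨W'', h1.trans h2.to_reflTransGen, rfl⟩

theorem ASp.er {a : Atom S} (h : ASp a W) : Sp a (er W) := by
  induction h with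
  | hd => exact .hd
  | app T N _ ih => exact ih.app _

theorem ASp.sub {a b : Atom S} (h : ASp a W) {σ : ASb S} (hσ : σ (.inr a) = atm b) : ASp b (sub σ W) := by
  induction h with
  | hd => exact (show ATm.sub σ (atm a) = atm b from hσ) ▸ .hd
  | app T N _ ih => exact ih.app _ _

/-! ### part c: typing -/

theorem ATy.er (h : ATy P Γ W A) : Ty P Γ (er W) A := by
  induction h with
  | ax h => exact .ax h
  | start h => exact .start h
  | weak _ h ih => exact .weak ih h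
  | prod _ hn hB _ hr ih1 ih2 => exact .prod ih1 hn (fun ho => hB (occ_er ho)) (by rwa [er_inst] at ih2) hr
  | abs _ hn hM hB _ hp _ ih2 => exact .abs hn (fun ho => hM (occ_er ho)) hB (by rwa [er_inst] at ih2) hp
  | appl _ _ _ ih1 ih2 => exact .appl ih1 ih2
  | mem _ _ ih _ => exact ih
  | conv _ h hc ih => exact .conv ih h hc

theorem annc1_tren {a : Atom S} {Q : Tm S} {ξ : ℕ → ℕ} (h : Tm.Occ a (Tm.ren ξ Q)) : Tm.Occ a Q := by
  induction Q generalizing ξ with
  | bv _ => exact h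
  | fv _ _ => exact h
  | srt _ => exact h
  | app _ _ ih1 ih2 => exact h.imp ih1 ih2
  | lam _ _ ih1 ih2 => exact h.imp ih1 ih2
  | pi _ _ ih1 ih2 => exact h.imp ih1 ih2

theorem annc1_ren {a : Atom S} {ξ : ℕ → ℕ} (h : Occ a (ren ξ W)) : Occ a W := by
  induction W generalizing ξ with
  | bv _ => exact h
  | fv _ _ => exact h
  | srt _ => exact h
  | app _ _ _ ih1 ih2 => exact h.imp annc1_tren (Or.imp ih1 ih2)
  | lam _ _ ih1 ih2 => exact h.imp ih1 ih2
  | pi _ _ ih1 ih2 => exact h.imp ih1 ih2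
  | mem _ _ ih1 ih2 => exact h.imp ih1 ih2

theorem annc1_sub {a : Atom S} {σ : ASb S} (h : ∀ x, ¬ Occ a (σ x)) : ¬ Occ a (sub σ W) := by
  have hup : ∀ {σ : ASb S}, (∀ x, ¬ Occ a (σ x)) → ∀ x, ¬ Occ a (up σ x) := fun {σ} h x =>
    match x with
    | .inl 0 => id
    | .inl (i + 1) => fun ho => h _ (annc1_ren ho)
    | .inr b => fun ho => h _ (annc1_ren ho)
  induction W generalizing σ with
  | bv _ => exact h _
  | fv _ _ => exact h _
  | srt _ => exact id
  | app _ _ _ ih1 ih2 =>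
    rintro (ho | ho | ho)
    · rcases occ_sub ho with ⟨i, hi⟩ | ⟨b, -, hi⟩ <;> exact h _ (occ_er hi)
    · exact ih1 h ho
    · exact ih2 h ho
  | lam _ _ ih1 ih2 => exact not_or.2 ⟨ih1 h, ih2 (hup h)⟩
  | pi _ _ ih1 ih2 => exact not_or.2 ⟨ih1 h, ih2 (hup h)⟩
  | mem _ _ ih1 ih2 => exact not_or.2 ⟨ih1 h, ih2 h⟩

theorem annc1_cls (a : Atom S) (W : ATm S) : ¬ Occ a (cls a W) := by
  refine annc1_sub fun x => ?_
  by_cases e : x = .inr a
  · rw [e, vupd, Function.update_self]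
    exact id
  · rw [vupd, Function.update_of_ne e]
    cases x with
    | inl i => exact id
    | inr b => exact fun ho => e (congrArg Sum.inr (Eq.symm ho))

theorem annc1_er_cls (a : Atom S) (W : ATm S) : ATm.er (cls a W) = Tm.cls a (ATm.er W) := by
  rw [cls, er_sub, ers_vupd, Tm.cls]
  congr 2
  funext x
  cases x <;> rfl

theorem annc1_dom {C D : Tm S} (h : ATy P Γ W A) (e : ATm.er W = .pi C D) :
    ∃ C' s, ATy P Γ C' (.srt s) ∧ ATm.er C' = C := by
  induction h with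
  | ax _ => cases e
  | start _ => cases e
  | weak _ h ih =>
    obtain ⟨C', t, h1, h2⟩ := ih e
    exact ⟨C', t, .weak h1 h, h2⟩
  | prod h _ _ _ _ _ _ => exact ⟨_, _, h, (Tm.pi.inj e).1⟩
  | abs _ _ _ _ _ _ _ _ => cases e
  | appl _ _ _ _ _ => cases e
  | mem _ _ ih _ => exact ih e
  | conv _ _ _ ih => exact ih e

/-- every derivation has an annotated version (close the annotated body with `cls`) -/
theorem Ty.ann {Q : Tm S} (h : Ty P Γ Q A) : ∃ W, ATy P Γ W A ∧ er W = Q := by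
  induction h with
  | ax h => exact ⟨_, .ax h, rfl⟩
  | start h _ => exact ⟨_, .start h, rfl⟩
  | weak _ h ih _ =>
    obtain ⟨W, h1, h2⟩ := ih
    exact ⟨W, .weak h1 h, h2⟩
  | @prod Γ A B n s₁ s₂ s₃ _ hn hB _ hr ih1 ih2 =>
    obtain ⟨C, h1, rfl⟩ := ih1
    obtain ⟨W, h2, e⟩ := ih2
    refine ⟨pi C (cls (n, er C) W), .prod h1 hn (annc1_cls _ _) ((ATm.inst_cls (n, er C) W).symm ▸ h2) hr, ?_⟩
    rw [er, annc1_er_cls, e]
    exact congrArg _ (cls_inst hB)
  | @abs Γ A M B n s hn hM hB _ hp ih1 ih2 =>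
    obtain ⟨W, h2, e⟩ := ih1
    obtain ⟨W', h3, e'⟩ := ih2
    obtain ⟨C, t, h1, rfl⟩ := annc1_dom h3 e'
    refine ⟨lam C (cls (n, er C) W), .abs h1 hn (annc1_cls _ _) hB ((ATm.inst_cls (n, er C) W).symm ▸ h2) hp, ?_⟩
    rw [er, annc1_er_cls, e]
    exact congrArg _ (cls_inst hM)
  | appl _ _ ih1 ih2 =>
    obtain ⟨M, h1, rfl⟩ := ih1
    obtain ⟨N, h2, rfl⟩ := ih2
    exact ⟨_, .appl h1 h2 (.refl _), rfl⟩
  | conv _ h hc ih _ =>
    obtain ⟨W, h1, h2⟩ := ih
    exact ⟨W, .conv h1 h hc, h2⟩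

theorem AMor.mor {σ : ASb S} (h : AMor P Δ Γ σ) : Mor P Δ Γ (ers σ) := by
  exact ⟨h.1, fun a ha => (h.2 a ha).er⟩

theorem Ok.avar (h : Ok P Γ) {a : Atom S} (ha : a ∈ Γ) : ATy P Γ (atm a) a.2 := by
  induction Γ with
  | nil => exact absurd ha List.not_mem_nil
  | cons b Γ ih =>
    cases h with
    | cons h =>
      rcases List.mem_cons.1 ha with rfl | ha
      · exact .start h
      · exact .weak (ih h.ok ha) h

theorem annc1_ax (h : Ok P Γ) {s t : S} (hs : P.ax s t) : ATy P Γ (srt s) (.srt t) := by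
  induction Γ with
  | nil => exact .ax hs
  | cons b Γ ih =>
    cases h with
    | cons h => exact .weak (ih h.ok) h

theorem annc1_upd {σ : ASb S} {a : Atom S} (h : AMor P Δ Γ σ) (hΓ : Ok P (a :: Γ)) (ha : a ∉ Γ)
    (hN : ATy P Δ N (Tm.sub (ers σ) a.2)) : AMor P Δ (a :: Γ) (vupd σ a N) := by
  cases hΓ with
  | cons hA =>
    refine ⟨h.1, fun b hb => ?_⟩
    rw [ers_vupd]
    rcases List.mem_cons.1 hb with rfl | hb
    · rw [sub_vupd fun ho => ha (hA.occ (Or.inl ho)), vupd, Function.update_self]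
      exact hN
    · obtain ⟨t, ht⟩ := hA.ok.sort hb
      rw [sub_vupd fun ho => ha (ht.occ (Or.inl ho)), vupd, Function.update_of_ne]
      · exact h.2 b hb
      · rintro ⟨⟩
        exact ha hb

theorem annc1_ext {σ : ASb S} {n n' : ℕ} (h : AMor P Δ Γ σ) (hΓ : Ok P ((n, A) :: Γ)) (ha : (n, A) ∉ Γ)
    (hA : Ty P Δ (Tm.sub (ers σ) A) (.srt s)) :
    AMor P ((n', Tm.sub (ers σ) A) :: Δ) ((n, A) :: Γ) (vupd σ (n, A) (fv n' (Tm.sub (ers σ) A))) :=
  annc1_upd ⟨.cons hA, fun b hb => .weak (h.2 b hb) hA⟩ hΓ ha (ATy.start (a := (n', Tm.sub (ers σ) A)) hA)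

theorem ATy.subst (h : ATy P Γ W A) {σ : ASb S} (hσ : AMor P Δ Γ σ) : ATy P Δ (sub σ W) (Tm.sub (ers σ) A) := by
  induction h generalizing Δ σ with
  | ax hs => exact annc1_ax hσ.1 hs
  | start _ => exact hσ.2 _ List.mem_cons_self
  | weak _ _ ih => exact ih ⟨hσ.1, fun b hb => hσ.2 b (List.mem_cons_of_mem _ hb)⟩
  | @prod Γ A B n s₁ s₂ s₃ h1 hn hB h2 hr ih1 ih2 =>
    have h3 := ih2 (annc1_ext (n' := max (cmx Δ) (mx (sub (up σ) B))) hσ h2.er.ok hn (h1.er.subst hσ.mor))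
    rw [show fv n (ATm.er A) = atm (n, ATm.er A) from rfl, ATm.sub_vupd_inst hB, ← ATm.inst_sub_up, ← er_sub] at h3
    exact .prod (ih1 hσ) (not_mem_of_cmx (le_max_left _ _)) (ATm.not_occ_of_mx (le_max_right _ _)) h3 hr
  | @abs Γ A M B n s₁ s h1 hn hM hB h2 hp ih1 ih2 =>
    have h3 := ih2 (annc1_ext (n' := max (cmx Δ) (max (mx (sub (up σ) M)) (Tm.mx (Tm.sub (Tm.up (ers σ)) B)))) hσ h2.er.ok
      hn (h1.er.subst hσ.mor))
    have h4 := hp.subst hσ.mor
    rw [show fv n (ATm.er A) = atm (n, ATm.er A) from rfl, ATm.sub_vupd_inst hM, ← ATm.inst_sub_up, ers_vupd,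
      show Tm.fv n (ATm.er A) = Tm.atm (n, ATm.er A) from rfl, R298.sub_vupd_inst hB, ← R298.inst_sub_up, ← er_sub] at h3
    rw [Tm.sub, ← er_sub] at h4 ⊢
    exact .abs (ih1 hσ) (not_mem_of_cmx (le_max_left _ _))
      (ATm.not_occ_of_mx ((le_max_left _ _).trans (le_max_right _ _)))
      (R298.not_occ_of_mx ((le_max_right _ _).trans (le_max_right _ _))) h3 h4
  | appl _ _ hc ih1 ih2 =>
    rw [R298.sub_inst, ← R298.inst_sub_up, ← er_sub]
    exact .appl (ih1 hσ) (ih2 hσ) (cv_sub hc _)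
  | mem _ _ ih1 ih2 => exact .mem (ih1 hσ) (ih2 hσ)
  | conv _ h hc ih => exact .conv (ih hσ) (h.subst hσ.mor) (cv_sub hc _)

theorem ATy.thin (h : ATy P Γ W A) (hΔ : Ok P Δ) (hs : ∀ a ∈ Γ, a ∈ Δ) : ATy P Δ W A := by
  have := h.subst (σ := vr) ⟨hΔ, fun a ha => by
    rw [ers_vr, R298.sub_vr]
    exact hΔ.avar (hs a ha)⟩
  rwa [ATm.sub_vr, ers_vr, R298.sub_vr] at this

theorem AMor.upd {σ : ASb S} {a : Atom S} (h : AMor P Δ Γ σ) (hΓ : Ok P (a :: Γ)) (ha : a ∉ Γ)
    (hN : ATy P Δ N (Tm.sub (ers σ) a.2)) : AMor P Δ (a :: Γ) (vupd σ a N) := by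
  exact annc1_upd h hΓ ha hN

theorem c2_open {a : Atom S} (ha : a ∉ Γ) (hM : ¬ Occ a M) (hB : ¬ Tm.Occ a B)
    (h : ATy P (a :: Γ) (inst (atm a) M) (Tm.inst (Tm.atm a) B)) (hΔ : Ok P Δ) (hs : ∀ b ∈ Γ, b ∈ Δ)
    (hN : ATy P Δ N a.2) : ATy P Δ (inst N M) (Tm.inst (ATm.er N) B) := by
  have h0 : AMor P Δ Γ vr := ⟨hΔ, fun b hb => by
    rw [ers_vr, Crest.Agent.R298.sub_vr]
    exact hΔ.avar (hs b hb)⟩
  have h1 := h.subst (h0.upd (N := N) h.er.ok ha (by rwa [ers_vr, Crest.Agent.R298.sub_vr]))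
  rwa [ATm.sub_vupd_inst hM, ers_vupd, Crest.Agent.R298.sub_vupd_inst hB, ers_vr] at h1

theorem c2_atm {A' : Tm S} {s' : S} (n : ℕ) (hA : Ty P Γ A (.srt s)) (hA' : Ty P Γ A' (.srt s')) (hc : Cv A A') :
    ATy P ((n, A') :: Γ) (fv n A') A :=
  ATy.conv (ATy.start (a := (n, A')) hA') (Ty.weak hA hA') (Relation.EqvGen.symm _ _ hc)

theorem c2_pi {C E : ATm S} (h : ATy P Γ W T) (e : W = pi C E) : ∃ s₁ s₂ s₃, P.rule s₁ s₂ s₃ ∧ Cv T (.srt s₃) ∧
    ATy P Γ C (.srt s₁) ∧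
    ∀ Δ N, Ok P Δ → (∀ b ∈ Γ, b ∈ Δ) → ATy P Δ N (ATm.er C) → ATy P Δ (inst N E) (.srt s₂) := by
  induction h with
  | weak _ ha ih =>
    obtain ⟨s₁, s₂, s₃, h1, h2, h3, h4⟩ := ih e
    exact ⟨s₁, s₂, s₃, h1, h2, h3.weak ha, fun Δ N hΔ hs => h4 Δ N hΔ fun b hb => hs b (List.mem_cons_of_mem _ hb)⟩
  | prod hA hn ho hB hr =>
    cases e
    exact ⟨_, _, _, hr, Relation.EqvGen.refl _, hA, fun Δ N hΔ hs hN =>
      c2_open (B := .srt _) hn ho (fun h => h) hB hΔ hs hN⟩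
  | conv _ _ hc ih =>
    obtain ⟨s₁, s₂, s₃, h1, h2, h3⟩ := ih e
    exact ⟨s₁, s₂, s₃, h1, Relation.EqvGen.trans _ _ _ (Relation.EqvGen.symm _ _ hc) h2, h3⟩
  | _ => cases e

theorem ATy.gen_pi {C E : ATm S} (h : ATy P Γ (pi C E) T) : ∃ s₁ s₂ s₃, P.rule s₁ s₂ s₃ ∧ Cv T (.srt s₃) ∧
    ATy P Γ C (.srt s₁) ∧
    ∀ n A' s', Ty P Γ A' (.srt s') → Cv (ATm.er C) A' → ATy P ((n, A') :: Γ) (inst (fv n A') E) (.srt s₂) := by
  obtain ⟨s₁, s₂, s₃, h1, h2, h3, h4⟩ := c2_pi h rfl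
  exact ⟨s₁, s₂, s₃, h1, h2, h3, fun n A' s' hA hc => h4 _ _ (Ok.cons (a := (n, A')) hA)
    (fun b hb => List.mem_cons_of_mem _ hb) (c2_atm n h3.er hA hc)⟩

theorem c2_lam {C : ATm S} (h : ATy P Γ W T) (e : W = lam C M) : ∃ B s₁ s, Cv T (.pi (ATm.er C) B) ∧
    ATy P Γ C (.srt s₁) ∧ Ty P Γ (.pi (ATm.er C) B) (.srt s) ∧
    ∀ Δ N, Ok P Δ → (∀ b ∈ Γ, b ∈ Δ) → ATy P Δ N (ATm.er C) → ATy P Δ (inst N M) (Tm.inst (ATm.er N) B) := by
  induction h with
  | weak _ ha ih =>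
    obtain ⟨B, s₁, s, h1, h2, h3, h4⟩ := ih e
    exact ⟨B, s₁, s, h1, h2.weak ha, h3.weak ha,
      fun Δ N hΔ hs => h4 Δ N hΔ fun b hb => hs b (List.mem_cons_of_mem _ hb)⟩
  | abs hA hn ho ho' hB hp =>
    cases e
    exact ⟨_, _, _, Relation.EqvGen.refl _, hA, hp, fun Δ N hΔ hs hN => c2_open hn ho ho' hB hΔ hs hN⟩
  | conv _ _ hc ih =>
    obtain ⟨B, s₁, s, h1, h2⟩ := ih e
    exact ⟨B, s₁, s, Relation.EqvGen.trans _ _ _ (Relation.EqvGen.symm _ _ hc) h1, h2⟩
  | _ => cases e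

theorem ATy.gen_lam {C : ATm S} (h : ATy P Γ (lam C M) T) : ∃ B s₁ s, Cv T (.pi (ATm.er C) B) ∧ ATy P Γ C (.srt s₁) ∧
    Ty P Γ (.pi (ATm.er C) B) (.srt s) ∧
    ∀ n A' s', Ty P Γ A' (.srt s') → Cv (ATm.er C) A' →
      ATy P ((n, A') :: Γ) (inst (fv n A') M) (Tm.inst (.fv n A') B) := by
  obtain ⟨B, s₁, s, h1, h2, h3, h4⟩ := c2_lam h rfl
  exact ⟨B, s₁, s, h1, h2, h3, fun n A' s' hA hc => h4 _ _ (Ok.cons (a := (n, A')) hA)
    (fun b hb => List.mem_cons_of_mem _ hb) (c2_atm n h2.er hA hc)⟩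

theorem c2_app (h : ATy P Γ W A) (e : W = app T M N) : ∃ C E, ATy P Γ M (.pi C E) ∧ ATy P Γ N C ∧
    Cv T (.pi C E) ∧ Cv A (Tm.inst (ATm.er N) E) := by
  induction h with
  | weak _ ha ih =>
    obtain ⟨C, E, h1, h2, h3⟩ := ih e
    exact ⟨C, E, h1.weak ha, h2.weak ha, h3⟩
  | appl hM hN hc =>
    cases e
    exact ⟨_, _, hM, hN, hc, Relation.EqvGen.refl _⟩
  | conv _ _ hc ih =>
    obtain ⟨C, E, h1, h2, h3, h4⟩ := ih e
    exact ⟨C, E, h1, h2, h3, Relation.EqvGen.trans _ _ _ (Relation.EqvGen.symm _ _ hc) h4⟩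
  | _ => cases e

theorem ATy.gen_app (h : ATy P Γ (app T M N) A) : ∃ C E, ATy P Γ M (.pi C E) ∧ ATy P Γ N C ∧ Cv T (.pi C E) ∧
    Cv A (Tm.inst (ATm.er N) E) := by
  exact c2_app h rfl

theorem c2_mem (h : ATy P Γ W A) (e : W = ATm.mem M G) : ATy P Γ M A ∧ ∃ C, ATy P Γ G C := by
  induction h with
  | weak _ ha ih =>
    obtain ⟨h1, C, h2⟩ := ih e
    exact ⟨h1.weak ha, C, h2.weak ha⟩
  | mem hM hG =>
    cases e
    exact ⟨hM, _, hG⟩
  | conv _ hB hc ih => exact ⟨(ih e).1.conv hB hc, (ih e).2⟩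
  | _ => cases e

theorem ATy.gen_mem (h : ATy P Γ (ATm.mem M G) A) : ATy P Γ M A ∧ ∃ C, ATy P Γ G C := by
  exact c2_mem h rfl

theorem ATy.conv' (h : ATy P Γ W A) {Q : Tm S} (h' : Ty P Γ Q B) (hc : Cv A B) : ATy P Γ W B := by
  rcases h'.corr with ⟨s, rfl⟩ | ⟨s, hB⟩
  · rcases h.er.corr with ⟨t, rfl⟩ | ⟨t, hA⟩
    · rwa [← cv_srt_inj hc]
    · obtain ⟨L, h1, h2⟩ := church_rosser hc
      rcases h2.cases_head with rfl | ⟨_, h3, _⟩
      · exact h.conv (hA.srs h1) hc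
      · exact absurd h3 (nf_srt s _)
  · exact h.conv hB hc

theorem c2_sr (k : ℕ) : ∀ {Γ : List (Atom S)} {W W' : ATm S} {A : Tm S}, sz W < k → ATy P Γ W A → Step W W' →
    ATy P Γ W' A := by
  induction k with
  | zero => intro _ _ _ _ hk; omega
  | succ k ih =>
    intro Γ W W' A hk h hs
    have sy := @Relation.EqvGen.symm _ (Beta (S := S))
    have tr := @Relation.EqvGen.trans _ (Beta (S := S))
    have rf := @Relation.EqvGen.refl _ (Beta (S := S))
    cases hs with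
    | beta T C M N =>
      obtain ⟨C₀, E, h1, h2, -, h4⟩ := h.gen_app
      obtain ⟨B, s₁, s, h5, h6, -, h7⟩ := c2_lam h1 rfl
      obtain ⟨h8, h9⟩ := cv_pi_inj h5
      exact (((h7 Γ N h.er.ok (fun _ hb => hb) (h2.conv h6.er h8)).conv' h.er
        (sy _ _ (tr _ _ _ h4 (cv_inst (rf _) h9)))).mem h2).mem h6
    | perm T M G N =>
      obtain ⟨C₀, E, h1, h2, h3, h4⟩ := h.gen_app
      obtain ⟨h5, C, h6⟩ := h1.gen_mem
      exact ((h5.appl h2 h3).conv' h.er (sy _ _ h4)).mem h6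
    | appL T N hs =>
      obtain ⟨C₀, E, h1, h2, h3, h4⟩ := h.gen_app
      exact ((ih (by simp only [sz] at hk; omega) h1 hs).appl h2 h3).conv' h.er (sy _ _ h4)
    | appR T M hs =>
      obtain ⟨C₀, E, h1, h2, h3, h4⟩ := h.gen_app
      exact (h1.appl (ih (by simp only [sz] at hk; omega) h2 hs) h3).conv' h.er
        (sy _ _ (tr _ _ _ h4 (cv_inst hs.red.cv (rf _))))
    | @lamA C C' M hs =>
      obtain ⟨B, s₁, s, h1, h2, h3, h4⟩ := h.gen_lam
      have h5 := ih (by simp only [sz] at hk; omega) h2 hs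
      exact (ATy.abs (n := max (cmx Γ) (max (mx M) (Tm.mx B))) h5 (not_mem_of_cmx (le_max_left _ _))
        (ATm.not_occ_of_mx (by simp)) (Crest.Agent.R298.not_occ_of_mx (by simp)) (h4 _ _ _ h5.er hs.red.cv)
        (h3.srs (hs.red.lift (fun A => Tm.pi A B) fun _ _ => Beta.piA B))).conv' h.er
        (sy _ _ (tr _ _ _ h1 (cv_pi hs.red.cv (rf _))))
    | @lamM C M M' hs =>
      obtain ⟨B, s₁, s, h1, h2, h3, h4⟩ := h.gen_lam
      have h5 := hs.mx_le
      have h6 := ATm.sz_inst_atm (max (cmx Γ) (max (mx M) (Tm.mx B)), ATm.er C) M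
      exact (ATy.abs (n := max (cmx Γ) (max (mx M) (Tm.mx B))) h2 (not_mem_of_cmx (le_max_left _ _))
        (ATm.not_occ_of_mx (by simp only; omega)) (Crest.Agent.R298.not_occ_of_mx (by simp))
        (ih (h6.trans_lt (by simp only [sz] at hk; omega)) (h4 _ _ _ h2.er (rf _)) (hs.sub _)) h3).conv' h.er
        (sy _ _ h1)
    | @piA C C' E hs =>
      obtain ⟨s₁, s₂, s₃, h0, h1, h2, h4⟩ := h.gen_pi
      have h5 := ih (by simp only [sz] at hk; omega) h2 hs
      exact (ATy.prod (n := max (cmx Γ) (mx E)) h5 (not_mem_of_cmx (le_max_left _ _))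
        (ATm.not_occ_of_mx (by simp)) (h4 _ _ _ h5.er hs.red.cv) h0).conv' h.er (sy _ _ h1)
    | @piB C E E' hs =>
      obtain ⟨s₁, s₂, s₃, h0, h1, h2, h4⟩ := h.gen_pi
      have h5 := hs.mx_le
      have h6 := ATm.sz_inst_atm (max (cmx Γ) (mx E), ATm.er C) E
      exact (ATy.prod (n := max (cmx Γ) (mx E)) h2 (not_mem_of_cmx (le_max_left _ _))
        (ATm.not_occ_of_mx (by simp only; omega))
        (ih (h6.trans_lt (by simp only [sz] at hk; omega)) (h4 _ _ _ h2.er (rf _)) (hs.sub _)) h0).conv' h.er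
        (sy _ _ h1)
    | memL G hs =>
      obtain ⟨h1, C, h2⟩ := h.gen_mem
      exact (ih (by simp only [sz] at hk; omega) h1 hs).mem h2
    | memR M hs =>
      obtain ⟨h1, C, h2⟩ := h.gen_mem
      exact h1.mem (ih (by simp only [sz] at hk; omega) h2 hs)

/-- subject reduction -/
theorem ATy.sr (h : ATy P Γ W A) (hs : Step W W') : ATy P Γ W' A := by
  exact c2_sr _ (Nat.lt_succ_self _) h hs

theorem ATy.srs (h : ATy P Γ W A) (hs : Steps W W') : ATy P Γ W' A := by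
  induction hs with
  | refl => exact h
  | tail _ h2 ih => exact ih.sr h2

/-! ### part d: `Dsp` -/

theorem dsp_empty (W : ATm S) : Dsp P ∅ W := by
  induction e : sz W using Nat.strong_induction_on generalizing W with
  | _ k ih =>
  subst e
  cases W with
  | bv i => exact .bv i
  | fv n A => exact .fv n A
  | srt s => exact .srt s
  | app T M N =>
    exact .app (ih _ (by simp only [sz]; omega) M rfl) (ih _ (by simp only [sz]; omega) N rfl) fun h => h.elim
  | lam A M =>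
    exact .lam 0 (ih _ (by simp only [sz]; omega) A rfl) fun n _ =>
      ih _ (by simp only [sz]; omega) _ (ATm.sz_inst_atm (n, _) M)
  | pi A M =>
    exact .pi 0 (ih _ (by simp only [sz]; omega) A rfl) fun n _ =>
      ih _ (by simp only [sz]; omega) _ (ATm.sz_inst_atm (n, _) M)
  | mem M N => exact .mem (ih _ (by simp only [sz]; omega) M rfl) (ih _ (by simp only [sz]; omega) N rfl)

theorem Dsp.univ_nf (h : Dsp P Set.univ W) : ∀ W', ¬ Step W W' := by
  induction h with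
  | bv i => exact fun _ h => nomatch h
  | fv n A => exact fun _ h => nomatch h
  | srt s => exact fun _ h => nomatch h
  | app _ _ h3 i1 i2 =>
    intro W' h
    obtain ⟨a, ha⟩ := h3 trivial
    cases h with
    | beta => cases ha
    | perm => cases ha
    | appL _ _ h => exact i1 _ h
    | appR _ _ h => exact i2 _ h
  | lam L _ _ i1 i2 =>
    intro W' h
    cases h with
    | lamA _ h => exact i1 _ h
    | lamM _ h => exact i2 L le_rfl _ (h.sub _)
  | pi L _ _ i1 i2 =>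
    intro W' h
    cases h with
    | piA _ h => exact i1 _ h
    | piB _ h => exact i2 L le_rfl _ (h.sub _)
  | mem _ _ i1 i2 =>
    intro W' h
    cases h with
    | memL _ h => exact i1 _ h
    | memR _ h => exact i2 _ h

theorem annd_asp_prm {a : Atom S} (h : ASp a W) (π : Equiv.Perm ℕ) : ASp (prmA π a) (ATm.prm π W) := by
  induction h with
  | hd => exact .hd
  | app T N _ ih => exact .app _ _ ih

theorem annd_bd (π : Equiv.Perm ℕ) (L : ℕ) : ∃ L', ∀ n, L' ≤ n → ∃ k, L ≤ k ∧ π k = n := by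
  refine ⟨(Finset.range L).sup π + 1, fun n hn => ⟨π.symm n, not_lt.1 fun h => ?_, π.apply_symm_apply n⟩⟩
  have := Finset.le_sup (f := π) (Finset.mem_range.2 h)
  rw [π.apply_symm_apply] at this
  omega

theorem annd_prm_open (π : Equiv.Perm ℕ) (k : ℕ) (C M : ATm S) :
    ATm.prm π (inst (ATm.fv k (nf (er C))) M) = inst (ATm.fv (π k) (nf (er (ATm.prm π C)))) (ATm.prm π M) := by
  rw [ATm.prm_inst, er_prm, ← prm_nf, ATm.prm]

theorem Dsp.prm (h : Dsp P X W) (π : Equiv.Perm ℕ) : Dsp P X (prm π W) := by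
  induction h with
  | bv i => exact .bv i
  | fv n A => exact .fv _ _
  | srt s => exact .srt s
  | app _ _ h3 i1 i2 =>
    refine .app i1 i2 fun h => ?_
    rw [lv_prm] at h
    exact (h3 h).elim fun a ha => ⟨_, annd_asp_prm ha π⟩
  | lam L _ _ i1 i2 =>
    obtain ⟨L', h⟩ := annd_bd π L
    refine .lam L' i1 fun n hn => ?_
    obtain ⟨k, hk, rfl⟩ := h n hn
    exact annd_prm_open π k _ _ ▸ i2 k hk
  | pi L _ _ i1 i2 =>
    obtain ⟨L', h⟩ := annd_bd π L
    refine .pi L' i1 fun n hn => ?_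
    obtain ⟨k, hk, rfl⟩ := h n hn
    exact annd_prm_open π k _ _ ▸ i2 k hk
  | mem _ _ i1 i2 => exact .mem i1 i2

theorem annd_one {C : ATm S} {n : ℕ} (hn : max (mx C) (mx M) ≤ n) (h : Dsp P X (inst (ATm.fv n (nf (er C))) M))
    (m : ℕ) (hm : n ≤ m) : Dsp P X (inst (ATm.fv m (nf (er C))) M) := by
  have := h.prm (Equiv.swap n m)
  rwa [annd_prm_open, Equiv.swap_apply_left,
    ATm.prm_fix (M := C) fun k hk => Equiv.swap_apply_of_ne_of_ne (by omega) (by omega),
    ATm.prm_fix (M := M) fun k hk => Equiv.swap_apply_of_ne_of_ne (by omega) (by omega)] at this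

/-- one fresh index is enough (swap the indices) -/
theorem Dsp.lam_one {C : ATm S} {n : ℕ} (hC : Dsp P X C) (hn : mx (ATm.lam C M) ≤ n)
    (h : Dsp P X (inst (ATm.fv n (nf (er C))) M)) : Dsp P X (ATm.lam C M) := by
  exact .lam n hC (annd_one hn h)

theorem Dsp.pi_one {C : ATm S} {n : ℕ} (hC : Dsp P X C) (hn : mx (ATm.pi C M) ≤ n)
    (h : Dsp P X (inst (ATm.fv n (nf (er C))) M)) : Dsp P X (ATm.pi C M) := by
  exact .pi n hC (annd_one hn h)

theorem annd_mor (hP : HWN P) {σ : ASb S} (hσ : AMor P Δ Γ σ) (hat : ∀ a ∈ Γ, ∃ b, σ (.inr a) = atm b)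
    (hA : Ty P Γ A (.srt s)) {k : ℕ} (hk : cmx Γ ≤ k) {b : Atom S} {s' : S} (hb : Ty P Δ b.2 (.srt s'))
    (hc : Cv b.2 (Tm.sub (ers σ) A)) : AMor P (b :: Δ) ((k, nf A) :: Γ) (vupd σ (k, nf A) (atm b)) ∧
      ∀ a ∈ (k, nf A) :: Γ, ∃ c, vupd σ (k, nf A) (atm b) (.inr a) = atm c := by
  refine ⟨AMor.upd ⟨.cons hb, fun a ha => .weak (hσ.2 a ha) hb⟩ (.cons (hA.nf_tm hP)) (not_mem_of_cmx hk)
    (.conv (.start hb) (.weak ((hA.nf_tm hP).subst hσ.mor) hb) (.trans _ _ _ hc (cv_sub (hA.cv_nf hP).1 _))),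
    fun a ha => ?_⟩
  by_cases e : a = (k, nf A)
  · exact ⟨b, by rw [e, vupd, Function.update_self]⟩
  · rw [vupd, Function.update_of_ne fun e' => e (Sum.inr.inj e')]
    exact hat a ((List.mem_cons.1 ha).resolve_left e)

theorem annd_body (hP : HWN P) {σ : ASb S} (hσ : AMor P Δ Γ σ) (hat : ∀ a ∈ Γ, ∃ b, σ (.inr a) = atm b)
    (hA : Ty P Γ A (.srt s)) {L : ℕ} (hM : ∀ n, ∃ B, ATy P ((n, nf A) :: Γ) (inst (ATm.fv n (nf A)) M) B)
    (ih : ∀ n, L ≤ n → ∀ {Γ Δ : List (Atom S)} {B : Tm S} {σ : ASb S}, ATy P Γ (inst (ATm.fv n (nf A)) M) B →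
      AMor P Δ Γ σ → (∀ a ∈ Γ, ∃ b, σ (.inr a) = atm b) → Dsp P X (sub σ (inst (ATm.fv n (nf A)) M)))
    {b : Atom S} {s' : S} (hb : Ty P Δ b.2 (.srt s')) (hc : Cv b.2 (Tm.sub (ers σ) A)) :
    Dsp P X (sub (vcons (atm b) σ) M) := by
  obtain ⟨h1, h2⟩ := annd_mor hP hσ hat hA (k := L + cmx Γ + mx M) (by omega) hb hc
  obtain ⟨B, hB⟩ := hM (L + cmx Γ + mx M)
  rw [← ATm.sub_vupd_inst (a := (L + cmx Γ + mx M, nf A)) (ATm.not_occ_of_mx (by simp only; omega))]
  exact ih _ (by omega) hB h1 h2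

/-- typed renaming of atoms: induction on `hd` (generalizing everything); `lv (T[σ]) ∈ X → lv T ∈ X` by `ps_sub` -/
theorem Dsp.ren (hP : HWN P) (hX : ∀ a b, a ∈ X → Reach P a b → b ∈ X) (hd : Dsp P X W) (h : ATy P Γ W A) {σ : ASb S}
    (hσ : AMor P Δ Γ σ) (hat : ∀ a ∈ Γ, ∃ b, σ (.inr a) = atm b) : Dsp P X (sub σ W) := by
  induction hd generalizing Γ Δ A σ with
  | bv i => exact (Ty.not_bv h.er).elim
  | fv n B =>
    obtain ⟨b, hb⟩ := hat _ (Ty.gen_fv h.er).1
    rw [ATm.sub, hb]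
    exact .fv _ _
  | srt s => exact .srt s
  | app _ _ h3 i1 i2 =>
    obtain ⟨C, E, h1, h2, hc, -⟩ := h.gen_app
    refine .app (i1 h1 hσ hat) (i2 h2 hσ hat) fun hl => ?_
    obtain ⟨s, hs⟩ := h1.er.pi_ty
    rw [lv_cv (cv_sub hc _)] at hl
    obtain ⟨a, ha⟩ := h3 (lv_cv hc ▸ hX _ _ hl (ps_sub hP hs hσ.mor).reach)
    obtain ⟨b, hb⟩ := hat a (h1.er.occ (Or.inl ha.er.occ))
    exact ⟨b, ha.sub hb⟩
  | lam L _ _ i1 i2 =>
    obtain ⟨B, s₁, s, -, h1, -, h2⟩ := h.gen_lam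
    have h3 := h1.er.subst hσ.mor
    refine .lam 0 (i1 h1 hσ hat) fun m _ => ?_
    rw [ATm.inst_sub_up, er_sub]
    exact annd_body hP hσ hat h1.er (fun n => ⟨_, h2 n _ _ (h1.er.nf_tm hP) (h1.er.cv_nf hP).1⟩)
      (fun n hn _ _ _ _ h h' => i2 n hn h h') (b := (m, _)) (h3.nf_tm hP) (.symm _ _ (h3.cv_nf hP).1)
  | pi L _ _ i1 i2 =>
    obtain ⟨s₁, s₂, s₃, -, -, h1, h2⟩ := h.gen_pi
    have h3 := h1.er.subst hσ.mor
    refine .pi 0 (i1 h1 hσ hat) fun m _ => ?_
    rw [ATm.inst_sub_up, er_sub]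
    exact annd_body hP hσ hat h1.er (fun n => ⟨_, h2 n _ _ (h1.er.nf_tm hP) (h1.er.cv_nf hP).1⟩)
      (fun n hn _ _ _ _ h h' => i2 n hn h h') (b := (m, _)) (h3.nf_tm hP) (.symm _ _ (h3.cv_nf hP).1)
  | mem _ _ i1 i2 =>
    obtain ⟨h1, C, h2⟩ := h.gen_mem
    exact .mem (i1 h1 hσ hat) (i2 h2 hσ hat)

theorem annd_open (hP : HWN P) (hX : ∀ a b, a ∈ X → Reach P a b → b ∈ X) (hA : Ty P Γ A (.srt s)) {L : ℕ}
    (hM : ∀ n, ∃ B, ATy P ((n, nf A) :: Γ) (inst (ATm.fv n (nf A)) M) B)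
    (hd : ∀ n, L ≤ n → Dsp P X (inst (ATm.fv n (nf A)) M)) (n : ℕ) : Dsp P X (inst (ATm.fv n A) M) := by
  refine annd_body hP (σ := vr) (Δ := Γ) ⟨hA.ok, fun a ha => ?_⟩ (fun a _ => ⟨a, rfl⟩) hA hM
    (fun k hk _ _ _ _ h h' => (hd k hk).ren hP hX h h') (b := (n, A)) hA ?_
  · rw [ers_vr, Crest.Agent.R298.sub_vr]
    exact hA.ok.avar ha
  · rw [ers_vr, Crest.Agent.R298.sub_vr]
    exact .refl _

theorem Dsp.open_lam (hP : HWN P) (hX : ∀ a b, a ∈ X → Reach P a b → b ∈ X) {C : ATm S} (hd : Dsp P X (ATm.lam C M))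
    (h : ATy P Γ (ATm.lam C M) T) (n : ℕ) : Dsp P X C ∧ Dsp P X (inst (ATm.fv n (er C)) M) := by
  obtain ⟨B, s₁, s, -, h1, -, h2⟩ := h.gen_lam
  cases hd with
  | lam L hC hM =>
    exact ⟨hC, annd_open hP hX h1.er (fun n => ⟨_, h2 n _ _ (h1.er.nf_tm hP) (h1.er.cv_nf hP).1⟩) hM n⟩

theorem Dsp.open_pi (hP : HWN P) (hX : ∀ a b, a ∈ X → Reach P a b → b ∈ X) {C : ATm S} (hd : Dsp P X (ATm.pi C M))
    (h : ATy P Γ (ATm.pi C M) T) (n : ℕ) : Dsp P X C ∧ Dsp P X (inst (ATm.fv n (er C)) M) := by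
  obtain ⟨s₁, s₂, s₃, -, -, h1, h2⟩ := h.gen_pi
  cases hd with
  | pi L hC hM =>
    exact ⟨hC, annd_open hP hX h1.er (fun n => ⟨_, h2 n _ _ (h1.er.nf_tm hP) (h1.er.cv_nf hP).1⟩) hM n⟩

end Crest.Agent.R298
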