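import Crest.Agent.R298.Typ

/-!
# Row 298.  Bridge, part c: from atoms to de Bruijn indices (auxiliary lemmas for `hwn_of_wn`).
-/

set_option autoImplicit false
set_option linter.unusedSectionVars false
set_option linter.unusedVariables false

namespace Crest.Agent.R298

open scoped Classical
open Crest.LogicCS.PTS (Spec Term Typed Legal)
open Tm

variable {S : Type}

def bcUp (ρ : Var S → ℕ) : Var S → ℕ := vcons 0 fun x => ρ x + 1

/-- translation with an environment -/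
def toT (ρ : Var S → ℕ) : Tm S → Term S
  | .bv i => .var (ρ (.inl i))
  | .fv n A => .var (ρ (.inr (n, A)))
  | .srt s => .sort s
  | .app M N => .app (toT ρ M) (toT ρ N)
  | .lam A M => .lam (toT ρ A) (toT (bcUp ρ) M)
  | .pi A B => .pi (toT ρ A) (toT (bcUp ρ) B)

theorem bc_vr (ρ : Var S → ℕ) (x : Var S) : toT ρ (vr x) = .var (ρ x) := by
  rcases x with i | ⟨n, A⟩ <;> rfl

theorem bc_shift (M : Tm S) : ∀ (c : ℕ) (ρ ρ' : Var S → ℕ), (∀ x, Term.shift c (.var (ρ x) : Term S) = .var (ρ' x)) →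
    Term.shift c (toT ρ M) = toT ρ' M := by
  have up : ∀ (c : ℕ) (ρ ρ' : Var S → ℕ), (∀ x, Term.shift c (.var (ρ x) : Term S) = .var (ρ' x)) →
      ∀ x, Term.shift (c + 1) (.var (bcUp ρ x) : Term S) = .var (bcUp ρ' x) := by
    intro c ρ ρ' h x
    have key : ∀ y, Term.shift (c + 1) (.var (ρ y + 1) : Term S) = .var (ρ' y + 1) := by
      intro y
      have := h y
      simp only [Term.shift, Nat.add_lt_add_iff_right] at this ⊢
      split_ifs at this ⊢ <;> simp_all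
    rcases x with (_ | i) | a
    · simp [bcUp, vcons, Term.shift]
    · exact key _
    · exact key _
  induction M with
  | bv i => exact fun c ρ ρ' h => h _
  | fv n A _ => exact fun c ρ ρ' h => h _
  | srt s => exact fun _ _ _ _ => rfl
  | app M N ih1 ih2 => intro c ρ ρ' h; simp only [toT, Term.shift, ih1 c ρ ρ' h, ih2 c ρ ρ' h]
  | lam M N ih1 ih2 => intro c ρ ρ' h; simp only [toT, Term.shift, ih1 c ρ ρ' h, ih2 _ _ _ (up c ρ ρ' h)]
  | pi M N ih1 ih2 => intro c ρ ρ' h; simp only [toT, Term.shift, ih1 c ρ ρ' h, ih2 _ _ _ (up c ρ ρ' h)]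

theorem bc_ren (M : Tm S) : ∀ (ξ : ℕ → ℕ) (ρ ρ' : Var S → ℕ), (∀ i, ρ (.inl (ξ i)) = ρ' (.inl i)) →
    (∀ a, Occ a M → ρ (.inr a) = ρ' (.inr a)) → toT ρ (ren ξ M) = toT ρ' M := by
  have up : ∀ (ξ : ℕ → ℕ) (ρ ρ' : Var S → ℕ), (∀ i, ρ (.inl (ξ i)) = ρ' (.inl i)) →
      ∀ i, bcUp ρ (.inl (upr ξ i)) = bcUp ρ' (.inl i) := by
    intro ξ ρ ρ' h i
    cases i with
    | zero => rfl
    | succ i => exact congrArg (· + 1) (h i)
  induction M with
  | bv i => intro ξ ρ ρ' h _; simp only [ren, toT, h]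
  | fv n A _ => intro ξ ρ ρ' _ h; simp only [ren, toT, h (n, A) rfl]
  | srt s => exact fun _ _ _ _ _ => rfl
  | app M N ih1 ih2 =>
    intro ξ ρ ρ' h h'
    simp only [ren, toT, ih1 ξ ρ ρ' h fun a ha => h' a (Or.inl ha), ih2 ξ ρ ρ' h fun a ha => h' a (Or.inr ha)]
  | lam M N ih1 ih2 =>
    intro ξ ρ ρ' h h'
    simp only [ren, toT, ih1 ξ ρ ρ' h fun a ha => h' a (Or.inl ha),
      ih2 _ _ _ (up ξ ρ ρ' h) fun a ha => congrArg (· + 1) (h' a (Or.inr ha))]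
  | pi M N ih1 ih2 =>
    intro ξ ρ ρ' h h'
    simp only [ren, toT, ih1 ξ ρ ρ' h fun a ha => h' a (Or.inl ha),
      ih2 _ _ _ (up ξ ρ ρ' h) fun a ha => congrArg (· + 1) (h' a (Or.inr ha))]

theorem bc_shift0 (ρ : Var S → ℕ) (M : Tm S) : Term.shift 0 (toT ρ M) = toT (fun x => ρ x + 1) M :=
  bc_shift M 0 _ _ fun x => by simp [Term.shift]

theorem bc_lift (ρ : Var S → ℕ) (M : Tm S) : toT (bcUp ρ) (lift M) = Term.shift 0 (toT ρ M) := by
  rw [bc_shift0]; exact bc_ren M _ _ _ (fun _ => rfl) fun _ _ => rfl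

theorem bc_sub (M : Tm S) : ∀ (k : ℕ) (N : Term S) (σ : Sb S) (ρ ρ' : Var S → ℕ),
    (∀ x, toT ρ (σ x) = Term.substAt k N (.var (ρ' x))) → toT ρ (sub σ M) = Term.substAt k N (toT ρ' M) := by
  have up : ∀ (k : ℕ) (N : Term S) (σ : Sb S) (ρ ρ' : Var S → ℕ), (∀ x, toT ρ (σ x) = Term.substAt k N (.var (ρ' x))) →
      ∀ x, toT (bcUp ρ) (Tm.up σ x) = Term.substAt (k + 1) N (.var (bcUp ρ' x)) := by
    intro k N σ ρ ρ' h x
    have key : ∀ y, toT (bcUp ρ) (lift (σ y)) = Term.substAt (k + 1) N (.var (ρ' y + 1)) := by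
      intro y
      rw [bc_lift, h y]
      simp only [Term.substAt, Nat.add_lt_add_iff_right, Nat.add_right_cancel_iff]
      split_ifs with h1 h2
      · simp [Term.shift]
      · rfl
      · simp only [Term.shift, Nat.not_lt_zero, if_false, Nat.add_sub_cancel]
        congr 1
        omega
    rcases x with (_ | i) | a
    · simp [bcUp, vcons, Tm.up, toT, Term.substAt]
    · exact key _
    · exact key _
  induction M with
  | bv i => exact fun k N σ ρ ρ' h => h _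
  | fv n A _ => exact fun k N σ ρ ρ' h => h _
  | srt s => exact fun _ _ _ _ _ _ => rfl
  | app M M' ih1 ih2 => intro k N σ ρ ρ' h; simp only [sub, toT, Term.substAt, ih1 k N σ ρ ρ' h, ih2 k N σ ρ ρ' h]
  | lam M M' ih1 ih2 =>
    intro k N σ ρ ρ' h; simp only [sub, toT, Term.substAt, ih1 k N σ ρ ρ' h, ih2 _ _ _ _ _ (up k N σ ρ ρ' h)]
  | pi M M' ih1 ih2 =>
    intro k N σ ρ ρ' h; simp only [sub, toT, Term.substAt, ih1 k N σ ρ ρ' h, ih2 _ _ _ _ _ (up k N σ ρ ρ' h)]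

theorem bc_inst (ρ : Var S → ℕ) (N M : Tm S) : toT ρ (inst N M) = Term.subst (toT ρ N) (toT (bcUp ρ) M) := by
  refine bc_sub M 0 _ _ _ _ fun x => ?_
  rcases x with (_ | i) | a
  · rfl
  · simp [vcons, bc_vr, bcUp, Term.substAt]
  · simp [vcons, bc_vr, bcUp, Term.substAt]

theorem bc_var (M : Tm S) : ∀ (σ : Sb S) (ρ ρ' : Var S → ℕ), (∀ i, toT ρ (σ (.inl i)) = .var (ρ' (.inl i))) →
    (∀ a, Occ a M → toT ρ (σ (.inr a)) = .var (ρ' (.inr a))) → toT ρ (sub σ M) = toT ρ' M := by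
  have key : ∀ (σ : Sb S) (ρ : Var S → ℕ) (y : Var S) (j : ℕ), toT ρ (σ y) = .var j →
      toT (bcUp ρ) (lift (σ y)) = .var (j + 1) := by
    intro σ ρ y j h
    rw [bc_lift, h]; simp [Term.shift]
  have up : ∀ (σ : Sb S) (ρ ρ' : Var S → ℕ), (∀ i, toT ρ (σ (.inl i)) = .var (ρ' (.inl i))) →
      ∀ i, toT (bcUp ρ) (Tm.up σ (.inl i)) = .var (bcUp ρ' (.inl i)) := by
    intro σ ρ ρ' h i
    cases i with
    | zero => rfl
    | succ i => exact key _ _ _ _ (h i)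
  induction M with
  | bv i => exact fun σ ρ ρ' h _ => h _
  | fv n A _ => exact fun σ ρ ρ' _ h => h _ rfl
  | srt s => exact fun _ _ _ _ _ => rfl
  | app M N ih1 ih2 =>
    intro σ ρ ρ' h h'
    simp only [sub, toT, ih1 σ ρ ρ' h fun a ha => h' a (Or.inl ha), ih2 σ ρ ρ' h fun a ha => h' a (Or.inr ha)]
  | lam M N ih1 ih2 =>
    intro σ ρ ρ' h h'
    simp only [sub, toT, ih1 σ ρ ρ' h fun a ha => h' a (Or.inl ha),
      ih2 _ _ (bcUp ρ') (up σ ρ ρ' h) fun a ha => key _ _ _ _ (h' a (Or.inr ha))]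
  | pi M N ih1 ih2 =>
    intro σ ρ ρ' h h'
    simp only [sub, toT, ih1 σ ρ ρ' h fun a ha => h' a (Or.inl ha),
      ih2 _ _ (bcUp ρ') (up σ ρ ρ' h) fun a ha => key _ _ _ _ (h' a (Or.inr ha))]

theorem bc_vupd_ne {ρ : Var S → ℕ} {a b : Atom S} (h : b ≠ a) (j : ℕ) : vupd ρ a j (.inr b) = ρ (.inr b) :=
  Function.update_of_ne (fun e => h (Sum.inr_injective e)) _ _

theorem bc_vupd_inl (ρ : Var S → ℕ) (a : Atom S) (j i : ℕ) : vupd ρ a j (.inl i) = ρ (.inl i) :=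
  Function.update_of_ne Sum.inl_ne_inr _ _

theorem bc_vupd_self (ρ : Var S → ℕ) (a : Atom S) (j : ℕ) : vupd ρ a j (.inr a) = j := Function.update_self _ _ _

theorem bc_fresh (ρ : Var S → ℕ) {a : Atom S} {M : Tm S} (h : ¬ Occ a M) :
    toT (vupd (fun x => ρ x + 1) a 0) M = Term.shift 0 (toT ρ M) := by
  rw [bc_shift0]
  conv_lhs => rw [← sub_vr M]
  refine bc_var M _ _ _ (fun i => ?_) fun b hb => ?_
  · rw [bc_vr, bc_vupd_inl]
  · rw [bc_vr, bc_vupd_ne (by rintro rfl; exact h hb)]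

theorem bc_open (ρ : Var S → ℕ) {n : ℕ} {A M : Tm S} (h : ¬ Occ (n, A) M) :
    toT (vupd (fun x => ρ x + 1) (n, A) 0) (inst (fv n A) M) = toT (bcUp ρ) M := by
  refine bc_var M _ _ _ (fun i => ?_) fun b hb => ?_
  · cases i with
    | zero => exact congrArg Term.var (bc_vupd_self _ _ _)
    | succ i => exact congrArg Term.var (bc_vupd_inl _ _ _ _)
  · exact (bc_vr _ (.inr b)).trans (congrArg Term.var (bc_vupd_ne (by rintro rfl; exact h hb) _))

theorem bc_beta {M N : Tm S} (h : Beta M N) : ∀ ρ, Crest.LogicCS.PTS.Beta (toT ρ M) (toT ρ N) := by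
  induction h with
  | redex A M N => intro ρ; rw [bc_inst]; exact .redex _ _ _
  | appL _ _ ih => exact fun ρ => .appL _ (ih ρ)
  | appR _ _ ih => exact fun ρ => .appR _ (ih ρ)
  | lamA _ _ ih => exact fun ρ => .lamA _ (ih ρ)
  | lamM _ _ ih => exact fun ρ => .lamM _ (ih _)
  | piA _ _ ih => exact fun ρ => .piA _ (ih ρ)
  | piB _ _ ih => exact fun ρ => .piB _ (ih _)

theorem bc_refl (M : Tm S) : ∀ ρ N, Crest.LogicCS.PTS.Beta (toT ρ M) N → ∃ M', Beta M M' ∧ N = toT ρ M' := by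
  induction M with
  | bv i => intro ρ N h; cases h
  | fv n A _ => intro ρ N h; cases h
  | srt s => intro ρ N h; cases h
  | app M M' ih1 ih2 =>
    intro ρ N h
    simp only [toT] at h
    generalize e : toT ρ M = X at h
    cases h with
    | redex A B _ =>
      cases M <;> simp only [toT, reduceCtorEq] at e
      cases e
      exact ⟨_, .redex _ _ _, (bc_inst _ _ _).symm⟩
    | appL _ h => subst e; obtain ⟨_, h1, rfl⟩ := ih1 _ _ h; exact ⟨_, .appL _ h1, rfl⟩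
    | appR _ h => subst e; obtain ⟨_, h1, rfl⟩ := ih2 _ _ h; exact ⟨_, .appR _ h1, rfl⟩
  | lam M M' ih1 ih2 =>
    intro ρ N h
    cases h with
    | lamA _ h => obtain ⟨_, h1, rfl⟩ := ih1 _ _ h; exact ⟨_, .lamA _ h1, rfl⟩
    | lamM _ h => obtain ⟨_, h1, rfl⟩ := ih2 _ _ h; exact ⟨_, .lamM _ h1, rfl⟩
  | pi M M' ih1 ih2 =>
    intro ρ N h
    cases h with
    | piA _ h => obtain ⟨_, h1, rfl⟩ := ih1 _ _ h; exact ⟨_, .piA _ h1, rfl⟩
    | piB _ h => obtain ⟨_, h1, rfl⟩ := ih2 _ _ h; exact ⟨_, .piB _ h1, rfl⟩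

theorem bc_wn {ρ : Var S → ℕ} {M : Tm S} (h : Crest.LogicCS.PTS.WN (toT ρ M)) : WN M := by
  obtain ⟨N, h1, h2⟩ := h
  have : ∃ M', Red M M' ∧ N = toT ρ M' := by
    clear h2
    induction h1 with
    | refl => exact ⟨M, .refl, rfl⟩
    | tail _ hb ih =>
      obtain ⟨M', h1, rfl⟩ := ih
      obtain ⟨M'', h2, rfl⟩ := bc_refl _ _ _ hb
      exact ⟨M'', h1.tail h2, rfl⟩
  obtain ⟨M', h3, rfl⟩ := this
  exact ⟨M', h3, fun L hL => h2 _ (bc_beta hL ρ)⟩

theorem bc_cv {M N : Tm S} (h : Cv M N) (ρ : Var S → ℕ) : Crest.LogicCS.PTS.BetaEq (toT ρ M) (toT ρ N) := by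
  induction h with
  | rel _ _ h => exact .rel _ _ (bc_beta h ρ)
  | refl => exact .refl _
  | symm _ _ _ ih => exact .symm _ _ ih
  | trans _ _ _ _ _ ih1 ih2 => exact .trans _ _ _ ih1 ih2

variable {P : Spec S}

theorem bc_dom {Θ : List (Term S)} {X T : Term S} (h : Typed P Θ X T) :
    ∀ A B, X = .pi A B → ∃ s, Typed P Θ A (.sort s) := by
  induction h with
  | ax _ => intro A B e; cases e
  | start _ _ => intro A B e; cases e
  | @weak Γ M _ _ _ _ h2 ih _ =>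
    intro A B e
    cases M with
    | var i => simp only [Term.shift] at e; split_ifs at e
    | pi A' B' =>
      cases e
      obtain ⟨s, hs⟩ := ih _ _ rfl
      exact ⟨s, .weak hs h2⟩
    | _ => cases e
  | prod h1 _ _ _ _ => intro A B e; cases e; exact ⟨_, h1⟩
  | abs _ _ _ _ => intro A B e; cases e
  | appl _ _ _ _ => intro A B e; cases e
  | conv _ _ _ ih _ => exact ih

/-- environments -/
def BcEnv (P : Spec S) (Θ : List (Term S)) (ρ : Var S → ℕ) (Γ : List (Atom S)) : Prop :=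
  (∀ s t, P.ax s t → Typed P Θ (.sort s) (.sort t)) ∧ ∀ a ∈ Γ, Typed P Θ (.var (ρ (.inr a))) (toT ρ a.2)

theorem BcEnv.ext {Θ : List (Term S)} {ρ : Var S → ℕ} {Γ : List (Atom S)} (h : BcEnv P Θ ρ Γ) (hΓ : Ok P Γ) {a : Atom S}
    (ha : a ∉ Γ) (ho : ¬ Occ a a.2) {s : S} (hs : Typed P Θ (toT ρ a.2) (.sort s)) :
    BcEnv P (toT ρ a.2 :: Θ) (vupd (fun x => ρ x + 1) a 0) (a :: Γ) := by
  refine ⟨fun s t hst => (h.1 s t hst).weak hs, fun b hb => ?_⟩
  rcases List.mem_cons.1 hb with rfl | hb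
  · rw [bc_vupd_self, bc_fresh ρ ho]; exact .start hs
  · obtain ⟨s', hs'⟩ := hΓ.sort hb
    rw [bc_vupd_ne (fun e : b = a => ha (e ▸ hb)), bc_fresh ρ fun h => ha (hs'.occ (Or.inl h))]
    exact (h.2 b hb).weak hs

theorem bc_ty {Γ : List (Atom S)} {M A : Tm S} (h : Ty P Γ M A) :
    ∀ Θ ρ, BcEnv P Θ ρ Γ → Typed P Θ (toT ρ M) (toT ρ A) := by
  induction h with
  | ax h => exact fun Θ ρ e => e.1 _ _ h
  | start _ _ => exact fun Θ ρ e => e.2 _ List.mem_cons_self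
  | weak _ _ ih _ => exact fun Θ ρ e => ih Θ ρ ⟨e.1, fun a ha => e.2 a (List.mem_cons_of_mem _ ha)⟩
  | prod h1 hn ho _ hr ih1 ih2 =>
    intro Θ ρ e
    have := ih2 _ _ (e.ext h1.ok hn (fun h => hn (h1.occ (Or.inl h))) (ih1 Θ ρ e))
    rw [bc_open ρ ho] at this
    exact .prod (ih1 Θ ρ e) this hr
  | abs hn ho ho' _ h2 ih1 ih2 =>
    intro Θ ρ e
    obtain ⟨s, hs⟩ := bc_dom (ih2 Θ ρ e) _ _ rfl
    have := ih1 _ _ (e.ext h2.ok hn (fun h => hn (h2.occ (Or.inl (Or.inl h)))) hs)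
    rw [bc_open ρ ho, bc_open ρ ho'] at this
    exact .abs this (ih2 Θ ρ e)
  | appl _ _ ih1 ih2 => intro Θ ρ e; rw [bc_inst]; exact .appl (ih1 Θ ρ e) (ih2 Θ ρ e)
  | conv _ _ hc ih1 ih2 => exact fun Θ ρ e => .conv (ih1 Θ ρ e) (ih2 Θ ρ e) (bc_cv hc ρ)

theorem bc_env (Γ : List (Atom S)) : Ok P Γ → ∃ Θ ρ, BcEnv P Θ ρ Γ := by
  induction Γ with
  | nil => exact fun _ => ⟨[], fun _ => 0, fun s t h => .ax h, by simp⟩
  | cons a Γ ih =>
    intro h
    cases h with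
    | cons h =>
      obtain ⟨Θ, ρ, e⟩ := ih h.ok
      by_cases ha : a ∈ Γ
      · exact ⟨Θ, ρ, e.1, fun b hb => e.2 b ((List.mem_cons.1 hb).elim (fun e => e ▸ ha) id)⟩
      · exact ⟨_, _, e.ext h.ok ha (fun h' => ha (h.occ (Or.inl h'))) (bc_ty h Θ ρ e)⟩

end Crest.Agent.R298
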