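import Crest.Agent.R298.Typ
import Crest.Agent.R298.BridgeC

/-!
# Row 298.  From the statement (de Bruijn contexts, arbitrary sorts) to finite specifications and atoms.
-/

set_option autoImplicit false
set_option linter.unusedSectionVars false
set_option linter.unusedVariables false

namespace Crest.Agent.R298

open scoped Classical
open Crest.LogicCS.PTS (Spec Term Typed Legal)

/-- what the rest of the development proves -/
def MainFin : Prop := ∀ (k : ℕ) (P : Spec (Fin k)), HWN P → ∀ Γ M A, Ty P Γ M A → Acc (fun x y => Beta y x) M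

/-- the statement for one specification -/
def Stmt {S : Type*} (P : Spec S) : Prop :=
  (∀ (Γ : List (Term S)) (M : Term S), Legal P Γ M → Crest.LogicCS.PTS.WN M) →
    ∀ (Γ : List (Term S)) (M : Term S), Legal P Γ M → Crest.LogicCS.PTS.SN M

section PartA
universe u v
variable {S : Type u} {S' : Type v}

/-- map of sorts -/
def bA_tm (f : S → S') : Term S → Term S'
  | .var i => .var i
  | .sort s => .sort (f s)
  | .app M N => .app (bA_tm f M) (bA_tm f N)
  | .lam A M => .lam (bA_tm f A) (bA_tm f M)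
  | .pi A B => .pi (bA_tm f A) (bA_tm f B)

theorem bA_shift (f : S → S') (c : ℕ) (M : Term S) : bA_tm f (M.shift c) = (bA_tm f M).shift c := by
  induction M generalizing c with
  | var i => simp only [Term.shift, bA_tm]; split_ifs <;> rfl
  | _ => simp only [Term.shift, bA_tm, *]

theorem bA_shiftBy (f : S → S') (n : ℕ) (M : Term S) : bA_tm f (M.shiftBy n) = (bA_tm f M).shiftBy n := by
  induction n with
  | zero => rfl
  | succ n ih => simp only [Term.shiftBy, bA_shift, ih]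

theorem bA_substAt (f : S → S') (k : ℕ) (N M : Term S) :
    bA_tm f (Term.substAt k N M) = Term.substAt k (bA_tm f N) (bA_tm f M) := by
  induction M generalizing k with
  | var i => simp only [Term.substAt, bA_tm]; split_ifs <;> simp only [bA_tm, bA_shiftBy]
  | _ => simp only [Term.substAt, bA_tm, *]

theorem bA_subst (f : S → S') (N M : Term S) : bA_tm f (Term.subst N M) = Term.subst (bA_tm f N) (bA_tm f M) :=
  bA_substAt f 0 N M

theorem bA_beta (f : S → S') {M N : Term S} (h : Crest.LogicCS.PTS.Beta M N) :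
    Crest.LogicCS.PTS.Beta (bA_tm f M) (bA_tm f N) := by
  induction h with
  | redex A M N => rw [bA_subst]; exact .redex _ _ _
  | appL _ _ ih => exact .appL _ ih
  | appR _ _ ih => exact .appR _ ih
  | lamA _ _ ih => exact .lamA _ ih
  | lamM _ _ ih => exact .lamM _ ih
  | piA _ _ ih => exact .piA _ ih
  | piB _ _ ih => exact .piB _ ih

theorem bA_refl (f : S → S') {M : Term S} {N : Term S'} (h : Crest.LogicCS.PTS.Beta (bA_tm f M) N) :
    ∃ M', Crest.LogicCS.PTS.Beta M M' ∧ N = bA_tm f M' := by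
  induction M generalizing N with
  | var i => cases h
  | sort s => cases h
  | app M₁ M₂ ih1 ih2 =>
    rw [bA_tm] at h
    generalize e : bA_tm f M₁ = L at h
    cases h with
    | redex A B _ =>
      cases M₁ <;> cases e
      exact ⟨_, .redex _ _ _, (bA_subst _ _ _).symm⟩
    | appL _ h => obtain ⟨M', h1, rfl⟩ := ih1 (e ▸ h); exact ⟨_, .appL _ h1, rfl⟩
    | appR _ h => obtain ⟨M', h1, rfl⟩ := ih2 h; exact ⟨_, .appR _ h1, e ▸ rfl⟩
  | lam M₁ M₂ ih1 ih2 =>
    cases h with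
    | lamA _ h => obtain ⟨M', h1, rfl⟩ := ih1 h; exact ⟨_, .lamA _ h1, rfl⟩
    | lamM _ h => obtain ⟨M', h1, rfl⟩ := ih2 h; exact ⟨_, .lamM _ h1, rfl⟩
  | pi M₁ M₂ ih1 ih2 =>
    cases h with
    | piA _ h => obtain ⟨M', h1, rfl⟩ := ih1 h; exact ⟨_, .piA _ h1, rfl⟩
    | piB _ h => obtain ⟨M', h1, rfl⟩ := ih2 h; exact ⟨_, .piB _ h1, rfl⟩

theorem bA_wn (f : S → S') {M : Term S} (h : Crest.LogicCS.PTS.WN (bA_tm f M)) : Crest.LogicCS.PTS.WN M := by
  obtain ⟨N, h1, h2⟩ := h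
  obtain ⟨M', h3, rfl⟩ : ∃ M', Relation.ReflTransGen Crest.LogicCS.PTS.Beta M M' ∧ N = bA_tm f M' := by
    clear h2
    induction h1 with
    | refl => exact ⟨M, .refl, rfl⟩
    | tail _ hb ih =>
      obtain ⟨M', h1, rfl⟩ := ih
      obtain ⟨M'', h2, rfl⟩ := bA_refl f hb
      exact ⟨M'', h1.tail h2, rfl⟩
  exact ⟨M', h3, fun L hL => h2 _ (bA_beta f hL)⟩

theorem bA_cv (f : S → S') {M N : Term S} (h : Crest.LogicCS.PTS.BetaEq M N) :
    Crest.LogicCS.PTS.BetaEq (bA_tm f M) (bA_tm f N) := by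
  induction h with
  | rel _ _ h => exact .rel _ _ (bA_beta f h)
  | refl => exact .refl _
  | symm _ _ _ ih => exact .symm _ _ ih
  | trans _ _ _ _ _ ih1 ih2 => exact .trans _ _ _ ih1 ih2

/-- `r` is a morphism of specifications on `F` -/
def bA_Hom (P : Spec S) (P' : Spec S') (F : Set S) (r : S → S') : Prop :=
  (∀ a ∈ F, ∀ b ∈ F, P.ax a b → P'.ax (r a) (r b)) ∧
    ∀ a ∈ F, ∀ b ∈ F, ∀ c ∈ F, P.rule a b c → P'.rule (r a) (r b) (r c)

theorem bA_Hom.mono {P : Spec S} {P' : Spec S'} {F G : Set S} {r : S → S'} (h : bA_Hom P P' G r) (hs : F ⊆ G) :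
    bA_Hom P P' F r :=
  ⟨fun a ha b hb => h.1 a (hs ha) b (hs hb), fun a ha b hb c hc => h.2 a (hs ha) b (hs hb) c (hs hc)⟩

theorem bA_typed {P : Spec S} {Γ : List (Term S)} {M N : Term S} (h : Typed P Γ M N) :
    ∃ F : Set S, F.Finite ∧ F.Nonempty ∧ ∀ (S' : Type v) (P' : Spec S') (r : S → S'), bA_Hom P P' F r →
      Typed P' (Γ.map (bA_tm r)) (bA_tm r M) (bA_tm r N) := by
  induction h with
  | @ax a b h => exact ⟨{a, b}, Set.toFinite _, by simp, fun _ _ r hr => .ax (hr.1 a (by simp) b (by simp) h)⟩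
  | start _ ih =>
    obtain ⟨F, h1, h2, h3⟩ := ih
    exact ⟨F, h1, h2, fun _ _ r hr => by rw [bA_shift]; exact .start (h3 _ _ r hr)⟩
  | weak _ _ ih ih' =>
    obtain ⟨F, h1, h2, h3⟩ := ih
    obtain ⟨G, k1, -, k3⟩ := ih'
    exact ⟨F ∪ G, h1.union k1, h2.inl, fun _ _ r hr => by
      rw [bA_shift, bA_shift]
      exact .weak (h3 _ _ r (hr.mono Set.subset_union_left)) (k3 _ _ r (hr.mono Set.subset_union_right))⟩
  | @prod _ _ _ a b c _ _ h ih ih' =>
    obtain ⟨F, h1, h2, h3⟩ := ih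
    obtain ⟨G, k1, -, k3⟩ := ih'
    exact ⟨(F ∪ G) ∪ {a, b, c}, (h1.union k1).union (Set.toFinite _), h2.inl.inl, fun _ _ r hr =>
      .prod (h3 _ _ r (hr.mono fun _ k => .inl (.inl k))) (k3 _ _ r (hr.mono fun _ k => .inl (.inr k)))
        (hr.2 a (by simp) b (by simp) c (by simp) h)⟩
  | abs _ _ ih ih' =>
    obtain ⟨F, h1, h2, h3⟩ := ih
    obtain ⟨G, k1, -, k3⟩ := ih'
    exact ⟨F ∪ G, h1.union k1, h2.inl, fun _ _ r hr =>
      .abs (h3 _ _ r (hr.mono Set.subset_union_left)) (k3 _ _ r (hr.mono Set.subset_union_right))⟩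
  | appl _ _ ih ih' =>
    obtain ⟨F, h1, h2, h3⟩ := ih
    obtain ⟨G, k1, -, k3⟩ := ih'
    exact ⟨F ∪ G, h1.union k1, h2.inl, fun _ _ r hr => by
      rw [bA_subst]
      exact .appl (h3 _ _ r (hr.mono Set.subset_union_left)) (k3 _ _ r (hr.mono Set.subset_union_right))⟩
  | conv _ _ h ih ih' =>
    obtain ⟨F, h1, h2, h3⟩ := ih
    obtain ⟨G, k1, -, k3⟩ := ih'
    exact ⟨F ∪ G, h1.union k1, h2.inl, fun _ _ r hr =>
      .conv (h3 _ _ r (hr.mono Set.subset_union_left)) (k3 _ _ r (hr.mono Set.subset_union_right)) (bA_cv r h)⟩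

theorem bA_legal {P : Spec S} {Γ : List (Term S)} {M : Term S} (h : Legal P Γ M) :
    ∃ F : Set S, F.Finite ∧ F.Nonempty ∧ ∀ (S' : Type v) (P' : Spec S') (r : S → S'), bA_Hom P P' F r →
      Legal P' (Γ.map (bA_tm r)) (bA_tm r M) := by
  obtain ⟨N, h | h⟩ := h <;> obtain ⟨F, h1, h2, h3⟩ := bA_typed.{u, v} h
  · exact ⟨F, h1, h2, fun _ _ r hr => ⟨_, .inl (h3 _ _ r hr)⟩⟩
  · exact ⟨F, h1, h2, fun _ _ r hr => ⟨_, .inr (h3 _ _ r hr)⟩⟩

end PartA

/-- part a.  Reduction to finitely many sorts.  A derivation `Typed P Γ M N` uses a finite set `F` of sorts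
(prove: `Typed P Γ M N → ∃ F : Finset S, ∀ F' ⊇ F, TypedIn F' ...`, or directly: for every `r : S → S₀`, `P₀` such that
`r` maps the axioms/rules between sorts of `F` to axioms/rules of `P₀`, `Typed P₀ (Γ.map (tmap r)) (tmap r M) (tmap r N)`).
Take `S₀ = Fin k`, `ι : Fin k → S` an enumeration of `F`, `P₀` the pullback along `ι`, `r` a retraction (`F` is nonempty
because a derivation starts with an axiom).  `tmap` (map of sorts) commutes with `shift`/`substAt`, preserves and reflects `Beta`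
and `Normal`; `tmap ι` maps `P₀`-derivations to `P`-derivations, so WN descends to `P₀`; an infinite reduction from `M` maps to
one from `tmap r M`. -/
theorem stmt_of_fin (h : ∀ (k : ℕ) (P : Spec (Fin k)), Stmt P) {S : Type*} (P : Spec S) : Stmt P := by
  rintro hW Γ M hM ⟨f, rfl, hf⟩
  obtain ⟨F, h1, h2, h3⟩ := bA_legal.{_, 0} hM
  obtain ⟨k, ι, -, rfl⟩ := h1.fin_param
  have := Set.range_nonempty_iff_nonempty.1 h2
  have e : ∀ a ∈ Set.range ι, ι (Function.invFun ι a) = a := fun a ha => Function.invFun_eq ha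
  refine h k ⟨fun a b => P.ax (ι a) (ι b), fun a b c => P.rule (ι a) (ι b) (ι c)⟩ (fun Δ N hN => ?_) _ _
    (h3 _ _ (Function.invFun ι) ⟨fun a ha b hb hr => ?_, fun a ha b hb c hc hr => ?_⟩)
    ⟨fun n => bA_tm (Function.invFun ι) (f n), rfl, fun n => bA_beta _ (hf n)⟩
  · obtain ⟨G, -, -, k3⟩ := bA_legal hN
    exact bA_wn ι (hW _ _ (k3 _ P ι ⟨fun _ _ _ _ => id, fun _ _ _ _ _ _ => id⟩))
  · simpa only [e a ha, e b hb] using hr
  · simpa only [e a ha, e b hb, e c hc] using hr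

variable {S : Type}

/-- a de Bruijn term read with free indices as bound variables -/
def ofT : Term S → Tm S
  | .var i => .bv i
  | .sort s => .srt s
  | .app M N => .app (ofT M) (ofT N)
  | .lam A M => .lam (ofT A) (ofT M)
  | .pi A B => .pi (ofT A) (ofT B)

theorem brb_shift (M : Term S) (c : ℕ) :
    ofT (M.shift c) = Tm.ren (fun i => if i < c then i else i + 1) (ofT M) := by
  have h : ∀ c, upr (fun i => if i < c then i else i + 1) = fun i => if i < c + 1 then i else i + 1 := fun c => by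
    funext i
    cases i with
    | zero => simp [upr]
    | succ i => simp only [upr, Nat.add_lt_add_iff_right]; split_ifs <;> rfl
  induction M generalizing c with
  | var i => simp only [Term.shift, ofT, Tm.ren]; split_ifs <;> rfl
  | sort s => rfl
  | app M N h1 h2 => simp only [Term.shift, ofT, Tm.ren, h1, h2]
  | lam M N h1 h2 => simp only [Term.shift, ofT, Tm.ren, h1, h2, h]
  | pi M N h1 h2 => simp only [Term.shift, ofT, Tm.ren, h1, h2, h]

theorem brb_lift (M : Term S) : ofT (M.shift 0) = (ofT M).lift := by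
  rw [brb_shift]
  rfl

theorem brb_var (N : Term S) (k i : ℕ) :
    ofT (Term.substAt k N (.var i)) = Tm.up^[k] (vcons (ofT N) Tm.vr) (.inl i) := by
  induction k generalizing i with
  | zero => cases i <;> rfl
  | succ k ih =>
    rw [Function.iterate_succ_apply']
    cases i with
    | zero => rfl
    | succ i =>
      refine Eq.trans ?_ (congrArg Tm.lift (ih i))
      rw [← brb_lift]
      simp only [Term.substAt, Nat.add_lt_add_iff_right, Nat.add_right_cancel_iff]
      split_ifs with h1 h2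
      · rfl
      · rfl
      · obtain ⟨j, rfl⟩ : ∃ j, i = j + 1 := ⟨i - 1, by omega⟩
        rfl

theorem brb_substAt (N M : Term S) (k : ℕ) :
    ofT (Term.substAt k N M) = Tm.sub (Tm.up^[k] (vcons (ofT N) Tm.vr)) (ofT M) := by
  induction M generalizing k with
  | var i => exact brb_var N k i
  | sort s => rfl
  | app M N h1 h2 => simp only [Term.substAt, ofT, Tm.sub, h1, h2]
  | lam M N h1 h2 => simp only [Term.substAt, ofT, Tm.sub, h1, h2, Function.iterate_succ_apply']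
  | pi M N h1 h2 => simp only [Term.substAt, ofT, Tm.sub, h1, h2, Function.iterate_succ_apply']

theorem brb_subst (N M : Term S) : ofT (Term.subst N M) = Tm.inst (ofT N) (ofT M) := brb_substAt N M 0

theorem brb_beta {M N : Term S} (h : Crest.LogicCS.PTS.Beta M N) : Beta (ofT M) (ofT N) := by
  induction h with
  | redex A M N => rw [brb_subst]; exact .redex _ _ _
  | appL _ _ ih => exact .appL _ ih
  | appR _ _ ih => exact .appR _ ih
  | lamA _ _ ih => exact .lamA _ ih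
  | lamM _ _ ih => exact .lamM _ ih
  | piA _ _ ih => exact .piA _ ih
  | piB _ _ ih => exact .piB _ ih

theorem brb_cv {M N : Term S} (h : Crest.LogicCS.PTS.BetaEq M N) : Cv (ofT M) (ofT N) := by
  induction h with
  | rel _ _ h => exact .rel _ _ (brb_beta h)
  | refl _ => exact .refl _
  | symm _ _ _ ih => exact .symm _ _ ih
  | trans _ _ _ _ _ h1 h2 => exact .trans _ _ _ h1 h2

/-- `θ` is a typed substitution for the de Bruijn context -/
inductive BrbM (P : Spec S) (Δ : List (Atom S)) : List (Term S) → Sb S → Prop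
  | nil (θ : Sb S) : Ok P Δ → BrbM P Δ [] θ
  | cons {Γ : List (Term S)} {θ : Sb S} {A : Term S} {N : Tm S} :
      BrbM P Δ Γ θ → Ty P Δ N (Tm.sub θ (ofT A)) → BrbM P Δ (A :: Γ) (vcons N θ)

theorem BrbM.ext {P : Spec S} {Δ : List (Atom S)} {Γ : List (Term S)} {θ : Sb S} (h : BrbM P Δ Γ θ) {A : Term S} {s : S}
    (hA : Ty P Δ (Tm.sub θ (ofT A)) (.srt s)) (n : ℕ) :
    BrbM P ((n, Tm.sub θ (ofT A)) :: Δ) (A :: Γ) (vcons (.fv n (Tm.sub θ (ofT A))) θ) := by
  refine .cons ?_ (Ty.start (a := (n, _)) hA)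
  generalize Tm.sub θ (ofT A) = B at hA
  induction h with
  | nil θ _ => exact .nil _ (.cons hA)
  | cons _ h ih => exact .cons ih (.weak h hA)

theorem brb_ty {P : Spec S} {Γ : List (Term S)} {M A : Term S} (h : Typed P Γ M A) :
    ∀ Δ θ, BrbM P Δ Γ θ → Ty P Δ (Tm.sub θ (ofT M)) (Tm.sub θ (ofT A)) := by
  induction h with
  | ax h =>
    rintro Δ θ ⟨_, h'⟩
    exact h'.ax h
  | start _ _ =>
    rintro Δ _ (_ | ⟨_, h⟩)
    rwa [brb_lift, sub_vcons_lift]
  | weak _ _ ih _ =>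
    rintro Δ _ (_ | ⟨h, _⟩)
    rw [brb_lift, brb_lift, sub_vcons_lift, sub_vcons_lift]
    exact ih _ _ h
  | @prod Γ A B _ _ _ _ _ hr h1 h2 =>
    intro Δ θ h
    refine .prod (n := max (cmx Δ) (Tm.sub (Tm.up θ) (ofT B)).mx) (h1 Δ θ h) (not_mem_of_cmx (le_max_left _ _))
      (not_occ_of_mx (le_max_right _ _)) ?_ hr
    rw [inst_sub_up]
    exact h2 _ _ (h.ext (h1 Δ θ h) _)
  | @abs Γ A M B _ _ _ h1 h2 =>
    intro Δ θ h
    obtain ⟨_, _, _, -, -, h3, -⟩ := Ty.gen_pi (h2 Δ θ h)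
    refine .abs (n := cmx Δ + (Tm.sub (Tm.up θ) (ofT M)).mx + (Tm.sub (Tm.up θ) (ofT B)).mx)
      (not_mem_of_cmx (by simp only; omega)) (not_occ_of_mx (by simp only; omega))
      (not_occ_of_mx (by simp only; omega)) ?_ (h2 Δ θ h)
    rw [inst_sub_up, inst_sub_up]
    exact h1 _ _ (h.ext h3 _)
  | appl _ _ h1 h2 =>
    intro Δ θ h
    rw [brb_subst, sub_inst, ← inst_sub_up]
    exact .appl (h1 Δ θ h) (h2 Δ θ h)
  | conv _ _ hc h1 h2 => exact fun Δ θ h => .conv (h1 Δ θ h) (h2 Δ θ h) (cv_sub (brb_cv hc) θ)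

theorem brb_ex {P : Spec S} {Γ : List (Term S)} {M A : Term S} (h : Typed P Γ M A) : ∃ Δ θ, BrbM P Δ Γ θ := by
  induction h with
  | ax h => exact ⟨[], Tm.vr, .nil _ .nil⟩
  | start h ih =>
    obtain ⟨Δ, θ, h'⟩ := ih
    exact ⟨_, _, h'.ext (brb_ty h Δ θ h') 0⟩
  | weak _ h _ ih =>
    obtain ⟨Δ, θ, h'⟩ := ih
    exact ⟨_, _, h'.ext (brb_ty h Δ θ h') 0⟩
  | prod _ _ _ ih _ => exact ih
  | abs _ _ _ ih => exact ih
  | appl _ _ ih _ => exact ih
  | conv _ _ _ ih _ => exact ih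

/-- part b.  de Bruijn to atoms: prove `Typed P Γ M A → ∀ Δ θ, Ok P Δ → (∀ i B, Γ[i]? = some B →
Ty P Δ (θ (inl i)) (sub θ (ofT (shiftBy (i+1) B)))) → Ty P Δ (sub θ (ofT M)) (sub θ (ofT A))`
(`ofT (shift 0 M) = lift (ofT M)`, `ofT (subst N M) = inst (ofT N) (ofT M)`, `ofT` preserves `Beta`), then build `Δ θ` by induction
on the context.  The type `A` of a derivation is a sort or typable (`Ty.corr`). -/
theorem ty_of_typed {P : Spec S} {Γ : List (Term S)} {M A : Term S} (h : Typed P Γ M A) :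
    ∃ (Δ : List (Atom S)) (θ : Sb S), Ty P Δ (Tm.sub θ (ofT M)) (Tm.sub θ (ofT A)) := by
  obtain ⟨Δ, θ, h'⟩ := brb_ex h
  exact ⟨Δ, θ, brb_ty h Δ θ h'⟩

theorem beta_ofT {M N : Term S} (h : Crest.LogicCS.PTS.Beta M N) : Beta (ofT M) (ofT N) := by
  exact brb_beta h

/-- part b: use `ty_of_typed`, `beta_ofT`, `Beta.sub`, `Ty.corr` (a sort has no reduct) -/
theorem sn_of_acc {P : Spec S} (H : ∀ Γ M A, Ty P Γ M A → Acc (fun x y => Beta y x) M)
    {Γ : List (Term S)} {M : Term S} (h : Legal P Γ M) : Crest.LogicCS.PTS.SN M := by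
  have key : ∃ θ : Sb S, Acc (fun x y => Beta y x) (Tm.sub θ (ofT M)) := by
    obtain ⟨N, h | h⟩ := h <;> obtain ⟨Δ, θ, h'⟩ := ty_of_typed h
    · exact ⟨θ, H _ _ _ h'⟩
    · rcases h'.corr with ⟨s, hs⟩ | ⟨s, hs⟩
      · exact ⟨θ, hs ▸ .intro _ fun y hy => (nf_srt s y hy).elim⟩
      · exact ⟨θ, H _ _ _ hs⟩
  obtain ⟨θ, hθ⟩ := key
  rintro ⟨f, rfl, hf⟩
  exact (acc_iff_isEmpty_descending_chain.1 hθ).false
    ⟨fun n => Tm.sub θ (ofT (f n)), rfl, fun n => (beta_ofT (hf n)).sub θ⟩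

/-- part c.  atoms to de Bruijn.  Translate with an environment: `toT (ρ : Var S → ℕ) : Tm S → Term S` (under a binder
`ρ' (inl 0) = 0`, `ρ' (inl (i+1)) = ρ (inl i) + 1`, `ρ' (inr a) = ρ (inr a) + 1`).  Prove, for every de Bruijn context `Θ` that is
legal (`Θ = []` or something is typed in it; weakening by one entry is the rule `weak`) and every `ρ` with
`∀ a ∈ Γ, Typed P Θ (var (ρ (inr a))) (toT ρ a.2)`:  `Ty P Γ M A → Typed P Θ (toT ρ M) (toT ρ A)`
(under a binder: `Θ' = toT ρ A :: Θ`, `ρ' = vupd (ρ + 1) (n, A) 0`, `toT ρ' (inst (fv n A) B) = toT (up ρ) B` as the atom is fresh).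
Such `Θ ρ` exist by induction on `Ok P Γ` (a duplicate atom keeps its old index).  `toT ρ` preserves `Beta` (for `conv`) and
reflects it (`Beta (toT ρ M) N → ∃ M', Beta M M' ∧ N = toT ρ M'`), so WN comes back. -/
theorem hwn_of_wn {P : Spec S} (h : ∀ (Γ : List (Term S)) (M : Term S), Legal P Γ M → Crest.LogicCS.PTS.WN M) : HWN P := by
  intro Γ M A hM
  obtain ⟨Θ, ρ, e⟩ := bc_env Γ hM.ok
  exact bc_wn (h Θ _ ⟨_, Or.inl (bc_ty hM Θ ρ e)⟩)

theorem stmt_of_main (H : MainFin) {S : Type*} (P : Spec S) : Stmt P :=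
  stmt_of_fin (fun k P h Γ M hM => sn_of_acc (H k P (hwn_of_wn h)) hM) P

end Crest.Agent.R298
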