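import Crest.Agent.R298.Ann

/-!
# Row 298.  Candidates for one stage (`X = d ∪ D`) and the interface `Sem` the fundamental lemma is proved against.
-/

set_option autoImplicit false
set_option linter.unusedSectionVars false
set_option linter.unusedVariables false

namespace Crest.Agent.R298

open scoped Classical
open ATm
open Crest.LogicCS.PTS (Spec)

variable {S : Type}

def Nd (P : Spec S) (X : Set (Set S)) : Set (ATm S) := {W | ∃ W', Steps W W' ∧ Dsp P X W'}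

inductive Core (P : Spec S) (X : Set (Set S)) : ATm S → Prop
  | sp {a : Atom S} {W : ATm S} : ASp a W → Dsp P X W → Core P X W
  | mem {W G : ATm S} : Core P X W → Dsp P X G → Core P X (mem W G)

def Ne (P : Spec S) (X : Set (Set S)) : Set (ATm S) := {W | ∃ W', Steps W W' ∧ Core P X W'}

structure Sat (P : Spec S) (X : Set (Set S)) (C : Set (ATm S)) : Prop where
  nd : C ⊆ Nd P X
  ne : Ne P X ⊆ C
  back : ∀ W W', Step W W' → W' ∈ C → W ∈ C
  mem : ∀ W G, W ∈ C → G ∈ Nd P X → mem W G ∈ C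

def CR (P : Spec S) (X : Set (Set S)) : Type := {C : Set (ATm S) // Sat P X C}

def Arr (P : Spec S) (X : Set (Set S)) (T K : Tm S) (C : Set (ATm S)) (F : ATm S → Set (ATm S)) : Set (ATm S) :=
  {t | t ∈ Nd P X ∧ ∀ N, GT P (er N) K → N ∈ C → ∀ T', nf T' = nf T → app T' t N ∈ F N}

variable {P : Spec S} {X : Set (Set S)} {W W' M N G : ATm S} {T K : Tm S}

theorem Core.dsp (h : Core P X W) : Dsp P X W := by
  induction h with
  | sp _ h => exact h
  | mem _ h ih => exact .mem ih h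

theorem ne_sub_nd : Ne P X ⊆ Nd P X := by
  rintro W ⟨W', h1, h2⟩
  exact ⟨W', h1, h2.dsp⟩

theorem atm_mem_ne (a : Atom S) : atm a ∈ Ne P X := by
  exact ⟨_, .refl, .sp .hd (.fv _ _)⟩

theorem srt_mem_nd (s : S) : srt s ∈ Nd P X := by
  exact ⟨_, .refl, .srt s⟩

theorem Nd.back (h : Steps W W') (h' : W' ∈ Nd P X) : W ∈ Nd P X := by
  obtain ⟨V, h1, h2⟩ := h'
  exact ⟨V, h.trans h1, h2⟩

theorem Nd.mem (h : W ∈ Nd P X) (h' : G ∈ Nd P X) : mem W G ∈ Nd P X := by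
  obtain ⟨V, h1, h2⟩ := h
  obtain ⟨V', h3, h4⟩ := h'
  exact ⟨_, Steps.mem h1 h3, .mem h2 h4⟩

theorem Core.app (h : Core P X M) (h' : Dsp P X N) (T : Tm S) : ∃ V, Steps (app T M N) V ∧ Core P X V := by
  induction h with
  | sp ha h => exact ⟨_, .refl, .sp (ha.app T N) (.app h h' fun _ => ⟨_, ha⟩)⟩
  | mem _ h ih =>
    obtain ⟨V, h1, h2⟩ := ih
    exact ⟨_, .head (.perm _ _ _ _) (Steps.mem h1 .refl), .mem h2 h⟩

theorem cand_steps_mx (h : Steps W W') : mx W' ≤ mx W := by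
  induction h with
  | refl => exact le_rfl
  | tail _ hb ih => exact hb.mx_le.trans ih

/-- push the garbage out with `perm` steps -/
theorem Ne.app (h : M ∈ Ne P X) (h' : N ∈ Nd P X) (T : Tm S) : app T M N ∈ Ne P X := by
  obtain ⟨V, h1, h2⟩ := h
  obtain ⟨V', h3, h4⟩ := h'
  obtain ⟨U, h5, h6⟩ := h2.app h4 T
  exact ⟨U, (Steps.app T h1 h3).trans h5, h6⟩

theorem Nd.app (h : M ∈ Nd P X) (h' : N ∈ Nd P X) (hT : lv P T ∉ X) : app T M N ∈ Nd P X := by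
  obtain ⟨V, h1, h2⟩ := h
  obtain ⟨V', h3, h4⟩ := h'
  exact ⟨_, Steps.app T h1 h3, .app h2 h4 fun hh => (hT hh).elim⟩

/-- `steps_inst_atm`, `Dsp.lam_one` with an index above everything (move `n` there with `Dsp.prm`, or note that `mx` does not
grow along steps), `nf (er C') = nf (er C)` -/
theorem Nd.lam {C : ATm S} {n : ℕ} (hC : C ∈ Nd P X) (hn : mx (lam C M) ≤ n)
    (h : inst (fv n (nf (er C))) M ∈ Nd P X) : lam C M ∈ Nd P X := by
  obtain ⟨C', h1, h2⟩ := hC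
  obtain ⟨V, h3, h4⟩ := h
  obtain ⟨M', h5, rfl⟩ := steps_inst_atm (a := (n, nf (er C))) h3
  have h6 := Steps.lam h1 h5
  refine ⟨_, h6, Dsp.lam_one h2 ((cand_steps_mx h6).trans hn) ?_⟩
  rw [← nf_cv h1.red.cv]
  exact h4

theorem Nd.pi {C : ATm S} {n : ℕ} (hC : C ∈ Nd P X) (hn : mx (pi C M) ≤ n)
    (h : inst (fv n (nf (er C))) M ∈ Nd P X) : pi C M ∈ Nd P X := by
  obtain ⟨C', h1, h2⟩ := hC
  obtain ⟨V, h3, h4⟩ := h
  obtain ⟨M', h5, rfl⟩ := steps_inst_atm (a := (n, nf (er C))) h3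
  have h6 := Steps.pi h1 h5
  refine ⟨_, h6, Dsp.pi_one h2 ((cand_steps_mx h6).trans hn) ?_⟩
  rw [← nf_cv h1.red.cv]
  exact h4

theorem sat_nd : Sat P X (Nd P X) := by
  exact ⟨subset_rfl, ne_sub_nd, fun _ _ h h' => Nd.back (.single h) h', fun _ _ => Nd.mem⟩

theorem sat_ne : Sat P X (Ne P X) := by
  refine ⟨ne_sub_nd, subset_rfl, ?_, ?_⟩
  · rintro W W' h ⟨V, h1, h2⟩
    exact ⟨V, .head h h1, h2⟩
  · rintro W G ⟨V, h1, h2⟩ ⟨V', h3, h4⟩
    exact ⟨_, Steps.mem h1 h3, .mem h2 h4⟩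

theorem sat_arr (T K : Tm S) (C : CR P X) (F : ATm S → CR P X) : Sat P X (Arr P X T K C.1 fun N => (F N).1) := by
  refine ⟨fun _ h => h.1, fun t ht => ⟨ne_sub_nd ht, fun N _ hN T' _ => (F N).2.ne (Ne.app ht (C.2.nd hN) T')⟩,
    fun W W' h h' => ⟨Nd.back (.single h) h'.1, fun N h1 hN T' hT => ?_⟩,
    fun W G h h' => ⟨Nd.mem h.1 h', fun N h1 hN T' hT => ?_⟩⟩
  · exact (F N).2.back _ _ (.appL _ _ h) (h'.2 N h1 hN T' hT)
  · exact (F N).2.back _ _ (.perm _ _ _ _) ((F N).2.mem _ _ (h.2 N h1 hN T' hT) h')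

theorem sat_inf (𝒞 : Set (CR P X)) : Sat P X (Nd P X ∩ ⋂ C ∈ 𝒞, C.1) := by
  refine ⟨fun _ h => h.1, fun t ht => ⟨ne_sub_nd ht, Set.mem_iInter₂.2 fun C _ => C.2.ne ht⟩,
    fun W W' h h' => ⟨Nd.back (.single h) h'.1, Set.mem_iInter₂.2 fun C hC => ?_⟩,
    fun W G h h' => ⟨Nd.mem h.1 h', Set.mem_iInter₂.2 fun C hC => ?_⟩⟩
  · exact C.2.back _ _ h (Set.mem_iInter₂.1 h'.2 C hC)
  · exact C.2.mem _ _ (Set.mem_iInter₂.1 h.2 C hC) h'

theorem Sat.backs {C : Set (ATm S)} (hC : Sat P X C) (h : Steps W W') (h' : W' ∈ C) : W ∈ C := by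
  induction h using Relation.ReflTransGen.head_induction_on with
  | refl => exact h'
  | head h _ ih => exact hC.back _ _ h ih

def ndC (P : Spec S) (X : Set (Set S)) : CR P X := ⟨Nd P X, sat_nd⟩
def neC (P : Spec S) (X : Set (Set S)) : CR P X := ⟨Ne P X, sat_ne⟩
def arrC (T K : Tm S) (C : CR P X) (F : ATm S → CR P X) : CR P X := ⟨_, sat_arr T K C F⟩
def infC (𝒞 : Set (CR P X)) : CR P X := ⟨_, sat_inf 𝒞⟩
instance : Inhabited (CR P X) := ⟨ndC P X⟩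

theorem arrC_congr {T T' K : Tm S} {C C' : CR P X} {F F' : ATm S → CR P X} (hT : nf T = nf T') (hC : C = C')
    (hF : ∀ N, GT P (er N) K → F N = F' N) : arrC T K C F = arrC T' K C' F' := by
  subst hC
  refine Subtype.ext (Set.ext fun t => ⟨fun h => ⟨h.1, fun N h1 hN U hU => ?_⟩, fun h => ⟨h.1, fun N h1 hN U hU => ?_⟩⟩)
  · have : app U t N ∈ (F N).1 := h.2 N h1 hN U (hU.trans hT.symm)
    rwa [hF N h1] at this
  · have : app U t N ∈ (F' N).1 := h.2 N h1 hN U (hU.trans hT)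
    rwa [← hF N h1] at this

theorem arrC_mono {T T' K : Tm S} {C C' : CR P X} {F F' : ATm S → CR P X} (hT : nf T = nf T') (hC : C'.1 ⊆ C.1)
    (hF : ∀ N, GT P (er N) K → (F N).1 ⊆ (F' N).1) : (arrC T K C F).1 ⊆ (arrC T' K C' F').1 := by
  exact fun t h => ⟨h.1, fun N h1 hN U hU => hF N h1 (h.2 N h1 (hC hN) U (hU.trans hT.symm))⟩

/-- environments: instance, kind, value -/
abbrev Env (S : Type) (V : Type 1) := Var S → Tm S × Tm S × V

def Env.th {V : Type 1} (η : Env S V) : Sb S := fun x => (η x).1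

def EOk (P : Spec S) {V : Type 1} (Γ : List (Atom S)) (η : Env S V) : Prop :=
  ∃ Δ, Mor P Δ Γ η.th ∧ ∀ a ∈ Γ, (η (.inr a)).2.1 = nf (Tm.sub η.th a.2)

section
variable {V : Type 1} {Γ : List (Atom S)} {η : Env S V}

theorem Env.th_vcons (x : Tm S × Tm S × V) (η : Env S V) : Env.th (vcons x η) = vcons x.1 η.th := by
  funext y
  rcases y with (_ | i) | a <;> rfl

theorem Env.th_vupd (η : Env S V) (a : Atom S) (x : Tm S × Tm S × V) : Env.th (vupd η a x) = vupd η.th a x.1 := by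
  funext y
  unfold Env.th vupd
  by_cases h : y = .inr a
  · subst h
    simp
  · simp [Function.update_of_ne h]

theorem EOk.tail {a : Atom S} (h : EOk P (a :: Γ) η) : EOk P Γ η := by
  obtain ⟨Δ, h1, h2⟩ := h
  exact ⟨Δ, h1.tail, fun b hb => h2 b (List.mem_cons_of_mem _ hb)⟩

/-- `GT.merge`, `Mor.thin`, `Mor.upd` -/
theorem EOk.upd (hP : HWN P) (h : EOk P Γ η) {a : Atom S} (hΓ : Ok P (a :: Γ)) (ha : a ∉ Γ) {Q : Tm S}
    (hQ : GT P Q (nf (Tm.sub η.th a.2))) (v : V) : EOk P (a :: Γ) (vupd η a (Q, nf (Tm.sub η.th a.2), v)) := by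
  obtain ⟨Δ, h1, h2⟩ := h
  obtain ⟨Δ', h3, h4, h5⟩ := hQ.merge h1.1
  have h6 := h1.thin h3 h4
  obtain ⟨s, hs⟩ : ∃ s, Ty P Γ a.2 (.srt s) := by
    cases hΓ with
    | cons h => exact ⟨_, h⟩
  have h7 : Ty P Δ' (Tm.sub η.th a.2) (.srt s) := hs.subst h6
  refine ⟨Δ', ?_, fun b hb => ?_⟩
  · rw [Env.th_vupd]
    exact h6.upd hΓ ha (.conv h5 h7 (.symm _ _ (h7.cv_nf hP).1))
  · rw [Env.th_vupd]
    rcases List.mem_cons.1 hb with rfl | hb
    · rw [sub_vupd fun ho => ha (hs.occ (Or.inl ho))]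
      simp [vupd]
    · obtain ⟨t, ht⟩ := hs.ok.sort hb
      have hne : (Sum.inr b : Var S) ≠ .inr a := fun e => ha (Sum.inr.inj e ▸ hb)
      rw [sub_vupd fun ho => ha (ht.occ (Or.inl ho)), vupd, Function.update_of_ne hne]
      exact h2 b hb

theorem EOk.atm_gt (hP : HWN P) (h : EOk P Γ η) {A : Tm S} {s : S} (hA : Ty P Γ A (.srt s)) (n : ℕ) :
    GT P (.fv n (nf (Tm.sub η.th A))) (nf (Tm.sub η.th A)) := by
  obtain ⟨Δ, h1, -⟩ := h
  have h2 : Ty P Δ (Tm.sub η.th A) (.srt s) := hA.subst h1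
  exact ⟨_, Ty.start (a := (n, nf (Tm.sub η.th A))) (h2.nf_tm hP)⟩

theorem eok_id (hΓ : Ok P Γ) (v : V) :
    EOk P Γ (fun x => (Tm.vr x, (match x with | .inl _ => Tm.bv 0 | .inr a => nf a.2), v)) := by
  refine ⟨Γ, Mor.id hΓ fun _ h => h, fun a _ => ?_⟩
  exact congrArg nf (sub_vr a.2).symm

end

/-- a valuation of the normal types by candidates -/
structure Sem (P : Spec S) (d D : Set (Set S)) where
  V : Type 1
  dv : V
  q : Tm S → Set V
  cand : Tm S → Env S V → CR P (d ∪ D)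
  out : ∀ T η, lv P (Tm.sub η.th T) ∉ d → cand T η = ndC P (d ∪ D)
  srt : ∀ s η, cand (.srt s) η = ndC P (d ∪ D)
  pi : ∀ Γ A B s η, Ty P Γ (.pi A B) (.srt s) → Nf (.pi A B) → EOk P Γ η → lv P (Tm.sub η.th (.pi A B)) ∈ d →
    cand (.pi A B) η = arrC (Tm.sub η.th (.pi A B)) (nf (Tm.sub η.th A)) (cand A η) fun N =>
      infC ((fun v => cand B (vcons (er N, nf (Tm.sub η.th A), v) η)) '' q (nf (Tm.sub η.th A)))
  opn : ∀ a B η x, ¬ Tm.Occ a B → cand (Tm.inst (Tm.atm a) B) (vupd η a x) = cand B (vcons x η)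
  loc : ∀ a T η x, ¬ Tm.Occ a T → cand T (vupd η a x) = cand T η
  elim : ∀ Γ A B s N η, Ty P Γ (.pi A B) (.srt s) → Nf (.pi A B) → Ty P Γ N A → EOk P Γ η →
    lv P (Tm.sub η.th (.pi A B)) ∈ d →
    (infC ((fun v => cand B (vcons (Tm.sub η.th N, nf (Tm.sub η.th A), v) η)) '' q (nf (Tm.sub η.th A)))).1 ⊆
      (cand (nf (Tm.inst N B)) η).1

end Crest.Agent.R298
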