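import Crest.Agent.R298.Ann

/-!
# Row 298.  Klop / Nederpelt: weak normalisation of the memo calculus gives strong normalisation of the erasure.
Recipe.  `strip` replaces every annotation by the fixed closed term `Tm.fv 0 (Tm.bv 0)` (fixed by `ren`; `strip (inst N M) =
inst (strip N) (strip M)`, prove it for `sub σ` with `σ` fixing atoms), `Step W W' → Step (strip W) (strip W')`,
`Step (strip W) V → ∃ W', Step W W' ∧ V = strip W'`.  On stripped terms `Step` is weakly confluent (orthogonal system; you need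
`Step N N' → Steps (inst N M) (inst N' M)` for stripped `M`, and `Step.sub`).  The measure `m (mem M G) = 2 * m M + m G + 1`,
`m (app _ M N) = m M + m N + 1`, `m (lam A M) = m A + m M + 1`, `m (pi ..)` alike, `m (leaf) = 1` strictly increases along `Step`
(`m M ≤ m (sub σ M)`).  `nederpelt` gives `Acc` for `Step` from `strip W`, hence from `W`; `step_sim` transfers it to `er W`.
-/

set_option autoImplicit false
set_option linter.unusedVariables false

namespace Crest.Agent.R298

open ATm

/-- induction on `m n - m a`: every reduct of `a` still reduces to `n` -/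
theorem nederpelt {α : Type*} (r : α → α → Prop) (m : α → ℕ) (hm : ∀ a b, r a b → m a < m b)
    (hw : ∀ a b c, r a b → r a c → ∃ e, Relation.ReflTransGen r b e ∧ Relation.ReflTransGen r c e)
    {a n : α} (h : Relation.ReflTransGen r a n) (hn : ∀ b, ¬ r n b) : Acc (fun x y => r y x) a := by
  have hle : ∀ a b, Relation.ReflTransGen r a b → m a ≤ m b := fun a b h => by
    induction h with
    | refl => exact le_rfl
    | tail _ hb ih => exact ih.trans (hm _ _ hb).le
  have key : ∀ k a, m n - m a < k → Relation.ReflTransGen r a n →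
      ∀ e, Relation.ReflTransGen r a e → Relation.ReflTransGen r e n := by
    intro k
    induction k with
    | zero => intro a ha; omega
    | succ k ih =>
      intro a ha h e he
      rcases he.cases_head with rfl | ⟨b, hb, he⟩
      · exact h
      rcases h.cases_head with rfl | ⟨c, hc, h⟩
      · exact (hn _ hb).elim
      obtain ⟨f, h1, h2⟩ := hw a b c hb hc
      have := hm _ _ hc
      have := hle _ _ h
      have h3 := h1.trans (ih c (by omega) h f h2)
      have := hm _ _ hb
      have := hle _ _ h3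
      exact ih b (by omega) h3 e he
  have key2 : ∀ k a, m n - m a < k → Relation.ReflTransGen r a n → Acc (fun x y => r y x) a := by
    intro k
    induction k with
    | zero => intro a ha; omega
    | succ k ih =>
      intro a ha h
      refine ⟨_, fun b hb => ?_⟩
      have h3 := key _ a (Nat.lt_succ_self _) h b (.single hb)
      have := hm _ _ hb
      have := hle _ _ h3
      exact ih b (by omega) h3
  exact key2 _ a (Nat.lt_succ_self _) h

section
variable {S : Type}

/-- forget the annotations -/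
def klStrip : ATm S → ATm S
  | bv i => bv i
  | fv n A => fv n A
  | srt s => srt s
  | app _ M N => app (.fv 0 (.bv 0)) (klStrip M) (klStrip N)
  | lam A M => lam (klStrip A) (klStrip M)
  | pi A B => pi (klStrip A) (klStrip B)
  | mem M G => mem (klStrip M) (klStrip G)

/-- the increasing measure -/
def klM : ATm S → ℕ
  | bv _ => 1
  | fv _ _ => 1
  | srt _ => 1
  | app _ M N => klM M + klM N + 1
  | lam A M => klM A + klM M + 1
  | pi A B => klM A + klM B + 1
  | mem M G => 2 * klM M + klM G + 1

theorem kl_m_pos (M : ATm S) : 1 ≤ klM M := by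
  cases M <;> simp [klM]

theorem kl_m_sub (σ : ASb S) (M : ATm S) : klM M ≤ klM (sub σ M) := by
  induction M generalizing σ with
  | bv i => exact kl_m_pos _
  | fv n A => exact kl_m_pos _
  | srt s => exact le_rfl
  | app T M N i1 i2 => have := i1 σ; have := i2 σ; simp only [sub, klM]; omega
  | lam M N i1 i2 => have := i1 σ; have := i2 (up σ); simp only [sub, klM]; omega
  | pi M N i1 i2 => have := i1 σ; have := i2 (up σ); simp only [sub, klM]; omega
  | mem M N i1 i2 => have := i1 σ; have := i2 σ; simp only [sub, klM]; omega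

theorem kl_m_step {W W' : ATm S} (h : Step W W') : klM W < klM W' := by
  induction h with
  | beta T A M N =>
    have : klM M ≤ klM (inst N M) := kl_m_sub _ _
    simp only [klM]
    omega
  | _ => simp only [klM]; omega

theorem kl_strip_strip (M : ATm S) : klStrip (klStrip M) = klStrip M := by
  induction M <;> simp [klStrip, *]

theorem kl_strip_ren (ξ : ℕ → ℕ) (M : ATm S) : klStrip (ren ξ M) = ren ξ (klStrip M) := by
  induction M generalizing ξ <;> simp [klStrip, ren, Tm.ren, *]

theorem kl_ann {σ : ASb S} (h : ∀ a, σ (.inr a) = atm a) :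
    Tm.sub (ers σ) (.fv 0 (.bv 0)) = .fv 0 (.bv 0) := by
  simp only [Tm.sub, ers, h, atm, er]

theorem kl_strip_sub (M : ATm S) {σ τ : ASb S} (h1 : ∀ a, σ (.inr a) = atm a) (h2 : ∀ a, τ (.inr a) = atm a)
    (h : ∀ i, klStrip (σ (.inl i)) = τ (.inl i)) : klStrip (sub σ M) = sub τ (klStrip M) := by
  induction M generalizing σ τ with
  | bv i => exact h i
  | srt s => rfl
  | fv n A => simp only [sub, klStrip, h1, h2, atm]
  | app T M N i1 i2 => simp only [sub, klStrip, i1 h1 h2 h, i2 h1 h2 h, kl_ann h2]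
  | mem M N i1 i2 => simp only [sub, klStrip, i1 h1 h2 h, i2 h1 h2 h]
  | lam M N i1 i2 | pi M N i1 i2 =>
    simp only [sub, klStrip]
    rw [i1 h1 h2 h, i2 (σ := up σ) (τ := up τ) (fun a => congrArg lift (h1 a)) fun a => congrArg lift (h2 a)]
    rintro (_ | i)
    · rfl
    · exact (kl_strip_ren _ _).trans (congrArg lift (h i))

theorem kl_strip_inst (N M : ATm S) : klStrip (inst N M) = inst (klStrip N) (klStrip M) := by
  refine kl_strip_sub M (fun _ => rfl) (fun _ => rfl) ?_
  rintro (_ | i) <;> rfl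

theorem kl_step_strip {W W' : ATm S} (h : Step W W') : Step (klStrip W) (klStrip W') := by
  induction h with
  | beta T A M N => simp only [klStrip, kl_strip_inst]; exact .beta _ _ _ _
  | perm T M G N => exact .perm _ _ _ _
  | appL T N _ ih => exact .appL _ _ ih
  | appR T N _ ih => exact .appR _ _ ih
  | lamA N _ ih => exact .lamA _ ih
  | lamM N _ ih => exact .lamM _ ih
  | piA N _ ih => exact .piA _ ih
  | piB N _ ih => exact .piB _ ih
  | memL N _ ih => exact .memL _ ih
  | memR N _ ih => exact .memR _ ih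

theorem kl_step_of_strip {W V : ATm S} (h : Step (klStrip W) V) : ∃ W', Step W W' ∧ V = klStrip W' := by
  induction W generalizing V with
  | bv i => cases h
  | srt s => cases h
  | fv n A => cases h
  | lam M N i1 i2 =>
    cases h with
    | lamA _ h => obtain ⟨P, h1, rfl⟩ := i1 h; exact ⟨_, .lamA _ h1, rfl⟩
    | lamM _ h => obtain ⟨P, h1, rfl⟩ := i2 h; exact ⟨_, .lamM _ h1, rfl⟩
  | pi M N i1 i2 =>
    cases h with
    | piA _ h => obtain ⟨P, h1, rfl⟩ := i1 h; exact ⟨_, .piA _ h1, rfl⟩
    | piB _ h => obtain ⟨P, h1, rfl⟩ := i2 h; exact ⟨_, .piB _ h1, rfl⟩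
  | mem M N i1 i2 =>
    cases h with
    | memL _ h => obtain ⟨P, h1, rfl⟩ := i1 h; exact ⟨_, .memL _ h1, rfl⟩
    | memR _ h => obtain ⟨P, h1, rfl⟩ := i2 h; exact ⟨_, .memR _ h1, rfl⟩
  | app T M N i1 i2 =>
    rw [klStrip] at h
    generalize e : klStrip M = M' at h
    cases h with
    | beta _ A P _ =>
      cases M <;> simp only [klStrip, reduceCtorEq, lam.injEq] at e
      obtain ⟨rfl, rfl⟩ := e
      exact ⟨_, .beta _ _ _ _, by simp only [klStrip, kl_strip_inst]⟩
    | perm _ A P _ =>
      cases M <;> simp only [klStrip, reduceCtorEq, mem.injEq] at e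
      obtain ⟨rfl, rfl⟩ := e
      exact ⟨_, .perm _ _ _ _, rfl⟩
    | appL _ _ h => subst e; obtain ⟨P, h1, rfl⟩ := i1 h; exact ⟨_, .appL _ _ h1, rfl⟩
    | appR _ _ h => subst e; obtain ⟨P, h1, rfl⟩ := i2 h; exact ⟨_, .appR _ _ h1, rfl⟩

theorem kl_tm_ren (ξ : ℕ → ℕ) (M : Tm S) : Tm.ren ξ M = Tm.sub (fun x => Tm.ren ξ (Tm.vr x)) M := by
  induction M generalizing ξ with
  | bv i => rfl
  | fv n A => rfl
  | srt s => rfl
  | app M N i1 i2 => rw [Tm.ren, Tm.sub, ← i1, ← i2]
  | lam M N i1 i2 | pi M N i1 i2 =>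
    have e : Tm.up (fun x => Tm.ren ξ (Tm.vr x)) = fun x : Var S => Tm.ren (upr ξ) (Tm.vr x) := by
      funext x
      rcases x with (_ | i) | a <;> rfl
    rw [Tm.ren, Tm.sub, ← i1, e, ← i2]

theorem kl_ren (ξ : ℕ → ℕ) (M : ATm S) : ren ξ M = sub (fun x => ren ξ (vr x)) M := by
  induction M generalizing ξ with
  | bv i => rfl
  | fv n A => rfl
  | srt s => rfl
  | app T M N i1 i2 =>
    have e : ers (fun x => ren ξ (vr x)) = fun x : Var S => Tm.ren ξ (Tm.vr x) := by
      funext x
      rcases x with i | a <;> rfl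
    rw [ren, sub, ← i1, ← i2, e, ← kl_tm_ren]
  | mem M N i1 i2 => rw [ren, sub, ← i1, ← i2]
  | lam M N i1 i2 | pi M N i1 i2 =>
    have e : up (fun x => ren ξ (vr x)) = fun x : Var S => ren (upr ξ) (vr x) := by
      funext x
      rcases x with (_ | i) | a <;> rfl
    rw [ren, sub, ← i1, e, ← i2]

theorem kl_steps_lift {M N : ATm S} (h : Steps M N) : Steps (lift M) (lift N) := by
  refine h.lift lift fun a b hab => ?_
  show Step (ren _ a) (ren _ b)
  rw [kl_ren, kl_ren _ b]
  exact hab.sub _

theorem kl_steps_sub (M : ATm S) {σ τ : ASb S} (h1 : ∀ a, σ (.inr a) = atm a) (h2 : ∀ a, τ (.inr a) = atm a)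
    (h : ∀ i, Steps (σ (.inl i)) (τ (.inl i))) : Steps (sub σ (klStrip M)) (sub τ (klStrip M)) := by
  have hup : ∀ {σ τ : ASb S}, (∀ i, Steps (σ (.inl i)) (τ (.inl i))) →
      ∀ i, Steps (up σ (.inl i)) (up τ (.inl i)) := by
    rintro σ τ h (_ | i)
    · exact .refl
    · exact kl_steps_lift (h i)
  induction M generalizing σ τ with
  | bv i => exact h i
  | srt s => exact .refl
  | fv n A => simp only [sub, klStrip, h1, h2]; exact .refl
  | app T M N i1 i2 =>
    simp only [sub, klStrip, kl_ann h1, kl_ann h2]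
    exact Steps.app _ (i1 h1 h2 h) (i2 h1 h2 h)
  | mem M N i1 i2 => exact Steps.mem (i1 h1 h2 h) (i2 h1 h2 h)
  | lam M N i1 i2 =>
    exact Steps.lam (i1 h1 h2 h)
      (i2 (σ := up σ) (τ := up τ) (fun a => congrArg lift (h1 a)) (fun a => congrArg lift (h2 a)) (hup h))
  | pi M N i1 i2 =>
    exact Steps.pi (i1 h1 h2 h)
      (i2 (σ := up σ) (τ := up τ) (fun a => congrArg lift (h1 a)) (fun a => congrArg lift (h2 a)) (hup h))

theorem kl_steps_inst {M N N' : ATm S} (hM : klStrip M = M) (h : Step N N') : Steps (inst N M) (inst N' M) := by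
  rw [← hM]
  refine kl_steps_sub M (fun _ => rfl) (fun _ => rfl) ?_
  rintro (_ | i)
  · exact .single h
  · exact .refl

theorem kl_beta_join {T : Tm S} {A M N c : ATm S} (hM : klStrip M = M) (h : Step (app T (lam A M) N) c) :
    ∃ e, Steps (mem (mem (inst N M) N) A) e ∧ Steps c e := by
  cases h with
  | beta => exact ⟨_, .refl, .refl⟩
  | appL _ _ h =>
    cases h with
    | lamA _ h => exact ⟨_, .single (.memR _ h), .single (.beta _ _ _ _)⟩
    | lamM _ h => exact ⟨_, .single (.memL _ (.memL _ (h.sub _))), .single (.beta _ _ _ _)⟩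
  | appR _ _ h =>
    exact ⟨_, Steps.mem (Steps.mem (kl_steps_inst hM h) (.single h)) .refl, .single (.beta _ _ _ _)⟩

theorem kl_perm_join {T : Tm S} {M G N c : ATm S} (h : Step (app T (mem M G) N) c) :
    ∃ e, Steps (mem (app T M N) G) e ∧ Steps c e := by
  cases h with
  | perm => exact ⟨_, .refl, .refl⟩
  | appL _ _ h =>
    cases h with
    | memL _ h => exact ⟨_, .single (.memL _ (.appL _ _ h)), .single (.perm _ _ _ _)⟩
    | memR _ h => exact ⟨_, .single (.memR _ h), .single (.perm _ _ _ _)⟩
  | appR _ _ h => exact ⟨_, .single (.memL _ (.appR _ _ h)), .single (.perm _ _ _ _)⟩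

theorem kl_wcr {a b c : ATm S} (ha : klStrip a = a) (hb : Step a b) (hc : Step a c) :
    ∃ e, Steps b e ∧ Steps c e := by
  induction hb generalizing c with
  | beta T A M N =>
    simp only [klStrip, app.injEq, lam.injEq] at ha
    exact kl_beta_join ha.2.1.2 hc
  | perm T M G N => exact kl_perm_join hc
  | appL T N h ih =>
    simp only [klStrip, app.injEq] at ha
    cases hc with
    | beta _ A M _ =>
      simp only [klStrip, lam.injEq] at ha
      obtain ⟨e, h1, h2⟩ := kl_beta_join ha.2.1.2 (Step.appL T N h)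
      exact ⟨e, h2, h1⟩
    | perm _ M G _ =>
      obtain ⟨e, h1, h2⟩ := kl_perm_join (Step.appL T N h)
      exact ⟨e, h2, h1⟩
    | appL _ _ h' =>
      obtain ⟨e, h1, h2⟩ := ih ha.2.1 h'
      exact ⟨_, Steps.app _ h1 .refl, Steps.app _ h2 .refl⟩
    | appR _ _ h' => exact ⟨_, .single (.appR _ _ h'), .single (.appL _ _ h)⟩
  | appR T M h ih =>
    simp only [klStrip, app.injEq] at ha
    cases hc with
    | beta _ A M _ =>
      simp only [klStrip, lam.injEq] at ha
      obtain ⟨e, h1, h2⟩ := kl_beta_join ha.2.1.2 (Step.appR T _ h)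
      exact ⟨e, h2, h1⟩
    | perm _ M G _ =>
      obtain ⟨e, h1, h2⟩ := kl_perm_join (Step.appR T _ h)
      exact ⟨e, h2, h1⟩
    | appL _ _ h' => exact ⟨_, .single (.appL _ _ h'), .single (.appR _ _ h)⟩
    | appR _ _ h' =>
      obtain ⟨e, h1, h2⟩ := ih ha.2.2 h'
      exact ⟨_, Steps.app _ .refl h1, Steps.app _ .refl h2⟩
  | lamA N h ih =>
    simp only [klStrip, lam.injEq] at ha
    cases hc with
    | lamA _ h' =>
      obtain ⟨e, h1, h2⟩ := ih ha.1 h'
      exact ⟨_, Steps.lam h1 .refl, Steps.lam h2 .refl⟩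
    | lamM _ h' => exact ⟨_, .single (.lamM _ h'), .single (.lamA _ h)⟩
  | lamM N h ih =>
    simp only [klStrip, lam.injEq] at ha
    cases hc with
    | lamA _ h' => exact ⟨_, .single (.lamA _ h'), .single (.lamM _ h)⟩
    | lamM _ h' =>
      obtain ⟨e, h1, h2⟩ := ih ha.2 h'
      exact ⟨_, Steps.lam .refl h1, Steps.lam .refl h2⟩
  | piA N h ih =>
    simp only [klStrip, pi.injEq] at ha
    cases hc with
    | piA _ h' =>
      obtain ⟨e, h1, h2⟩ := ih ha.1 h'
      exact ⟨_, Steps.pi h1 .refl, Steps.pi h2 .refl⟩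
    | piB _ h' => exact ⟨_, .single (.piB _ h'), .single (.piA _ h)⟩
  | piB N h ih =>
    simp only [klStrip, pi.injEq] at ha
    cases hc with
    | piA _ h' => exact ⟨_, .single (.piA _ h'), .single (.piB _ h)⟩
    | piB _ h' =>
      obtain ⟨e, h1, h2⟩ := ih ha.2 h'
      exact ⟨_, Steps.pi .refl h1, Steps.pi .refl h2⟩
  | memL N h ih =>
    simp only [klStrip, mem.injEq] at ha
    cases hc with
    | memL _ h' =>
      obtain ⟨e, h1, h2⟩ := ih ha.1 h'
      exact ⟨_, Steps.mem h1 .refl, Steps.mem h2 .refl⟩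
    | memR _ h' => exact ⟨_, .single (.memR _ h'), .single (.memL _ h)⟩
  | memR N h ih =>
    simp only [klStrip, mem.injEq] at ha
    cases hc with
    | memL _ h' => exact ⟨_, .single (.memL _ h'), .single (.memR _ h)⟩
    | memR _ h' =>
      obtain ⟨e, h1, h2⟩ := ih ha.2 h'
      exact ⟨_, Steps.mem .refl h1, Steps.mem .refl h2⟩

theorem kl_st_step {a b : ATm S} (ha : klStrip a = a) (h : Step a b) : klStrip b = b := by
  rw [← ha] at h
  obtain ⟨W', -, rfl⟩ := kl_step_of_strip h
  exact kl_strip_strip _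

theorem kl_st_steps {a b : ATm S} (ha : klStrip a = a) (h : Steps a b) :
    Relation.ReflTransGen (fun x y : ATm S => klStrip x = x ∧ Step x y) a b := by
  induction h using Relation.ReflTransGen.head_induction_on with
  | refl => exact .refl
  | head h _ ih => exact .head ⟨ha, h⟩ (ih (kl_st_step ha h))

theorem kl_acc {W : ATm S} (h : AWN W) : Acc (fun x y => Step y x) W := by
  obtain ⟨W', h1, h2⟩ := h
  have hacc := nederpelt (fun x y : ATm S => klStrip x = x ∧ Step x y) klM (fun a b h => kl_m_step h.2)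
    (fun a b c hb hc => by
      obtain ⟨e, h1, h2⟩ := kl_wcr hb.1 hb.2 hc.2
      exact ⟨e, kl_st_steps (kl_st_step hb.1 hb.2) h1, kl_st_steps (kl_st_step hc.1 hc.2) h2⟩)
    (kl_st_steps (kl_strip_strip W) (h1.lift klStrip fun _ _ => kl_step_strip)) (fun b hb => by
      obtain ⟨V, hV, -⟩ := kl_step_of_strip hb.2
      exact h2 V hV)
  clear h1 h2
  generalize e : klStrip W = V at hacc
  induction hacc generalizing W with
  | intro V _ ih =>
    subst e
    exact ⟨_, fun W' hW' => ih _ ⟨kl_strip_strip W, kl_step_strip hW'⟩ rfl⟩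

end

theorem klop {S : Type} {W : ATm S} (h : AWN W) : Acc (fun x y => Beta y x) (er W) := by
  have hacc := (kl_acc h).transGen
  clear h
  induction hacc with
  | intro W _ ih =>
    refine ⟨_, fun Q hQ => ?_⟩
    obtain ⟨W', h1, rfl⟩ := step_sim hQ
    exact ih W' h1.swap

end Crest.Agent.R298
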