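import Crest.Agent.R298.Cand
import Crest.Agent.R298.Klop

/-!
# Row 298.  The fundamental lemma and the induction over the stages.
-/

set_option autoImplicit false
set_option linter.unusedSectionVars false
set_option linter.unusedVariables false

namespace Crest.Agent.R298

open scoped Classical
open ATm
open Crest.LogicCS.PTS (Spec)

variable {S : Type} {P : Spec S} {d D : Set (Set S)}

/-- a reducible substitution over the environment `η` -/
def RSub (m : Sem P d D) (Γ : List (Atom S)) (η : Env S m.V) (σ : ASb S) : Prop :=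
  ers σ = η.th ∧ ∀ a ∈ Γ, σ (.inr a) ∈ (m.cand (nf a.2) η).1 ∧
    (lv P (Tm.sub η.th a.2) ∈ D → σ (.inr a) ∈ Ne P (d ∪ D))

/-- the conclusion of the fundamental lemma -/
def FLc (m : Sem P d D) (Γ : List (Atom S)) (W : ATm S) (A : Tm S) : Prop :=
  Dsp P D W → ∀ η σ, EOk P Γ η → RSub m Γ η σ → sub σ W ∈ (m.cand (nf A) η).1 ∧
    ((∃ a, ASp a W) → lv P (Tm.sub η.th A) ∈ D → sub σ W ∈ Ne P (d ∪ D))

variable {Γ : List (Atom S)} {m : Sem P d D}

/-- part a.  `m.loc` for the old atoms (`a` does not occur in `nf b.2`, `b ∈ Γ`, nor in `nf a.2`) -/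
theorem RSub.upd (hP : HWN P) {η : Env S m.V} {σ : ASb S} (h : RSub m Γ η σ) {a : Atom S} (hΓ : Ok P (a :: Γ)) (ha : a ∉ Γ)
    {N : ATm S} (K : Tm S) (v : m.V) (hN : N ∈ (m.cand (nf a.2) η).1)
    (hD : lv P (Tm.sub η.th a.2) ∈ D → N ∈ Ne P (d ∪ D)) : RSub m (a :: Γ) (vupd η a (er N, K, v)) (vupd σ a N) := by
  refine ⟨by rw [ers_vupd, Env.th_vupd, h.1], fun b hb => ?_⟩
  have ho : ¬ Tm.Occ a b.2 := fun ho => by
    cases hΓ with
    | cons hA =>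
      rcases List.mem_cons.1 hb with rfl | hb
      · exact ha (hA.occ (Or.inl ho))
      · obtain ⟨t, ht⟩ := hA.ok.sort hb
        exact ha (ht.occ (Or.inl ho))
  rw [m.loc a _ η _ fun h' => ho (occ_nf h'), Env.th_vupd, sub_vupd ho]
  rcases List.mem_cons.1 hb with rfl | hb
  · rw [vupd, Function.update_self]
    exact ⟨hN, hD⟩
  · rw [vupd, Function.update_of_ne]
    · exact h.2 b hb
    · rintro ⟨⟩
      exact ha hb

/-- part a.  Open the substituted body with the fresh atom `(n', K)`, `K = nf ((er C)[θ])`; `Nd.pi`, `Dsp.open_pi`. -/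
theorem fl_prod (hP : HWN P) (hs : Stage P d D) {C E : ATm S} {n : ℕ} {s₁ s₂ s₃ : S}
    (h1 : ATy P Γ C (.srt s₁)) (h2 : (n, er C) ∉ Γ) (h3 : ¬ Occ (n, er C) E)
    (h4 : ATy P ((n, er C) :: Γ) (inst (fv n (er C)) E) (.srt s₂)) (hr : P.rule s₁ s₂ s₃)
    (i1 : FLc m Γ C (.srt s₁)) (i4 : FLc m ((n, er C) :: Γ) (inst (fv n (er C)) E) (.srt s₂)) :
    FLc m Γ (pi C E) (.srt s₃) := by
  intro hd η σ hη hσ
  refine ⟨?_, fun ⟨a, ha⟩ => by cases ha⟩
  obtain ⟨d1, d4⟩ := hd.open_pi hP hs.clo (.prod h1 h2 h3 h4 hr) n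
  rw [(nf_srt s₃).nf_eq, m.srt]
  refine Nd.pi (n := mx (pi (sub σ C) (sub (up σ) E))) ((m.cand _ η).2.nd (i1 d1 η σ hη hσ).1) le_rfl ?_
  generalize mx (pi (sub σ C) (sub (up σ) E)) = n'
  rw [er_sub, hσ.1, ATm.inst_sub_up, ← ATm.sub_vupd_inst h3]
  exact (m.cand _ _).2.nd (i4 d4 _ _ (hη.upd hP h4.er.ok h2 (hη.atm_gt hP h1.er n') m.dv)
    (hσ.upd hP h4.er.ok h2 (N := fv n' (nf (Tm.sub η.th (er C)))) _ m.dv
      ((m.cand _ η).2.ne (atm_mem_ne (n', _))) fun _ => atm_mem_ne (n', _))).1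

/-- part b.  First `Nd` (as in `fl_prod`).  If the level of the product is outside `d` use `m.out`.  Otherwise
`nf (pi A B) = pi (nf A) (nf B)`, `m.pi`; for an argument `N` and `v ∈ q K` use the hypothesis with
`vupd η a (er N, K, v)`, `vupd σ a N` (the domain level is not in `D`: `reach_dom`), `m.opn`, then `Sat.mem` twice and `Sat.back`
(`Step.beta`); membership in the `Nd` part of `infC` from any `v` (e.g. `m.dv`). -/
theorem fl_abs (hP : HWN P) (hs : Stage P d D) {C M : ATm S} {B : Tm S} {n : ℕ} {s₁ s : S}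
    (h1 : ATy P Γ C (.srt s₁)) (h2 : (n, er C) ∉ Γ) (h3 : ¬ Occ (n, er C) M) (h3' : ¬ Tm.Occ (n, er C) B)
    (h4 : ATy P ((n, er C) :: Γ) (inst (fv n (er C)) M) (Tm.inst (.fv n (er C)) B))
    (h5 : Ty P Γ (.pi (er C) B) (.srt s))
    (i1 : FLc m Γ C (.srt s₁)) (i4 : FLc m ((n, er C) :: Γ) (inst (fv n (er C)) M) (Tm.inst (.fv n (er C)) B)) :
    FLc m Γ (lam C M) (.pi (er C) B) := by
  intro hd η σ hη hσ
  refine ⟨?_, fun ⟨a, ha⟩ => by cases ha⟩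
  obtain ⟨hdC, hdM⟩ := hd.open_lam hP hs.clo (ATy.abs h1 h2 h3 h3' h4 h5) n
  have hA : Ty P Γ (er C) (.srt s₁) := h1.er
  have hok : Ok P ((n, er C) :: Γ) := .cons (a := (n, er C)) hA
  have hC : sub σ C ∈ Nd P (d ∪ D) := (m.cand _ η).2.nd (i1 hdC η σ hη hσ).1
  have hW : WN (Tm.pi (er C) B) := hP _ _ _ h5
  obtain ⟨hWA, hWB, hnf⟩ := hW.pi
  have key : ∀ (N : ATm S) (v : m.V), GT P (er N) (nf (Tm.sub η.th (er C))) → N ∈ (m.cand (nf (er C)) η).1 →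
      (lv P (Tm.sub η.th (er C)) ∈ D → N ∈ Ne P (d ∪ D)) →
      inst N (sub (up σ) M) ∈ (m.cand (nf B) (vcons (er N, nf (Tm.sub η.th (er C)), v) η)).1 := by
    intro N v hN hN' hD
    have h := (i4 hdM _ _ (hη.upd hP (a := (n, er C)) hok h2 hN v)
      (hσ.upd hP (a := (n, er C)) hok h2 (nf (Tm.sub η.th (er C))) v hN' hD)).1
    have e1 : sub (vupd σ (n, er C) N) (inst (fv n (er C)) M) = inst N (sub (up σ) M) := by
      rw [ATm.inst_sub_up]
      exact ATm.sub_vupd_inst (a := (n, er C)) h3 σ N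
    have e2 : nf (Tm.inst (.fv n (er C)) B) = Tm.inst (Tm.atm (n, er C)) (nf B) := hWB.nf_inst_atm (n, er C)
    rw [e1, e2, m.opn _ _ _ _ fun h => h3' (occ_nf h)] at h
    exact h
  have hN : sub σ (lam C M) ∈ Nd P (d ∪ D) := by
    refine Nd.lam (n := mx (lam (sub σ C) (sub (up σ) M))) hC le_rfl ?_
    rw [er_sub, hσ.1]
    have hne := atm_mem_ne (P := P) (X := d ∪ D) (mx (lam (sub σ C) (sub (up σ) M)), nf (Tm.sub η.th (er C)))
    exact (m.cand _ _).2.nd (key _ m.dv (hη.atm_gt hP hA _) ((m.cand _ η).2.ne hne) fun _ => hne)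
  rw [hnf]
  by_cases hl : lv P (Tm.sub η.th (.pi (nf (er C)) (nf B))) ∈ d
  · have hK : nf (Tm.sub η.th (nf (er C))) = nf (Tm.sub η.th (er C)) := (nf_cv (cv_sub hWA.red_nf.cv _)).symm
    have hD : lv P (Tm.sub η.th (er C)) ∉ D := by
      intro hD
      obtain ⟨Δ, hθ, -⟩ := hη
      have h6 := hs.clo _ _ hD (reach_dom hP (h5.subst hθ))
      have h7 : lv P (Tm.sub η.th (.pi (er C) B)) = lv P (Tm.sub η.th (.pi (nf (er C)) (nf B))) :=
        lv_cv (cv_sub (hnf ▸ hW.red_nf.cv) _)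
      exact hs.dis _ (h7 ▸ hl) h6
    rw [m.pi Γ _ _ s η (hnf ▸ h5.nf_tm hP) (hnf ▸ nf_nf _) hη hl, hK]
    refine ⟨hN, fun N hN1 hN2 T' _ => ?_⟩
    have hall : ∀ v : m.V, app T' (sub σ (lam C M)) N ∈
        (m.cand (nf B) (vcons (er N, nf (Tm.sub η.th (er C)), v) η)).1 := by
      intro v
      have hS := (m.cand (nf B) (vcons (er N, nf (Tm.sub η.th (er C)), v) η)).2
      exact hS.back _ _ (Step.beta T' _ _ N)
        (hS.mem _ _ (hS.mem _ _ (key N v hN1 hN2 fun h => absurd h hD) ((m.cand _ η).2.nd hN2)) hC)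
    refine ⟨(m.cand _ _).2.nd (hall m.dv), ?_⟩
    simp only [Set.mem_iInter]
    rintro _ ⟨v, -, rfl⟩
    exact hall v
  · rw [m.out _ _ hl]
    exact hN

/-- part c.  Cases on the level `l` of `(pi A B)[θ]`: `l ∈ D` (then `lv T ∈ D` by `ps_sub`, `M` is a spine, `Ne.app`);
`l ∈ d` (`m.pi`, `m.elim` for `pi (nf A) (nf B)`; `nf (inst N (nf B)) = nf (inst N B)`); otherwise the level of the result is outside
`d ∪ D` (`ps_cod`), `m.out`, `Nd.app`.  Second component: `ps_cod` and closure of `D`. -/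
theorem fl_app (hP : HWN P) (hs : Stage P d D) {M N : ATm S} {T A B : Tm S}
    (h1 : ATy P Γ M (.pi A B)) (h2 : ATy P Γ N A) (h3 : Cv T (.pi A B))
    (i1 : FLc m Γ M (.pi A B)) (i2 : FLc m Γ N A) : FLc m Γ (app T M N) (Tm.inst (er N) B) := by
  intro hd η σ hη hσ
  obtain _ | _ | _ | ⟨dM, dN, dT⟩ := hd
  obtain ⟨a1, a2⟩ := i1 dM η σ hη hσ
  have b1 := (i2 dN η σ hη hσ).1
  have b2 := (m.cand _ _).2.nd b1
  obtain ⟨Δ, hΔ, -⟩ := id hη
  obtain ⟨s, t1⟩ := h1.er.pi_ty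
  have t2 := h2.er
  have e : sub σ (app T M N) = app (Tm.sub η.th T) (sub σ M) (sub σ N) := by rw [← hσ.1]; rfl
  rw [e]
  have k1 : lv P (Tm.sub η.th (.pi A B)) ∈ D → app (Tm.sub η.th T) (sub σ M) (sub σ N) ∈ Ne P (d ∪ D) := fun hl =>
    Ne.app (a2 (dT (lv_cv (P := P) h3 ▸ hs.clo _ _ hl (ps_sub hP t1 hΔ).reach)) hl) b2 _
  have k2 : Reach P (lv P (Tm.sub η.th (Tm.inst (er N) B))) (lv P (Tm.sub η.th (.pi A B))) := by
    rw [R298.sub_inst, ← R298.inst_sub_up]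
    exact (ps_cod hP (t1.subst hΔ) (t2.subst hΔ)).reach
  refine ⟨?_, fun _ hl => k1 (hs.clo _ _ hl k2)⟩
  by_cases c1 : lv P (Tm.sub η.th (.pi A B)) ∈ D
  · exact (m.cand _ _).2.ne (k1 c1)
  by_cases c2 : lv P (Tm.sub η.th (.pi A B)) ∈ d
  · obtain ⟨-, w2, w3⟩ := (hP _ _ _ t1).pi
    have t3 := t1.nf_tm hP
    have t4 := nf_nf (Tm.pi A B)
    have t5 := (t1.cv_nf hP).1
    rw [w3] at a1 t3 t4 t5
    rw [lv_cv (cv_sub t5 _)] at c2
    rw [m.pi Γ _ _ s η t3 t4 hη c2] at a1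
    have e2 : er (sub σ N) = Tm.sub η.th (er N) := by rw [er_sub, hσ.1]
    have a3 := a1.2 (sub σ N) ⟨Δ, e2 ▸ ((t2.nf_ty hP).subst hΔ).nf_ty hP⟩ b1 (Tm.sub η.th T)
      (nf_cv (cv_sub (.trans _ _ _ h3 t5) _))
    rw [nf_cv (cv_inst (.refl (er N)) w2.red_nf.cv)]
    refine m.elim Γ _ _ s (er N) η t3 t4 (t2.nf_ty hP) hη c2 ?_
    rw [← e2]
    exact a3
  have c3 : lv P (Tm.sub η.th (.pi A B)) ∉ d ∪ D := fun h => h.elim c2 c1
  rw [m.out _ _ fun h => c3 (hs.clo' (Or.inl (lv_cv (P := P) (cv_sub ((h1.er.appl t2).cv_nf hP).2 _) ▸ h)) k2)]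
  exact Nd.app ((m.cand _ _).2.nd a1) b2 (by rwa [lv_cv (cv_sub h3 _)])

/-- part a (the remaining cases) -/
theorem fl (hP : HWN P) (hs : Stage P d D) (m : Sem P d D) {W : ATm S} {A : Tm S} (h : ATy P Γ W A) : FLc m Γ W A := by
  induction h with
  | @ax s t _ =>
    refine fun _ η σ _ _ => ⟨?_, fun ⟨a, ha⟩ => by cases ha⟩
    rw [(nf_srt t).nf_eq, m.srt]
    exact srt_mem_nd s
  | start _ => exact fun _ η σ _ hσ => ⟨(hσ.2 _ List.mem_cons_self).1, fun _ => (hσ.2 _ List.mem_cons_self).2⟩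
  | weak _ _ ih => exact fun hd η σ hη hσ => ih hd η σ hη.tail ⟨hσ.1, fun b hb => hσ.2 b (List.mem_cons_of_mem _ hb)⟩
  | prod h1 h2 h3 h4 hr i1 i4 => exact fl_prod hP hs h1 h2 h3 h4 hr i1 i4
  | abs h1 h2 h3 h3' h4 h5 i1 i4 => exact fl_abs hP hs h1 h2 h3 h3' h4 h5 i1 i4
  | appl h1 h2 h3 i1 i2 => exact fl_app hP hs h1 h2 h3 i1 i2
  | mem _ _ i1 i2 =>
    refine fun hd η σ hη hσ => ⟨?_, fun ⟨a, ha⟩ => by cases ha⟩
    cases hd with
    | mem d1 d2 => exact (m.cand _ η).2.mem _ _ (i1 d1 η σ hη hσ).1 ((m.cand _ η).2.nd (i2 d2 η σ hη hσ).1)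
  | conv _ _ hc ih =>
    intro hd η σ hη hσ
    rw [← nf_cv hc, ← lv_cv (cv_sub hc η.th)]
    exact ih hd η σ hη hσ

/-- part a: identity substitution, `eok_id` -/
theorem stage_step (hP : HWN P) (hs : Stage P d D) (m : Sem P d D) {W : ATm S} {A : Tm S} (h : ATy P Γ W A)
    (hd : Dsp P D W) : W ∈ Nd P (d ∪ D) := by
  have := (fl hP hs m h hd _ vr (eok_id h.er.ok m.dv)
    ⟨ers_vr, fun a _ => ⟨(m.cand _ _).2.ne (atm_mem_ne a), fun _ => atm_mem_ne a⟩⟩).1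
  rw [ATm.sub_vr] at this
  exact (m.cand _ _).2.nd this

/-- part c: induction on the number of sets outside `D` (`exists_stage`, `Stage.clo'`, `ATy.srs`, `dsp_empty`, `Dsp.univ_nf`) -/
theorem awn_of_sem [Finite S] (hP : HWN P) (H : ∀ d D, Stage P d D → Nonempty (Sem P d D)) {W : ATm S} {A : Tm S}
    (h : ATy P Γ W A) : AWN W := by
  suffices k : ∀ D : Set (Set S), (∀ a b, a ∈ D → Reach P a b → b ∈ D) → ∀ W, ATy P Γ W A → Dsp P D W → AWN W from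
    k ∅ (fun _ _ h => h.elim) W h (dsp_empty W)
  intro D
  induction D using WellFoundedGT.induction with
  | _ D ih =>
    intro hD W h hd
    by_cases e : D = Set.univ
    · exact ⟨W, .refl, Dsp.univ_nf (e ▸ hd)⟩
    obtain ⟨d, ⟨x, hx⟩, hs⟩ := exists_stage hD e
    obtain ⟨m⟩ := H d D hs
    obtain ⟨W', h1, h2⟩ := stage_step hP hs m h hd
    obtain ⟨W'', h3, h4⟩ := ih (d ∪ D) ⟨Set.subset_union_right, fun hh => hs.dis x hx (hh (Or.inl hx))⟩
      (fun a b ha hr => hs.clo' ha hr) W' (h.srs h1) h2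
    exact ⟨W'', h1.trans h3, h4⟩

theorem acc_of_sem [Finite S] (hP : HWN P) (H : ∀ d D, Stage P d D → Nonempty (Sem P d D)) {M A : Tm S}
    (h : Ty P Γ M A) : Acc (fun x y => Beta y x) M := by
  obtain ⟨W, hW, rfl⟩ := h.ann
  exact klop (awn_of_sem hP H hW)

end Crest.Agent.R298
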