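import Crest.Agent.R298.Typ

/-!
# Row 298.  Levels: the level of a type is the set of sorts its normal form has structurally.
Graph on levels: `pos : b → a ⊗ b`, `neg : a → a ⊗ b`, `cum : a → b` for `b ⊆ a`.  A cut on a product of level `c` only creates
cuts on levels with a walk to `c`.
-/

set_option autoImplicit false
set_option linter.unusedSectionVars false
set_option linter.unusedVariables false

namespace Crest.Agent.R298

open scoped Classical
open Tm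
open Crest.LogicCS.PTS (Spec)

variable {S : Type}

inductive SO (P : Spec S) : Tm S → S → Prop
  | srt {s t : S} : P.ax s t → SO P (srt s) t
  | neu {a : Atom S} {T : Tm S} {s : S} : Sp a T → GT P T (srt s) → SO P T s
  | pi {A B : Tm S} {a b c : S} (L : ℕ) : SO P A a → (∀ n, L ≤ n → SO P (inst (fv n A) B) b) → P.rule a b c →
      SO P (pi A B) c

/-- the level of a type -/
def lv (P : Spec S) (T : Tm S) : Set S := {s | SO P (nf T) s}

def axs (P : Spec S) (s : S) : Set S := {t | P.ax s t}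

def ot (P : Spec S) (a b : Set S) : Set S := {c | ∃ x ∈ a, ∃ y ∈ b, P.rule x y c}

inductive Lev (P : Spec S) : Set S → Prop
  | ax {s : S} : (axs P s).Nonempty → Lev P (axs P s)
  | sg {s t : S} : P.ax s t → Lev P {s}
  | ot {a b : Set S} : Lev P a → Lev P b → (ot P a b).Nonempty → Lev P (ot P a b)

/-- edges with parity (`true` = negative); negative edges need `W` of the codomain level -/
inductive Stp (P : Spec S) (W : Set S → Prop) : Bool → Set S → Set S → Prop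
  | pos {a b : Set S} : Lev P a → Lev P b → (ot P a b).Nonempty → Stp P W false b (ot P a b)
  | neg {a b : Set S} : Lev P a → Lev P b → (ot P a b).Nonempty → W b → Stp P W true a (ot P a b)
  | cum {a b : Set S} : Lev P a → Lev P b → b ⊆ a → Stp P W false a b

inductive Wk (P : Spec S) (W : Set S → Prop) : Bool → Set S → Set S → Prop
  | refl (a : Set S) : Wk P W false a a
  | step {p q : Bool} {a b c : Set S} : Wk P W p a b → Stp P W q b c → Wk P W (xor p q) a c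

/-- positive walks -/
def Ps (P : Spec S) (a b : Set S) : Prop := Wk P (fun _ => False) false a b
/-- walks in the full graph -/
abbrev WA (P : Spec S) (p : Bool) (a b : Set S) : Prop := Wk P (fun _ => True) p a b
def Reach (P : Spec S) (a b : Set S) : Prop := ∃ p, WA P p a b

/-- `d` is a strongly connected component, `D` is closed under successors and holds the other successors of `d` -/
structure Stage (P : Spec S) (d D : Set (Set S)) : Prop where
  scc : ∃ l, ∀ x, x ∈ d ↔ Reach P l x ∧ Reach P x l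
  clo : ∀ a b, a ∈ D → Reach P a b → b ∈ D
  suc : ∀ a b, a ∈ d → Reach P a b → b ∈ d ∨ b ∈ D
  dis : ∀ a, a ∈ d → a ∉ D

def OddC (P : Spec S) (d : Set (Set S)) : Prop := ∃ l ∈ d, WA P true l l
def Bin (P : Spec S) (d : Set (Set S)) : Prop := ∃ a ∈ d, ∃ b ∈ d, Lev P a ∧ Lev P b ∧ (ot P a b).Nonempty ∧ ot P a b ∈ d

/-- relevant sorts -/
def Rs (P : Spec S) (d : Set (Set S)) (s : S) : Prop := {s} ∈ d ∧ (axs P s).Nonempty
/-- large levels: levels of kinds whose elements can be families of types of a relevant sort -/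
def Lg (P : Spec S) (d : Set (Set S)) (l : Set S) : Prop := Lev P l ∧ ∃ s, Rs P d s ∧ Ps P (axs P s) l
/-- structural walks -/
abbrev WS (P : Spec S) (d : Set (Set S)) (p : Bool) (a b : Set S) : Prop := Wk P (Lg P d) p a b
def RS (P : Spec S) (d : Set (Set S)) (a b : Set S) : Prop := ∃ p, WS P d p a b
/-- quantified levels -/
def Qn (P : Spec S) (d : Set (Set S)) (a : Set S) : Prop :=
  Lg P d a ∧ ∃ b ∈ d, Lev P b ∧ (ot P a b).Nonempty ∧ ot P a b ∈ d
def ToQ (P : Spec S) (d : Set (Set S)) (p : Bool) (l : Set S) : Prop := ∃ m, Qn P d m ∧ WS P d p l m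
def Need (P : Spec S) (d : Set (Set S)) (l : Set S) : Prop := Lg P d l ∧ ∃ p, ToQ P d p l
/-- same structural component -/
def SC (P : Spec S) (d : Set (Set S)) (a b : Set S) : Prop := RS P d a b ∧ RS P d b a
/-- impredicative quantification inside the structural component of `l` -/
def Imp1 (P : Spec S) (d : Set (Set S)) (l : Set S) : Prop :=
  ∃ (s : S) (a b : Set S), Lev P {s} ∧ Lev P a ∧ Lev P b ∧ (ot P a b).Nonempty ∧ Ps P (axs P s) a ∧
    SC P d l {s} ∧ SC P d l b ∧ SC P d l (ot P a b)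
/-- a negative edge inside the structural component of `l` -/
def Imp2 (P : Spec S) (d : Set (Set S)) (l : Set S) : Prop :=
  ∃ a b : Set S, Lev P a ∧ Lev P b ∧ (ot P a b).Nonempty ∧ Lg P d b ∧ SC P d l a ∧ SC P d l (ot P a b)
def Imp (P : Spec S) (d : Set (Set S)) (l : Set S) : Prop := Lg P d l ∧ Imp1 P d l ∧ Imp2 P d l
def Zl (P : Spec S) (d : Set (Set S)) (l : Set S) : Prop := ∃ m, Imp P d m ∧ RS P d m l
/-- the condition under which the model exists -/
def MC (P : Spec S) (d : Set (Set S)) : Prop := ∀ l, Imp P d l → ¬ (ToQ P d false l ∧ ToQ P d true l)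
/-- no level containing `s` is in `D` -/
def NotD (P : Spec S) (D : Set (Set S)) (s : S) : Prop := ∀ l, Lev P l → s ∈ l → l ∉ D
/-- the generic level of the codomain `B` of `pi A B` -/
def glv (P : Spec S) (A B : Tm S) : Set S := lv P (inst (fv (mx (pi A B)) A) B)

variable {P : Spec S} {Γ Δ : List (Atom S)} {M N A B T : Tm S} {s : S} {d D : Set (Set S)}

/-! ### part a: the graph -/

theorem Wk.trans {W : Set S → Prop} {p q : Bool} {a b c : Set S} (h : Wk P W p a b) (h' : Wk P W q b c) :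
    Wk P W (xor p q) a c := by
  induction h' with
  | refl => simpa using h
  | step _ hs ih =>
    rw [← Bool.xor_assoc]
    exact (ih h).step hs

theorem Wk.single {W : Set S → Prop} {p : Bool} {a b : Set S} (h : Stp P W p a b) : Wk P W p a b := by
  simpa using (Wk.refl a).step h

theorem Wk.mono {W W' : Set S → Prop} (hW : ∀ x, W x → W' x) {p : Bool} {a b : Set S} (h : Wk P W p a b) :
    Wk P W' p a b := by
  induction h with
  | refl => exact .refl _
  | step _ hs ih =>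
    refine ih.step ?_
    cases hs with
    | pos h1 h2 h3 => exact .pos h1 h2 h3
    | neg h1 h2 h3 h4 => exact .neg h1 h2 h3 (hW _ h4)
    | cum h1 h2 h3 => exact .cum h1 h2 h3

theorem la_stp_lev {W : Set S → Prop} {p : Bool} {a b : Set S} (h : Stp P W p a b) : Lev P a ∧ Lev P b := by
  cases h with
  | pos h1 h2 h3 => exact ⟨h2, .ot h1 h2 h3⟩
  | neg h1 h2 h3 _ => exact ⟨h1, .ot h1 h2 h3⟩
  | cum h1 h2 _ => exact ⟨h1, h2⟩

theorem Wk.lev {W : Set S → Prop} {p : Bool} {a b : Set S} (h : Wk P W p a b) (ha : Lev P a) : Lev P b := by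
  cases h with
  | refl => exact ha
  | step _ hs => exact (la_stp_lev hs).2

theorem Wk.eq_or_lev {W : Set S → Prop} {p : Bool} {a b : Set S} (h : Wk P W p a b) :
    (a = b ∧ p = false) ∨ (Lev P a ∧ Lev P b) := by
  induction h with
  | refl => exact Or.inl ⟨rfl, rfl⟩
  | step _ hs ih =>
    rcases ih with ⟨rfl, -⟩ | ⟨h1, -⟩
    · exact Or.inr (la_stp_lev hs)
    · exact Or.inr ⟨h1, (la_stp_lev hs).2⟩

theorem Lev.nonempty {a : Set S} (h : Lev P a) : a.Nonempty := by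
  cases h with
  | ax h => exact h
  | sg _ => exact Set.singleton_nonempty _
  | ot _ _ h => exact h

theorem Ps.refl (a : Set S) : Ps P a a := by
  exact Wk.refl a

theorem Ps.trans {a b c : Set S} (h : Ps P a b) (h' : Ps P b c) : Ps P a c := by
  exact Wk.trans h h'

theorem Ps.wk {a b : Set S} (h : Ps P a b) (W : Set S → Prop) : Wk P W false a b := by
  exact Wk.mono (fun _ => False.elim) h

theorem Ps.reach {a b : Set S} (h : Ps P a b) : Reach P a b := by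
  exact ⟨false, h.wk _⟩

theorem Reach.refl (a : Set S) : Reach P a a := by
  exact ⟨false, .refl a⟩

theorem Reach.trans {a b c : Set S} (h : Reach P a b) (h' : Reach P b c) : Reach P a c := by
  obtain ⟨p, h⟩ := h
  obtain ⟨q, h'⟩ := h'
  exact ⟨_, Wk.trans h h'⟩

theorem RS.trans {a b c : Set S} (h : RS P d a b) (h' : RS P d b c) : RS P d a c := by
  obtain ⟨p, h⟩ := h
  obtain ⟨q, h'⟩ := h'
  exact ⟨_, Wk.trans h h'⟩

theorem Lg.ws {p : Bool} {a b : Set S} (h : Lg P d a) (hw : WS P d p a b) : Lg P d b := by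
  have key : ∀ {x y : Set S}, Lg P d x → Stp P (fun _ => False) false x y → Lg P d y := by
    rintro x y ⟨-, s, hs, hx⟩ hxy
    exact ⟨(la_stp_lev hxy).2, s, hs, hx.trans (Wk.single hxy)⟩
  induction hw with
  | refl => exact h
  | step _ hs ih =>
    cases hs with
    | pos h1 h2 h3 => exact key (ih h) (.pos h1 h2 h3)
    | neg h1 h2 h3 h4 => exact key h4 (.pos h1 h2 h3)
    | cum h1 h2 h3 => exact key (ih h) (.cum h1 h2 h3)

theorem Lg.ps {a b : Set S} (h : Lg P d a) (hw : Ps P a b) : Lg P d b := by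
  exact h.ws (hw.wk _)

theorem Rs.lg (h : Rs P d s) : Lg P d (axs P s) := by
  exact ⟨.ax h.2, s, h, Ps.refl _⟩

theorem Need.up {p : Bool} {a b : Set S} (h : Need P d b) (ha : Lg P d a) (hw : WS P d p a b) : Need P d a := by
  obtain ⟨-, q, m, hm, hq⟩ := h
  exact ⟨ha, _, m, hm, Wk.trans hw hq⟩

theorem Qn.need {a : Set S} (h : Qn P d a) : Need P d a := by
  exact ⟨h.1, false, a, h, .refl a⟩

theorem Zl.ws {p : Bool} {a b : Set S} (h : Zl P d a) (hw : WS P d p a b) : Zl P d b := by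
  obtain ⟨m, hm, hr⟩ := h
  exact ⟨m, hm, hr.trans ⟨p, hw⟩⟩

theorem MC.par (h : MC P d) {a : Set S} (hz : Zl P d a) : ¬ (ToQ P d false a ∧ ToQ P d true a) := by
  obtain ⟨m, hm, p, hp⟩ := hz
  rintro ⟨⟨m₁, q₁, w₁⟩, ⟨m₂, q₂, w₂⟩⟩
  have t₁ : ToQ P d (xor p false) m := ⟨m₁, q₁, Wk.trans hp w₁⟩
  have t₂ : ToQ P d (xor p true) m := ⟨m₂, q₂, Wk.trans hp w₂⟩
  cases p
  · exact h m hm ⟨t₁, t₂⟩
  · exact h m hm ⟨t₂, t₁⟩

theorem Stage.mem_of_reach (h : Stage P d D) {a b c : Set S} (ha : a ∈ d) (hc : c ∈ d) (h1 : Reach P a b)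
    (h2 : Reach P b c) : b ∈ d := by
  obtain ⟨l, hl⟩ := h.scc
  exact (hl b).2 ⟨((hl a).1 ha).1.trans h1, h2.trans ((hl c).1 hc).2⟩

theorem Stage.reach (h : Stage P d D) {a b : Set S} (ha : a ∈ d) (hb : b ∈ d) : Reach P a b := by
  obtain ⟨l, hl⟩ := h.scc
  exact ((hl a).1 ha).2.trans ((hl b).1 hb).1

/-- between `d` and a level outside `D` -/
theorem Stage.mem_of_notD (h : Stage P d D) {a b : Set S} (ha : a ∈ d) (h1 : Reach P a b) (hb : b ∉ D) : b ∈ d := by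
  exact (h.suc a b ha h1).resolve_right hb

theorem Stage.clo' (h : Stage P d D) {a b : Set S} (ha : a ∈ d ∪ D) (h1 : Reach P a b) : b ∈ d ∪ D := by
  rcases ha with ha | ha
  · exact h.suc a b ha h1
  · exact Or.inr (h.clo a b ha h1)

theorem Rs.notD (h : Stage P d D) (hs : Rs P d s) : NotD P D s := by
  intro l hl hsl hD
  obtain ⟨t, ht⟩ := hs.2
  exact h.dis _ hs.1 (h.clo l _ hD ⟨false, Wk.single (.cum hl (.sg ht) (Set.singleton_subset_iff.2 hsl))⟩)

theorem exists_stage [Finite S] {D : Set (Set S)} (hD : ∀ a b, a ∈ D → Reach P a b → b ∈ D) (hne : D ≠ Set.univ) :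
    ∃ d, d.Nonempty ∧ Stage P d D := by
  obtain ⟨l, hl⟩ := (Set.toFinite Dᶜ).exists_minimalFor (fun l => {x | Reach P l x}) _
    (Set.nonempty_compl.2 hne)
  refine ⟨{x | Reach P l x ∧ Reach P x l}, ⟨l, Reach.refl l, Reach.refl l⟩, ⟨l, fun _ => Iff.rfl⟩, hD,
    fun a b ha hab => ?_, fun a ha haD => hl.1 (hD a l haD ha.2)⟩
  by_cases hb : b ∈ D
  · exact Or.inr hb
  · have h1 : Reach P l b := ha.1.trans hab
    exact Or.inl ⟨h1, hl.2 (j := b) hb (fun x hx => h1.trans hx) (Reach.refl l)⟩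

/-! ### part b: levels of typed types -/

theorem lv_cv (h : Cv A B) : lv P A = lv P B := by
  unfold lv
  rw [nf_cv h]

theorem lv_nf (h : WN A) : lv P (nf A) = lv P A := by
  unfold lv
  rw [(nf_nf A).nf_eq]

theorem lvb_sp_prm {a : Atom S} (h : Sp a T) (π : Equiv.Perm ℕ) : Sp (prmA π a) (prm π T) := by
  induction h with
  | hd => exact Sp.hd
  | app N _ ih => exact ih.app _

theorem lvb_sp_cases {a : Atom S} (h : Sp a T) : T = atm a ∨ ∃ M N, T = app M N := by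
  cases h with
  | hd => exact Or.inl rfl
  | app N _ => exact Or.inr ⟨_, _, rfl⟩

theorem lvb_so_prm (h : SO P T s) (π : Equiv.Perm ℕ) : SO P (prm π T) s := by
  induction h with
  | srt h => exact SO.srt h
  | neu h1 h2 => exact SO.neu (lvb_sp_prm h1 π) (h2.prm π)
  | pi L _ _ hr ih1 ih2 =>
    refine SO.pi ((Finset.range L).sup π + 1) ih1 (fun n hn => ?_) hr
    have h1 : L ≤ π⁻¹ n := by
      by_contra hlt
      have := Finset.le_sup (f := π) (Finset.mem_range.2 (not_le.1 hlt))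
      simp only [Equiv.Perm.coe_inv, Equiv.apply_symm_apply] at this
      omega
    have h2 := ih2 _ h1
    rw [prm_inst] at h2
    simpa [prm] using h2

theorem lv_prm (π : Equiv.Perm ℕ) (A : Tm S) : lv P (prm π A) = lv P A := by
  ext t
  simp only [lv, Set.mem_ofPred_eq, ← prm_nf]
  refine ⟨fun h => ?_, fun h => lvb_so_prm h π⟩
  have := lvb_so_prm h π⁻¹
  rwa [prm_prm, inv_mul_cancel, prm_one] at this

theorem lv_srt (s : S) : lv P (srt s) = axs P s := by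
  ext t
  simp only [lv, axs, Set.mem_ofPred_eq, (nf_srt s).nf_eq]
  refine ⟨fun h => ?_, SO.srt⟩
  cases h with
  | srt h => exact h
  | neu h _ => exact (h.not_cv_srt (.refl _)).elim

theorem lvb_swap {n n' : ℕ} (hn : mx (pi A B) ≤ n) (hn' : mx (pi A B) ≤ n') :
    prm (Equiv.swap n n') (inst (fv n A) B) = inst (fv n' A) B := by
  simp only [mx, max_le_iff] at hn hn'
  have h : ∀ M : Tm S, mx M ≤ n → mx M ≤ n' → prm (Equiv.swap n n') M = M := fun M h1 h2 =>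
    prm_fix fun k hk => Equiv.swap_apply_of_ne_of_ne (by omega) (by omega)
  rw [prm_inst, prm, h A hn.1 hn'.1, h B hn.2 hn'.2, Equiv.swap_apply_left]

theorem lvb_so_pi {n : ℕ} (hn : mx (pi A B) ≤ n) :
    SO P (pi A B) s ↔ ∃ a b, SO P A a ∧ SO P (inst (fv n A) B) b ∧ P.rule a b s := by
  constructor
  · intro h
    cases h with
    | neu h _ => exact (h.not_cv_pi (.refl _)).elim
    | pi L h1 h2 hr =>
      refine ⟨_, _, h1, ?_, hr⟩
      rw [← lvb_swap (hn.trans (le_max_right L n)) hn]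
      exact lvb_so_prm (h2 _ (le_max_left _ _)) _
  · rintro ⟨a, b, h1, h2, hr⟩
    refine SO.pi (mx (pi A B)) h1 (fun n' hn' => ?_) hr
    rw [← lvb_swap hn hn']
    exact lvb_so_prm h2 _

theorem lvb_pi (h : WN (pi A B)) {n : ℕ} (hn : mx (pi A B) ≤ n) :
    lv P (pi A B) = ot P (lv P A) (lv P (inst (fv n (nf A)) B)) := by
  obtain ⟨-, hB, e⟩ := h.pi
  have e' : nf (inst (fv n (nf A)) B) = inst (fv n (nf A)) (nf B) := hB.nf_inst_atm (n, nf A)
  ext c
  simp only [lv, ot, Set.mem_ofPred_eq, e, e']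
  rw [lvb_so_pi (n := n) (e ▸ (mx_nf _).trans hn)]
  exact ⟨fun ⟨a, b, h1, h2, h3⟩ => ⟨a, h1, b, h2, h3⟩, fun ⟨a, h1, b, h2, h3⟩ => ⟨a, b, h1, h2, h3⟩⟩

theorem lvb_sz {B C : Tm S} {k : ℕ} (h : sz (pi B C) ≤ k + 1) (n : ℕ) : sz B ≤ k ∧ sz (inst (fv n B) C) ≤ k := by
  have : sz (inst (fv n B) C) = sz C := sz_inst_atm (n, B) C
  simp only [sz] at h
  omega

theorem lvb_sz_pos (T : Tm S) : 0 < sz T := by
  cases T <;> simp [sz]

theorem lvb_mem (k : ℕ) : ∀ (Γ : List (Atom S)) (T : Tm S) (s : S), sz T ≤ k → Nf T → Ty P Γ T (srt s) → SO P T s := by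
  induction k with
  | zero => exact fun Γ T s hk => absurd (lvb_sz_pos T) (by omega)
  | succ k ih =>
    intro Γ T s hk hn h
    rcases h.nf_type hn with ⟨t, rfl⟩ | ⟨B, C, rfl⟩ | ⟨a, -, ha⟩
    · obtain ⟨t', h1, h2⟩ := h.gen_srt
      exact SO.srt (cv_srt_inj h2 ▸ h1)
    · obtain ⟨s₁, s₂, s₃, hr, hc, hB, hC⟩ := h.gen_pi
      obtain rfl := cv_srt_inj hc
      obtain ⟨nB, nC⟩ := nf_pi_iff.1 hn
      exact SO.pi 0 (ih _ _ _ (lvb_sz hk 0).1 nB hB) (fun n _ => ih _ _ _ (lvb_sz hk n).2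
        ((nf_inst_atm_iff (n, B) C).2 nC) (hC n B s₁ hB (.refl _))) hr
    · exact SO.neu ha ⟨Γ, h⟩

/-- L1: induction on the size of the normal form -/
theorem Ty.mem_lv (hP : HWN P) (h : Ty P Γ T (srt s)) : s ∈ lv P T := by
  exact lvb_mem _ _ _ _ le_rfl (nf_nf T) (h.nf_tm hP)

theorem lv_sp (hP : HWN P) {a : Atom S} (h : Ty P Γ T (srt s)) (hs : Sp a T) : lv P T = {s} ∧ (axs P s).Nonempty := by
  have hs' : Sp a (nf T) := hs.red (hP _ _ _ h).red_nf
  have key : ∀ {B : Tm S} {s' : S}, Cv (srt s) B → Ty P Γ B (srt s') → (axs P s).Nonempty := fun hc hB => by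
    obtain ⟨L, h1, h2⟩ := church_rosser hc
    obtain rfl := b2_nf_red (nf_srt s) h1
    obtain ⟨t, ht, -⟩ := (hB.srs h2).gen_srt
    exact ⟨t, ht⟩
  refine ⟨Set.eq_singleton_iff_unique_mem.2 ⟨h.mem_lv hP, fun t ht => ?_⟩, ?_⟩
  · have h1 := h.nf_tm hP
    change SO P (nf T) t at ht
    generalize nf T = T' at hs' h1 ht
    cases ht with
    | srt _ => exact (hs'.not_cv_srt (.refl _)).elim
    | neu _ h2 => exact cv_srt_inj (hs'.uniq h2.choose_spec h1)
    | pi => exact (hs'.not_cv_pi (.refl _)).elim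
  · rcases lvb_sp_cases hs with rfl | ⟨M, N, rfl⟩
    · obtain ⟨h1, h2⟩ := Ty.gen_fv h
      obtain ⟨s', h3⟩ := h.ok.sort h1
      exact key h2 h3
    · obtain ⟨B, s', h1, h2⟩ := h.app_ty
      exact key h1 h2

theorem lvb_ot_mono {a a' b b' : Set S} (h : a ⊆ a') (h' : b ⊆ b') : ot P a b ⊆ ot P a' b' :=
  fun _ ⟨x, hx, y, hy, hr⟩ => ⟨x, h hx, y, h' hy, hr⟩

theorem lvb_sub (hP : HWN P) (k : ℕ) : ∀ (Γ Δ : List (Atom S)) (T : Tm S) (s : S) (θ : Sb S), sz T ≤ k → Nf T →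
    Ty P Γ T (srt s) → Mor P Δ Γ θ → lv P T ⊆ lv P (sub θ T) := by
  induction k with
  | zero => exact fun Γ Δ T s θ hk => absurd (lvb_sz_pos T) (by omega)
  | succ k ih =>
    intro Γ Δ T s θ hk hn h hθ
    rcases h.nf_type hn with ⟨t, rfl⟩ | ⟨B, C, rfl⟩ | ⟨a, -, ha⟩
    · exact subset_rfl
    · obtain ⟨s₁, s₂, s₃, hr, hc, hB, hC⟩ := h.gen_pi
      obtain ⟨nB, nC⟩ := nf_pi_iff.1 hn
      obtain ⟨n, hn1, hn2⟩ : ∃ n, mx (pi B C) ≤ n ∧ cmx Γ ≤ n := ⟨_, le_max_left _ _, le_max_right _ _⟩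
      have hΓ : (n, B) ∉ Γ := not_mem_of_cmx hn2
      have hB' : Ty P Δ (sub θ B) (srt s₁) := hB.subst hθ
      have h' : Ty P Δ (pi (sub θ B) (sub (up θ) C)) (srt s) := h.subst hθ
      change _ ⊆ lv P (pi (sub θ B) (sub (up θ) C))
      rw [lvb_pi (hP _ _ _ h) hn1, lvb_pi (hP _ _ _ h') le_rfl, nB.nf_eq, inst_sub_up]
      refine lvb_ot_mono (ih _ _ _ _ _ (lvb_sz hk 0).1 nB hB hθ) ?_
      generalize mx (pi (sub θ B) (sub (up θ) C)) = n'
      have hN : Ty P ((n', nf (sub θ B)) :: Δ) (atm (n', nf (sub θ B))) (nf (sub θ B)) := Ty.start (hB'.nf_tm hP)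
      rw [← sub_vupd_inst (a := (n, B)) fun ho => hΓ (h.occ (Or.inl (Or.inr ho)))]
      refine ih _ _ _ _ _ (lvb_sz hk n).2 ((nf_inst_atm_iff (n, B) C).2 nC) (hC n B s₁ hB (.refl _))
        ((hθ.thin hN.ok fun a ha => List.mem_cons_of_mem _ ha).upd (Ok.cons hB) hΓ ?_)
      exact hN.conv (hB'.thin hN.ok fun a ha => List.mem_cons_of_mem _ ha) (.symm _ _ (hB'.cv_nf hP).1)
    · rw [(lv_sp hP h ha).1, Set.singleton_subset_iff]
      exact Ty.mem_lv hP (h.subst hθ)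

/-- L2: levels grow under typed substitution (induction on the size of `nf T`; spines: `Sp.uniq` and L1) -/
theorem lv_sub (hP : HWN P) (h : Ty P Γ T (srt s)) {θ : Sb S} (hθ : Mor P Δ Γ θ) : lv P T ⊆ lv P (sub θ T) := by
  have hc := (h.cv_nf hP).1
  rw [lv_cv hc, lv_cv (cv_sub hc θ)]
  exact lvb_sub hP _ _ _ _ _ _ le_rfl (nf_nf T) (h.nf_tm hP) hθ

theorem lvb_fresh (hP : HWN P) (h : Ty P Γ (pi A B) T) {n : ℕ} {A' : Tm S} (hA : Ty P Γ A' (srt s)) (hc : Cv A A')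
    (hn : (n, A') ∉ Γ) (hΔ : Ok P Δ) (hs : ∀ a ∈ Γ, a ∈ Δ) (hN : Ty P Δ N A') :
    lv P (inst (fv n A') B) ⊆ lv P (inst N B) := by
  obtain ⟨s₁, s₂, s₃, -, -, -, hB⟩ := h.gen_pi
  have h1 := lv_sub hP (hB n A' s hA hc)
    ((Mor.id hΔ hs).upd (a := (n, A')) (N := N) (Ok.cons hA) hn (by rwa [sub_vr]))
  rwa [show sub (vupd vr (n, A') N) (inst (fv n A') B) = inst N B from
    sub_vupd_inst (a := (n, A')) (fun ho => hn (h.occ (Or.inl (Or.inr ho)))) vr N] at h1

/-- any legal copy of the domain and any index give the generic level or more; fresh ones give it exactly -/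
theorem glv_eq (hP : HWN P) (h : Ty P Γ (pi A B) T) {n : ℕ} {A' : Tm S} (hA : Ty P Γ A' (srt s)) (hc : Cv A A')
    (hn : (n, A') ∉ Γ) : lv P (inst (fv n A') B) = glv P A B := by
  obtain ⟨s₁, -, -, -, -, hA₁, -⟩ := h.gen_pi
  obtain ⟨m, hm1, hm2⟩ : ∃ m, mx (pi A B) ≤ m ∧ cmx Γ ≤ m := ⟨_, le_max_left _ _, le_max_right _ _⟩
  have e : glv P A B = lv P (inst (fv m A) B) := by
    rw [← lvb_swap le_rfl hm1, lv_prm, glv]
  have h1 : Ty P ((m, A) :: Γ) (atm (m, A)) A := Ty.start hA₁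
  have h2 : Ty P ((n, A') :: Γ) (atm (n, A')) A' := Ty.start hA
  rw [e]
  refine Set.Subset.antisymm (lvb_fresh hP h hA hc hn h1.ok (fun a ha => List.mem_cons_of_mem _ ha) ?_)
    (lvb_fresh hP h hA₁ (.refl _) (not_mem_of_cmx hm2) h2.ok (fun a ha => List.mem_cons_of_mem _ ha) ?_)
  · exact h1.conv (hA.thin h1.ok fun a ha => List.mem_cons_of_mem _ ha) hc
  · exact h2.conv (hA₁.thin h2.ok fun a ha => List.mem_cons_of_mem _ ha) (.symm _ _ hc)

theorem glv_sub (hP : HWN P) (h : Ty P Γ (pi A B) T) (hN : Ty P Γ N A) : glv P A B ⊆ lv P (inst N B) := by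
  obtain ⟨s₁, -, -, -, -, hA₁, -⟩ := h.gen_pi
  have hn : (cmx Γ, A) ∉ Γ := not_mem_of_cmx le_rfl
  rw [← glv_eq hP h hA₁ (.refl _) hn]
  exact lvb_fresh hP h hA₁ (.refl _) hn h.ok (fun _ ha => ha) hN

theorem glv_cv (hP : HWN P) {A' B' T' : Tm S} (h : Ty P Γ (pi A B) T) (h' : Ty P Γ (pi A' B') T')
    (hc : Cv (pi A B) (pi A' B')) : glv P A B = glv P A' B' := by
  obtain ⟨s₁, -, -, -, -, hA₁, -⟩ := h.gen_pi
  obtain ⟨h1, h2⟩ := cv_pi_inj hc
  have hn : (cmx Γ, A) ∉ Γ := not_mem_of_cmx le_rfl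
  rw [← glv_eq hP h hA₁ (.refl _) hn, ← glv_eq hP h' hA₁ (.symm _ _ h1) hn]
  exact lv_cv (cv_inst (.refl _) h2)

theorem lv_pi (hP : HWN P) (h : Ty P Γ (pi A B) T) : lv P (pi A B) = ot P (lv P A) (glv P A B) := by
  obtain ⟨s₁, -, -, -, -, hA₁, -⟩ := h.gen_pi
  rw [lvb_pi (hP _ _ _ h) (le_max_left _ (cmx Γ)),
    glv_eq hP h (hA₁.nf_tm hP) (hA₁.cv_nf hP).1 (not_mem_of_cmx (le_max_right _ _))]

theorem lvb_lev (hP : HWN P) (k : ℕ) : ∀ (Γ : List (Atom S)) (T : Tm S) (s : S), sz T ≤ k → Nf T →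
    Ty P Γ T (srt s) → Lev P (lv P T) := by
  induction k with
  | zero => exact fun Γ T s hk => absurd (lvb_sz_pos T) (by omega)
  | succ k ih =>
    intro Γ T s hk hn h
    have hne : (lv P T).Nonempty := ⟨s, h.mem_lv hP⟩
    rcases h.nf_type hn with ⟨t, rfl⟩ | ⟨B, C, rfl⟩ | ⟨a, -, ha⟩
    · rw [lv_srt] at hne ⊢
      exact Lev.ax hne
    · obtain ⟨s₁, s₂, s₃, -, -, hB, hC⟩ := h.gen_pi
      obtain ⟨nB, nC⟩ := nf_pi_iff.1 hn
      rw [lv_pi hP h] at hne ⊢
      refine Lev.ot (ih _ _ _ (lvb_sz hk 0).1 nB hB) ?_ hne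
      rw [← glv_eq hP h hB (.refl _) (not_mem_of_cmx (a := (cmx Γ, B)) le_rfl)]
      exact ih _ _ _ (lvb_sz hk _).2 ((nf_inst_atm_iff (cmx Γ, B) C).2 nC) (hC _ B s₁ hB (.refl _))
    · obtain ⟨h1, t, ht⟩ := lv_sp hP h ha
      rw [h1]
      exact Lev.sg ht

theorem lv_lev (hP : HWN P) (h : Ty P Γ T (srt s)) : Lev P (lv P T) := by
  rw [lv_cv (h.cv_nf hP).1]
  exact lvb_lev hP _ _ _ _ le_rfl (nf_nf T) (h.nf_tm hP)

theorem glv_lev (hP : HWN P) (h : Ty P Γ (pi A B) T) : Lev P (glv P A B) := by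
  obtain ⟨s₁, s₂, -, -, -, hA, hB⟩ := h.gen_pi
  exact lv_lev hP (hB _ A s₁ hA (.refl _))

/-! ### part c: edges between levels of typed types -/

theorem lc_dom (hP : HWN P) (h : Ty P Γ (pi A B) T) :
    Lev P (lv P A) ∧ (ot P (lv P A) (glv P A B)).Nonempty := by
  obtain ⟨s₁, s₂, s₃, -, hc, hA, -⟩ := h.gen_pi
  exact ⟨lv_lev hP hA, lv_pi hP h ▸ (lv_lev hP (h.conv_srt hc)).nonempty⟩

theorem ps_sub (hP : HWN P) (h : Ty P Γ T (srt s)) {θ : Sb S} (hθ : Mor P Δ Γ θ) : Ps P (lv P (sub θ T)) (lv P T) := by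
  exact Wk.single (.cum (lv_lev (s := s) hP (h.subst hθ)) (lv_lev hP h) (lv_sub hP h hθ))

theorem ps_glv (hP : HWN P) (h : Ty P Γ (pi A B) T) : Ps P (glv P A B) (lv P (pi A B)) := by
  rw [lv_pi hP h]
  exact Wk.single (.pos (lc_dom hP h).1 (glv_lev hP h) (lc_dom hP h).2)

theorem ps_inst_glv (hP : HWN P) (h : Ty P Γ (pi A B) T) (hN : Ty P Γ N A) : Ps P (lv P (inst N B)) (glv P A B) := by
  obtain ⟨s, hs⟩ := h.pi_inst hN
  exact Wk.single (.cum (lv_lev hP hs) (glv_lev hP h) (glv_sub hP h hN))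

theorem ps_cod (hP : HWN P) (h : Ty P Γ (pi A B) T) (hN : Ty P Γ N A) : Ps P (lv P (inst N B)) (lv P (pi A B)) := by
  exact (ps_inst_glv hP h hN).trans (ps_glv hP h)

theorem stp_dom (hP : HWN P) (h : Ty P Γ (pi A B) T) {W : Set S → Prop} (hW : W (glv P A B)) :
    Stp P W true (lv P A) (lv P (pi A B)) := by
  rw [lv_pi hP h]
  exact .neg (lc_dom hP h).1 (glv_lev hP h) (lc_dom hP h).2 hW

theorem reach_dom (hP : HWN P) (h : Ty P Γ (pi A B) T) : Reach P (lv P A) (lv P (pi A B)) := by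
  exact ⟨true, Wk.single (stp_dom hP h trivial)⟩

theorem ps_sg (hP : HWN P) (h : Ty P Γ T (srt s)) (hs : Lev P {s}) : Ps P (lv P T) {s} := by
  exact Wk.single (.cum (lv_lev hP h) hs (Set.singleton_subset_iff.2 (h.mem_lv hP)))

/-- the type of a spine is positively upstream of the type of its head, also after substitution -/
theorem Sp.ps (hP : HWN P) {a : Atom S} (hs : Sp a M) (h : Ty P Γ M A) {θ : Sb S} (hθ : Mor P Δ Γ θ) :
    Ps P (lv P (Tm.sub θ A)) (lv P (Tm.sub θ a.2)) := by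
  induction hs generalizing A with
  | hd =>
    rw [lv_cv (cv_sub (Ty.gen_fv h).2 θ)]
    exact Ps.refl _
  | app N _ ih =>
    obtain ⟨A', B', h1, h2, hc⟩ := h.gen_app
    obtain ⟨t, h3⟩ := h1.pi_ty
    rw [lv_cv (cv_sub hc θ), sub_inst, ← inst_sub_up]
    exact (ps_cod hP (h3.subst hθ) (h2.subst hθ)).trans (ih h1)

theorem NotD.dom (hP : HWN P) (hD : ∀ a b, a ∈ D → Reach P a b → b ∈ D) {s₁ s₂ s₃ : S} (hr : P.rule s₁ s₂ s₃)
    (hA : GT P A (srt s₁)) (hB : GT P B (srt s₂)) (h : NotD P D s₃) : NotD P D s₁ ∧ NotD P D s₂ := by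
  obtain ⟨Γ₁, hA⟩ := hA
  obtain ⟨Γ₂, hB⟩ := hB
  refine ⟨fun l hl hs hlD => ?_, fun l hl hs hlD => ?_⟩
  · have h1 : s₃ ∈ ot P l (lv P B) := ⟨s₁, hs, s₂, hB.mem_lv hP, hr⟩
    exact h _ (.ot hl (lv_lev hP hB) ⟨_, h1⟩) h1
      (hD _ _ hlD ⟨true, Wk.single (.neg hl (lv_lev hP hB) ⟨_, h1⟩ trivial)⟩)
  · have h1 : s₃ ∈ ot P (lv P A) l := ⟨s₁, hA.mem_lv hP, s₂, hs, hr⟩
    exact h _ (.ot (lv_lev hP hA) hl ⟨_, h1⟩) h1
      (hD _ _ hlD ⟨false, Wk.single (.pos (lv_lev hP hA) hl ⟨_, h1⟩)⟩)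

/-- a type of level in `d` whose sort has an axiom and is not in a `D`-level has a relevant sort -/
theorem Stage.rs (h : Stage P d D) (hP : HWN P) (hT : Ty P Γ T (srt s)) (hs : (axs P s).Nonempty) (hn : NotD P D s)
    (hd : lv P T ∈ d) : Rs P d s := by
  obtain ⟨t, ht⟩ := hs
  have h1 : Lev P {s} := .sg ht
  exact ⟨h.mem_of_notD hd (ps_sg hP hT h1).reach (hn _ h1 rfl), t, ht⟩

end Crest.Agent.R298
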