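import Crest.Agent.R298.Cand

/-!
# Row 298.  Components without an odd cycle: Knaster-Tarski.
`V = PUnit`, `q = univ`, `cand T η = G' (nf (T[θ]))` where `G' K = if lv K ∈ d then G K else ndC` and `G : Tm S → CR` is a fixed point of
`Φ G K = if (Nf K ∧ ∃ s, GT P K (srt s)) ∧ lv K ∈ d then (match K with | pi A B => arrC K A (G' A) (fun N => G' (nf (inst (er N) B)))
| _ => ndC) else ndC`.  Fix `l₀ ∈ d` (if `d = ∅` everything is `ndC`), `odd l := WA P true l₀ l`; in `d` exactly one parity occurs, a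
negative edge inside `d` (`stp_dom`) flips it and `Ps` (`ps_cod`) keeps it.  Order `G ≤ G'` iff for all `K`: `G K ⊆ G' K` if
`¬ odd (lv K)`, `⊇` otherwise; `Φ` is monotone (`arrC_mono`), `CR` is a complete lattice (`completeLatticeOfInf` with `infC`).
(E.g. use the type `∀ K, if-then-else of CR and its OrderDual` through `fun K => Sum`-free trick: take the product lattice
`(Tm S → CR) × (Tm S → CRᵒᵈ)` and read the first component at even levels, the second at odd levels; `OrderHom.lfp`.)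
-/

set_option autoImplicit false
set_option linter.unusedVariables false

namespace Crest.Agent.R298

open scoped Classical
open Crest.LogicCS.PTS (Spec)

variable {S : Type} {P : Spec S} {d D : Set (Set S)}

theorem p1_kt {ι α : Type} [CompleteLattice α] (odd : ι → Prop) (Φ : (ι → α) → ι → α)
    (h : ∀ G G', (∀ K, (odd K → G' K ≤ G K) ∧ (¬ odd K → G K ≤ G' K)) →
      ∀ K, (odd K → Φ G' K ≤ Φ G K) ∧ (¬ odd K → Φ G K ≤ Φ G' K)) : ∃ G, Φ G = G := by
  let rd : (ι → α) × (ι → αᵒᵈ) → ι → α := fun z K => if odd K then OrderDual.ofDual (z.2 K) else z.1 K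
  have hrd : ∀ z z', z ≤ z' → ∀ K, (odd K → rd z' K ≤ rd z K) ∧ (¬ odd K → rd z K ≤ rd z' K) :=
    fun z z' hz K => ⟨fun ho => by simp only [rd, if_pos ho]; exact hz.2 K,
      fun ho => by simp only [rd, if_neg ho]; exact hz.1 K⟩
  let Ψ : (ι → α) × (ι → αᵒᵈ) →o (ι → α) × (ι → αᵒᵈ) :=
    ⟨fun z => (fun K => if odd K then ⊥ else Φ (rd z) K,
      fun K => if odd K then OrderDual.toDual (Φ (rd z) K) else ⊥), fun z z' hz => ⟨fun K => by
        dsimp only
        split_ifs with ho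
        · exact le_rfl
        · exact (h _ _ (hrd z z' hz) K).2 ho, fun K => by
        dsimp only
        split_ifs with ho
        · exact (h _ _ (hrd z z' hz) K).1 ho
        · exact le_rfl⟩⟩
  refine ⟨rd Ψ.lfp, funext fun K => ?_⟩
  conv_rhs => rw [← Ψ.map_lfp]
  by_cases ho : odd K
  · simp only [rd, Ψ, if_pos ho, OrderHom.coe_mk, OrderDual.ofDual_toDual]
  · simp only [rd, Ψ, if_neg ho, OrderHom.coe_mk]

/-- the complete lattice of candidates -/
@[reducible] noncomputable def p1_lat (P : Spec S) (X : Set (Set S)) : CompleteLattice (CR P X) :=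
  letI : PartialOrder (CR P X) := inferInstanceAs (PartialOrder {C : Set (ATm S) // Sat P X C})
  letI : InfSet (CR P X) := ⟨infC⟩
  completeLatticeOfInf (CR P X) fun 𝒞 =>
    ⟨fun C hC W hW => Set.mem_iInter₂.1 hW.2 C hC,
      fun C hC W hW => ⟨C.2.nd hW, Set.mem_iInter₂.2 fun C' hC' => hC hC' hW⟩⟩

theorem p1_par (hs : Stage P d D) (ho : ¬ OddC P d) {l a b : Set S} (hl : l ∈ d) (ha : a ∈ d) (hb : b ∈ d) {p : Bool}
    (h : WA P p a b) : WA P true l b ↔ (WA P true l a ↔ p = false) := by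
  have uq : ∀ c ∈ d, WA P true l c → WA P false l c → False := fun c hc h1 h2 => by
    obtain ⟨q, hq⟩ := hs.reach hc hl
    cases q
    · exact ho ⟨l, hl, h1.trans hq⟩
    · exact ho ⟨l, hl, h2.trans hq⟩
  obtain ⟨q, hq⟩ := hs.reach hl ha
  have h1 := hq.trans h
  cases p <;> cases q
  · exact ⟨fun h2 => (uq b hb h2 h1).elim, fun h2 => (uq a ha (h2.2 rfl) hq).elim⟩
  · exact ⟨fun _ => ⟨fun _ => rfl, fun _ => hq⟩, fun _ => h1⟩
  · exact ⟨fun _ => ⟨fun h2 => (uq a ha h2 hq).elim, fun h2 => by cases h2⟩, fun _ => h1⟩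
  · exact ⟨fun h2 => (uq b hb h2 h1).elim, fun h2 => by cases h2.1 hq⟩

theorem p1_lv_nf (A : Tm S) : lv P (nf A) = lv P A := by
  unfold lv
  rw [(nf_nf A).nf_eq]

/-- the operator -/
noncomputable def p1_op (P : Spec S) (d D : Set (Set S)) (G : Tm S → CR P (d ∪ D)) : Tm S → CR P (d ∪ D)
  | .pi A B => if (∃ s, GT P (.pi A B) (.srt s)) ∧ lv P (.pi A B) ∈ d then
      arrC (.pi A B) A (if lv P A ∈ d then G A else ndC P _) fun N =>
        if lv P (nf (Tm.inst (ATm.er N) B)) ∈ d then G (nf (Tm.inst (ATm.er N) B)) else ndC P _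
    else ndC P _
  | _ => ndC P _

/-- part a: the fixed point -/
theorem p1_fix (hP : HWN P) (hs : Stage P d D) (ho : ¬ OddC P d) : ∃ G : Tm S → CR P (d ∪ D),
    (∀ K, lv P K ∉ d → G K = ndC P (d ∪ D)) ∧ (∀ s, G (.srt s) = ndC P (d ∪ D)) ∧
    ∀ A B s, Nf (.pi A B) → GT P (.pi A B) (.srt s) → lv P (.pi A B) ∈ d →
      G (.pi A B) = arrC (.pi A B) A (G A) fun N => G (nf (Tm.inst (ATm.er N) B)) := by
  obtain ⟨l, hl⟩ := hs.scc
  have hl' : l ∈ d := (hl l).2 ⟨Reach.refl l, Reach.refl l⟩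
  let := p1_lat P (d ∪ D)
  obtain ⟨G, hG⟩ := p1_kt (fun K : Tm S => WA P true l (lv P K)) (p1_op P d D) fun G G' h K => by
    cases K with
    | pi A B =>
      by_cases hc : (∃ s, GT P (.pi A B) (.srt s)) ∧ lv P (.pi A B) ∈ d
      · obtain ⟨⟨s, Γ, hT⟩, hd⟩ := id hc
        have h1 : lv P A ∈ d → (WA P true l (lv P (.pi A B)) ↔ ¬ WA P true l (lv P A)) := fun hA => by
          rw [p1_par hs ho hl' hA hd (Wk.single (stp_dom hP hT trivial))]
          simp
        have h2 : ∀ N : ATm S, GT P (ATm.er N) A → lv P (nf (Tm.inst (ATm.er N) B)) ∈ d →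
            (WA P true l (lv P (.pi A B)) ↔ WA P true l (lv P (nf (Tm.inst (ATm.er N) B)))) := fun N hN hB => by
          obtain ⟨Δ, hΔ, hsub, hN'⟩ := hN.merge hT.ok
          have h3 := (ps_cod hP (hT.thin hΔ hsub) hN').wk fun _ => True
          rw [← p1_lv_nf] at h3
          rw [p1_par hs ho hl' hB hd h3]
          simp
        simp only [p1_op, if_pos hc]
        refine ⟨fun hod => arrC_mono rfl ?_ fun N hN => ?_, fun hod => arrC_mono rfl ?_ fun N hN => ?_⟩
        · split_ifs with hA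
          · exact (h A).2 ((h1 hA).1 hod)
          · exact subset_rfl
        · split_ifs with hB
          · exact (h _).1 ((h2 N hN hB).1 hod)
          · exact subset_rfl
        · split_ifs with hA
          · exact (h A).1 (not_not.1 fun h4 => hod ((h1 hA).2 h4))
          · exact subset_rfl
        · split_ifs with hB
          · exact (h _).2 fun h4 => hod ((h2 N hN hB).2 h4)
          · exact subset_rfl
      · simp only [p1_op, if_neg hc]
        exact ⟨fun _ => le_rfl, fun _ => le_rfl⟩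
    | _ => exact ⟨fun _ => le_rfl, fun _ => le_rfl⟩
  have h1 : ∀ K, lv P K ∉ d → G K = ndC P (d ∪ D) := fun K hK => by
    rw [← hG]
    cases K with
    | pi A B => exact if_neg fun h => hK h.2
    | _ => rfl
  have h2 : ∀ K, (if lv P K ∈ d then G K else ndC P (d ∪ D)) = G K := fun K => by
    split_ifs with hK
    · rfl
    · exact (h1 K hK).symm
  refine ⟨G, h1, fun s => by rw [← hG]; rfl, fun A B s _ hT hd => ?_⟩
  conv_lhs => rw [← hG]
  simp only [p1_op, if_pos (And.intro ⟨s, hT⟩ hd : (∃ s, GT P (.pi A B) (.srt s)) ∧ lv P (.pi A B) ∈ d), h2]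

theorem p1_infC {X : Set (Set S)} (C : CR P X) : infC ((fun _ : PUnit.{2} => C) '' Set.univ) = C := by
  refine Subtype.ext (Set.Subset.antisymm (fun W hW => Set.mem_iInter₂.1 hW.2 C ⟨PUnit.unit, trivial, rfl⟩)
    fun W hW => ⟨C.2.nd hW, Set.mem_iInter₂.2 ?_⟩)
  rintro _ ⟨_, -, rfl⟩
  exact hW

/-- part b: `cand T η = if lv (T[θ]) ∈ d then G (nf (T[θ])) else ndC` -/
theorem sem_p1 (hP : HWN P) (hs : Stage P d D) (ho : ¬ OddC P d) : Nonempty (Sem P d D) := by
  obtain ⟨G, h1, h2, h3⟩ := p1_fix hP hs ho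
  refine ⟨⟨PUnit, PUnit.unit, fun _ => Set.univ, fun T η => G (nf (Tm.sub η.th T)), fun T η h => ?_, fun s η => ?_,
    fun Γ A B s η hT _ hη hd => ?_, fun a B η x h => ?_, fun a T η x h => ?_, fun Γ A B s N η hT _ hN hη _ => ?_⟩⟩
  · exact h1 _ (by rwa [p1_lv_nf])
  · exact (congrArg G (nf_srt s).nf_eq).trans (h2 s)
  · obtain ⟨Δ, hθ, -⟩ := hη
    have hT' : Ty P Δ (.pi (Tm.sub η.th A) (Tm.sub (Tm.up η.th) B)) (.srt s) := hT.subst hθ
    obtain ⟨-, wB, e⟩ := (hP _ _ _ hT').pi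
    have e' : nf (Tm.sub η.th (.pi A B)) = .pi (nf (Tm.sub η.th A)) (nf (Tm.sub (Tm.up η.th) B)) := e
    have hn := nf_nf (Tm.sub η.th (.pi A B))
    have hd' : lv P (nf (Tm.sub η.th (.pi A B))) ∈ d := by rwa [p1_lv_nf]
    have hT'' := hT'.nf_tm hP
    rw [e] at hT''
    rw [e'] at hn hd'
    simp only [Env.th_vcons, p1_infC]
    rw [e', h3 _ _ s hn ⟨Δ, hT''⟩ hd']
    refine arrC_congr (hn.nf_eq.trans e'.symm) rfl fun N _ => congrArg G ?_
    rw [← inst_sub_up]
    exact nf_cv (cv_inst (Relation.EqvGen.refl _) wB.red_nf.cv.symm)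
  · rw [Env.th_vupd, Env.th_vcons, sub_vupd_inst h]
  · rw [Env.th_vupd, sub_vupd h]
  · obtain ⟨s', hs'⟩ := hT.pi_inst hN
    simp only [Env.th_vcons, p1_infC]
    rw [← sub_inst, nf_cv (cv_sub (hP _ _ _ hs').red_nf.cv η.th)]

end Crest.Agent.R298
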