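import Crest.Agent.R298.Cand

/-!
# Row 298.  Unary components (no product of level in `d` has both parts in `d`): the leaf candidate is extremal.
-/

set_option autoImplicit false
set_option linter.unusedVariables false

namespace Crest.Agent.R298

open scoped Classical
open Crest.LogicCS.PTS (Spec)

variable {S : Type} (P : Spec S) (d D : Set (Set S))

abbrev V2 : Type 1 := ULift.{1} (CR P (d ∪ D))

/-- unguarded head candidate / guarded candidate -/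
noncomputable def c2 : Tm S → Env S (V2 P d D) → CR P (d ∪ D) × CR P (d ∪ D)
  | .bv i, η => ((η (.inl i)).2.2.down, if lv P (η (.inl i)).1 ∈ d then (η (.inl i)).2.2.down else ndC P _)
  | .fv n A, η => ((η (.inr (n, A))).2.2.down,
      if lv P (η (.inr (n, A))).1 ∈ d then (η (.inr (n, A))).2.2.down else ndC P _)
  | .srt _, _ => (ndC P _, ndC P _)
  | .app M N, η => ((c2 M η).1, if lv P (Tm.sub η.th (.app M N)) ∈ d then (c2 M η).1 else ndC P _)
  | .lam _ _, _ => (ndC P _, ndC P _)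
  | .pi A B, η => (ndC P _, if lv P (Tm.sub η.th (.pi A B)) ∈ d then
      arrC (Tm.sub η.th (.pi A B)) (nf (Tm.sub η.th A)) (c2 A η).2 fun N =>
        infC ((fun v => (c2 B (vcons (ATm.er N, nf (Tm.sub η.th A), v) η)).2) '' Set.univ) else ndC P _)

variable {P d D}

/-- shift of a variable -/
def p2aSh : Var S → Var S
  | .inl i => .inl (i + 1)
  | .inr a => .inr a

theorem p2a_vcons_sh {α : Type*} (x : α) (g : Var S → α) (y : Var S) : vcons x g (p2aSh y) = g y := by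
  cases y <;> rfl

theorem p2a_up (f : Var S → Var S) :
    Tm.up (fun x => Tm.vr (f x)) = fun x => Tm.vr (vcons (.inl 0) (fun y => p2aSh (f y)) x) := by
  have h : ∀ y : Var S, Tm.lift (Tm.vr y) = Tm.vr (p2aSh y) := fun y => by cases y <;> rfl
  exact sa_ext rfl (fun i => h _) fun a => h _

theorem p2a_sub_vr (σ : Sb S) (y : Var S) : Tm.sub σ (Tm.vr y) = σ y := by
  cases y <;> rfl

theorem p2a_c2_vr (y : Var S) (η : Env S (V2 P d D)) : c2 P d D (Tm.vr y) η =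
    ((η y).2.2.down, if lv P (η y).1 ∈ d then (η y).2.2.down else ndC P _) := by
  cases y <;> rfl

theorem p2a_gen (T : Tm S) : ∀ (f : Var S → Var S) (η η' : Env S (V2 P d D)),
    (∀ i, (η' (.inl i)).1 = (η (f (.inl i))).1 ∧ (η' (.inl i)).2.2 = (η (f (.inl i))).2.2) →
    (∀ a, Tm.Occ a T → (η' (.inr a)).1 = (η (f (.inr a))).1 ∧ (η' (.inr a)).2.2 = (η (f (.inr a))).2.2) →
    c2 P d D (Tm.sub (fun x => Tm.vr (f x)) T) η = c2 P d D T η' := by
  have hsub : ∀ (T : Tm S) (f : Var S → Var S) (η η' : Env S (V2 P d D)),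
      (∀ i, (η' (.inl i)).1 = (η (f (.inl i))).1 ∧ (η' (.inl i)).2.2 = (η (f (.inl i))).2.2) →
      (∀ a, Tm.Occ a T → (η' (.inr a)).1 = (η (f (.inr a))).1 ∧ (η' (.inr a)).2.2 = (η (f (.inr a))).2.2) →
      Tm.sub η.th (Tm.sub (fun x => Tm.vr (f x)) T) = Tm.sub η'.th T := by
    intro T f η η' h1 h2
    rw [sub_sub]
    exact sub_congr (fun i => by rw [p2a_sub_vr]; exact (h1 i).1.symm)
      fun a ha => by rw [p2a_sub_vr]; exact (h2 a ha).1.symm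
  induction T with
  | bv i =>
    intro f η η' h1 h2
    change c2 P d D (Tm.vr (f (.inl i))) η = c2 P d D (Tm.vr (.inl i)) η'
    rw [p2a_c2_vr, p2a_c2_vr, (h1 i).1, (h1 i).2]
  | fv n A _ =>
    intro f η η' h1 h2
    change c2 P d D (Tm.vr (f (.inr (n, A)))) η = c2 P d D (Tm.vr (.inr (n, A))) η'
    rw [p2a_c2_vr, p2a_c2_vr, (h2 _ rfl).1, (h2 _ rfl).2]
  | srt s => intro f η η' h1 h2; rfl
  | lam A M _ _ => intro f η η' h1 h2; rfl
  | app M N ih _ =>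
    intro f η η' h1 h2
    have e := hsub (.app M N) f η η' h1 h2
    have e1 := ih f η η' h1 fun a ha => h2 a (Or.inl ha)
    change ((c2 P d D (Tm.sub (fun x => Tm.vr (f x)) M) η).1,
      if lv P (Tm.sub η.th (Tm.sub (fun x => Tm.vr (f x)) (.app M N))) ∈ d then
        (c2 P d D (Tm.sub (fun x => Tm.vr (f x)) M) η).1 else ndC P _) = _
    rw [e, e1]
    rfl
  | pi A B ihA ihB =>
    intro f η η' h1 h2
    have e := hsub (.pi A B) f η η' h1 h2
    have eA := hsub A f η η' h1 fun a ha => h2 a (Or.inl ha)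
    have e1 := ihA f η η' h1 fun a ha => h2 a (Or.inl ha)
    have e2 : ∀ x, c2 P d D (Tm.sub (Tm.up fun x => Tm.vr (f x)) B) (vcons x η) = c2 P d D B (vcons x η') := by
      intro x
      rw [p2a_up]
      refine ihB _ _ _ (fun i => ?_) fun a ha => ?_
      · cases i with
        | zero => exact ⟨rfl, rfl⟩
        | succ i =>
          change _ = (vcons x η (p2aSh (f (.inl i)))).1 ∧ _ = (vcons x η (p2aSh (f (.inl i)))).2.2
          rw [p2a_vcons_sh]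
          exact h1 i
      · change _ = (vcons x η (p2aSh (f (.inr a)))).1 ∧ _ = (vcons x η (p2aSh (f (.inr a)))).2.2
        rw [p2a_vcons_sh]
        exact h2 a (Or.inr ha)
    change (ndC P _, if lv P (Tm.sub η.th (Tm.sub (fun x => Tm.vr (f x)) (.pi A B))) ∈ d then
      arrC (Tm.sub η.th (Tm.sub (fun x => Tm.vr (f x)) (.pi A B))) (nf (Tm.sub η.th (Tm.sub (fun x => Tm.vr (f x)) A)))
        (c2 P d D (Tm.sub (fun x => Tm.vr (f x)) A) η).2 fun N =>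
        infC ((fun v => (c2 P d D (Tm.sub (Tm.up fun x => Tm.vr (f x)) B)
          (vcons (ATm.er N, nf (Tm.sub η.th (Tm.sub (fun x => Tm.vr (f x)) A)), v) η)).2) '' Set.univ) else ndC P _) = _
    simp only [e, eA, e1, e2]
    rfl

/-- part a: `c2` only depends on the instances and values of the variables; general renaming form
(`τ x = vr (f x)`): induction on `T` -/
theorem c2_ren (f : Var S → Var S) (T : Tm S) (η η' : Env S (V2 P d D))
    (h : ∀ x, (η' x).1 = (η (f x)).1 ∧ (η' x).2.2 = (η (f x)).2.2) :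
    c2 P d D (Tm.sub (fun x => Tm.vr (f x)) T) η = c2 P d D T η' := by
  exact p2a_gen T f η η' (fun i => h _) fun a _ => h _

theorem c2_opn (a : Atom S) (B : Tm S) (η : Env S (V2 P d D)) (x : Tm S × Tm S × V2 P d D) (h : ¬ Tm.Occ a B) :
    c2 P d D (Tm.inst (Tm.atm a) B) (vupd η a x) = c2 P d D B (vcons x η) := by
  have e : Tm.inst (Tm.atm a) B = Tm.sub (fun y => Tm.vr (vcons (.inr a) id y)) B :=
    congrArg (fun σ => Tm.sub σ B) (sa_ext rfl (fun _ => rfl) fun _ => rfl)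
  rw [e]
  refine p2a_gen B _ _ _ (fun i => ?_) fun b hb => ?_
  · cases i with
    | zero =>
      change x.1 = (vupd η a x (.inr a)).1 ∧ x.2.2 = (vupd η a x (.inr a)).2.2
      rw [vupd_self]
      exact ⟨rfl, rfl⟩
    | succ i =>
      change _ = (vupd η a x (.inl i)).1 ∧ _ = (vupd η a x (.inl i)).2.2
      rw [vupd_inl]
      exact ⟨rfl, rfl⟩
  · change _ = (vupd η a x (.inr b)).1 ∧ _ = (vupd η a x (.inr b)).2.2
    rw [vupd_ne _ (by rintro rfl; exact h hb)]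
    exact ⟨rfl, rfl⟩

theorem c2_loc (a : Atom S) (T : Tm S) (η : Env S (V2 P d D)) (x : Tm S × Tm S × V2 P d D) (h : ¬ Tm.Occ a T) :
    c2 P d D T (vupd η a x) = c2 P d D T η := by
  have := p2a_gen T id (vupd η a x) η (fun i => by rw [id, vupd_inl]; exact ⟨rfl, rfl⟩) fun b hb => by
    rw [id, vupd_ne _ (by rintro rfl; exact h hb)]
    exact ⟨rfl, rfl⟩
  rwa [show (fun y : Var S => Tm.vr (id y)) = Tm.vr from rfl, sub_vr] at this

variable (P d D) in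
/-- the conclusion of `c2_key` for the polarity `p` -/
def c2b_K (a : Atom S) (T : Tm S) (Γ Δg : List (Atom S)) (θg : Sb S) (p : Bool) : Prop :=
  ∀ (Δ Θ : List (Atom S)) (τ ξ : Sb S) (η η' : Env S (V2 P d D)), Mor P Δ Γ τ → Mor P Θ Δ η.th → Mor P Θ Δg ξ →
    (∀ b ∈ Γ, η'.th (.inr b) = Tm.sub η.th (τ (.inr b)) ∧ η'.th (.inr b) = Tm.sub ξ (θg (.inr b))) →
    (∀ b ∈ Γ, b ≠ a → ∃ b', τ (.inr b) = Tm.atm b' ∧ (η' (.inr b)).2.2 = (η (.inr b')).2.2) →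
    ((η' (.inr a)).2.2.down = (if p then ndC P _ else neC P _) →
      (c2 P d D T η').2.1 ⊆ (c2 P d D (nf (Tm.sub τ T)) η).2.1) ∧
    ((η' (.inr a)).2.2.down = (if p then neC P _ else ndC P _) →
      (c2 P d D (nf (Tm.sub τ T)) η).2.1 ⊆ (c2 P d D T η').2.1)

theorem c2b_out (T : Tm S) (η : Env S (V2 P d D)) (h : lv P (Tm.sub η.th T) ∉ d) :
    (c2 P d D T η).2 = ndC P _ := by
  cases T with
  | bv i => exact if_neg h
  | fv n A => exact if_neg h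
  | srt s => rfl
  | app M N => exact if_neg h
  | lam M N => rfl
  | pi M N => exact if_neg h

theorem c2b_sp {b : Atom S} {T : Tm S} (h : Sp b T) (η : Env S (V2 P d D)) :
    (c2 P d D T η).1 = (η (.inr b)).2.2.down ∧
      (c2 P d D T η).2 = if lv P (Tm.sub η.th T) ∈ d then (η (.inr b)).2.2.down else ndC P _ := by
  induction h with
  | hd => exact ⟨rfl, rfl⟩
  | app N _ ih => exact ⟨ih.1, by rw [← ih.1]; rfl⟩

theorem c2b_sub {Γ : List (Atom S)} {T A : Tm S} (hT : Ty P Γ T A) {θ τ θ' : Sb S}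
    (h : ∀ b ∈ Γ, θ' (.inr b) = Tm.sub θ (τ (.inr b))) : Tm.sub θ' T = Tm.sub θ (Tm.sub τ T) := by
  rw [sub_sub]
  exact LC.sub_congr hT.lc.1 fun b hb => h b (hT.occ (Or.inl hb))

theorem c2b_lv (hP : HWN P) {Γ Δ : List (Atom S)} {T A : Tm S} (hT : Ty P Γ T A) {θ τ θ' : Sb S} (hτ : Mor P Δ Γ τ)
    {Q : Atom S → Prop} (h : ∀ b ∈ Γ, θ' (.inr b) = Tm.sub θ (τ (.inr b)) ∧ Q b) :
    nf (Tm.sub θ' T) = nf (Tm.sub θ (nf (Tm.sub τ T))) ∧ lv P (Tm.sub θ' T) = lv P (Tm.sub θ (nf (Tm.sub τ T))) := by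
  rw [c2b_sub hT fun b hb => (h b hb).1]
  have := cv_sub ((hT.subst hτ).cv_nf hP).1 θ
  exact ⟨nf_cv this, lv_cv this⟩

theorem c2b_K_out (hP : HWN P) (hs : Stage P d D) {a : Atom S} {T : Tm S} {Γ Δg : List (Atom S)} {s : S} {θg : Sb S}
    (hT : Ty P Γ T (.srt s)) (hθ : Mor P Δg Γ θg) (hD : lv P (Tm.sub θg T) ∉ D) (hd : lv P (Tm.sub θg T) ∉ d)
    (p : Bool) : c2b_K P d D a T Γ Δg θg p := by
  intro Δ Θ τ ξ η η' hτ hη hξ h1 _
  have hL : lv P (Tm.sub η'.th T) ∉ d := fun h => by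
    rw [c2b_sub hT fun b hb => (h1 b hb).2] at h
    exact hd (hs.mem_of_notD h (ps_sub hP (s := s) (hT.subst hθ) hξ).reach hD)
  rw [c2b_out _ _ hL, c2b_out _ _ ((c2b_lv hP hT hτ h1).2 ▸ hL)]
  exact ⟨fun _ => subset_rfl, fun _ => subset_rfl⟩

theorem c2b_inf {V : Type 1} {f g : V → CR P (d ∪ D)} (h : ∀ v, (f v).1 ⊆ (g v).1) :
    (infC (f '' Set.univ)).1 ⊆ (infC (g '' Set.univ)).1 := by
  rintro W ⟨h1, h2⟩
  refine ⟨h1, Set.mem_iInter₂.2 ?_⟩
  rintro _ ⟨v, -, rfl⟩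
  exact h v (Set.mem_iInter₂.1 h2 _ ⟨v, trivial, rfl⟩)

theorem c2b_K_pi (hP : HWN P) {a : Atom S} {C E : Tm S} {Γ Δg : List (Atom S)} {s s₁ s₂ : S} {θg : Sb S} {n m : ℕ}
    {p : Bool} (hT : Ty P Γ (.pi C E) (.srt s)) (hC : Ty P Γ C (.srt s₁))
    (hE : Ty P ((n, C) :: Γ) (Tm.inst (.fv n C) E) (.srt s₂)) (hcΓ : (n, C) ∉ Γ) (hcE : ¬ Tm.Occ (n, C) E)
    (hca : a ≠ (n, C)) (hθ : Mor P Δg Γ θg) (hg : (m, Tm.sub θg C) ∉ Δg) (k1 : c2b_K P d D a C Γ Δg θg (!p))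
    (k2 : c2b_K P d D a (Tm.inst (.fv n C) E) ((n, C) :: Γ) ((m, Tm.sub θg C) :: Δg)
      (vupd θg (n, C) (.fv m (Tm.sub θg C))) p) : c2b_K P d D a (.pi C E) Γ Δg θg p := by
  intro Δ Θ τ ξ η η' hτ hη hξ h1 h2
  obtain ⟨e1, e2⟩ := c2b_lv hP hT hτ h1
  by_cases hL : lv P (Tm.sub η'.th (.pi C E)) ∈ d
  swap
  · rw [c2b_out _ _ hL, c2b_out _ _ (e2 ▸ hL)]
    exact ⟨fun _ => subset_rfl, fun _ => subset_rfl⟩
  have hτT : Ty P Δ (.pi (Tm.sub τ C) (Tm.sub (Tm.up τ) E)) (.srt s) := hT.subst hτ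
  have hτC : Ty P Δ (Tm.sub τ C) (.srt s₁) := hC.subst hτ
  obtain ⟨-, w2, w3⟩ := (hP _ _ _ hτT).pi
  have w4 : nf (Tm.sub τ (.pi C E)) = .pi (nf (Tm.sub τ C)) (nf (Tm.sub (Tm.up τ) E)) := w3
  have e3 := (c2b_lv hP hC hτ h1).1
  have hL' := e2 ▸ hL
  rw [w4] at e1 hL' ⊢
  obtain ⟨n₁, hn1, hn2⟩ : ∃ n₁, cmx Δ ≤ n₁ ∧ Tm.mx (Tm.sub (Tm.up τ) E) ≤ n₁ :=
    ⟨max _ _, le_max_left _ _, le_max_right _ _⟩
  have hcΔ : (n₁, Tm.sub τ C) ∉ Δ := not_mem_of_cmx hn1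
  have hcE' : ¬ Tm.Occ (n₁, Tm.sub τ C) (nf (Tm.sub (Tm.up τ) E)) := fun h => not_occ_of_mx hn2 (occ_nf h)
  have key : ∀ (N : Tm S) (v : V2 P d D), GT P N (nf (Tm.sub η'.th C)) →
      ((η' (.inr a)).2.2.down = (if p then ndC P _ else neC P _) →
        (c2 P d D E (vcons (N, nf (Tm.sub η'.th C), v) η')).2.1 ⊆
          (c2 P d D (nf (Tm.sub (Tm.up τ) E)) (vcons (N, nf (Tm.sub η'.th C), v) η)).2.1) ∧
      ((η' (.inr a)).2.2.down = (if p then neC P _ else ndC P _) →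
        (c2 P d D (nf (Tm.sub (Tm.up τ) E)) (vcons (N, nf (Tm.sub η'.th C), v) η)).2.1 ⊆
          (c2 P d D E (vcons (N, nf (Tm.sub η'.th C), v) η')).2.1) := by
    intro N v hN
    obtain ⟨Θ', o1, o2, o3⟩ := hN.merge hη.1
    have f1 : Tm.sub η'.th C = Tm.sub η.th (Tm.sub τ C) := c2b_sub hC fun b hb => (h1 b hb).1
    have f2 : Tm.sub η'.th C = Tm.sub ξ (Tm.sub θg C) := c2b_sub hC fun b hb => (h1 b hb).2
    have t1 : Ty P Θ' (Tm.sub η'.th C) (.srt s₁) := f1 ▸ (hτC.subst hη).thin o1 o2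
    have t2 : Ty P Θ' N (Tm.sub η'.th C) := o3.conv t1 (.symm _ _ (t1.cv_nf hP).1)
    have k := k2 ((n₁, Tm.sub τ C) :: Δ) Θ' (vupd τ (n, C) (.fv n₁ (Tm.sub τ C))) (vupd ξ (m, Tm.sub θg C) N)
      (vupd η (n₁, Tm.sub τ C) (N, nf (Tm.sub η'.th C), v)) (vupd η' (n, C) (N, nf (Tm.sub η'.th C), v))
      (typa_ext hτ hE.ok hcΓ hτC)
      (by rw [Env.th_vupd]; exact (hη.thin o1 o2).upd (.cons hτC) hcΔ (f1 ▸ t2))
      ((hξ.thin o1 o2).upd (.cons (s := s₁) (hC.subst hθ)) hg (f2 ▸ t2))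
      (fun b hb => by
        rw [Env.th_vupd, Env.th_vupd]
        rcases List.mem_cons.1 hb with rfl | hb
        · rw [vupd_self, vupd_self, vupd_self]
          exact ⟨(vupd_self η.th _ _).symm, (vupd_self ξ _ _).symm⟩
        · have hne : b ≠ (n, C) := fun e => hcΓ (e ▸ hb)
          rw [vupd_ne _ hne, vupd_ne _ hne, vupd_ne _ hne,
            sub_vupd fun h => hcΔ ((hτ.2 b hb).occ (Or.inl h)), sub_vupd fun h => hg ((hθ.2 b hb).occ (Or.inl h))]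
          exact h1 b hb)
      (fun b hb hba => by
        rcases List.mem_cons.1 hb with rfl | hb
        · exact ⟨(n₁, Tm.sub τ C), vupd_self _ _ _, by rw [vupd_self, vupd_self]⟩
        · have hne : b ≠ (n, C) := fun e => hcΓ (e ▸ hb)
          obtain ⟨b', g1, g2⟩ := h2 b hb hba
          have hb' : b' ∈ Δ := (hτ.2 b hb).occ (Or.inl (by rw [g1]; exact rfl))
          exact ⟨b', by rw [vupd_ne _ hne, g1],
            by rw [vupd_ne _ hne, vupd_ne _ (fun e : b' = (n₁, Tm.sub τ C) => hcΔ (e ▸ hb')), g2]⟩)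
    rw [vupd_ne _ hca, show Tm.fv n C = Tm.atm (n, C) from rfl, c2_opn _ _ _ _ hcE, sub_vupd_inst hcE,
      ← inst_sub_up, show Tm.fv n₁ (Tm.sub τ C) = Tm.atm (n₁, Tm.sub τ C) from rfl, w2.nf_inst_atm,
      c2_opn _ _ _ _ hcE'] at k
    exact k
  obtain ⟨j1, j2⟩ := k1 Δ Θ τ ξ η η' hτ hη hξ h1 h2
  have u1 : (c2 P d D (.pi C E) η').2 = _ := if_pos hL
  have u2 : (c2 P d D (.pi (nf (Tm.sub τ C)) (nf (Tm.sub (Tm.up τ) E))) η).2 = _ := if_pos hL'
  rw [u1, u2, ← e3]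
  constructor
  · intro h
    exact arrC_mono e1 (j2 (by rw [h]; cases p <;> rfl)) fun N hN => c2b_inf fun v => (key _ v hN).1 h
  · intro h
    exact arrC_mono e1.symm (j1 (by rw [h]; cases p <;> rfl)) fun N hN => c2b_inf fun v => (key _ v hN).2 h

/-- part b, the key lemma.  `T` normal type in `Γ`, `a` the eliminated atom, `θg` a generic instance whose level is not in `D`.
There is a polarity `p` (it only depends on `T`, `θg`) such that for all instances `θ' = θg;ξ` and all `τ : Δ ⊢ Γ` that rename the atoms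
other than `a`, the candidate of `nf (T[τ])` lies between the candidates of `T` with `a ↦ neC` and `a ↦ ndC`.
Induction on `sz T`.  If `lv (T[θg]) ∉ d` it is upstream and all instances are outside `d` (`ps_sub` for `ξ`): everything is `ndC`.
Sort: trivial.  Spine with head `a`: `p = false`, every candidate is between `Ne` and `Nd`; other head: equality (the head is renamed,
`Sp.sub`, `Sp.red`).  `pi C E`: open with a fresh atom `c`, extend `θg` by a fresh atom; both children have generic level outside `D`, by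
`¬ Bin` one of them is outside `d`, hence all its instances give `ndC`; take the polarity of the other (flipped for the domain),
`arrC_mono`. -/
theorem c2_key (hP : HWN P) (hs : Stage P d D) (hb : ¬ Bin P d) (a : Atom S) : ∀ (T : Tm S) (Γ Δg : List (Atom S)) (s : S)
    (θg : Sb S), Ty P Γ T (.srt s) → Nf T → Mor P Δg Γ θg → lv P (Tm.sub θg T) ∉ D →
    ∃ p : Bool, ∀ (Δ Θ : List (Atom S)) (τ ξ : Sb S) (η η' : Env S (V2 P d D)), Mor P Δ Γ τ → Mor P Θ Δ η.th → Mor P Θ Δg ξ →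
      (∀ b ∈ Γ, η'.th (.inr b) = Tm.sub η.th (τ (.inr b)) ∧ η'.th (.inr b) = Tm.sub ξ (θg (.inr b))) →
      (∀ b ∈ Γ, b ≠ a → ∃ b', τ (.inr b) = Tm.atm b' ∧ (η' (.inr b)).2.2 = (η (.inr b')).2.2) →
      ((η' (.inr a)).2.2.down = (if p then ndC P _ else neC P _) →
        (c2 P d D T η').2.1 ⊆ (c2 P d D (nf (Tm.sub τ T)) η).2.1) ∧
      ((η' (.inr a)).2.2.down = (if p then neC P _ else ndC P _) →
        (c2 P d D (nf (Tm.sub τ T)) η).2.1 ⊆ (c2 P d D T η').2.1) := by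
  intro T
  induction hn : T.sz using Nat.strong_induction_on generalizing T with
  | _ k ih =>
  intro Γ Δg s θg hT hN hθ hD
  change ∃ p, c2b_K P d D a T Γ Δg θg p
  by_cases hd : lv P (Tm.sub θg T) ∈ d
  swap
  · exact ⟨false, c2b_K_out hP hs hT hθ hD hd false⟩
  rcases hT.nf_type hN with ⟨t, rfl⟩ | ⟨C, E, rfl⟩ | ⟨b, hb', hsp⟩
  · refine ⟨false, fun Δ Θ τ ξ η η' _ _ _ _ _ => ?_⟩
    rw [show Tm.sub τ (.srt t) = .srt t from rfl, (nf_srt t).nf_eq]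
    exact ⟨fun _ => subset_rfl, fun _ => subset_rfl⟩
  · obtain ⟨s₁, s₂, -, -, -, hC, hE⟩ := hT.gen_pi
    obtain ⟨n, hn1, hn2, hn3⟩ : ∃ n, cmx Γ ≤ n ∧ Tm.mx E ≤ n ∧ a.1 < n :=
      ⟨max (cmx Γ) (max (Tm.mx E) (a.1 + 1)), by omega, by omega, by omega⟩
    have hE' := hE n C s₁ hC (.refl _)
    have hcΓ : (n, C) ∉ Γ := not_mem_of_cmx hn1
    have hcE : ¬ Tm.Occ (n, C) E := not_occ_of_mx hn2
    have hca : a ≠ (n, C) := fun e => by rw [e] at hn3; exact lt_irrefl _ hn3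
    have hgT : Ty P Δg (.pi (Tm.sub θg C) (Tm.sub (Tm.up θg) E)) (.srt s) := hT.subst hθ
    have hgC : Ty P Δg (Tm.sub θg C) (.srt s₁) := hC.subst hθ
    have hg : (cmx Δg, Tm.sub θg C) ∉ Δg := not_mem_of_cmx le_rfl
    have hθ' := typa_ext (n' := cmx Δg) hθ hE'.ok hcΓ hgC
    have e1 : lv P (Tm.sub (vupd θg (n, C) (.fv (cmx Δg) (Tm.sub θg C))) (Tm.inst (.fv n C) E)) =
        glv P (Tm.sub θg C) (Tm.sub (Tm.up θg) E) := by
      rw [show Tm.fv n C = Tm.atm (n, C) from rfl, sub_vupd_inst hcE, ← inst_sub_up]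
      exact glv_eq hP hgT hgC (.refl _) hg
    have d1 : lv P (Tm.sub θg C) ∉ D := fun h => hD (hs.clo _ _ h (reach_dom hP hgT))
    have d2 : lv P (Tm.sub (vupd θg (n, C) (.fv (cmx Δg) (Tm.sub θg C))) (Tm.inst (.fv n C) E)) ∉ D :=
      fun h => hD (hs.clo _ _ (e1 ▸ h) (ps_glv hP hgT).reach)
    have hsz : (Tm.pi C E).sz = C.sz + E.sz + 1 := rfl
    by_cases h1 : lv P (Tm.sub θg C) ∈ d
    · obtain ⟨p, hp⟩ := ih _ (by omega) C rfl Γ Δg s₁ θg hC (nf_pi_iff.1 hN).1 hθ d1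
      refine ⟨!p, c2b_K_pi hP hT hC hE' hcΓ hcE hca hθ hg (by rw [Bool.not_not]; exact hp)
        (c2b_K_out hP hs hE' hθ' d2 (fun h2 => hb ?_) _)⟩
      have e2 := lv_pi hP hgT
      exact ⟨_, h1, _, e1 ▸ h2, lv_lev hP hgC, glv_lev hP hgT, e2 ▸ (lv_lev hP hgT).nonempty, e2 ▸ hd⟩
    · obtain ⟨p, hp⟩ := ih _ (by rw [show Tm.fv n C = Tm.atm (n, C) from rfl, sz_inst_atm]; omega)
        (Tm.inst (.fv n C) E) rfl _ _ s₂ _ hE' ((nf_inst_atm_iff (n, C) E).2 (nf_pi_iff.1 hN).2) hθ' d2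
      exact ⟨p, c2b_K_pi hP hT hC hE' hcΓ hcE hca hθ hg (c2b_K_out hP hs hC hθ d1 h1 _) hp⟩
  · refine ⟨false, fun Δ Θ τ ξ η η' hτ hη hξ h1 h2 => ?_⟩
    have e := (c2b_lv hP hT hτ h1).2
    by_cases hL : lv P (Tm.sub η'.th T) ∈ d
    swap
    · rw [c2b_out _ _ hL, c2b_out _ _ (e ▸ hL)]
      exact ⟨fun _ => subset_rfl, fun _ => subset_rfl⟩
    rw [(c2b_sp hsp η').2, if_pos hL]
    by_cases hba : b = a
    · subst hba
      exact ⟨fun h => by rw [h]; exact (c2 P d D _ η).2.2.ne, fun h => by rw [h]; exact (c2 P d D _ η).2.2.nd⟩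
    · obtain ⟨b', k1, k2⟩ := h2 b hb' hba
      rw [(c2b_sp ((hsp.sub k1).red (hP _ _ _ (hT.subst hτ)).red_nf) η).2, ← e, if_pos hL, k2]
      exact ⟨fun _ => subset_rfl, fun _ => subset_rfl⟩

/-- part a: `cand T η = (c2 T η).2`, `q = univ`; `elim` from `c2_key` with `T = inst (atm a) B`, `θg = vupd θ a (fresh atom)`,
`ξ = vupd vr (that atom) (N[θ])`, `τ = vupd vr a N` -/
theorem sem_p2 (hP : HWN P) (hs : Stage P d D) (hb : ¬ Bin P d) : Nonempty (Sem P d D) := by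
  refine ⟨⟨V2 P d D, ⟨ndC P _⟩, fun _ => Set.univ, fun T η => (c2 P d D T η).2, fun T η h => ?_, fun _ _ => rfl,
    fun Γ A B s η _ _ _ h => if_pos h, fun a B η x h => congrArg Prod.snd (c2_opn a B η x h),
    fun a T η x h => congrArg Prod.snd (c2_loc a T η x h), fun Γ A B s N η hT hn hN hη hd => ?_⟩⟩
  · cases T with
    | srt s => rfl
    | lam A M => rfl
    | _ => exact if_neg h
  obtain ⟨Δ₀, hθ, -⟩ := hη
  obtain ⟨s₁, s₂, s₃, -, -, hA, hB⟩ := hT.gen_pi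
  set n := max (cmx Γ) (Tm.mx B) with hn'
  have ha : (n, A) ∉ Γ := not_mem_of_cmx (le_max_left _ _)
  have hoc : ¬ Tm.Occ (n, A) B := not_occ_of_mx (le_max_right _ _)
  have hok : Ok P ((n, A) :: Γ) := .cons (a := (n, A)) hA
  have hAθ : Ty P Δ₀ (Tm.sub η.th A) (.srt s₁) := hA.subst hθ
  have hc : (cmx Δ₀, Tm.sub η.th A) ∉ Δ₀ := not_mem_of_cmx le_rfl
  have hg := typa_ext (n' := cmx Δ₀) hθ hok ha hAθ
  have hTθ : Ty P Δ₀ (.pi (Tm.sub η.th A) (Tm.sub (Tm.up η.th) B)) (.srt s) := hT.subst hθ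
  obtain ⟨p, hp⟩ := c2_key hP hs hb (n, A) (Tm.inst (Tm.atm (n, A)) B) _ _ s₂ _ (hB n A s₁ hA (.refl _))
    ((nf_inst_atm_iff _ _).2 (nf_pi_iff.1 hn).2) hg (by
      rw [sub_vupd_inst hoc, ← inst_sub_up, glv_eq hP hTθ hAθ (.refl _) hc]
      exact fun h => hs.dis _ hd (hs.clo _ _ h (ps_glv hP hTθ).reach))
  let v : V2 P d D := ⟨if p then ndC P _ else neC P _⟩
  have key := (hp Γ Δ₀ (vupd Tm.vr (n, A) N) (vupd Tm.vr (cmx Δ₀, Tm.sub η.th A) (Tm.sub η.th N)) η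
    (vupd η (n, A) (Tm.sub η.th N, nf (Tm.sub η.th A), v))
    (Mor.upd (Mor.id hT.ok fun _ h => h) hok ha (by rw [sub_vr]; exact hN)) hθ
    (Mor.upd (Mor.id hθ.1 fun _ h => h) hg.1 hc (by rw [sub_vr]; exact hN.subst hθ)) (fun b hb => ?_)
    (fun b _ hne => ⟨b, by rw [vupd_ne _ hne]; rfl, by rw [vupd_ne _ hne]⟩)).1 (by rw [vupd_self])
  · rw [sub_vupd_inst hoc, c2_opn _ _ _ _ hoc] at key
    refine Set.Subset.trans (fun W hW => ?_) key
    exact Set.mem_iInter₂.1 hW.2 _ ⟨v, Set.mem_univ _, rfl⟩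
  · rw [Env.th_vupd]
    by_cases hne : b = (n, A)
    · subst hne
      rw [vupd_self, vupd_self, vupd_self]
      exact ⟨rfl, (vupd_self _ _ _).symm⟩
    · have hb' : b ∈ Γ := (List.mem_cons.1 hb).resolve_left hne
      rw [vupd_ne _ hne, vupd_ne _ hne, vupd_ne _ hne, sub_vupd (fun ho => hc ((hθ.2 b hb').occ (Or.inl ho))), sub_vr]
      exact ⟨rfl, rfl⟩

end Crest.Agent.R298
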