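import Crest.Agent.R298.VM

/-!
# Row 298.  Construction of the value model under `MC`.
Needed kinds are `pl` (downstream of an impredicative component, even walk to `Qn`): all functions on coordinates; `mn` (odd): functions
of small support; `sm` (not downstream): Luo-style sets by well-founded recursion, packed in a small type `𝒮`.
-/

set_option autoImplicit false
set_option linter.unusedSectionVars false
set_option linter.unusedVariables false

namespace Crest.Agent.R298

open scoped Classical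
open Tm
open Crest.LogicCS.PTS (Spec)

variable {S : Type}

def pl (P : Spec S) (d : Set (Set S)) (K : Tm S) : Prop :=
  Need P d (lv P K) ∧ Zl P d (lv P K) ∧ ToQ P d false (lv P K)
def mn (P : Spec S) (d : Set (Set S)) (K : Tm S) : Prop :=
  Need P d (lv P K) ∧ Zl P d (lv P K) ∧ ¬ ToQ P d false (lv P K)
def sm (P : Spec S) (d : Set (Set S)) (K : Tm S) : Prop := Need P d (lv P K) ∧ ¬ Zl P d (lv P K)

def Unf1 (P : Spec S) (K K' : Tm S) : Prop := ∃ A B N, K = pi A B ∧ GT P N A ∧ K' = nf (inst N B)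

/-- `A` is a large domain of an unfolding of the small kind `K` -/
def Prec (P : Spec S) (d : Set (Set S)) (A K : Tm S) : Prop :=
  Kd P K ∧ sm P d K ∧ ∃ B, Relation.ReflTransGen (Unf1 P) K (pi A B) ∧ Lg P d (glv P A B) ∧ Lg P d (lv P A)

section
variable {P : Spec S} {d : Set (Set S)} {K A B N : Tm S}

/-! ### part a: polarity, well-foundedness -/

theorem Kd.dom (hP : HWN P) (h : Kd P (pi A B)) : Kd P A := by
  obtain ⟨h1, s, Γ, h2⟩ := h
  obtain ⟨s₁, -, -, -, -, h3, -⟩ := h2.gen_pi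
  exact ⟨(nf_pi_iff.1 h1).1, s₁, Γ, h3⟩

theorem Kd.res (hP : HWN P) (h : Kd P (pi A B)) (hN : GT P N A) :
    Kd P (res (pi A B) N) ∧ Ps P (lv P (res (pi A B) N)) (glv P A B) ∧ Ps P (glv P A B) (lv P (pi A B)) := by
  obtain ⟨-, s, Γ, h2⟩ := h
  obtain ⟨Δ, hΔ, hs, h3⟩ := hN.merge h2.ok
  have h4 := h2.thin hΔ hs
  obtain ⟨t, h5⟩ := h4.pi_inst h3
  refine ⟨⟨nf_nf _, t, Δ, h5.nf_tm hP⟩, ?_, ps_glv hP h4⟩
  show Ps P (lv P (nf (inst N B))) _
  rw [lv_nf (hP _ _ _ h5)]
  exact ps_inst_glv hP h4 h3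

theorem va1_toq {p q : Bool} {a b : Set S} (hw : WS P d p a b) (h : ToQ P d q b) : ToQ P d (xor p q) a := by
  obtain ⟨m, hm, hq⟩ := h
  exact ⟨m, hm, Wk.trans hw hq⟩

theorem va1_dom (hP : HWN P) (h : Kd P (pi A B)) (hg : Lg P d (glv P A B)) :
    WS P d true (lv P A) (lv P (pi A B)) := by
  obtain ⟨-, s, Γ, h2⟩ := h
  exact Wk.single (stp_dom hP h2 hg)

theorem va1_sm {K' : Tm S} {p : Bool} (h : sm P d K) (hl : Lg P d (lv P K')) (hw : WS P d p (lv P K') (lv P K)) :
    sm P d K' :=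
  ⟨h.1.up hl hw, fun hz => h.2 (hz.ws hw)⟩

/-- polarities along a needed product whose result kind is large -/
theorem polar (hP : HWN P) (hM : MC P d) (h : Kd P (pi A B)) (hN : GT P N A) (hn : Need P d (lv P (pi A B)))
    (hl : Lg P d (lv P (res (pi A B) N))) :
    Need P d (lv P (res (pi A B) N)) ∧ (Lg P d (lv P A) → Need P d (lv P A)) ∧
    (pl P d (pi A B) → ¬ mn P d (res (pi A B) N) ∧ ¬ pl P d A) ∧
    (mn P d (pi A B) → ¬ pl P d (res (pi A B) N) ∧ ¬ mn P d A) ∧
    (sm P d (pi A B) → sm P d (res (pi A B) N) ∧ (Lg P d (lv P A) → sm P d A ∧ Prec P d A (pi A B)) ∧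
      ∀ A', Prec P d A' (res (pi A B) N) → Prec P d A' (pi A B)) := by
  obtain ⟨-, h1, h2⟩ := h.res hP hN
  have hg : Lg P d (glv P A B) := hl.ps h1
  have w1 : WS P d false (lv P (res (pi A B) N)) (lv P (pi A B)) := (h1.trans h2).wk _
  have w2 := va1_dom hP h hg
  refine ⟨hn.up hl w1, fun hA => hn.up hA w2,
    fun hp => ⟨fun hm => hm.2.2 (va1_toq w1 hp.2.2), fun hq => hM.par hq.2.1 ⟨hq.2.2, va1_toq w2 hp.2.2⟩⟩,
    fun hm => ?_, fun hs => ⟨va1_sm hs hl w1, fun hA => ⟨va1_sm hs hA w2, h, hs, B, .refl, hg, hA⟩, ?_⟩⟩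
  · have ht : ToQ P d true (lv P (pi A B)) := by
      obtain ⟨_ | _, hq⟩ := hn.2
      · exact absurd hq hm.2.2
      · exact hq
    exact ⟨fun hq => hM.par hq.2.1 ⟨hq.2.2, va1_toq w1 ht⟩, fun hq => hq.2.2 (va1_toq w2 ht)⟩
  · rintro A' ⟨-, -, B', h3, h4⟩
    exact ⟨h, hs, B', .head ⟨A, B, N, rfl, hN, rfl⟩ h3, h4⟩

theorem va1_chain (hP : HWN P) {K' : Tm S} (h : Kd P K) (hc : Relation.ReflTransGen (Unf1 P) K K') :
    Kd P K' ∧ Ps P (lv P K') (lv P K) := by
  induction hc with
  | refl => exact ⟨h, Ps.refl _⟩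
  | tail _ h2 ih =>
    obtain ⟨A, B, N, rfl, hN, rfl⟩ := h2
    obtain ⟨h3, h4, h5⟩ := ih.1.res hP hN
    exact ⟨h3, (h4.trans h5).trans ih.2⟩

theorem va1_glv (hP : HWN P) (h : Kd P (pi A B)) : Ps P (glv P A B) (lv P (pi A B)) := by
  obtain ⟨-, s, Γ, h2⟩ := h
  exact ps_glv hP h2

/-- one-step description of accessibility -/
theorem acc_prec_of (hP : HWN P) (h : ∀ A B, K = pi A B → Kd P K → sm P d K → Lg P d (glv P A B) →
    (Lg P d (lv P A) → Acc (Prec P d) A) ∧ ∀ N, GT P N A → Acc (Prec P d) (nf (inst N B))) : Acc (Prec P d) K := by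
  refine Acc.intro _ fun A' ⟨hK, hs, B', hc, hg, hA⟩ => ?_
  rcases hc.cases_head with e | ⟨K₁, ⟨A, B, N, rfl, hN, rfl⟩, hc'⟩
  · exact (h A' B' e hK hs hg).1 hA
  · obtain ⟨h3, h4, h5⟩ := hK.res hP hN
    obtain ⟨h6, h7⟩ := va1_chain hP h3 hc'
    have hl : Lg P d (lv P (res (pi A B) N)) := hg.ps ((va1_glv hP h6).trans h7)
    exact ((h A B rfl hK hs (hl.ps h4)).2 N hN).inv
      ⟨h3, va1_sm hs hl ((h4.trans h5).wk _), B', hc', hg, hA⟩

theorem va2_sp {a b : Atom S} {M : Tm S} (h : Sp a M) {σ : Sb S} (hσ : Sp b (σ (.inr a))) : Sp b (sub σ M) := by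
  induction h with
  | hd => exact hσ
  | app N _ ih => exact ih.app _

theorem va2_open {Γ : List (Atom S)} {T : Tm S} (h : Ty P Γ (pi A B) T) {n : ℕ} (hn : (n, A) ∉ Γ) (θ : Sb S) (N : Tm S) :
    sub (vupd θ (n, A) N) (inst (fv n A) B) = inst N (sub (up θ) B) := by
  rw [inst_sub_up]
  exact sub_vupd_inst (a := (n, A)) (fun ho => hn (h.occ (Or.inl (Or.inr ho)))) θ N

theorem va2_glv (hP : HWN P) {Γ Δ : List (Atom S)} {s : S} (h : Ty P Γ (pi A B) (srt s)) {θ : Sb S} (hθ : Mor P Δ Γ θ) :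
    Ps P (glv P (sub θ A) (sub (up θ) B)) (glv P A B) := by
  obtain ⟨s₁, s₂, -, -, -, hA, hB⟩ := h.gen_pi
  have hn : (cmx Γ, A) ∉ Γ := not_mem_of_cmx le_rfl
  have hm : (cmx Δ, sub θ A) ∉ Δ := not_mem_of_cmx le_rfl
  have hA' : Ty P Δ (sub θ A) (srt s₁) := hA.subst hθ
  have h' : Ty P Δ (pi (sub θ A) (sub (up θ) B)) (srt s) := h.subst hθ
  rw [← glv_eq hP h hA (.refl _) hn, ← glv_eq hP h' hA' (.refl _) hm, ← va2_open h hn]
  exact ps_sub hP (hB _ A s₁ hA (.refl _)) (typa_ext hθ (Ok.cons hA) hn hA')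

theorem va2_main (hP : HWN P) {l : Set S} (hi : ¬ Imp1 P d l)
    (hup : ∀ K, Kd P K → RS P d (lv P K) l → ¬ RS P d l (lv P K) → Acc (Prec P d) K) (k : ℕ) :
    ∀ (T : Tm S) (Γ Δ Δg : List (Atom S)) (s : S) (θg ξ : Sb S), sz T ≤ k → Ty P Γ T (srt s) → Nf T → Mor P Δg Γ θg →
      Mor P Δ Δg ξ → RS P d (lv P (sub θg T)) l →
      (∀ y ∈ Γ, (∃ b, Sp b (sub ξ (θg (.inr y)))) ∨
        ((∃ b, θg (.inr y) = atm b) ∧ ∀ t, SC P d l {t} → ¬ Ps P (axs P t) (lv P (sub θg y.2)))) →
      Acc (Prec P d) (nf (sub ξ (sub θg T))) := by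
  induction k with
  | zero => exact fun T _ _ _ _ _ _ hk => absurd (lvb_sz_pos T) (by omega)
  | succ k ih =>
    intro T Γ Δ Δg s θg ξ hk hT hn hθ hξ hl hy
    have hg : Ty P Δg (sub θg T) (srt s) := hT.subst hθ
    have hi' : Ty P Δ (sub ξ (sub θg T)) (srt s) := hg.subst hξ
    have hw : WN (sub ξ (sub θg T)) := hP _ _ _ hi'
    have p1 : RS P d (lv P (nf (sub ξ (sub θg T)))) (lv P (sub θg T)) := by
      rw [lv_nf hw]; exact ⟨_, (ps_sub hP hg hξ).wk _⟩
    by_cases hb : RS P d l (lv P (nf (sub ξ (sub θg T))))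
    swap
    · exact hup _ ⟨nf_nf _, s, Δ, hi'.nf_tm hP⟩ (p1.trans hl) hb
    have hsc : SC P d l (lv P (sub θg T)) := ⟨hb.trans p1, hl⟩
    rcases hT.nf_type hn with ⟨t, rfl⟩ | ⟨C, E, rfl⟩ | ⟨a, haΓ, ha⟩
    · refine acc_prec_of hP fun A B e => ?_
      rw [show sub ξ (sub θg (srt t)) = srt t from rfl, (nf_srt t).nf_eq] at e
      cases e
    · obtain ⟨s₁, s₂, s₃, hr, hc, hC, hE⟩ := hT.gen_pi
      obtain ⟨nC, nE⟩ := nf_pi_iff.1 hn
      change Ty P Δg (pi (sub θg C) (sub (up θg) E)) (srt s) at hg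
      change Ty P Δ (pi (sub ξ (sub θg C)) (sub (up ξ) (sub (up θg) E))) (srt s) at hi'
      change SC P d l (lv P (pi (sub θg C) (sub (up θg) E))) at hsc
      change WN (pi (sub ξ (sub θg C)) (sub (up ξ) (sub (up θg) E))) at hw
      change Acc _ (nf (pi (sub ξ (sub θg C)) (sub (up ξ) (sub (up θg) E))))
      have hCg : Ty P Δg (sub θg C) (srt s₁) := hC.subst hθ
      have hCi : Ty P Δ (sub ξ (sub θg C)) (srt s₁) := hCg.subst hξ
      obtain ⟨wC, wE, e0⟩ := hw.pi
      have p2 := va2_glv hP hg hξ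
      refine acc_prec_of hP fun A B e hK _ hgl => ?_
      rw [e0] at e
      obtain ⟨rfl, rfl⟩ := Tm.pi.inj e
      have hi'' := hi'.nf_tm hP
      rw [e0] at hi''
      rw [← glv_cv hP hi' hi'' (cv_pi wC.red_nf.cv wE.red_nf.cv)] at hgl
      have hgl' := hgl.ps p2
      refine ⟨fun _ => ih C Γ Δ Δg s₁ θg ξ (lvb_sz hk 0).1 hC nC hθ hξ
        (RS.trans ⟨_, Wk.single (stp_dom hP hg hgl')⟩ hsc.2) hy, fun N hN => ?_⟩
      rw [← nf_cv (cv_inst (.refl N) wE.red_nf.cv)]
      obtain ⟨Δ', hΔ', hs', hN'⟩ := hN.merge hξ.1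
      have hN'' : Ty P Δ' N (sub ξ (sub θg C)) := hN'.conv (hCi.thin hΔ' hs') (.symm _ _ wC.red_nf.cv)
      have p3 : RS P d (glv P (sub θg C) (sub (up θg) E)) l := RS.trans ⟨_, (ps_glv hP hg).wk _⟩ hsc.2
      by_cases hb' : RS P d l (glv P (sub θg C) (sub (up θg) E))
      swap
      · obtain ⟨t, ht⟩ := (hi'.thin hΔ' hs').pi_inst hN''
        have p4 : RS P d (lv P (nf (inst N (sub (up ξ) (sub (up θg) E))))) (glv P (sub θg C) (sub (up θg) E)) := by
          rw [lv_nf (hP _ _ _ ht)]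
          exact ⟨_, ((ps_inst_glv hP (hi'.thin hΔ' hs') hN'').trans p2).wk _⟩
        exact hup _ ⟨nf_nf _, t, Δ', ht.nf_tm hP⟩ (p4.trans p3) fun h => hb' (h.trans p4)
      have hn0 : (cmx Γ, C) ∉ Γ := not_mem_of_cmx le_rfl
      have hm0 : (cmx Δg, sub θg C) ∉ Δg := not_mem_of_cmx le_rfl
      generalize cmx Γ = n at hn0
      generalize cmx Δg = m at hm0
      have := ih (inst (fv n C) E) ((n, C) :: Γ) Δ' ((m, sub θg C) :: Δg) s₂ (vupd θg (n, C) (fv m (sub θg C)))
        (vupd ξ (m, sub θg C) N) (lvb_sz hk n).2 (hE n C s₁ hC (.refl _)) ((nf_inst_atm_iff (n, C) E).2 nE)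
        (typa_ext hθ (Ok.cons hC) hn0 hCg) ((hξ.thin hΔ' hs').upd (Ok.cons hCg) hm0 hN'')
        (by rw [va2_open hT hn0, glv_eq hP hg hCg (.refl _) hm0]; exact p3) ?_
      · rwa [va2_open hT hn0, va2_open hg hm0] at this
      · intro y hy'
        rcases List.mem_cons.1 hy' with rfl | hy'
        · refine Or.inr ⟨⟨(m, sub θg C), vupd_self _ _ _⟩, fun t ht hps => hi ?_⟩
          rw [sub_vupd fun ho => hn0 (hC.occ (Or.inl ho))] at hps
          have hL : Lev P l := hsc.2.choose_spec.lev (lv_lev hP hg)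
          refine ⟨t, _, _, ht.1.choose_spec.lev hL, lv_lev hP hCg, glv_lev hP hg, (lc_dom hP hg).2, hps, ht,
            ⟨hb', p3⟩, ?_⟩
          rw [← lv_pi hP hg]
          exact hsc
        · have hne : y ≠ (n, C) := fun e => hn0 (e ▸ hy')
          obtain ⟨t, ht⟩ := hT.ok.sort hy'
          rw [vupd_ne _ hne, sub_vupd fun ho => hm0 ((hθ.2 y hy').occ (Or.inl ho)),
            sub_vupd fun ho => hn0 (ht.occ (Or.inl ho))]
          exact hy y hy'
    · rcases hy a haΓ with ⟨b, hb'⟩ | ⟨⟨b, hb'⟩, hs⟩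
      · have h1 : Sp b (sub ξ (sub θg T)) := by
          rw [sub_sub]
          exact va2_sp ha hb'
        refine acc_prec_of hP fun A B e => ?_
        have h2 := h1.red hw.red_nf
        rw [e] at h2
        exact (h2.not_cv_pi (.refl _)).elim
      · have h1 := (lv_sp hP hg (ha.sub hb')).1
        rw [h1] at hsc
        have h2 := ha.ps hP hT hθ
        rw [show sub θg (srt s) = srt s from rfl, lv_srt] at h2
        exact absurd h2 (hs s hsc)

/-- the predicative case.  `e` = structural component of `l`, everything strictly upstream is accessible.  Induction on `sz T`.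
`lv (T[θ])` not large: no predecessor.  Not in `e`: `hup` (it is upstream through `ps_sub` for `ξ`).  Otherwise `lv (T[θg]) ∈ e`.
Sort: no predecessor.  Spine with head `y`: if `θ y` is a spine so is `nf (T[θ])`; else `lv (T[θg]) = {s}` (`lv_sp`) and
`Ps (axs s) (lv (y.2[θg]))` (`Sp.ps`), contradiction.  `pi C E`: `acc_prec_of`; domain by induction (negative structural edge since the
generic codomain level is large); codomain: open with a fresh atom `c`, `θ[c ↦ N]`, `θg[c ↦ cg]`, `ξ[cg ↦ N]`; if the generic codomain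
level is in `e` then `c` is safe by `¬ Imp1`, otherwise the instance is not in `e` (`hup` or not large). -/
theorem acc_pred (hP : HWN P) {l : Set S} (hi : ¬ Imp1 P d l)
    (hup : ∀ K, Kd P K → RS P d (lv P K) l → ¬ RS P d l (lv P K) → Acc (Prec P d) K) :
    ∀ (T : Tm S) (Γ Δ Δg : List (Atom S)) (s : S) (θ θg ξ : Sb S), Ty P Γ T (srt s) → Nf T → Mor P Δg Γ θg → Mor P Δ Δg ξ →
      (∀ y ∈ Γ, θ (.inr y) = sub ξ (θg (.inr y))) → RS P d (lv P (sub θg T)) l →
      (∀ y ∈ Γ, (∃ b, Sp b (θ (.inr y))) ∨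
        ((∃ b, θg (.inr y) = atm b) ∧ ∀ t, SC P d l {t} → ¬ Ps P (axs P t) (lv P (sub θg y.2)))) →
      Acc (Prec P d) (nf (sub θ T)) := by
  intro T Γ Δ Δg s θ θg ξ hT hn hθ hξ he hl hy
  have e : sub θ T = sub ξ (sub θg T) := by
    rw [sub_sub]
    exact LC.sub_congr hT.lc.1 fun a ha => he a (hT.occ (Or.inl ha))
  rw [e]
  refine va2_main hP hi hup _ T Γ Δ Δg s θg ξ le_rfl hT hn hθ hξ hl fun y hy' => ?_
  rw [← he y hy']
  exact hy y hy'

/-- induction over the structural components (finitely many levels: induct on the number of levels with a structural walk to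
`lv K`).  A small kind is not `Imp`; if `¬ Imp2` every predecessor is strictly upstream, if `¬ Imp1` use `acc_pred` with `vr`. -/
theorem wf_prec [Finite S] (hP : HWN P) : WellFounded (Prec P d) := by
  have rf : ∀ l : Set S, RS P d l l := fun l => ⟨false, .refl l⟩
  have key : ∀ (n : ℕ) (K : Tm S), {m | RS P d m (lv P K)}.ncard < n → Acc (Prec P d) K := by
    intro n
    induction n with
    | zero => intro K hK; omega
    | succ n ih =>
      intro K hn
      have hup : ∀ K', Kd P K' → RS P d (lv P K') (lv P K) → ¬ RS P d (lv P K) (lv P K') → Acc (Prec P d) K' := by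
        intro K' _ h1 h2
        refine ih K' (lt_of_lt_of_le (Set.ncard_lt_ncard ⟨fun m hm => RS.trans hm h1, fun hs => h2 (hs (rf _))⟩
          (Set.toFinite _)) (Nat.lt_succ_iff.1 hn))
      by_cases hK : Kd P K ∧ sm P d K
      swap
      · exact Acc.intro _ fun A' hA => absurd ⟨hA.1, hA.2.1⟩ hK
      by_cases h1 : Imp1 P d (lv P K)
      · refine Acc.intro _ fun A' ⟨_, _, B', hc, hg, hA⟩ => ?_
        obtain ⟨h6, h7⟩ := va1_chain hP hK.1 hc
        have w1 : RS P d (lv P A') (lv P (pi A' B')) := ⟨_, va1_dom hP h6 hg⟩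
        have w2 : RS P d (lv P (pi A' B')) (lv P K) := ⟨_, h7.wk _⟩
        refine hup A' (h6.dom hP) (w1.trans w2) fun w3 => hK.2.2 ⟨_, ⟨hK.2.1.1, h1, ?_⟩, rf _⟩
        obtain ⟨-, s, Γ, h8⟩ := h6
        refine ⟨lv P A', glv P A' B', hA.1, hg.1, (lc_dom hP h8).2, hg, ⟨w3, w1.trans w2⟩, ?_⟩
        rw [← lv_pi hP h8]
        exact ⟨w3.trans w1, w2⟩
      · obtain ⟨⟨h2, s, Γ, h3⟩, -⟩ := hK
        have h4 := acc_pred hP h1 hup K Γ Γ Γ s vr vr vr h3 h2 (Mor.id h3.ok fun _ h => h)
          (Mor.id h3.ok fun _ h => h) (fun y _ => (sub_vr _).symm) (by rw [sub_vr]; exact rf _)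
          fun y _ => Or.inl ⟨y, Sp.hd⟩
        rwa [sub_vr, h2.nf_eq] at h4
  exact ⟨fun K => key _ K (Nat.lt_succ_self _)⟩

end

/-! ### part b: small values -/

structure SmS (τ : Type) (r : τ → τ → Prop) (C : Type) : Type 1 where
  𝒮 : Type
  kd : 𝒮 → τ
  tr : τ → (List (τ × Option 𝒮) → C) → 𝒮
  ext : 𝒮 → List (τ × Option 𝒮) → C
  kd_tr : ∀ K f, kd (tr K f) = K
  ext_tr : ∀ K f l, (∀ x ∈ l, ∀ s, x.2 = some s → r (kd s) K) → ext (tr K f) l = f l
  tr_congr : ∀ K f g, (∀ l, (∀ x ∈ l, ∀ s, x.2 = some s → r (kd s) K) → f l = g l) → tr K f = tr K g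

/-- `J K := List (τ × Option (Σ A : {A // r A K}, J A → C))` by `WellFounded.fix`, `𝒮 := Σ K, J K → C`; `J K` embeds in
`List (τ × Option 𝒮)` with range the admissible lists; `tr K f = ⟨K, f ∘ emb⟩`, `ext` extends by `default`. -/
theorem exists_sms {τ : Type} {r : τ → τ → Prop} (h : WellFounded r) (C : Type) [Inhabited C] : Nonempty (SmS τ r C) := by
  obtain ⟨J, hJ⟩ : ∃ J : τ → Type, ∀ K, J K = List (τ × Option (Σ A : {A // r A K}, J A.1 → C)) :=
    ⟨h.fix fun K J' => List (τ × Option (Σ A : {A // r A K}, J' A.1 A.2 → C)), fun K => h.fix_eq _ K⟩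
  let φ : ∀ K, τ × Option (Σ A : {A // r A K}, J A.1 → C) → τ × Option (Σ K, J K → C) :=
    fun K x => (x.1, x.2.map fun s => ⟨s.1.1, s.2⟩)
  let emb : ∀ K, J K → List (τ × Option (Σ K, J K → C)) := fun K j => (cast (hJ K) j).map (φ K)
  have h1 : ∀ K j, ∀ x ∈ emb K j, ∀ s, x.2 = some s → r s.1 K := by
    intro K j x hx s hs
    obtain ⟨⟨y, o⟩, -, rfl⟩ := List.mem_map.1 hx
    obtain ⟨t, -, rfl⟩ := Option.map_eq_some_iff.1 hs
    exact t.1.2
  have h2 : ∀ K (l : List (τ × Option (Σ K, J K → C))), (∀ x ∈ l, ∀ s, x.2 = some s → r s.1 K) →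
      ∃ j, emb K j = l := by
    intro K l hl
    have : l ∈ Set.range (List.map (φ K)) := by
      rw [Set.range_list_map]
      rintro ⟨y, _ | s⟩ hx
      · exact ⟨(y, none), rfl⟩
      · exact ⟨(y, some ⟨⟨s.1, hl _ hx s rfl⟩, s.2⟩), rfl⟩
    obtain ⟨l', rfl⟩ := this
    exact ⟨cast (hJ K).symm l', by simp [emb]⟩
  refine ⟨{ 𝒮 := Σ K, J K → C
            kd := Sigma.fst
            tr := fun K f => ⟨K, f ∘ emb K⟩
            ext := fun s => Function.extend (emb s.1) s.2 fun _ => default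
            kd_tr := fun _ _ => rfl
            ext_tr := fun K f l hl => ?_
            tr_congr := fun K f g hfg => ?_ }⟩
  · obtain ⟨j, rfl⟩ := h2 K l hl
    exact Function.FactorsThrough.extend_apply (g := f ∘ emb K) (fun _ _ e => congrArg f e) _ j
  · exact congrArg (Sigma.mk K) (funext fun j => hfg _ (h1 K j))

/-! ### the model -/

/-- codes of functions of small support -/
inductive El (τ σ C : Type) : Type 1
  | mk (ι : Type) (sh : ι → List (τ × Option (Option σ))) (sb : ι → ℕ → El τ σ C)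
      (g : List (τ × ((ι → C) ⊕ Option σ)) → C) : El τ σ C

instance {τ σ C : Type} [Inhabited C] : Nonempty (El τ σ C) :=
  ⟨.mk Empty (fun e => e.elim) (fun e => e.elim) fun _ => default⟩

abbrev Coord (τ σ C : Type) : Type 1 := List (τ × (El τ σ C ⊕ Option σ))
abbrev Plus (τ σ C : Type) : Type 1 := Coord τ σ C → C
abbrev LM (τ σ C : Type) : Type 1 := List (τ × (Plus τ σ C ⊕ Option σ))
abbrev LS (τ σ : Type) : Type := List (τ × Option σ)
abbrev Vl (τ σ C : Type) : Type 1 := Plus τ σ C × (LM τ σ C → C) × (LS τ σ → C)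

section gen
variable {τ σ C : Type}

def rst {ι : Type} (c : ι → Coord τ σ C) (l : LM τ σ C) : List (τ × ((ι → C) ⊕ Option σ)) :=
  l.map fun x => (x.1, x.2.map (fun u => u ∘ c) id)

/-- a coordinate from its shape and its sub-codes -/
def crd (sh : List (τ × Option (Option σ))) (sb : ℕ → El τ σ C) : Coord τ σ C :=
  sh.mapIdx fun n x => (x.1, x.2.elim (.inl (sb n)) .inr)

theorem crd_surj [Inhabited C] (l : Coord τ σ C) : ∃ x : List (τ × Option (Option σ)) × (ℕ → El τ σ C), crd x.1 x.2 = l := by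
  obtain ⟨e₀⟩ : Nonempty (El τ σ C) := inferInstance
  refine ⟨(l.map fun x => (x.1, x.2.elim (fun _ => none) some),
    fun n => (l[n]?).elim e₀ fun x => x.2.elim id fun _ => e₀), ?_⟩
  apply List.ext_getElem
  · simp [crd]
  · intro n h1 h2
    simp only [crd, List.getElem_mapIdx, List.getElem_map, List.getElem?_eq_getElem h2]
    rcases l[n] with ⟨t, e | o⟩ <;> rfl

def El.mean : El τ σ C → LM τ σ C → C
  | .mk _ sh sb g => fun l => g (rst (fun i => crd (sh i) (sb i)) l)

def SupM (m : LM τ σ C → C) : Prop := ∃ (ι : Type) (c : ι → Coord τ σ C), ∀ l l', rst c l = rst c l' → m l = m l'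

/-- small support in the plus coordinates of the parameters -/
def Sup {α : Type*} (f : (ℕ → Vl τ σ C) → α) : Prop := ∃ (ι : Type) (c : ι → ℕ × Coord τ σ C),
  ∀ p p', (∀ i, (p (c i).1).1 (c i).2 = (p' (c i).1).1 (c i).2) → f p = f p'

def inS {α : Type 1} (l : LS τ σ) : List (τ × (α ⊕ Option σ)) := l.map fun x => (x.1, .inr x.2)
def prS {α : Type 1} (l : List (τ × (α ⊕ Option σ))) : LS τ σ := l.map fun x => (x.1, x.2.elim (fun _ => none) id)

/-! ### part b: supports -/

theorem supM_iff [Inhabited C] (m : LM τ σ C → C) : SupM m ↔ ∃ e : El τ σ C, e.mean = m := by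
  constructor
  · rintro ⟨ι, c, h⟩
    choose x hx using fun i => crd_surj (c i)
    refine ⟨.mk ι (fun i => (x i).1) (fun i => (x i).2) (Function.extend (rst c) m fun _ => default), funext fun l => ?_⟩
    simp only [El.mean, hx]
    exact Function.FactorsThrough.extend_apply (f := rst c) (g := m) (fun a b e => h a b e) _ l
  · rintro ⟨⟨ι, sh, sb, g⟩, rfl⟩
    exact ⟨ι, _, fun l l' e => congrArg g e⟩

theorem prS_inS {α : Type 1} (l : LS τ σ) : prS (inS l : List (τ × (α ⊕ Option σ))) = l := by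
  simp [prS, inS, Function.comp_def]

theorem sup_const {α : Type*} (a : α) : Sup fun _ : ℕ → Vl τ σ C => a := by
  exact ⟨Empty, fun e => e.elim, fun _ _ _ => rfl⟩

theorem Sup.of_factor {α β : Type*} {f : (ℕ → Vl τ σ C) → α} (h : Sup f) {g : (ℕ → Vl τ σ C) → β}
    (hg : ∀ p p', f p = f p' → g p = g p') : Sup g := by
  obtain ⟨ι, c, h⟩ := h
  exact ⟨ι, c, fun p p' e => hg p p' (h p p' e)⟩

theorem Sup.map {α β : Type*} {f : (ℕ → Vl τ σ C) → α} (h : Sup f) (g : α → β) : Sup fun p => g (f p) := by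
  exact h.of_factor fun p p' e => congrArg g e

theorem Sup.tl {α : Type*} {f : (ℕ → Vl τ σ C) → α} (h : Sup f) : Sup fun p => f (tl p) := by
  obtain ⟨ι, c, h⟩ := h
  exact ⟨ι, fun i => ((c i).1 + 1, (c i).2), fun p p' e => h _ _ e⟩

theorem sup_pi {ι : Type} {α : ι → Type*} {f : ∀ i, (ℕ → Vl τ σ C) → α i} (h : ∀ i, Sup (f i)) :
    Sup fun p i => f i p := by
  choose κ c hc using h
  exact ⟨Σ i, κ i, fun x => c x.1 x.2, fun p p' e => funext fun i => hc i p p' fun k => e ⟨i, k⟩⟩

theorem Sup.small {α : Type*} {f : (ℕ → Vl τ σ C) → α} (h : Sup f) :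
    ∃ (ι : Type) (g : ι → ℕ → Vl τ σ C), ∀ p, ∃ i, f p = f (g i) := by
  obtain ⟨ι, c, h⟩ := h
  refine ⟨Set.range fun (p : ℕ → Vl τ σ C) (i : ι) => (p (c i).1).1 (c i).2, fun u => u.2.choose,
    fun p => ⟨⟨_, p, rfl⟩, h _ _ fun i => ?_⟩⟩
  exact (congrFun (Exists.choose_spec (p := fun q : ℕ → Vl τ σ C =>
    (fun i => (q (c i).1).1 (c i).2) = fun i => (p (c i).1).1 (c i).2) ⟨p, rfl⟩) i).symm

theorem Sup.bind {α β : Type*} {f : (ℕ → Vl τ σ C) → α} (h : Sup f) {g : α → (ℕ → Vl τ σ C) → β} (hg : ∀ a, Sup (g a)) :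
    Sup fun p => g (f p) p := by
  obtain ⟨κ, u, hu⟩ := h.small
  obtain ⟨ι, c, h⟩ := h
  obtain ⟨ι', c', h'⟩ := sup_pi fun k : κ => hg (f (u k))
  refine ⟨ι ⊕ ι', Sum.elim c c', fun p p' e => ?_⟩
  obtain ⟨k, hk⟩ := hu p
  have h1 : f p = f p' := h p p' fun i => e (.inl i)
  have h2 := congrFun (h' p p' fun i => e (.inr i)) k
  simp only at h2 ⊢
  rw [← h1, hk, h2]

/-- joint support in `(p, v)` gives a support of the whole function of `v` -/
theorem Sup.curry {α : Type*} {f : (ℕ → Vl τ σ C) → Vl τ σ C → α} (h : Sup fun p => f (R298.tl p) (p 0)) : Sup f := by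
  obtain ⟨ι, c, h⟩ := h
  refine ⟨ι, fun i => ((c i).1 - 1, (c i).2), fun p p' e => funext fun v => ?_⟩
  refine h (fun n => Nat.casesOn n v p) (fun n => Nat.casesOn n v p') fun i => ?_
  have : (p ((c i).1 - 1)).1 (c i).2 = (p' ((c i).1 - 1)).1 (c i).2 := e i
  generalize (c i).1 = n at this ⊢
  cases n with
  | zero => rfl
  | succ n => exact this

end gen

section model
variable (P : Spec S) (d : Set (Set S)) {C : Type} [Inhabited C] (Z : SmS (Tm S) (Prec P d) C)

abbrev VV : Type 1 := Vl (Tm S) Z.𝒮 C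

def vdv : VV P d Z := (fun _ => default, fun _ => default, fun _ => default)

noncomputable def vnrm (K : Tm S) (v : VV P d Z) : VV P d Z :=
  if pl P d K then (v.1, fun _ => default, fun _ => default)
  else if mn P d K then (fun _ => default, if SupM v.2.1 then v.2.1 else fun _ => default, fun _ => default)
  else if sm P d K then (fun _ => default, fun _ => default, Z.ext (Z.tr K v.2.2)) else vdv P d Z

noncomputable def argS (A : Tm S) (w : VV P d Z) : Option Z.𝒮 := if sm P d A then some (Z.tr A w.2.2) else none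

noncomputable def decS (A : Tm S) (o : Option Z.𝒮) : VV P d Z :=
  if sm P d A then o.elim (vdv P d Z) fun s => (fun _ => default, fun _ => default, Z.ext s) else vdv P d Z

noncomputable def vapp (K : Tm S) (f : VV P d Z) (N : Tm S) (w : VV P d Z) : VV P d Z :=
  let A := dom K
  let K' := res K N
  if pl P d K then
    let x : El (Tm S) Z.𝒮 C ⊕ Option Z.𝒮 :=
      if mn P d A then .inl (Classical.epsilon fun e => El.mean e = (vnrm P d Z A w).2.1) else .inr (argS P d Z A w)
    let g : Plus (Tm S) Z.𝒮 C := fun l => f.1 ((N, x) :: l)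
    if pl P d K' then (g, fun _ => default, fun _ => default)
    else if sm P d K' then (fun _ => default, fun _ => default, fun l => g (inS l)) else vdv P d Z
  else if mn P d K then
    let x : Plus (Tm S) Z.𝒮 C ⊕ Option Z.𝒮 := if pl P d A then .inl w.1 else .inr (argS P d Z A w)
    let g : LM (Tm S) Z.𝒮 C → C := fun l => (vnrm P d Z K f).2.1 ((N, x) :: l)
    if mn P d K' then (fun _ => default, g, fun _ => default)
    else if sm P d K' then (fun _ => default, fun _ => default, fun l => g (inS l)) else vdv P d Z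
  else if sm P d K then
    if sm P d K' then (fun _ => default, fun _ => default, fun l => (vnrm P d Z K f).2.2 ((N, argS P d Z A w) :: l))
    else vdv P d Z
  else vdv P d Z

noncomputable def vlam (K : Tm S) (F : Tm S → VV P d Z → VV P d Z) : VV P d Z :=
  let A := dom K
  (fun l => match l with
    | [] => default
    | (N, x) :: l' =>
      let v := vnrm P d Z (res K N) (F N (x.elim
        (fun e => if mn P d A then (fun _ => default, e.mean, fun _ => default) else vdv P d Z) (decS P d Z A)))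
      if pl P d (res K N) then v.1 l' else if sm P d (res K N) then v.2.2 (prS l') else default,
   fun l => match l with
    | [] => default
    | (N, x) :: l' =>
      let v := vnrm P d Z (res K N) (F N (x.elim
        (fun u => if pl P d A then (u, fun _ => default, fun _ => default) else vdv P d Z) (decS P d Z A)))
      if mn P d (res K N) then v.2.1 l' else if sm P d (res K N) then v.2.2 (prS l') else default,
   fun l => match l with
    | [] => default
    | (N, o) :: l' => if sm P d (res K N) then (vnrm P d Z (res K N) (F N (decS P d Z A o))).2.2 l' else default)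

noncomputable def vrd (K : Tm S) (v : VV P d Z) : C :=
  if pl P d K then v.1 [] else if mn P d K then v.2.1 [] else v.2.2 []

def vofc (c : C) : VV P d Z := (fun _ => c, fun _ => c, fun _ => c)

def vq (K : Tm S) : Set (VV P d Z) := if mn P d K then {vdv P d Z} else Set.range (vnrm P d Z K)

def vct (K : Tm S) (f : (ℕ → VV P d Z) → VV P d Z) : Prop :=
  (pl P d K → ∀ l, Sup fun p => (f p).1 l) ∧ (¬ pl P d K → Sup fun p => vnrm P d Z K (f p))

variable {P d Z}

/-! ### part c: easy laws -/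

theorem vc_supM_const {τ σ : Type} (c : C) : SupM (fun _ : LM τ σ C => c) :=
  ⟨Empty, fun e => e.elim, fun _ _ _ => rfl⟩

theorem vc_sup_pair {τ σ : Type} {α β : Type*} {f : (ℕ → Vl τ σ C) → α} {g : (ℕ → Vl τ σ C) → β} (hf : Sup f)
    (hg : Sup g) : Sup fun p => (f p, g p) :=
  hf.bind (g := fun a p => (a, g p)) fun a => hg.map fun b => (a, b)

theorem vc_mn_pl {K : Tm S} (h : mn P d K) : ¬ pl P d K := fun h' => h.2.2 h'.2.2
theorem vc_sm_pl {K : Tm S} (h : sm P d K) : ¬ pl P d K := fun h' => h.2 h'.2.1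
theorem vc_sm_mn {K : Tm S} (h : sm P d K) : ¬ mn P d K := fun h' => h.2 h'.2.1

theorem vc_tri {K : Tm S} (h : Need P d (lv P K)) : pl P d K ∨ mn P d K ∨ sm P d K := by
  by_cases h1 : Zl P d (lv P K)
  · by_cases h2 : ToQ P d false (lv P K)
    · exact Or.inl ⟨h, h1, h2⟩
    · exact Or.inr (Or.inl ⟨h, h1, h2⟩)
  · exact Or.inr (Or.inr ⟨h, h1⟩)

theorem vnrm_pl {K : Tm S} (h : pl P d K) (v : VV P d Z) :
    vnrm P d Z K v = (v.1, fun _ => default, fun _ => default) := by
  rw [vnrm, if_pos h]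

theorem vnrm_mn {K : Tm S} (h : mn P d K) (v : VV P d Z) :
    vnrm P d Z K v = (fun _ => default, if SupM v.2.1 then v.2.1 else fun _ => default, fun _ => default) := by
  rw [vnrm, if_neg (vc_mn_pl h), if_pos h]

theorem vnrm_sm {K : Tm S} (h : sm P d K) (v : VV P d Z) :
    vnrm P d Z K v = (fun _ => default, fun _ => default, Z.ext (Z.tr K v.2.2)) := by
  rw [vnrm, if_neg (vc_sm_pl h), if_neg (vc_sm_mn h), if_pos h]

theorem vnrm_no {K : Tm S} (h1 : ¬ pl P d K) (h2 : ¬ mn P d K) (h3 : ¬ sm P d K) (v : VV P d Z) :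
    vnrm P d Z K v = vdv P d Z := by
  rw [vnrm, if_neg h1, if_neg h2, if_neg h3]

theorem vnrm_npl {K : Tm S} (h : ¬ pl P d K) {v w : VV P d Z} (e : v.2 = w.2) :
    vnrm P d Z K v = vnrm P d Z K w := by
  rw [vnrm, vnrm, if_neg h, if_neg h, e]

theorem vc_supM_nrm (K : Tm S) (v : VV P d Z) : SupM (vnrm P d Z K v).2.1 := by
  rw [vnrm]
  split_ifs with h1 h2 h3 h4
  · exact vc_supM_const _
  · exact h3
  · exact vc_supM_const _
  · exact vc_supM_const _
  · exact vc_supM_const _

theorem vc_tr_ext (K : Tm S) (g : LS (Tm S) Z.𝒮 → C) : Z.tr K (Z.ext (Z.tr K g)) = Z.tr K g :=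
  Z.tr_congr K _ _ fun l hl => Z.ext_tr K g l hl

theorem vct_of_sup (K : Tm S) {f : (ℕ → VV P d Z) → VV P d Z} (h : Sup f) : vct P d Z K f :=
  ⟨fun _ l => h.map fun v => v.1 l, fun _ => h.map _⟩

theorem vnrm_nrm (K : Tm S) (v : VV P d Z) : vnrm P d Z K (vnrm P d Z K v) = vnrm P d Z K v := by
  by_cases h1 : pl P d K
  · rw [vnrm_pl h1, vnrm_pl h1]
  by_cases h2 : mn P d K
  · rw [vnrm_mn h2, if_pos (vc_supM_nrm K v), vnrm_mn h2]
  by_cases h3 : sm P d K
  · rw [vnrm_sm h3, vnrm_sm h3, vc_tr_ext]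
  rw [vnrm_no h1 h2 h3, vnrm_no h1 h2 h3]

theorem vnrm_dv (K : Tm S) (v : VV P d Z) (h : ¬ Need P d (lv P K)) : vnrm P d Z K v = vdv P d Z := by
  exact vnrm_no (fun h' => h h'.1) (fun h' => h h'.1) (fun h' => h h'.1) v

theorem vapp_dv (K : Tm S) (f : VV P d Z) (N : Tm S) (v : VV P d Z) (h : ¬ Need P d (lv P K)) :
    vapp P d Z K f N v = vdv P d Z := by
  simp only [vapp]
  rw [if_neg fun h' : pl P d K => h h'.1, if_neg fun h' : mn P d K => h h'.1, if_neg fun h' : sm P d K => h h'.1]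

theorem vrd_ofc (K : Tm S) (c : C) (h : Need P d (lv P K)) : vrd P d Z K (vnrm P d Z K (vofc P d Z c)) = c := by
  rcases vc_tri h with h1 | h1 | h1
  · rw [vrd, if_pos h1, vnrm_pl h1]; rfl
  · rw [vrd, if_neg (vc_mn_pl h1), if_pos h1, vnrm_mn h1, if_pos (show SupM (vofc P d Z c).2.1 from vc_supM_const c)]
    rfl
  · rw [vrd, if_neg (vc_sm_pl h1), if_neg (vc_sm_mn h1), vnrm_sm h1]
    exact Z.ext_tr K _ [] (by simp)

theorem vq_nrm (K : Tm S) (v : VV P d Z) (h : Qn P d (lv P K) ∨ ¬ Need P d (lv P K)) : vnrm P d Z K v ∈ vq P d Z K := by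
  by_cases h1 : mn P d K
  · exact absurd ⟨_, h.resolve_right (not_not.2 h1.1), Wk.refl _⟩ h1.2.2
  · rw [vq, if_neg h1]
    exact Set.mem_range_self v

theorem vct_const (K : Tm S) (v : VV P d Z) : vct P d Z K fun _ => v := by
  exact vct_of_sup K (sup_const v)

theorem vct_cast (K K' : Tm S) (f : (ℕ → VV P d Z) → VV P d Z) (h : vct P d Z K' f) :
    vct P d Z K fun p => vnrm P d Z K (vnrm P d Z K' (f p)) := by
  by_cases h1 : pl P d K'
  · refine ⟨fun h2 l => ?_, fun h2 => ?_⟩
    · simp only [vnrm_pl h2, vnrm_pl h1]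
      exact h.1 h1 l
    · refine (sup_const ()).of_factor fun p p' _ => congrArg _ (vnrm_npl h2 ?_)
      rw [vnrm_pl h1, vnrm_pl h1]
  · exact vct_of_sup K ((h.2 h1).map _)

theorem vct_var (K : Tm S) (h : pl P d K) : vct P d Z K fun p => p 0 := by
  exact ⟨fun _ l => ⟨Unit, fun _ => (0, l), fun p p' e => e ()⟩, fun h' => absurd h h'⟩

theorem vct_tl (K : Tm S) (f : (ℕ → VV P d Z) → VV P d Z) (h : vct P d Z K f) : vct P d Z K fun p => f (tl p) := by
  exact ⟨fun h1 l => (h.1 h1 l).tl, fun h1 => (h.2 h1).tl⟩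

theorem vct_ofc (K : Tm S) (c : (ℕ → VV P d Z) → C) (h : Sup c) : vct P d Z K fun p => vofc P d Z (c p) := by
  exact vct_of_sup K (h.map _)

theorem vc0_rd (K : Tm S) (f : (ℕ → VV P d Z) → VV P d Z) (h : vct P d Z K f) :
    Sup fun p => vrd P d Z K (vnrm P d Z K (f p)) := by
  by_cases h1 : pl P d K
  · simp only [vrd, if_pos h1, vnrm_pl h1]
    exact h.1 h1 []
  · exact (h.2 h1).map _

/-- `pl K`: `Sup.curry`; otherwise `vq K` is the range of a small family (index `𝒮` or `PUnit`), `sup_pi` -/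
theorem vc0_q (K : Tm S) (f : (ℕ → VV P d Z) → VV P d Z → C) (G : Set C → C) (h1 : ∀ v, Sup fun p => f p v)
    (h2 : pl P d K → Sup fun p => f (tl p) (p 0)) : Sup fun p => G (f p '' vq P d Z K) := by
  by_cases hp : pl P d K
  · exact (Sup.curry (h2 hp)).map fun F => G (F '' vq P d Z K)
  obtain ⟨ι, g, hg⟩ : ∃ (ι : Type) (g : ι → VV P d Z), vq P d Z K = Set.range g := by
    by_cases hm : mn P d K
    · exact ⟨Unit, fun _ => vdv P d Z, by rw [vq, if_pos hm, Set.range_const]⟩
    rw [vq, if_neg hm]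
    by_cases hs : sm P d K
    · refine ⟨Set.range fun v : VV P d Z => Z.tr K v.2.2,
        fun s => (fun _ => default, fun _ => default, Z.ext s.1), Set.ext fun w => ⟨?_, ?_⟩⟩
      · rintro ⟨v, rfl⟩
        exact ⟨⟨_, v, rfl⟩, (vnrm_sm hs v).symm⟩
      · rintro ⟨⟨_, v, rfl⟩, rfl⟩
        exact ⟨v, vnrm_sm hs v⟩
    · refine ⟨Unit, fun _ => vdv P d Z, ?_⟩
      rw [show vnrm P d Z K = fun _ => vdv P d Z from funext (vnrm_no hp hm hs), Set.range_const]
      have : Nonempty (VV P d Z) := ⟨vdv P d Z⟩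
      rw [Set.range_const]
  simp only [hg, ← Set.range_comp]
  exact (sup_pi fun i => h1 (g i)).map fun u => G (Set.range u)

/-! ### part d: application and abstraction -/

theorem vc_argS_nrm (A : Tm S) (w : VV P d Z) : argS P d Z A (vnrm P d Z A w) = argS P d Z A w := by
  by_cases h : sm P d A
  · rw [argS, argS, if_pos h, if_pos h, vnrm_sm h, vc_tr_ext]
  · rw [argS, argS, if_neg h, if_neg h]

theorem vc_sup_argS {A : Tm S} {w : (ℕ → VV P d Z) → VV P d Z} (h : vct P d Z A w) :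
    Sup fun p => argS P d Z A (w p) := by
  by_cases hs : sm P d A
  · refine (h.2 (vc_sm_pl hs)).of_factor fun p p' e => ?_
    rw [← vc_argS_nrm, e, vc_argS_nrm]
  · simp only [argS, if_neg hs]
    exact sup_const _

/-- the argument coordinate has small support (`argS A w` only depends on `vnrm A w`: `tr_congr`, `ext_tr`); `Sup.bind`; for `mn K` bind on
`vnrm K (f p)`, whose component is `SupM`, so only a small family of coordinates of `(w p).1` is read -/
theorem vct_app (K N : Tm S) (f w : (ℕ → VV P d Z) → VV P d Z) (h1 : vct P d Z K f) (h2 : vct P d Z (dom K) w) :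
    vct P d Z (res K N) fun p => vapp P d Z K (f p) N (w p) := by
  by_cases hp : pl P d K
  · have hx : Sup fun p => (if mn P d (dom K) then
        Sum.inl (Classical.epsilon fun e => El.mean e = (vnrm P d Z (dom K) (w p)).2.1)
        else Sum.inr (argS P d Z (dom K) (w p)) : El (Tm S) Z.𝒮 C ⊕ Option Z.𝒮) := by
      by_cases hm : mn P d (dom K)
      · simp only [if_pos hm]
        exact (h2.2 (vc_mn_pl hm)).map fun v => Sum.inl (Classical.epsilon fun e => El.mean e = v.2.1)
      · simp only [if_neg hm]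
        exact (vc_sup_argS h2).map Sum.inr
    have hg := fun l => hx.bind (g := fun a p => (f p).1 ((N, a) :: l)) fun a => h1.1 hp _
    simp only [vapp, if_pos hp]
    by_cases hp' : pl P d (res K N)
    · simp only [if_pos hp']
      exact ⟨fun _ l => hg l, fun h' => absurd hp' h'⟩
    simp only [if_neg hp']
    by_cases hs' : sm P d (res K N)
    · simp only [if_pos hs']
      exact vct_of_sup _ ((sup_pi fun l : LS (Tm S) Z.𝒮 => hg (inS l)).map
        fun u => ((fun _ => default, fun _ => default, u) : VV P d Z))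
    · simp only [if_neg hs']
      exact vct_const _ _
  by_cases hm : mn P d K
  · have hg : Sup fun p => fun l => (vnrm P d Z K (f p)).2.1
        ((N, if pl P d (dom K) then Sum.inl (w p).1 else Sum.inr (argS P d Z (dom K) (w p))) :: l) := by
      have := (h1.2 hp).bind (g := fun a p => fun l => (vnrm P d Z K a).2.1
        ((N, if pl P d (dom K) then Sum.inl (w p).1 else Sum.inr (argS P d Z (dom K) (w p))) :: l)) fun a => by
          by_cases hA : pl P d (dom K)
          · obtain ⟨ι, c, hc⟩ := vc_supM_nrm K a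
            refine (sup_pi fun i => h2.1 hA (c i)).of_factor fun p p' e => funext fun l => hc _ _ ?_
            simp only [if_pos hA, rst, List.map_cons, Sum.map_inl]
            rw [show (w p).1 ∘ c = (w p').1 ∘ c from e]
          · simp only [if_neg hA]
            exact (vc_sup_argS h2).map fun o l => (vnrm P d Z K a).2.1 ((N, Sum.inr o) :: l)
      simpa only [vnrm_nrm] using this
    refine vct_of_sup _ (hg.of_factor fun p p' e => ?_)
    simp only [vapp, if_neg hp, if_pos hm]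
    rw [e]
    simp only [congrFun e]
  by_cases hs : sm P d K
  · refine vct_of_sup _ ((vc_sup_pair (h1.2 hp) (vc_sup_argS h2)).of_factor fun p p' e => ?_)
    simp only [vapp, if_neg hp, if_neg hm, if_pos hs]
    rw [(Prod.mk.inj e).1, (Prod.mk.inj e).2]
  · simp only [vapp, if_neg hp, if_neg hm, if_neg hs]
    exact vct_const _ _

theorem vd_rst_comp {τ σ : Type} {ι κ : Type} (c : ι → Coord τ σ C) (j : κ → ι) {l l' : LM τ σ C}
    (e : rst c l = rst c l') : rst (c ∘ j) l = rst (c ∘ j) l' := by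
  have : ∀ l : LM τ σ C, rst (c ∘ j) l = (rst c l).map fun x => (x.1, x.2.map (fun u => u ∘ j) id) := by
    intro l
    simp only [rst, List.map_map]
    refine List.map_congr_left ?_
    rintro ⟨a, u | o⟩ - <;> rfl
  rw [this, this, e]

theorem vd_prS {τ σ : Type} {ι : Type} (c : ι → Coord τ σ C) {l l' : LM τ σ C}
    (e : rst c l = rst c l') : prS l = prS l' := by
  have : ∀ l : LM τ σ C, prS l = (rst c l).map fun x => (x.1, x.2.elim (fun _ => none) id) := by
    intro l
    simp only [rst, prS, List.map_map]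
    refine List.map_congr_left ?_
    rintro ⟨a, u | o⟩ - <;> rfl
  rw [this, this, e]

theorem vd_supM_cons {τ σ : Type} {m : LM τ σ C → C} (H : τ → Plus τ σ C ⊕ Option σ → LM τ σ C → C)
    (hm : ∀ N x l, m ((N, x) :: l) = H N x l)
    (h1 : ∀ N, ∃ (ι : Type) (c : ι → Coord τ σ C), ∀ x x' : Plus τ σ C ⊕ Option σ,
      x.map (fun u => u ∘ c) id = x'.map (fun u => u ∘ c) id → H N x = H N x')
    (h2 : ∀ N x, SupM (H N x)) : SupM m := by
  choose ι c hc using h1
  choose κ b hb using h2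
  let R : ∀ N, Plus τ σ C ⊕ Option σ → (ι N → C) ⊕ Option σ := fun N x => x.map (fun u => u ∘ c N) id
  let cc : (Σ N, ι N ⊕ Σ y : Set.range (R N), κ N y.2.choose) → Coord τ σ C :=
    fun z => z.2.elim (c z.1) fun t => b z.1 t.1.2.choose t.2
  refine ⟨_, cc, fun l l' e => ?_⟩
  rcases l with _ | ⟨⟨N, x⟩, l⟩ <;> rcases l' with _ | ⟨⟨N', x'⟩, l'⟩
  · rfl
  · simp [rst] at e
  · simp [rst] at e
  have e1 := vd_rst_comp cc (fun i : ι N => ⟨N, .inl i⟩) e
  simp only [rst, List.map_cons, List.cons.injEq, Prod.mk.injEq] at e e1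
  obtain ⟨⟨rfl, -⟩, e⟩ := e
  let y : Set.range (R N) := ⟨_, x, rfl⟩
  have e2 : H N x = H N y.2.choose := hc N _ _ y.2.choose_spec.symm
  rw [hm, hm, ← hc N x x' e1.1.2, e2]
  exact hb N _ _ _ (vd_rst_comp cc (fun k : κ N y.2.choose => ⟨N, .inr ⟨y, k⟩⟩) e)

/-- decoding of an argument coordinate of a `mn` function -/
noncomputable def vdDec (A : Tm S) (x : Plus (Tm S) Z.𝒮 C ⊕ Option Z.𝒮) : VV P d Z :=
  x.elim (fun u => if pl P d A then (u, fun _ => default, fun _ => default) else vdv P d Z) (decS P d Z A)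

/-- the `mn` component of an abstraction, from the value of the body -/
noncomputable def vdOut (K' : Tm S) (v : VV P d Z) (l : LM (Tm S) Z.𝒮 C) : C :=
  if mn P d K' then v.2.1 l else if sm P d K' then v.2.2 (prS l) else default

theorem vd_vlam_cons (K : Tm S) (F : Tm S → VV P d Z → VV P d Z) (N : Tm S) (x : Plus (Tm S) Z.𝒮 C ⊕ Option Z.𝒮)
    (l : LM (Tm S) Z.𝒮 C) : (vlam P d Z K F).2.1 ((N, x) :: l) =
      vdOut (res K N) (vnrm P d Z (res K N) (F N (vdDec (dom K) x))) l := rfl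

theorem vd_out_pl {K' : Tm S} (h : pl P d K') (v : VV P d Z) : vdOut K' v = fun _ => default := by
  funext l
  rw [vdOut, if_neg fun h' => vc_mn_pl h' h, if_neg fun h' => vc_sm_pl h' h]

/-- union of the supports of the heads (over `N`, from `Fam.2`) and of the small family of values (`Sup.small`) -/
theorem vlam_supM (K : Tm S) (F : (ℕ → VV P d Z) → Tm S → VV P d Z → VV P d Z) (h : Fam (pl P d) (vct P d Z) K F)
    (p : ℕ → VV P d Z) : SupM (vlam P d Z K (F p)).2.1 := by
  refine vd_supM_cons (fun N x => vdOut (res K N) (vnrm P d Z (res K N) (F p N (vdDec (dom K) x))))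
    (vd_vlam_cons K (F p)) (fun N => ?_) fun N x => ?_
  · by_cases hp : pl P d (res K N)
    · exact ⟨Empty, fun e => e.elim, fun x x' _ => by simp only [vd_out_pl hp]⟩
    by_cases hA : pl P d (dom K)
    · obtain ⟨ι, c, hc⟩ := (h.2 hA N).2 hp
      refine ⟨ι, fun i => (c i).2, ?_⟩
      rintro (u | o) (u' | o') e
      · have e' := Sum.inl.inj e
        have := hc (fun n => Nat.casesOn n (u, fun _ => default, fun _ => default) p)
          (fun n => Nat.casesOn n (u', fun _ => default, fun _ => default) p) fun i => by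
            have : u (c i).2 = u' (c i).2 := congrFun e' i
            generalize (c i).1 = n
            cases n with
            | zero => exact this
            | succ n => rfl
        simp only [vdDec, Sum.elim_inl, if_pos hA]
        exact congrArg _ this
      · cases e
      · cases e
      · cases e; rfl
    · refine ⟨Empty, fun e => e.elim, ?_⟩
      rintro (u | o) (u' | o') e
      · simp only [vdDec, Sum.elim_inl, if_neg hA]
      · cases e
      · cases e
      · cases e; rfl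
  · by_cases hm : mn P d (res K N)
    · have := vc_supM_nrm (res K N) (F p N (vdDec (dom K) x))
      convert this using 1
      funext l
      rw [vdOut, if_pos hm]
    · refine ⟨Empty, fun e => e.elim, fun l l' e => ?_⟩
      simp only [vdOut, if_neg hm, vd_prS _ e]

theorem vct_lam (K : Tm S) (F : (ℕ → VV P d Z) → Tm S → VV P d Z → VV P d Z) (h : Fam (pl P d) (vct P d Z) K F) :
    vct P d Z K fun p => vlam P d Z K (F p) := by
  refine ⟨fun hK l => ?_, fun hK => ?_⟩
  · rcases l with _ | ⟨⟨N, x⟩, l⟩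
    · exact sup_const _
    simp only [vlam]
    by_cases hp : pl P d (res K N)
    · simp only [if_pos hp, vnrm_pl hp]
      exact (h.1 N _).1 hp l
    · simp only [if_neg hp]
      exact ((h.1 N _).2 hp).map fun v => if sm P d (res K N) then v.2.2 (prS l) else default
  have h3 : Sup fun p => (vlam P d Z K (F p)).2.2 := by
    refine sup_pi (f := fun l p => (vlam P d Z K (F p)).2.2 l) fun l => ?_
    rcases l with _ | ⟨⟨N, o⟩, l⟩
    · exact sup_const _
    simp only [vlam]
    by_cases hs : sm P d (res K N)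
    · simp only [if_pos hs]
      exact ((h.1 N _).2 (vc_sm_pl hs)).map fun v => v.2.2 l
    · simp only [if_neg hs]
      exact sup_const _
  have h4 : ∀ N, Sup fun p => fun x => vdOut (res K N) (vnrm P d Z (res K N) (F p N (vdDec (dom K) x))) := by
    intro N
    by_cases hp : pl P d (res K N)
    · simp only [vd_out_pl hp]
      exact sup_const _
    by_cases hA : pl P d (dom K)
    · exact (Sup.curry (f := fun p v => vnrm P d Z (res K N) (F p N v)) ((h.2 hA N).2 hp)).map
        fun G x => vdOut (res K N) (G (vdDec (dom K) x))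
    · refine (vc_sup_pair ((h.1 N (vdv P d Z)).2 hp)
        (sup_pi fun o => (h.1 N (decS P d Z (dom K) o)).2 hp)).of_factor fun p p' e => funext ?_
      rintro (u | o)
      · simp only [vdDec, Sum.elim_inl, if_neg hA]
        rw [(Prod.mk.inj e).1]
      · simp only [vdDec, Sum.elim_inr]
        rw [congrFun (Prod.mk.inj e).2 o]
  have h2 : Sup fun p => (vlam P d Z K (F p)).2.1 := by
    refine (sup_pi h4).of_factor fun p p' e => funext fun l => ?_
    rcases l with _ | ⟨⟨N, x⟩, l⟩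
    · rfl
    rw [vd_vlam_cons, vd_vlam_cons]
    exact congrFun (congrFun (congrFun e N) x) l
  exact (vc_sup_pair h2 h3).of_factor fun p p' e => vnrm_npl hK (Prod.ext (Prod.mk.inj e).1 (Prod.mk.inj e).2)

theorem vd_dec_arg {A : Tm S} (h1 : ¬ pl P d A) (h2 : ¬ mn P d A) (v : VV P d Z) :
    decS P d Z A (argS P d Z A v) = vnrm P d Z A v := by
  by_cases h3 : sm P d A
  · rw [decS, argS, if_pos h3, if_pos h3, vnrm_sm h3]
    rfl
  · rw [decS, if_neg h3, vnrm_no h1 h2 h3]

theorem vd_sm_eta {K : Tm S} (h : sm P d K) (v : VV P d Z) :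
    vnrm P d Z K (fun _ => default, fun _ => default, (vnrm P d Z K v).2.2) = vnrm P d Z K v := by
  rw [vnrm_sm h, vnrm_sm h, vc_tr_ext]

/-- if the result kind is not needed both sides are `vdv`; otherwise `polar`, `vlam_supM`, `supM_iff`, `prS_inS`, `ext_tr`, `tr_congr` -/
theorem vbeta (hP : HWN P) (hM : MC P d) (K N : Tm S) (v : VV P d Z) (F : (ℕ → VV P d Z) → Tm S → VV P d Z → VV P d Z)
    (p : ℕ → VV P d Z) (hK : Kd P K) (hp : ∃ A B, K = pi A B) (hn : Need P d (lv P K)) (hN : GT P N (dom K))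
    (hF : Fam (pl P d) (vct P d Z) K F) :
    vnrm P d Z (res K N) (vapp P d Z K (vnrm P d Z K (vlam P d Z K (F p))) N v) =
      vnrm P d Z (res K N) (F p N (vnrm P d Z (dom K) v)) := by
  by_cases hn' : Need P d (lv P (res K N))
  swap
  · rw [vnrm_dv _ _ hn', vnrm_dv _ _ hn']
  obtain ⟨A, B, rfl⟩ := hp
  obtain ⟨-, hA, h1, h2, h3⟩ := polar hP hM hK hN hn hn'.1
  have hd : dom (pi A B) = A := rfl
  rcases vc_tri hn with hk | hk | hk
  · obtain ⟨hm', hpA⟩ := h1 hk
    have hx : (if mn P d A then Sum.inl (Classical.epsilon fun e => El.mean e = (vnrm P d Z A v).2.1)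
        else Sum.inr (argS P d Z A v) : El (Tm S) Z.𝒮 C ⊕ Option Z.𝒮).elim
        (fun e => if mn P d A then (fun _ => default, e.mean, fun _ => default) else vdv P d Z) (decS P d Z A) =
        vnrm P d Z A v := by
      by_cases hm : mn P d A
      · simp only [if_pos hm, Sum.elim_inl]
        rw [Classical.epsilon_spec ((supM_iff _).1 (vc_supM_nrm A v)), vnrm_mn hm]
      · simp only [if_neg hm, Sum.elim_inr]
        exact vd_dec_arg hpA hm v
    simp only [vapp, if_pos hk, vnrm_pl hk, vlam, hd, hx]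
    rcases vc_tri hn' with hk' | hk' | hk'
    · simp only [if_pos hk', vnrm_pl hk']
    · exact absurd hk' hm'
    · simp only [if_neg (vc_sm_pl hk'), if_pos hk', prS_inS]
      exact vd_sm_eta hk' _
  · obtain ⟨hp', hmA⟩ := h2 hk
    have hx : vdDec A (if pl P d A then Sum.inl v.1 else Sum.inr (argS P d Z A v)) = vnrm P d Z A v := by
      by_cases hp : pl P d A
      · simp only [if_pos hp, vdDec, Sum.elim_inl]
        rw [vnrm_pl hp]
      · simp only [if_neg hp, vdDec, Sum.elim_inr]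
        exact vd_dec_arg hp hmA v
    have hl : (vnrm P d Z (pi A B) (vlam P d Z (pi A B) (F p))).2.1 = (vlam P d Z (pi A B) (F p)).2.1 := by
      rw [vnrm_mn hk, if_pos (vlam_supM _ F hF p)]
    simp only [vapp, if_neg (vc_mn_pl hk), if_pos hk, vnrm_nrm, hl, vd_vlam_cons, hd, hx]
    rcases vc_tri hn' with hk' | hk' | hk'
    · exact absurd hk' hp'
    · simp only [if_pos hk', vdOut]
      rw [vnrm_mn hk', if_pos (vc_supM_nrm _ _), vnrm_mn hk']
    · simp only [if_neg (vc_sm_mn hk'), if_pos hk', vdOut, prS_inS]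
      exact vd_sm_eta hk' _
  · obtain ⟨hk', hsA, hpr⟩ := h3 hk
    have hx : decS P d Z A (argS P d Z A v) = vnrm P d Z A v := by
      by_cases hl : Lg P d (lv P A)
      · exact vd_dec_arg (vc_sm_pl (hsA hl).1) (vc_sm_mn (hsA hl).1) v
      · exact vd_dec_arg (fun h => hl h.1.1) (fun h => hl h.1.1) v
    simp only [vapp, if_neg (vc_sm_pl hk), if_neg (vc_sm_mn hk), if_pos hk, if_pos hk', vnrm_nrm, hd]
    rw [← vd_sm_eta hk' (F p N _), vnrm_sm hk', vnrm_sm hk' (_, _, _), vnrm_sm hk]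
    refine congrArg (fun s => ((fun _ => default, fun _ => default, Z.ext s) : VV P d Z))
      (Z.tr_congr _ _ _ fun l hl => ?_)
    refine (Z.ext_tr _ _ _ ?_).trans ?_
    · intro x hx s hs
      rcases List.mem_cons.1 hx with rfl | hx
      · by_cases hsm : sm P d A
        · simp only [argS, if_pos hsm, Option.some.injEq] at hs
          rw [← hs, Z.kd_tr]
          exact (hsA hsm.1.1).2
        · simp [argS, if_neg hsm] at hs
      · exact hpr _ (hl x hx s hs)
    · simp only [vlam, if_pos hk', hd, hx]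

end model

theorem exists_vm [Finite S] {P : Spec S} {d : Set (Set S)} (hP : HWN P) (hM : MC P d) (C : Type) [Inhabited C] :
    Nonempty (VM P d C) := by
  obtain ⟨Z⟩ := exists_sms (wf_prec (P := P) (d := d) hP) C
  exact ⟨{ V := VV P d Z, dv := vdv P d Z, Pl := pl P d, nrm := vnrm P d Z, App := vapp P d Z, Lam := vlam P d Z,
           rd := vrd P d Z, ofc := vofc P d Z, q := vq P d Z, Ct := vct P d Z, C0 := Sup,
           nrm_nrm := vnrm_nrm, nrm_dv := vnrm_dv, app_dv := vapp_dv, rd_ofc := vrd_ofc, q_nrm := vq_nrm,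
           beta := vbeta hP hM, ct_const := vct_const, ct_cast := vct_cast, ct_var := vct_var, ct_tl := vct_tl,
           ct_app := vct_app, ct_lam := vct_lam, ct_ofc := vct_ofc, c0_rd := vc0_rd,
           c0_fam := fun ι f G h => (sup_pi h).map G, c0_q := vc0_q }⟩

end Crest.Agent.R298
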