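import Crest.Agent.R298.Val

/-!
# Row 298.  Typed lemmas on the valuation: substitution (C), invariance under steps (B), bridge to `valN`, elimination.
All proofs: induction on the typing derivation or on `sz` with the generation lemmas; binders are opened with a fresh atom and
`val_opn`, `okm_opn`, `EOk.upd`.
-/

set_option autoImplicit false
set_option linter.unusedSectionVars false
set_option linter.unusedVariables false

namespace Crest.Agent.R298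

open scoped Classical
open ATm
open Crest.LogicCS.PTS (Spec)

variable {S : Type} {P : Spec S} {d D : Set (Set S)} {m : VMc P d D} {Γ Δ : List (Atom S)}

/-- two valuations agree in the modes that make sense at the kind `K` -/
def Agr (m : VMc P d D) (K : Tm S) (x y : CR P (d ∪ D) × (Tm S → m.V)) : Prop :=
  x.2 K = y.2 K ∧ ∀ s, K = .srt s → NotD P D s → x.1 = y.1

/-- `η'` over `Γ` is `σ` followed by `η` over `Δ` -/
structure Lnk (m : VMc P d D) (Δ Γ : List (Atom S)) (σ : ASb S) (η η' : Env S m.V) : Prop where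
  mor : AMor P Δ Γ σ
  ok : EOk P Δ η
  ok' : EOk P Γ η'
  th : ∀ a ∈ Γ, η'.th (.inr a) = Tm.sub η.th (er (σ (.inr a)))
  at' : ∀ a ∈ Γ, (∃ b, σ (.inr a) = atm b ∧ η' (.inr a) = η (.inr b)) ∨
    ((Lg P d (lv P (Tm.sub η'.th a.2)) → Need P d (lv P (Tm.sub η'.th a.2))) ∧
      (η' (.inr a)).2.2 = (val m (σ (.inr a)) η).2 (nf (Tm.sub η'.th a.2)))

/-- part a -/
theorem Lnk.sub_eq {σ : ASb S} {η η' : Env S m.V} (h : Lnk m Δ Γ σ η η') {M A : Tm S} (hM : Ty P Γ M A) :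
    Tm.sub η.th (Tm.sub (ers σ) M) = Tm.sub η'.th M ∧ Tm.sub η.th (Tm.sub (ers σ) A) = Tm.sub η'.th A := by
  rw [sub_sub, sub_sub]
  exact ⟨LC.sub_congr hM.lc.1 fun a ha => (h.th a (hM.occ (.inl ha))).symm,
    LC.sub_congr hM.lc.2 fun a ha => (h.th a (hM.occ (.inr ha))).symm⟩

theorem vba_ne {α : Type*} {f : Var S → α} {a : Atom S} (x : α) {y : Var S} (h : y ≠ .inr a) : vupd f a x y = f y :=
  Function.update_of_ne h _ _

/-- part a: going under a binder `C` (typed in `Γ`) with the fresh atoms `c = (n, C)`, `c' = (n', C')` -/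
theorem Lnk.up (hP : HWN P) {σ : ASb S} {η η' : Env S m.V} (h : Lnk m Δ Γ σ η η') {C C' Q : Tm S} {s s' : S} {n n' : ℕ}
    (hC : Ty P Γ C (.srt s)) (hC' : Ty P Δ C' (.srt s')) (hc : Cv C' (Tm.sub (ers σ) C)) (hn : (n, C) ∉ Γ)
    (hn' : ∀ a ∈ Γ, ¬ Occ (n', C') (σ (.inr a))) (hn'' : (n', C') ∉ Δ) (hQ : GT P Q (nf (Tm.sub η'.th C))) (v : m.V) :
    Lnk m ((n', C') :: Δ) ((n, C) :: Γ) (vupd σ (n, C) (fv n' C')) (vupd η (n', C') (Q, nf (Tm.sub η'.th C), v))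
      (vupd η' (n, C) (Q, nf (Tm.sub η'.th C), v)) := by
  have e : nf (Tm.sub η.th C') = nf (Tm.sub η'.th C) := by rw [nf_cv (cv_sub hc _), (h.sub_eq hC).1]
  have hne : ∀ a ∈ Γ, (Sum.inr a : Var S) ≠ .inr (n, C) := fun a ha e => hn (Sum.inr.inj e ▸ ha)
  refine ⟨AMor.upd ⟨.cons hC', fun a ha => (h.mor.2 a ha).weak hC'⟩ (.cons hC) hn
    ((ATy.start (a := (n', C')) hC').conv ((hC.subst h.mor.mor).weak hC') hc),
    e ▸ h.ok.upd hP (a := (n', C')) (.cons hC') hn'' (e ▸ hQ) v, h.ok'.upd hP (a := (n, C)) (.cons hC) hn hQ v,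
    fun a ha => ?_, fun a ha => ?_⟩
  · rw [Env.th_vupd, Env.th_vupd]
    rcases List.mem_cons.1 ha with rfl | ha
    · simp [vupd, er, Tm.sub]
    · rw [vba_ne _ (hne a ha), vba_ne _ (hne a ha), sub_vupd fun ho => hn' a ha (occ_er ho), h.th a ha]
  · rcases List.mem_cons.1 ha with rfl | ha
    · exact .inl ⟨(n', C'), by simp [vupd, atm], by simp [vupd]⟩
    · obtain ⟨t, ht⟩ := hC.ok.sort ha
      rw [Env.th_vupd, vba_ne _ (hne a ha), vba_ne _ (hne a ha), sub_vupd fun ho => hn (ht.occ (.inl ho)),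
        val_loc (hn' a ha)]
      refine (h.at' a ha).imp_left fun ⟨b, h1, h2⟩ => ⟨b, h1, ?_⟩
      rw [vba_ne, h2]
      rintro ⟨⟩
      exact hn' a ha (h1 ▸ rfl)

theorem vba_agr (hs : Stage P d D) {K : Tm S} {W W' : ATm S} {η η' : Env S m.V}
    (h1 : ∀ s, K = .srt s → NotD P D s → (val m W η).1 = (val m W' η').1)
    (h2 : ¬ isR P d K → (val m W η).2 K = (val m W' η').2 K) : Agr m K (val m W η) (val m W' η') := by
  refine ⟨by_cases (fun h => ?_) h2, h1⟩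
  rw [val_isR _ _ h, val_isR _ _ h]
  obtain ⟨s, e, hr⟩ := h
  rw [h1 s e (hr.notD hs)]

theorem vba_open (hP : HWN P) {σ : ASb S} {η η' : Env S m.V} (h : Lnk m Δ Γ σ η η') {C Q : Tm S} {s : S} {n : ℕ}
    (hC : Ty P Γ C (.srt s)) (hn : (n, C) ∉ Γ) (B : ATm S) (hB : ¬ Occ (n, C) B) (hQ : GT P Q (nf (Tm.sub η'.th C))) (v : m.V) :
    ∃ Δ' σ' η₁, Lnk m Δ' ((n, C) :: Γ) σ' η₁ (vupd η' (n, C) (Q, nf (Tm.sub η'.th C), v)) ∧
      val m (sub σ' (inst (fv n C) B)) η₁ = val m (sub (up σ) B) (vcons (Q, nf (Tm.sub η'.th C), v) η) := by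
  obtain ⟨k, hk⟩ := (Γ.finite_toSet.image fun a => mx (σ (.inr a))).bddAbove
  obtain ⟨n', h1, h2, h3⟩ : ∃ n', k ≤ n' ∧ cmx Δ ≤ n' ∧ mx (sub (up σ) B) ≤ n' :=
    ⟨k + cmx Δ + mx (sub (up σ) B), by omega, by omega, by omega⟩
  refine ⟨_, _, _, h.up hP (n' := n') hC (hC.subst h.mor.mor) (.refl _) hn
    (fun a ha => ATm.not_occ_of_mx ((hk ⟨a, ha, rfl⟩).trans h1)) (not_mem_of_cmx h2) hQ v, ?_⟩
  rw [show fv n C = atm (n, C) from rfl, ATm.sub_vupd_inst hB, ← ATm.inst_sub_up]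
  exact val_opn (a := (n', _)) (ATm.not_occ_of_mx h3) _ _

/-- part a, Lemma C.  Atom case: renamed atoms are trivial; otherwise `val_nrm`, and for a kind `srt s`: if the level of the instance
is in `d` then `s` is relevant (`Stage.rs`), the kind is large hence needed, `val_isR`, `rd_ofc`; else `val_out`.  For `x.2 K` with
`isR K` use the second component (`Rs.notD`).  Products: `NotD.dom`.  Typed plain terms only mention atoms of `Γ` (`LC.sub_congr`, `Ty.occ`),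
annotations only matter up to `Cv`. -/
theorem val_sub (hP : HWN P) (hs : Stage P d D) {W : ATm S} {A : Tm S} (h : ATy P Γ W A) {σ : ASb S} {η η' : Env S m.V}
    (hl : Lnk m Δ Γ σ η η') : Agr m (nf (Tm.sub η'.th A)) (val m (sub σ W) η) (val m W η') := by
  induction h generalizing Δ σ η η' with
  | ax _ => exact ⟨rfl, fun _ _ _ => rfl⟩
  | @start Γ a s hA =>
    rcases hl.at' a List.mem_cons_self with ⟨b, h1, h2⟩ | ⟨h1, h2⟩
    · have : val m (sub σ (atm a)) η = val m (atm a) η' := by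
        change val m (σ (.inr a)) η = mkn m (η' (.inr a)).1 (η' (.inr a)).2.1 (η' (.inr a)).2.2
        rw [h1, h2]
        rfl
      rw [this]
      exact ⟨rfl, fun _ _ _ => rfl⟩
    · obtain ⟨Θ, hΘ, hk⟩ := hl.ok'
      have e : val m (atm a) η' = mkn m (η'.th (.inr a)) (nf (Tm.sub η'.th a.2))
          ((val m (σ (.inr a)) η).2 (nf (Tm.sub η'.th a.2))) := by
        rw [← h2, ← hk a List.mem_cons_self]
        rfl
      refine vba_agr hs (fun t ht hn => ?_) fun hn => ?_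
      · change (val m (σ (.inr a)) η).1 = _
        rw [e]
        change _ = grd P d D _ _
        unfold grd
        split_ifs with hd
        · have h3 := hA.subst hΘ.tail
          have h4 := (h3.cv_nf hP).1
          have h5 := h3.nf_tm hP
          rw [ht] at h4 h5
          obtain ⟨u, hu, -⟩ := h5.gen_srt
          have hr := hs.rs hP ((hΘ.2 a List.mem_cons_self).conv_srt h4) ⟨u, hu⟩ hn hd
          rw [lv_cv h4] at h1
          rw [ht, val_isR _ _ ⟨t, rfl, hr⟩, m.nrm_nrm, m.rd_ofc _ _ (h1 (lv_srt t ▸ hr.lg))]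
        · exact val_out _ _ (hl.th a List.mem_cons_self ▸ hd)
      · rw [e]
        simp only [mkn, mkv, if_neg hn, val_nrm]
        rfl
  | weak _ _ ih =>
    exact ih ⟨⟨hl.mor.1, fun b hb => hl.mor.2 b (List.mem_cons_of_mem _ hb)⟩, hl.ok, hl.ok'.tail,
      fun b hb => hl.th b (List.mem_cons_of_mem _ hb), fun b hb => hl.at' b (List.mem_cons_of_mem _ hb)⟩
  | conv _ _ hc ih => exact nf_cv (cv_sub hc η'.th) ▸ ih hl
  | mem _ _ ih _ => exact ih hl
  | @appl Γ M N T A B hM hN hT ih1 ih2 =>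
    obtain ⟨Θ, hΘ, -⟩ := hl.ok'
    have e1 := nf_cv (cv_sub hT η'.th)
    have e2 : nf (Tm.sub η.th (Tm.sub (ers σ) T)) = nf (Tm.sub η'.th (.pi A B)) := by
      rw [nf_cv (cv_sub (cv_sub hT _) _), (hl.sub_eq hM.er).2]
    have e3 : dom (nf (Tm.sub η'.th (.pi A B))) = nf (Tm.sub η'.th A) :=
      congrArg dom (WN.pi (hP.ty (hM.er.subst hΘ))).2.2
    have : val m (sub σ (app T M N)) η = val m (app T M N) η' := by
      simp only [sub, val, Tm.sub.eq_4, er_sub, (hl.sub_eq hM.er).1, (hl.sub_eq hN.er).1, e1, e2, e3, (ih1 hl).1, (ih2 hl).1]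
    rw [this]
    exact ⟨rfl, fun _ _ _ => rfl⟩
  | @prod Γ A B n s₁ s₂ s₃ hA hn hB h2 hr ih1 ih2 =>
    refine vba_agr hs (fun t ht hD => ?_) fun hn => by simp only [sub, val, mkp, mkv, if_neg hn]
    obtain rfl : s₃ = t := Tm.srt.inj ((nf_srt s₃).nf_eq.symm.trans ht)
    obtain ⟨d1, d2⟩ := NotD.dom hP hs.clo hr ⟨_, hA.er⟩ ⟨_, h2.er⟩ hD
    have e := (hl.sub_eq (ATy.prod hA hn hB h2 hr).er).1
    rw [← er_sub] at e
    simp only [sub, er] at e
    simp only [sub, val, mkp, mkv, e]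
    rw [er_sub, (hl.sub_eq hA.er).1]
    refine congrArg _ (arrC_congr rfl ((ih1 hl).2 s₁ (nf_srt s₁).nf_eq d1) fun N hN => ?_)
    congr 2
    funext v
    obtain ⟨Δ', σ', η₁, h3, h4⟩ := vba_open hP hl hA.er hn B hB hN v
    rw [← h4, (ih2 h3).2 s₂ (nf_srt s₂).nf_eq d2]
    exact congrArg _ (val_opn hB _ _)
  | @abs Γ A M B n s₁ s hA hn hM hB h2 hp _ ih =>
    obtain ⟨Θ, hΘ, -⟩ := hl.ok'
    obtain ⟨-, w, e⟩ := WN.pi (hP _ _ _ (hp.subst hΘ))
    refine vba_agr hs (fun _ _ _ => rfl) fun hn' => ?_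
    simp only [sub, val, mkl, mkv, if_neg hn']
    congr 2
    funext N v
    rw [Tm.sub, e]
    change (if GT P N (nf _) then (val m _ (vcons (N, nf _, v) η)).2 (nf (Tm.inst N (nf _))) else _) =
      if GT P N (nf _) then (val m _ (vcons (N, nf _, v) η')).2 (nf (Tm.inst N (nf _))) else _
    split_ifs with hN
    · obtain ⟨Δ', σ', η₁, h3, h4⟩ := vba_open hP hl hA.er hn M hM hN v
      have h5 := (ih h3).1
      rw [h4, Env.th_vupd, show Tm.fv n (er A) = Tm.atm (n, er A) from rfl, sub_vupd_inst hB, ← inst_sub_up,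
        nf_cv (cv_inst (.refl _) w.red_nf.cv)] at h5
      rw [h5, ← val_opn hM]
      rfl
    · rfl

/-- modes in which `okm` is used -/
def OkA (P : Spec S) (d D : Set (Set S)) (W : ATm S) (θ : Sb S) (K : Tm S) (o : Option (Tm S)) : Prop :=
  (o = some K ∨ (o = none ∧ ∃ s, K = .srt s ∧ NotD P D s)) ∧ okm P d W θ o

theorem okb_eq {σ : ASb S} {θ θ' : Sb S} (h3 : ∀ a ∈ Γ, θ' (.inr a) = Tm.sub θ (er (σ (.inr a)))) {M A : Tm S}
    (h : Ty P Γ M A) : Tm.sub θ (Tm.sub (ers σ) M) = Tm.sub θ' M := by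
  rw [Crest.Agent.R298.sub_sub]
  exact LC.sub_congr h.lc.1 fun a ha => (h3 a (h.occ (Or.inl ha))).symm

theorem okb_mor {σ : ASb S} {θ θ' : Sb S} {Θ : List (Atom S)} (hΓ : Ok P Γ) (h1 : AMor P Δ Γ σ) (h2 : Mor P Θ Δ θ)
    (h3 : ∀ a ∈ Γ, θ' (.inr a) = Tm.sub θ (er (σ (.inr a)))) : Mor P Θ Γ θ' := by
  refine ⟨h2.1, fun a ha => ?_⟩
  obtain ⟨s, hs⟩ := hΓ.sort ha
  rw [h3 a ha, ← okb_eq h3 hs]
  exact (h1.mor.2 a ha).subst h2

theorem okb_mko (hs : Stage P d D) {T K : Tm S} {s s' : Prop} {c c' : Tm S → Prop} {o : Option (Tm S)}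
    (ho : o = some K ∨ (o = none ∧ ∃ u, K = .srt u ∧ NotD P D u)) (h : mko P d T s c o)
    (h1 : (∃ u, K = .srt u ∧ NotD P D u) → lv P T ∈ d → s → s') (h2 : Need P d (lv P K) → c K → c' K) :
    mko P d T s' c' o := by
  rcases ho with rfl | ⟨rfl, ho⟩
  · intro hn
    refine ⟨fun hr hd => h1 ?_ hd ((h hn).1 hr hd), fun hr => h2 hn ((h hn).2 hr)⟩
    obtain ⟨u, e, hu⟩ := hr
    exact ⟨u, e, hu.notD hs⟩
  · exact fun hd => h1 ho hd (h hd)

theorem okb_rs (hP : HWN P) (hs : Stage P d D) {Θ : List (Atom S)} {Q A : Tm S} {s u : S} (hQ : Ty P Θ Q A)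
    (hA : Ty P Θ A (.srt s)) (e : nf A = .srt u) (hu : NotD P D u) (hd : lv P Q ∈ d) : Rs P d u := by
  have h1 := hA.nf_tm hP
  rw [e] at h1
  obtain ⟨t, ht, -⟩ := h1.gen_srt
  exact hs.rs hP (hQ.conv_srt (e ▸ (hQ.cv_nf hP).2)) ⟨t, ht⟩ hu hd

theorem okb_loc {a : Atom S} {W : ATm S} (h : ¬ Occ a W) (θ : Sb S) (N : Tm S) :
    okm P d W (vupd θ a N) = okm P d W θ := by
  have := okm_ren (P := P) (d := d) id W (vupd θ a N) θ (fun i => by rw [id, vupd_inl]; exact .refl _)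
    fun b hb => by rw [id, vupd_ne _ (fun e : b = a => h (e ▸ hb))]; exact .refl _
  rwa [show (fun x => (vr (id x) : ATm S)) = vr from rfl, ATm.sub_vr] at this

theorem okb_fresh (Γ : List (Atom S)) (σ : ASb S) : ∃ n, ∀ a ∈ Γ, mx (σ (.inr a)) ≤ n := by
  induction Γ with
  | nil => exact ⟨0, fun a ha => absurd ha List.not_mem_nil⟩
  | cons b Γ ih =>
    obtain ⟨n, hn⟩ := ih
    refine ⟨max n (mx (σ (.inr b))), fun a ha => ?_⟩
    rcases List.mem_cons.1 ha with rfl | ha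
    · exact le_max_right _ _
    · exact (hn a ha).trans (le_max_left _ _)

/-- the statement of `okm_sub` -/
def OkB (P : Spec S) (d D : Set (Set S)) (Γ : List (Atom S)) (W : ATm S) (A : Tm S) : Prop :=
  ∀ (Δ : List (Atom S)) (σ : ASb S) (θ θ' : Sb S) (Θ : List (Atom S)), AMor P Δ Γ σ → Mor P Θ Δ θ →
    (∀ a ∈ Γ, θ' (.inr a) = Tm.sub θ (er (σ (.inr a)))) →
    (∀ a ∈ Γ, (∃ b, σ (.inr a) = atm b) ∨ ((Lg P d (lv P (Tm.sub θ' a.2)) → Need P d (lv P (Tm.sub θ' a.2))) ∧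
      okm P d (σ (.inr a)) θ (some (nf (Tm.sub θ' a.2))))) →
    ∀ o, OkA P d D W θ' (nf (Tm.sub θ' A)) o → okm P d (sub σ W) θ o

theorem okb_bind (hP : HWN P) {C B : Tm S} {M : ATm S} {n : ℕ} {s : S} (hC : Ty P Γ C (.srt s)) (hn : (n, C) ∉ Γ)
    (hM : ¬ Occ (n, C) M) (ih : OkB P d D ((n, C) :: Γ) (inst (fv n C) M) B) {σ : ASb S} {θ θ' : Sb S}
    {Θ : List (Atom S)} (h1 : AMor P Δ Γ σ) (h2 : Mor P Θ Δ θ)
    (h3 : ∀ a ∈ Γ, θ' (.inr a) = Tm.sub θ (er (σ (.inr a))))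
    (h4 : ∀ a ∈ Γ, (∃ b, σ (.inr a) = atm b) ∨ ((Lg P d (lv P (Tm.sub θ' a.2)) → Need P d (lv P (Tm.sub θ' a.2))) ∧
      okm P d (σ (.inr a)) θ (some (nf (Tm.sub θ' a.2))))) {N : Tm S} (hN : GT P N (nf (Tm.sub θ' C)))
    {o : Option (Tm S)} (ho : OkA P d D M (vcons N θ') (nf (Tm.sub (vupd θ' (n, C) N) B)) o) :
    okm P d (sub (up σ) M) (vcons N θ) o := by
  obtain ⟨k, hk⟩ := okb_fresh Γ σ
  set n' := max k (max (cmx Δ) (mx (sub (up σ) M))) with hn'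
  set C' := Tm.sub (ers σ) C with hC'
  have a1 : Ty P Δ C' (.srt s) := hC.subst h1.mor
  have a2 : (n', C') ∉ Δ := not_mem_of_cmx (le_max_of_le_right (le_max_left _ _))
  have a3 : ∀ a ∈ Γ, ¬ Occ (n', C') (σ (.inr a)) := fun a ha =>
    ATm.not_occ_of_mx ((hk a ha).trans (le_max_left _ _))
  have a4 : ¬ Occ (n', C') (sub (up σ) M) := ATm.not_occ_of_mx (le_max_of_le_right (le_max_right _ _))
  obtain ⟨Θ', b1, b2, b3⟩ := hN.merge h2.1
  have a5 : Ty P Θ (Tm.sub θ C') (.srt s) := a1.subst h2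
  have a6 : Ty P Θ' N (Tm.sub θ C') := by
    refine b3.conv (a5.thin b1 b2) ?_
    rw [← okb_eq h3 hC]
    exact (a5.cv_nf hP).1.symm
  have a7 : ∀ a ∈ Γ, a ≠ (n, C) := fun a ha e => hn (e ▸ ha)
  have key := ih ((n', C') :: Δ) (vupd σ (n, C) (fv n' C')) (vupd θ (n', C') N) (vupd θ' (n, C) N) Θ'
    (annc1_ext h1 (.cons hC) hn a1) ((h2.thin b1 b2).upd (.cons a1) a2 a6) (fun a ha => by
      rcases List.mem_cons.1 ha with rfl | ha
      · rw [vupd_self, vupd_self]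
        exact (vupd_self θ (n', C') N).symm
      · rw [vupd_ne _ (a7 a ha), vupd_ne _ (a7 a ha), sub_vupd fun h => a3 a ha (occ_er h), h3 a ha])
    (fun a ha => by
      rcases List.mem_cons.1 ha with rfl | ha
      · exact Or.inl ⟨(n', C'), vupd_self _ _ _⟩
      · obtain ⟨t, ht⟩ := hC.ok.sort ha
        rw [vupd_ne _ (a7 a ha), sub_vupd fun h => hn (ht.occ (Or.inl h)), okb_loc (a3 a ha)]
        exact h4 a ha) o ⟨ho.1, by
          have := okm_opn (P := P) (d := d) hM θ' N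
          exact this ▸ ho.2⟩
  have e1 : sub (vupd σ (n, C) (fv n' C')) (inst (fv n C) M) = inst (atm (n', C')) (sub (up σ) M) := by
    rw [ATm.inst_sub_up]
    exact ATm.sub_vupd_inst hM σ _
  rwa [e1, okm_opn a4] at key

theorem okb_main (hP : HWN P) (hs : Stage P d D) {W : ATm S} {A : Tm S} (h : ATy P Γ W A) : OkB P d D Γ W A := by
  induction h with
  | ax _ => exact fun Δ σ θ θ' Θ h1 h2 h3 h4 o ho => trivial
  | @start Γ a s ha =>
    intro Δ σ θ θ' Θ h1 h2 h3 h4 o ho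
    change okm P d (σ (.inr a)) θ o
    rcases h4 a List.mem_cons_self with ⟨b, hb⟩ | ⟨a1, a2⟩
    · rw [hb]
      trivial
    rcases ho.1 with rfl | ⟨rfl, u, e, hu⟩
    · exact a2
    by_cases hd : lv P (Tm.sub θ (er (σ (.inr a)))) ∈ d
    swap
    · exact okm_none_of hd
    have hm := okb_mor (.cons ha) h1 h2 h3
    have a3 : Ty P Θ (Tm.sub θ' a.2) (.srt s) := (Ty.weak ha ha).subst hm
    have a4 := okb_rs hP hs (hm.2 a List.mem_cons_self) a3 e hu (h3 a List.mem_cons_self ▸ hd)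
    have a5 : lv P (Tm.sub θ' a.2) = axs P u := by rw [lv_cv (a3.cv_nf hP).1, e, lv_srt]
    rw [e] at a2
    refine (okm_isR ⟨u, rfl, a4⟩).1 a2 ?_
    rw [lv_srt, ← a5]
    exact a1 (a5 ▸ a4.lg)
  | weak _ _ ih =>
    exact fun Δ σ θ θ' Θ h1 h2 h3 h4 o ho => ih Δ σ θ θ' Θ ⟨h1.1, fun b hb => h1.2 b (List.mem_cons_of_mem _ hb)⟩ h2
      (fun b hb => h3 b (List.mem_cons_of_mem _ hb)) (fun b hb => h4 b (List.mem_cons_of_mem _ hb)) o ho
  | @prod Γ A B n s₁ s₂ s₃ hA hn hB hB' hr ih1 ih2 =>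
    intro Δ σ θ θ' Θ h1 h2 h3 h4 o ho
    have hty := (ATy.prod hA hn hB hB' hr).er
    have e1 : Tm.sub θ (.pi (er (sub σ A)) (er (sub (up σ) B))) = Tm.sub θ' (.pi (er A) (er B)) :=
      (congrArg (Tm.sub θ) (er_sub σ (pi A B))).trans (okb_eq h3 hty)
    have e2 : Tm.sub θ (er (sub σ A)) = Tm.sub θ' (er A) := by rw [er_sub, okb_eq h3 hA.er]
    change mko P d (Tm.sub θ (.pi (er (sub σ A)) (er (sub (up σ) B)))) (okm P d (sub σ A) θ none ∧
      ∀ N, GT P N (nf (Tm.sub θ (er (sub σ A)))) → okm P d (sub (up σ) B) (vcons N θ) none) (fun _ => True) o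
    rw [e1, e2]
    refine okb_mko hs ho.1 ho.2 ?_ fun _ _ => trivial
    rintro ⟨u, e, hu⟩ - ⟨b1, b2⟩
    have e3 : ∀ t : S, nf (Tm.srt t) = .srt t := fun t => (nf_srt t).nf_eq
    obtain rfl : s₃ = u := by
      rw [show Tm.sub θ' (.srt s₃) = .srt s₃ from rfl, e3] at e
      exact Tm.srt.inj e
    obtain ⟨c1, c2⟩ := NotD.dom hP hs.clo hr ⟨_, hA.er⟩ ⟨_, hB'.er⟩ hu
    exact ⟨ih1 Δ σ θ θ' Θ h1 h2 h3 h4 none ⟨Or.inr ⟨rfl, s₁, e3 _, c1⟩, b1⟩,
      fun N hN => okb_bind hP hA.er hn hB ih2 h1 h2 h3 h4 hN ⟨Or.inr ⟨rfl, s₂, e3 _, c2⟩, b2 N hN⟩⟩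
  | @abs Γ A M B n s₁ s hA hn hM hB hM' hp _ ih =>
    intro Δ σ θ θ' Θ h1 h2 h3 h4 o ho
    have hty := (ATy.abs hA hn hM hB hM' hp).er
    have e1 : Tm.sub θ (.lam (er (sub σ A)) (er (sub (up σ) M))) = Tm.sub θ' (.lam (er A) (er M)) :=
      (congrArg (Tm.sub θ) (er_sub σ (lam A M))).trans (okb_eq h3 hty)
    change mko P d (Tm.sub θ (.lam (er (sub σ A)) (er (sub (up σ) M)))) True (fun K =>
      ∀ N, GT P N (dom K) → okm P d (sub (up σ) M) (vcons N θ) (some (res K N))) o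
    rw [e1]
    refine okb_mko hs ho.1 ho.2 (fun _ _ _ => trivial) fun _ b1 N hN => ?_
    have hm := okb_mor hp.ok h1 h2 h3
    obtain ⟨-, w2, w3⟩ := WN.pi (hP _ _ _ (hp.subst hm))
    have w4 : nf (Tm.sub θ' (.pi (er A) B)) = .pi (nf (Tm.sub θ' (er A))) (nf (Tm.sub (Tm.up θ') B)) := w3
    rw [w4] at b1 hN ⊢
    refine okb_bind hP hA.er hn hM ih h1 h2 h3 h4 hN ⟨Or.inl (congrArg some ?_), b1 N hN⟩
    rw [show Tm.fv n (er A) = Tm.atm (n, er A) from rfl, Crest.Agent.R298.sub_vupd_inst hB,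
      ← Crest.Agent.R298.inst_sub_up]
    exact nf_cv (cv_inst (.refl _) (Red.cv w2.red_nf).symm)
  | @appl Γ M N T A B hM hN hT ih1 ih2 =>
    intro Δ σ θ θ' Θ h1 h2 h3 h4 o ho
    have hty := (ATy.appl hM hN hT).er
    have hm := okb_mor hty.ok h1 h2 h3
    obtain ⟨s, hp⟩ := hM.er.pi_ty
    have e1 : Tm.sub θ (.app (er (sub σ M)) (er (sub σ N))) = Tm.sub θ' (.app (er M) (er N)) :=
      (congrArg (Tm.sub θ) (er_sub σ (app T M N))).trans (okb_eq h3 hty)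
    have c1 : Cv (Tm.sub θ (Tm.sub (ers σ) T)) (Tm.sub θ' (.pi A B)) := by
      rw [← okb_eq h3 hp]
      exact cv_sub (cv_sub hT _) _
    have c2 : Cv (Tm.sub θ' T) (Tm.sub θ' (.pi A B)) := cv_sub hT _
    obtain ⟨-, -, w3⟩ := WN.pi (hP _ _ _ (hp.subst hm))
    have w4 : dom (nf (Tm.sub θ' (.pi A B))) = nf (Tm.sub θ' A) := congrArg dom w3
    obtain ⟨t, ht⟩ := hp.pi_inst hN.er
    have key : Lg P d (lv P (nf (Tm.sub θ' (Tm.inst (er N) B)))) →
        ((Need P d (lv P (Tm.sub θ' T)) → okm P d M θ' (some (nf (Tm.sub θ' T))) ∧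
          okm P d N θ' (some (dom (nf (Tm.sub θ' T))))) ∧ (¬ Need P d (lv P (Tm.sub θ' T)) → HN (er M))) →
        ((Need P d (lv P (Tm.sub θ (Tm.sub (ers σ) T))) →
          okm P d (sub σ M) θ (some (nf (Tm.sub θ (Tm.sub (ers σ) T)))) ∧
          okm P d (sub σ N) θ (some (dom (nf (Tm.sub θ (Tm.sub (ers σ) T)))))) ∧
          (¬ Need P d (lv P (Tm.sub θ (Tm.sub (ers σ) T))) → HN (er (sub σ M)))) := by
      rw [lv_cv c1, lv_cv c2, nf_cv c1, nf_cv c2, w4]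
      rintro hl ⟨b1, b2⟩
      refine ⟨fun hn => ⟨ih1 Δ σ θ θ' Θ h1 h2 h3 h4 _ ⟨Or.inl rfl, (b1 hn).1⟩,
        ih2 Δ σ θ θ' Θ h1 h2 h3 h4 _ ⟨Or.inl rfl, (b1 hn).2⟩⟩, fun hn => ?_⟩
      obtain ⟨a, ha, hsp⟩ := (b2 hn).sp hM.er
      rw [← lv_cv ((ht.subst hm).cv_nf hP).1, Crest.Agent.R298.sub_inst, ← Crest.Agent.R298.inst_sub_up] at hl
      have l1 : Lg P d (lv P (Tm.sub θ' (.pi A B))) := hl.ps (ps_cod hP (hp.subst hm) (hN.er.subst hm))
      have l2 := hsp.ps hP hM.er hm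
      rcases h4 a ha with ⟨b, hb⟩ | ⟨b3, -⟩
      · rw [er_sub]
        exact (hsp.sub (b := b) (congrArg er hb)).hn
      · exact absurd ((b3 (l1.ps l2)).up l1 (l2.wk _)) hn
    change mko P d (Tm.sub θ (.app (er (sub σ M)) (er (sub σ N)))) _ (fun _ => _) o
    rw [e1]
    refine okb_mko hs ho.1 ho.2 ?_ fun hn => key hn.1
    rintro ⟨u, e, hu⟩ hd
    refine key ?_
    rw [e, lv_srt]
    exact (okb_rs hP hs (hty.subst hm) (ht.subst hm) e hu hd).lg
  | mem _ _ ih _ => exact fun Δ σ θ θ' Θ h1 h2 h3 h4 o ho => ih Δ σ θ θ' Θ h1 h2 h3 h4 o ho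
  | conv _ _ hc ih =>
    intro Δ σ θ θ' Θ h1 h2 h3 h4 o ho
    rw [← nf_cv (cv_sub hc θ')] at ho
    exact ih Δ σ θ θ' Θ h1 h2 h3 h4 o ho

/-- part b, Lemma C for `okm`.  At an unneeded application node in a relevant position the kind `T[θ']` is large (`ps_cod`; in mode
`none` by `Stage.rs`, `Rs.lg`); `er M` is `HN` and typed, so a spine with head `y ∈ Γ`; `Sp.ps` makes the kind of `y` large; if `y` were not
renamed it would be needed and so would `T[θ']` (`Need.up`). -/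
theorem okm_sub (hP : HWN P) (hs : Stage P d D) {W : ATm S} {A : Tm S} (h : ATy P Γ W A) {σ : ASb S} {θ θ' : Sb S}
    {Θ : List (Atom S)} (h1 : AMor P Δ Γ σ) (h2 : Mor P Θ Δ θ) (h3 : ∀ a ∈ Γ, θ' (.inr a) = Tm.sub θ (er (σ (.inr a))))
    (h4 : ∀ a ∈ Γ, (∃ b, σ (.inr a) = atm b) ∨ ((Lg P d (lv P (Tm.sub θ' a.2)) → Need P d (lv P (Tm.sub θ' a.2))) ∧
      okm P d (σ (.inr a)) θ (some (nf (Tm.sub θ' a.2))))) {o : Option (Tm S)}
    (ho : OkA P d D W θ' (nf (Tm.sub θ' A)) o) : okm P d (sub σ W) θ o :=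
  okb_main hP hs h Δ σ θ θ' Θ h1 h2 h3 h4 o ho

/-- agreement in one mode -/
def AgrO (m : VMc P d D) (x y : CR P (d ∪ D) × (Tm S → m.V)) : Option (Tm S) → Prop
  | none => x.1 = y.1
  | some K => x.2 K = y.2 K

theorem vbc_core (hP : HWN P) (hs : Stage P d D) {T A : Tm S} {C M N : ATm S} (h : ATy P Γ (app T (lam C M) N) A)
    {η : Env S m.V} (hη : EOk P Γ η) :
    res (nf (Tm.sub η.th T)) (nf (Tm.sub η.th (er N))) = nf (Tm.sub η.th A) ∧
    Cv (Tm.sub η.th (er (app T (lam C M) N))) (Tm.sub η.th (er (inst N M))) ∧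
    (Lg P d (lv P (Tm.sub η.th A)) → Need P d (lv P (Tm.sub η.th T)) →
      okm P d (lam C M) η.th (some (nf (Tm.sub η.th T))) → okm P d N η.th (some (dom (nf (Tm.sub η.th T)))) →
      Need P d (lv P (Tm.sub η.th A)) ∧
      m.nrm (nf (Tm.sub η.th A)) (m.App (nf (Tm.sub η.th T)) ((val m (lam C M) η).2 (nf (Tm.sub η.th T)))
        (nf (Tm.sub η.th (er N))) ((val m N η).2 (dom (nf (Tm.sub η.th T))))) =
        (val m (inst N M) η).2 (nf (Tm.sub η.th A)) ∧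
      okm P d (inst N M) η.th (some (nf (Tm.sub η.th A)))) := by
  obtain ⟨C0, E, h1, h2, hc, hA⟩ := h.gen_app
  obtain ⟨B, s₁, s, hc1, hC, hpi, hM⟩ := h1.gen_lam
  obtain ⟨hc2, hc3⟩ := cv_pi_inj hc1
  have hN : ATy P Γ N (er C) := h2.conv hC.er hc2
  obtain ⟨Θ, hθ, hk⟩ := id hη
  have hpiθ : Ty P Θ (.pi (Tm.sub η.th (er C)) (Tm.sub (Tm.up η.th) B)) (.srt s) := hpi.subst hθ
  have hNθ : Ty P Θ (Tm.sub η.th (er N)) (Tm.sub η.th (er C)) := hN.er.subst hθ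
  have hTcv : Cv (Tm.sub η.th T) (.pi (Tm.sub η.th (er C)) (Tm.sub (Tm.up η.th) B)) :=
    cv_sub (hc.trans _ _ _ hc1) η.th
  obtain ⟨-, hWB, hnf⟩ := (hP _ _ _ hpiθ).pi
  have hT' : nf (Tm.sub η.th T) = .pi (nf (Tm.sub η.th (er C))) (nf (Tm.sub (Tm.up η.th) B)) := (nf_cv hTcv).trans hnf
  have hAcv : Cv (Tm.sub η.th A) (Tm.inst (Tm.sub η.th (er N)) (Tm.sub (Tm.up η.th) B)) := by
    rw [← b1_sub_inst]
    exact cv_sub (hA.trans _ _ _ (cv_inst (.refl _) hc3)) η.th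
  have hres : ∀ Q, Cv Q (Tm.sub η.th (er N)) → res (nf (Tm.sub η.th T)) Q = nf (Tm.sub η.th A) := by
    intro Q hQ
    rw [hT', nf_cv hAcv]
    exact nf_cv (cv_inst hQ (hWB.red_nf.cv.symm _ _))
  have hNcv : Cv (nf (Tm.sub η.th (er N))) (Tm.sub η.th (er N)) := (hNθ.cv_nf hP).1.symm _ _
  refine ⟨hres _ hNcv, cv_sub (Red.cv ?_) _, fun hL hT o1 o2 => ?_⟩
  · rw [er_inst]
    exact .single (.redex _ _ _)
  have hdom : dom (nf (Tm.sub η.th T)) = nf (Tm.sub η.th (er C)) := by rw [hT']; rfl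
  have hniR : ¬ isR P d (nf (Tm.sub η.th T)) := by
    rintro ⟨s', e, -⟩
    rw [hT'] at e
    cases e
  have hTpi : Need P d (lv P (.pi (Tm.sub η.th (er C)) (Tm.sub (Tm.up η.th) B))) := lv_cv hTcv ▸ hT
  have hTn : Need P d (lv P (nf (Tm.sub η.th T))) := by
    rwa [nf_cv hTcv, lv_nf (hP _ _ _ hpiθ)]
  have hL' : Lg P d (lv P (Tm.inst (Tm.sub η.th (er N)) (Tm.sub (Tm.up η.th) B))) := lv_cv hAcv ▸ hL
  have hdn : Lg P d (lv P (Tm.sub η.th (er C))) → Need P d (lv P (Tm.sub η.th (er C))) := fun hl =>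
    hTpi.up hl (Wk.single (stp_dom hP hpiθ (hL'.ps (ps_inst_glv hP hpiθ hNθ))))
  have hGN : GT P (Tm.sub η.th (er N)) (nf (Tm.sub η.th (er C))) := ⟨Θ, hNθ.nf_ty hP⟩
  have hGN' : GT P (nf (Tm.sub η.th (er N))) (nf (Tm.sub η.th (er C))) := ⟨Θ, (hNθ.nf_ty hP).nf_tm hP⟩
  -- a fresh atom
  obtain ⟨n, hn1, hn2, hn3⟩ : ∃ n, cmx Γ ≤ n ∧ mx M ≤ n ∧ Tm.mx B ≤ n :=
    ⟨max (cmx Γ) (max (mx M) (Tm.mx B)), le_max_left _ _, (le_max_left _ _).trans (le_max_right _ _),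
      (le_max_right _ _).trans (le_max_right _ _)⟩
  have ha : (n, er C) ∉ Γ := not_mem_of_cmx hn1
  have haM : ¬ Occ (n, er C) M := ATm.not_occ_of_mx hn2
  have haB : ¬ Tm.Occ (n, er C) B := R298.not_occ_of_mx hn3
  have haC : ¬ Tm.Occ (n, er C) (er C) := fun ho => ha (hC.er.occ (Or.inl ho))
  have hb : ATy P ((n, er C) :: Γ) (inst (atm (n, er C)) M) (Tm.inst (Tm.atm (n, er C)) B) :=
    hM n _ s₁ hC.er (.refl _)
  have hok : Ok P ((n, er C) :: Γ) := Ok.cons hC.er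
  have hmor : AMor P Γ ((n, er C) :: Γ) (vupd vr (n, er C) N) := by
    refine AMor.upd ⟨hC.er.ok, fun a ha => ?_⟩ hok ha ?_
    · rw [ers_vr, R298.sub_vr]
      exact hC.er.ok.avar ha
    · rwa [ers_vr, R298.sub_vr]
  have hth : ∀ a ∈ (n, er C) :: Γ, vupd η.th (n, er C) (Tm.sub η.th (er N)) (.inr a) =
      Tm.sub η.th (er (vupd vr (n, er C) N (.inr a))) := by
    intro a _
    by_cases e : a = (n, er C)
    · rw [e, vupd_self, vupd_self]
    · rw [vupd_ne _ e, vupd_ne _ e]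
      rfl
  have hK : nf (Tm.sub (vupd η.th (n, er C) (Tm.sub η.th (er N))) (Tm.inst (Tm.atm (n, er C)) B)) =
      nf (Tm.sub η.th A) := by
    rw [R298.sub_vupd_inst haB, ← R298.inst_sub_up, nf_cv hAcv]
  have hinst : sub (vupd vr (n, er C) N) (inst (atm (n, er C)) M) = inst N M := ATm.sub_vupd_inst haM vr N
  refine ⟨?_, ?_, ?_⟩
  · rw [lv_cv hAcv]
    exact hTpi.up hL' ((ps_cod hP hpiθ hNθ).wk _)
  · have e1 : (val m (lam C M) η).2 (nf (Tm.sub η.th T)) = m.nrm (nf (Tm.sub η.th T)) (m.Lam (nf (Tm.sub η.th T))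
        fun Q v => if GT P Q (dom (nf (Tm.sub η.th T))) then
          (val m M (vcons (Q, dom (nf (Tm.sub η.th T)), v) η)).2 (res (nf (Tm.sub η.th T)) Q) else m.dv) := by
      simp only [val, mkl, mkv, if_neg hniR]
    have e2 := m.beta (nf (Tm.sub η.th T)) (nf (Tm.sub η.th (er N))) ((val m N η).2 (dom (nf (Tm.sub η.th T)))) _
      (fun _ => m.dv) ⟨nf_nf _, s, Θ, by rw [nf_cv hTcv]; exact hpiθ.nf_tm hP⟩ ⟨_, _, hT'⟩ hTn (hdom ▸ hGN')
      (val_fam M η (nf (Tm.sub η.th T)))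
    rw [hres _ hNcv, if_pos (hdom ▸ hGN'), val_nrm, val_nrm] at e2
    rw [e1, e2, hdom]
    have hl : Lnk m Γ ((n, er C) :: Γ) (vupd vr (n, er C) N) η (vupd η (n, er C)
        (Tm.sub η.th (er N), nf (Tm.sub η.th (er C)), (val m N η).2 (nf (Tm.sub η.th (er C))))) := by
      refine ⟨hmor, hη, hη.upd hP hok ha hGN _, by rw [Env.th_vupd]; exact hth, fun a _ => ?_⟩
      by_cases e : a = (n, er C)
      · subst e
        right
        rw [Env.th_vupd, R298.sub_vupd haC, vupd_self, vupd_self]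
        exact ⟨hdn, rfl⟩
      · left
        exact ⟨a, vupd_ne _ e _, vupd_ne _ e _⟩
    have e3 := (val_sub hP hs hb hl).1
    rw [Env.th_vupd, hK, hinst, val_opn haM] at e3
    rw [e3]
    refine congrFun (congrArg Prod.snd (val_eeq (m := m) M fun x => ?_)) _
    rcases x with (_ | i) | a
    · exact ⟨hNcv, rfl, rfl⟩
    · exact ⟨.refl _, rfl, rfl⟩
    · exact ⟨.refl _, rfl, rfl⟩
  · have o3 := (o1 hTn).2 hniR _ (hdom ▸ hGN)
    rw [hres _ (.refl _), ← okm_opn haM] at o3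
    rw [← hinst]
    refine okm_sub hP hs hb hmor hθ hth (fun a _ => ?_) ⟨Or.inl (by rw [hK]), o3⟩
    by_cases e : a = (n, er C)
    · subst e
      right
      rw [R298.sub_vupd haC, vupd_self, ← hdom]
      exact ⟨hdn, o2⟩
    · left
      exact ⟨a, vupd_ne _ e _⟩

/-- part c, the redex.  If the mode is irrelevant both sides are `dv` / `ndC`.  Otherwise the result kind `K' = res T' N'` is large, so
`T' = nf (T[θ])` is large, and needed by `okm` (`HN (lam ..)` is false); the domain is needed if large (`stp_dom`, `ps_inst_glv`,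
`Need.up`).  `m.beta` with `val_fam`, `val_eeq`, `val_opn`, then `val_sub` and `okm_sub` for `σ = vupd vr a N`. -/
theorem val_beta (hP : HWN P) (hs : Stage P d D) {T A : Tm S} {C M N : ATm S} (h : ATy P Γ (app T (lam C M) N) A)
    {η : Env S m.V} (hη : EOk P Γ η) {o : Option (Tm S)} (ho : OkA P d D (app T (lam C M) N) η.th (nf (Tm.sub η.th A)) o) :
    AgrO m (val m (app T (lam C M) N) η) (val m (inst N M) η) o ∧ okm P d (inst N M) η.th o := by
  obtain ⟨hres, hcv, hcore⟩ := vbc_core (m := m) hP hs h hη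
  have hWN : WN (Tm.sub η.th A) := by
    obtain ⟨Θ, hθ, -⟩ := hη
    exact hP.ty (h.er.subst hθ)
  have hlvK : lv P (nf (Tm.sub η.th A)) = lv P (Tm.sub η.th A) := lv_nf hWN
  -- the mode `none`
  have hnone : ∀ s, nf (Tm.sub η.th A) = .srt s → NotD P D s → okm P d (app T (lam C M) N) η.th none →
      (val m (app T (lam C M) N) η).1 = (val m (inst N M) η).1 ∧ okm P d (inst N M) η.th none := by
    intro s hK hn ho
    by_cases hd : lv P (Tm.sub η.th (er (app T (lam C M) N))) ∈ d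
    · obtain ⟨o1, o2⟩ := ho hd
      have hT : Need P d (lv P (Tm.sub η.th T)) := by
        by_contra hT
        exact o2 hT
      have hR : Rs P d s := by
        obtain ⟨Θ, hθ, -⟩ := hη
        have h1 := h.er.subst hθ
        have h2 : Cv (Tm.sub η.th A) (.srt s) := hK ▸ (h1.cv_nf hP).2
        refine hs.rs hP (h1.conv_srt h2) ?_ hn hd
        obtain ⟨B, s', h3, h4⟩ := Ty.app_ty h1
        obtain ⟨L, h5, h6⟩ := church_rosser ((h2.symm _ _).trans _ _ _ h3)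
        obtain rfl := b2_nf_red (nf_srt s) h5
        obtain ⟨t, ht, -⟩ := (h4.srs h6).gen_srt
        exact ⟨t, ht⟩
      have hi : isR P d (nf (Tm.sub η.th A)) := ⟨s, hK, hR⟩
      have hL : Lg P d (lv P (Tm.sub η.th A)) := by
        rw [← hlvK, hK, lv_srt]
        exact hR.lg
      obtain ⟨hN, e, ok⟩ := hcore hL hT (o1 hT).1 (o1 hT).2
      refine ⟨?_, (okm_isR hi).1 ok (hlvK ▸ hN)⟩
      have e1 : (val m (app T (lam C M) N) η).1 = m.rd (nf (Tm.sub η.th A)) ((val m (inst N M) η).2 (nf (Tm.sub η.th A))) := by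
        rw [← e]
        simp only [val, mkn, mkv, grd, hres]
        exact if_pos hd
      rw [e1, val_isR _ _ hi, m.rd_ofc _ _ (hlvK ▸ hN)]
    · have hd' : lv P (Tm.sub η.th (er (inst N M))) ∉ d := by rwa [← lv_cv hcv]
      exact ⟨(val_out _ _ hd).trans (val_out _ _ hd').symm, okm_none_of hd'⟩
  obtain ⟨rfl | ⟨rfl, s, hK, hn⟩, ho⟩ := ho
  · by_cases hN : Need P d (lv P (nf (Tm.sub η.th A)))
    · by_cases hi : isR P d (nf (Tm.sub η.th A))
      · obtain ⟨s, hK, hR⟩ := id hi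
        obtain ⟨e, ok⟩ := hnone s hK (hR.notD hs) ((okm_isR hi).1 ho hN)
        refine ⟨?_, (okm_isR hi).2 fun _ => ok⟩
        change (val m _ η).2 _ = (val m _ η).2 _
        rw [val_isR _ _ hi, val_isR _ _ hi, e]
      · obtain ⟨o1, o2⟩ := (ho hN).2 hi
        have hT : Need P d (lv P (Tm.sub η.th T)) := by
          by_contra hT
          exact o2 hT
        obtain ⟨-, e, ok⟩ := hcore (hlvK ▸ hN.1) hT (o1 hT).1 (o1 hT).2
        refine ⟨?_, ok⟩
        change (val m _ η).2 _ = (val m _ η).2 _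
        rw [← e]
        simp only [val, mkn, mkv, hres, if_neg hi, m.nrm_nrm]
    · refine ⟨?_, okm_some_of hN⟩
      change (val m _ η).2 _ = (val m _ η).2 _
      rw [← val_nrm, m.nrm_dv _ _ hN, ← val_nrm (inst N M), m.nrm_dv _ _ hN]
  · exact hnone s hK hn ho

theorem vbd_lv_nf (T : Tm S) : lv P (nf T) = lv P T := by
  unfold lv
  rw [(nf_nf T).nf_eq]

theorem vbd_grd {T T' : Tm S} (h : Cv T T') (c : CR P (d ∪ D)) : grd P d D T c = grd P d D T' c := by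
  unfold grd
  rw [lv_cv h]

/-- reduction to the relevant modes -/
theorem vbd_mode (hs : Stage P d D) {W W' : ATm S} {η : Env S m.V} {K : Tm S} {o : Option (Tm S)}
    (hc : Cv (er W) (er W'))
    (hT : ∀ s, K = .srt s → NotD P D s → lv P (Tm.sub η.th (er W)) ∈ d → okm P d W η.th none →
      (val m W η).1 = (val m W' η).1 ∧ okm P d W' η.th none)
    (hE : Need P d (lv P K) → ¬ isR P d K → okm P d W η.th (some K) →
      (val m W η).2 K = (val m W' η).2 K ∧ okm P d W' η.th (some K))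
    (ho : OkA P d D W η.th K o) : AgrO m (val m W η) (val m W' η) o ∧ okm P d W' η.th o := by
  have hl : lv P (Tm.sub η.th (er W)) = lv P (Tm.sub η.th (er W')) := lv_cv (cv_sub hc _)
  have hT' : ∀ s, K = .srt s → NotD P D s → okm P d W η.th none →
      (val m W η).1 = (val m W' η).1 ∧ okm P d W' η.th none := fun s e hn h => by
    by_cases hd : lv P (Tm.sub η.th (er W)) ∈ d
    · exact hT s e hn hd h
    · exact ⟨(val_out W η hd).trans (val_out W' η (hl ▸ hd)).symm, okm_none_of (hl ▸ hd)⟩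
  obtain ⟨rfl | ⟨rfl, s, e, hn⟩, h⟩ := ho
  · by_cases hN : Need P d (lv P K)
    · by_cases hr : isR P d K
      · obtain ⟨s, e, hR⟩ := id hr
        obtain ⟨h1, h2⟩ := hT' s e (hR.notD hs) ((okm_isR hr).1 h hN)
        refine ⟨?_, (okm_isR hr).2 fun _ => h2⟩
        show (val m W η).2 K = (val m W' η).2 K
        rw [val_isR W η hr, val_isR W' η hr, h1]
      · exact hE hN hr h
    · exact ⟨((val_nrm W η K).symm.trans (m.nrm_dv _ _ hN)).trans ((val_nrm W' η K).symm.trans (m.nrm_dv _ _ hN)).symm,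
        okm_some_of hN⟩
  · exact hT' s e hn h

theorem vbd_app (hs : Stage P d D) {T : Tm S} {M M' N N' : ATm S} {η : Env S m.V} (hM : Red (er M) (er M'))
    (hN : Red (er N) (er N'))
    (h1 : okm P d M η.th (some (nf (Tm.sub η.th T))) →
      (val m M η).2 (nf (Tm.sub η.th T)) = (val m M' η).2 (nf (Tm.sub η.th T)) ∧
        okm P d M' η.th (some (nf (Tm.sub η.th T))))
    (h2 : okm P d N η.th (some (dom (nf (Tm.sub η.th T)))) →
      (val m N η).2 (dom (nf (Tm.sub η.th T))) = (val m N' η).2 (dom (nf (Tm.sub η.th T))) ∧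
        okm P d N' η.th (some (dom (nf (Tm.sub η.th T)))))
    {K : Tm S} {o : Option (Tm S)} (ho : OkA P d D (app T M N) η.th K o) :
    AgrO m (val m (app T M N) η) (val m (app T M' N') η) o ∧ okm P d (app T M' N') η.th o := by
  have hc : Cv (Tm.app (er M) (er N)) (Tm.app (er M') (er N')) := cv_app hM.cv hN.cv
  have key : ((Need P d (lv P (Tm.sub η.th T)) → okm P d M η.th (some (nf (Tm.sub η.th T))) ∧
        okm P d N η.th (some (dom (nf (Tm.sub η.th T))))) ∧ (¬ Need P d (lv P (Tm.sub η.th T)) → HN (er M))) →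
      val m (app T M N) η = val m (app T M' N') η ∧
      ((Need P d (lv P (Tm.sub η.th T)) → okm P d M' η.th (some (nf (Tm.sub η.th T))) ∧
        okm P d N' η.th (some (dom (nf (Tm.sub η.th T))))) ∧ (¬ Need P d (lv P (Tm.sub η.th T)) → HN (er M'))) := by
    intro hi
    refine ⟨?_, fun hn => ⟨(h1 (hi.1 hn).1).2, (h2 (hi.1 hn).2).2⟩, fun hn => (hi.2 hn).red hM⟩
    have e : nf (Tm.sub η.th (er N)) = nf (Tm.sub η.th (er N')) := nf_cv (cv_sub hN.cv _)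
    simp only [val, mkn]
    rw [vbd_grd (cv_sub hc η.th), ← e]
    by_cases hn : Need P d (lv P (Tm.sub η.th T))
    · rw [(h1 (hi.1 hn).1).1, (h2 (hi.1 hn).2).1]
    · rw [← vbd_lv_nf] at hn
      rw [m.app_dv _ _ _ _ hn, m.app_dv _ _ _ _ hn]
  refine vbd_mode hs hc (fun s _ _ hd h => ?_) (fun hn hr h => ?_) ho
  · obtain ⟨e, hi⟩ := key (h hd)
    exact ⟨congrArg Prod.fst e, fun _ => hi⟩
  · obtain ⟨e, hi⟩ := key ((h hn).2 hr)
    exact ⟨congrArg (fun x => x.2 K) e, fun _ => ⟨fun _ _ => hi, fun _ => hi⟩⟩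

theorem vbd_nf_pi (hP : HWN P) {V : Type 1} {η : Env S V} (hη : EOk P Γ η) {M T C E : Tm S} (h : Ty P Γ M T)
    (hc : Cv T (.pi C E)) : dom (nf (Tm.sub η.th T)) = nf (Tm.sub η.th C) ∧
      ∀ N, res (nf (Tm.sub η.th T)) N = nf (Tm.sub (vcons N η.th) E) := by
  obtain ⟨Δ, h1, -⟩ := hη
  have hw : WN (Tm.pi (Tm.sub η.th C) (Tm.sub (Tm.up η.th) E)) := (hP.ty (h.subst h1)).cv (cv_sub hc η.th)
  have e : nf (Tm.sub η.th T) = .pi (nf (Tm.sub η.th C)) (nf (Tm.sub (Tm.up η.th) E)) :=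
    (nf_cv (cv_sub hc η.th)).trans hw.pi.2.2
  rw [e]
  refine ⟨rfl, fun N => ?_⟩
  rw [← R298.inst_sub_up]
  exact nf_cv (cv_inst (.refl _) (.symm _ _ hw.pi.2.1.red_nf.cv))

theorem vbd_step (hP : HWN P) (hs : Stage P d D) (k : ℕ) : ∀ {Γ : List (Atom S)} {W W' : ATm S} {A : Tm S}
    {η : Env S m.V} {o : Option (Tm S)}, sz W < k → ATy P Γ W A → Step W W' → EOk P Γ η →
    OkA P d D W η.th (nf (Tm.sub η.th A)) o → AgrO m (val m W η) (val m W' η) o ∧ okm P d W' η.th o := by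
  induction k with
  | zero => intro _ _ _ _ _ _ hk; omega
  | succ k ih =>
    intro Γ W W' A η o hk h hW hη ho
    have rf := @Relation.EqvGen.refl _ (Beta (S := S))
    have refl' : ∀ (x : CR P (d ∪ D) × (Tm S → m.V)) (o : Option (Tm S)), AgrO m x x o := fun x o => by
      cases o <;> rfl
    -- going under a binder of type `C`
    have opn : ∀ {C M M' : ATm S} {B Q : Tm S} {s₁ : S} {o : Option (Tm S)}, sz M < k → ATy P Γ C (.srt s₁) →
        (∀ n, ATy P ((n, er C) :: Γ) (inst (fv n (er C)) M) (Tm.inst (.fv n (er C)) B)) → Step M M' →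
        GT P Q (nf (Tm.sub η.th (er C))) →
        OkA P d D M (vcons Q η.th) (nf (Tm.sub (vcons Q η.th) B)) o →
        (∀ v, AgrO m (val m M (vcons (Q, nf (Tm.sub η.th (er C)), v) η))
          (val m M' (vcons (Q, nf (Tm.sub η.th (er C)), v) η)) o) ∧ okm P d M' (vcons Q η.th) o := by
      intro C M M' B Q s₁ o hk hC hM hW hQ ho
      have h5 := hW.mx_le
      let a : Atom S := (max (cmx Γ) (max (mx M) (Tm.mx B)), er C)
      have o1 : ¬ Occ a M := ATm.not_occ_of_mx (by simp [a])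
      have o2 : ¬ Occ a M' := ATm.not_occ_of_mx (by simp only [a]; omega)
      have o3 : ¬ Tm.Occ a B := R298.not_occ_of_mx (by simp [a])
      have H := fun v => ih (Γ := a :: Γ) (W := inst (atm a) M) (W' := inst (atm a) M') (A := Tm.inst (Tm.atm a) B)
        (η := vupd η a (Q, nf (Tm.sub η.th a.2), v)) (o := o) ((ATm.sz_inst_atm a M).trans_lt hk) (hM _) (hW.sub _)
        (hη.upd hP (.cons (a := a) hC.er) (not_mem_of_cmx (le_max_left _ _)) hQ v) (by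
          rw [Env.th_vupd, R298.sub_vupd_inst o3]
          exact ⟨ho.1, (okm_opn o1 _ _).symm ▸ ho.2⟩)
      refine ⟨fun v => ?_, ?_⟩
      · have := (H v).1
        rwa [val_opn o1, val_opn o2] at this
      · have := (H m.dv).2
        rwa [Env.th_vupd, okm_opn o2] at this
    cases hW with
    | beta T C M N => exact val_beta hP hs h hη ho
    | perm T M G N => exact ⟨refl' _ _, ho.2⟩
    | memR M hW => exact ⟨refl' _ _, ho.2⟩
    | @memL M M' G hW => exact ih (W := M) (W' := M') (by simp only [sz] at hk; omega) h.gen_mem.1 hW hη ho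
    | appL T N hW =>
      obtain ⟨C, E, h1, h2, h3, h4⟩ := h.gen_app
      refine vbd_app hs hW.red .refl (fun h' => ?_) (fun h' => ⟨rfl, h'⟩) ho
      exact ih (o := some _) (by simp only [sz] at hk; omega) h1 hW hη ⟨.inl (congrArg some (nf_cv (cv_sub h3 _))), h'⟩
    | appR T M hW =>
      obtain ⟨C, E, h1, h2, h3, h4⟩ := h.gen_app
      refine vbd_app hs .refl hW.red (fun h' => ⟨rfl, h'⟩) (fun h' => ?_) ho
      refine ih (o := some _) (by simp only [sz] at hk; omega) h2 hW hη ⟨.inl (congrArg some ?_), h'⟩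
      rw [nf_cv (cv_sub h3 _)]
      exact (vbd_nf_pi hP hη h1.er (rf _)).1
    | lamA M hW =>
      refine ⟨refl' _ _, ?_⟩
      obtain ⟨-, h'⟩ := ho
      cases o with
      | none => exact fun _ => trivial
      | some K => exact fun hn => ⟨fun _ _ => trivial, (h' hn).2⟩
    | @lamM C M M' hW =>
      obtain ⟨B, s₁, s, h1, h2, h3, h4⟩ := h.gen_lam
      obtain ⟨e1, e2⟩ := vbd_nf_pi hP hη h.er h1
      refine vbd_mode hs (Step.lamM C hW).red.cv (fun _ _ _ _ _ => ⟨rfl, fun _ => trivial⟩) (fun hn hr h' => ?_) ho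
      have H := fun Q (hQ : GT P Q (dom (nf (Tm.sub η.th A)))) =>
        opn (o := some (res (nf (Tm.sub η.th A)) Q)) (by simp only [sz] at hk; omega) h2
          (fun n => h4 n _ _ h2.er (rf _)) hW (e1 ▸ hQ) ⟨.inl (congrArg some (e2 Q)), (h' hn).2 hr Q hQ⟩
      refine ⟨?_, fun _ => ⟨fun _ _ => trivial, fun _ Q hQ => (H Q hQ).2⟩⟩
      simp only [val, mkl, mkv, if_neg hr]
      congr 2
      funext Q v
      split_ifs with hQ
      · rw [e1]
        exact (H Q hQ).1 v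
      · rfl
    | @piA C C' E hW =>
      obtain ⟨s₁, s₂, s₃, h0, h1, h2, h4⟩ := h.gen_pi
      have hc : Cv (Tm.pi (er C) (er E)) (Tm.pi (er C') (er E)) := (Step.piA E hW).red.cv
      refine vbd_mode hs hc (fun s e hn hd h' => ?_)
        (fun hn hr h' => ⟨by simp only [val, mkp, mkv, if_neg hr], fun _ => ⟨fun h => (hr h).elim, fun _ => trivial⟩⟩) ho
      obtain rfl : s₃ = s := by
        rw [nf_cv (cv_sub h1 _)] at e
        exact Tm.srt.inj ((nf_srt s₃).nf_eq.symm.trans e)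
      have hd' := NotD.dom hP hs.clo h0 ⟨_, h2.er⟩ ⟨_, (h4 0 _ _ h2.er (rf _)).er⟩ hn
      obtain ⟨i1, i2⟩ := ih (o := none) (by simp only [sz] at hk; omega) h2 hW hη
        ⟨.inr ⟨rfl, s₁, (nf_srt s₁).nf_eq, hd'.1⟩, (h' hd).1⟩
      have e' : nf (Tm.sub η.th (er C)) = nf (Tm.sub η.th (er C')) := nf_cv (cv_sub hW.red.cv _)
      refine ⟨?_, fun _ => ⟨i2, e' ▸ (h' hd).2⟩⟩
      simp only [val, mkp, mkv]
      rw [vbd_grd (cv_sub hc η.th), ← e']
      exact congrArg _ (arrC_congr (nf_cv (cv_sub hc η.th)) i1 fun _ _ => rfl)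
    | @piB C E E' hW =>
      obtain ⟨s₁, s₂, s₃, h0, h1, h2, h4⟩ := h.gen_pi
      have hc : Cv (Tm.pi (er C) (er E)) (Tm.pi (er C) (er E')) := (Step.piB C hW).red.cv
      refine vbd_mode hs hc (fun s e hn hd h' => ?_)
        (fun hn hr h' => ⟨by simp only [val, mkp, mkv, if_neg hr], fun _ => ⟨fun h => (hr h).elim, fun _ => trivial⟩⟩) ho
      obtain rfl : s₃ = s := by
        rw [nf_cv (cv_sub h1 _)] at e
        exact Tm.srt.inj ((nf_srt s₃).nf_eq.symm.trans e)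
      have hd' := NotD.dom hP hs.clo h0 ⟨_, h2.er⟩ ⟨_, (h4 0 _ _ h2.er (rf _)).er⟩ hn
      have H := fun Q (hQ : GT P Q (nf (Tm.sub η.th (er C)))) =>
        opn (B := .srt s₂) (o := none) (by simp only [sz] at hk; omega) h2
          (fun n => h4 n _ _ h2.er (rf _)) hW hQ ⟨.inr ⟨rfl, s₂, (nf_srt s₂).nf_eq, hd'.2⟩, (h' hd).2 Q hQ⟩
      refine ⟨?_, fun _ => ⟨(h' hd).1, fun Q hQ => (H Q hQ).2⟩⟩
      simp only [val, mkp, mkv]
      rw [vbd_grd (cv_sub hc η.th)]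
      refine congrArg _ (arrC_congr (nf_cv (cv_sub hc η.th)) rfl fun N hN => ?_)
      exact congrArg (fun f => infC (f '' _)) (funext (H _ hN).1)

/-- part d, Lemma B.  Induction on `sz W`; `appL`/`appR`: if `T[θ]` is unneeded `app_dv` and `HN.red`. -/
theorem val_step (hP : HWN P) (hs : Stage P d D) {W W' : ATm S} {A : Tm S} (h : ATy P Γ W A) (hW : Step W W')
    {η : Env S m.V} (hη : EOk P Γ η) {o : Option (Tm S)} (ho : OkA P d D W η.th (nf (Tm.sub η.th A)) o) :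
    AgrO m (val m W η) (val m W' η) o ∧ okm P d W' η.th o := by
  exact vbd_step hP hs _ (Nat.lt_succ_self _) h hW hη ho

theorem vbe_pi {A B : Tm S} {θ : Sb S} (h : WN (Tm.sub θ (.pi A B))) :
    dom (nf (Tm.sub θ (.pi A B))) = nf (Tm.sub θ A) ∧
      ∀ Q, res (nf (Tm.sub θ (.pi A B))) Q = nf (Tm.sub (vcons Q θ) B) := by
  obtain ⟨-, h2, h3⟩ := WN.pi (A := Tm.sub θ A) (B := Tm.sub (Tm.up θ) B) h
  have e : nf (Tm.sub θ (.pi A B)) = .pi (nf (Tm.sub θ A)) (nf (Tm.sub (Tm.up θ) B)) := h3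
  rw [e]
  refine ⟨rfl, fun Q => ?_⟩
  rw [← R298.inst_sub_up]
  exact nf_cv (cv_inst (.refl _) (.symm _ _ h2.red_nf.cv))

theorem vbe_res (hP : HWN P) {M N A B : Tm S} {θ : Sb S} (hM : Ty P Γ M (.pi A B)) (hN : Ty P Γ N A)
    (hθ : Mor P Δ Γ θ) : res (nf (Tm.sub θ (.pi A B))) (nf (Tm.sub θ N)) = nf (Tm.sub θ (Tm.inst N B)) := by
  rw [(vbe_pi (hP.ty (hM.subst hθ))).2, R298.sub_inst, ← R298.inst_sub_up, ← R298.inst_sub_up]
  exact nf_cv (cv_inst (.symm _ _ (hP _ _ _ (hN.subst hθ)).red_nf.cv) (.refl _))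

/-- part e -/
theorem kin_sp (hP : HWN P) {M A : Tm S} {a : Atom S} (hsp : Sp a M) (h : Ty P Γ M A) {V : Type 1} {η : Env S V}
    (hη : EOk P Γ η) : kin M η = nf (Tm.sub η.th A) := by
  obtain ⟨Θ, hθ, hk⟩ := hη
  induction hsp generalizing A with
  | hd =>
    obtain ⟨h1, h2⟩ := Ty.gen_fv h
    exact (hk _ h1).trans (nf_cv (cv_sub h2 _)).symm
  | app N _ ih =>
    obtain ⟨C, E, h1, h2, h3⟩ := h.gen_app
    rw [kin, ih h1, vbe_res hP h1 h2 hθ, nf_cv (cv_sub h3 _)]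

theorem vbe_fresh (Γ : List (Atom S)) (M : ATm S) (B C : Tm S) :
    ∃ n, (n, C) ∉ Γ ∧ ¬ Occ (n, C) M ∧ ¬ Tm.Occ (n, C) B :=
  ⟨max (cmx Γ) (max (mx M) (Tm.mx B)), not_mem_of_cmx (le_max_left _ _),
    ATm.not_occ_of_mx ((le_max_left _ _).trans (le_max_right _ _)),
    R298.not_occ_of_mx ((le_max_right _ _).trans (le_max_right _ _))⟩

/-- part e, bridge -/
theorem val_valN (hP : HWN P) {W : ATm S} {A : Tm S} (h : ATy P Γ W A) (hn : Nf (er W)) {η : Env S m.V} (hη : EOk P Γ η) :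
    (val m W η).1 = (valN m (er W) η).1 ∧
      (val m W η).2 (nf (Tm.sub η.th A)) = (valN m (er W) η).2 (nf (Tm.sub η.th A)) := by
  induction hk : sz W using Nat.strong_induction_on generalizing W Γ A η with
  | _ k ih =>
  subst hk
  obtain ⟨Θ, hθ, hkd⟩ := id hη
  cases W with
  | bv i => exact ⟨rfl, rfl⟩
  | fv n B => exact ⟨rfl, rfl⟩
  | srt s => exact ⟨rfl, rfl⟩
  | mem M G => exact ih _ (by simp only [sz]; omega) (W := M) h.gen_mem.1 hn hη rfl
  | app T M N =>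
    obtain ⟨C, E, h1, h2, h3, -⟩ := h.gen_app
    obtain ⟨n1, n2, n3⟩ := Nf.app hn
    obtain ⟨a, -, ha⟩ := (h1.er.nf_fun n1).resolve_left fun ⟨C', D', e⟩ => n3 _ _ e
    have e1 := (ih _ (by simp only [sz]; omega) h1 n1 hη rfl).2
    have e2 := (ih _ (by simp only [sz]; omega) h2 n2 hη rfl).2
    have e : val m (app T M N) η = valN m (er (app T M N)) η := by
      simp only [val, er, valN]
      rw [kin_sp hP ha h1.er hη, nf_cv (cv_sub h3 _), e1, (vbe_pi (hP.ty (h1.er.subst hθ))).1, e2]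
    rw [e]
    exact ⟨rfl, rfl⟩
  | lam C M =>
    obtain ⟨B, s₁, s, h1, h2, h3, h4⟩ := h.gen_lam
    obtain ⟨n, n1, n2, n3⟩ := vbe_fresh Γ M B (er C)
    have h5 := h4 n _ _ h2.er (.refl _)
    obtain ⟨e1, e2⟩ := vbe_pi (hP _ _ _ (h3.subst hθ))
    refine ⟨rfl, ?_⟩
    rw [nf_cv (cv_sub h1 _)]
    simp only [val, er, valN, mkl, mkv]
    congr 3
    funext N v
    split_ifs with hN
    · rw [e1] at hN ⊢
      have e := (ih _ (by rw [show fv n (er C) = atm (n, er C) from rfl, ATm.sz_inst_atm]; simp only [sz]; omega) h5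
        (by rw [er_inst]; exact (nf_inst_atm_iff (n, er C) _).2 (nf_lam_iff.1 hn).2)
        (hη.upd hP h5.er.ok n1 hN v) rfl).2
      rw [er_inst, Env.th_vupd] at e
      rw [e2, ← val_opn n2, ← valN_opn (a := (n, er C)) fun h => n2 (occ_er h), ← R298.sub_vupd_inst n3]
      exact e
    · rfl
  | pi C E =>
    obtain ⟨s₁, s₂, s₃, -, -, h2, h4⟩ := h.gen_pi
    obtain ⟨n, n1, n2, -⟩ := vbe_fresh Γ E (er C) (er C)
    have h5 := h4 n _ _ h2.er (.refl _)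
    have e1 := (ih _ (by simp only [sz]; omega) h2 (nf_pi_iff.1 hn).1 hη rfl).1
    have e : val m (pi C E) η = valN m (er (pi C E)) η := by
      simp only [val, er, valN, mkp]
      congr 2
      refine arrC_congr rfl e1 fun N hN => ?_
      congr 2
      funext v
      have e := (ih _ (by rw [show fv n (er C) = atm (n, er C) from rfl, ATm.sz_inst_atm]; simp only [sz]; omega) h5
        (by rw [er_inst]; exact (nf_inst_atm_iff (n, er C) _).2 (nf_pi_iff.1 hn).2)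
        (hη.upd hP h5.er.ok n1 hN v) rfl).1
      rw [er_inst] at e
      rw [← val_opn n2, ← valN_opn (a := (n, er C)) fun h => n2 (occ_er h)]
      exact e
    rw [e]
    exact ⟨rfl, rfl⟩

theorem vbe_steps (hP : HWN P) (hs : Stage P d D) {W W' : ATm S} {A : Tm S} (h : ATy P Γ W A) (hW : Steps W W')
    {η : Env S m.V} (hη : EOk P Γ η) {o : Option (Tm S)} (ho : OkA P d D W η.th (nf (Tm.sub η.th A)) o) :
    AgrO m (val m W η) (val m W' η) o ∧ okm P d W' η.th o := by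
  induction hW with
  | refl => exact ⟨by cases o <;> rfl, ho.2⟩
  | tail h1 h2 ih =>
    obtain ⟨e1, e2⟩ := val_step hP hs (h.srs h1) h2 hη ⟨ho.1, ih.2⟩
    refine ⟨?_, e2⟩
    cases o <;> exact Eq.trans ih.1 e1

/-- part e: annotate `M` (`Ty.ann`), `val_valN`, `val_sub`, `okm_nf` + `okm_sub`, `steps_sim` to the normal form, `val_step`, `val_valN` -/
theorem valN_sub (hP : HWN P) (hs : Stage P d D) {M A : Tm S} (h : Ty P Γ M A) (hn : Nf M) {σ : ASb S} {η η' : Env S m.V}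
    (hl : Lnk m Δ Γ σ η η') (hσ : ∀ a ∈ Γ, Nf (er (σ (.inr a)))) :
    Agr m (nf (Tm.sub η'.th A)) (valN m (nf (Tm.sub (ers σ) M)) η) (valN m M η') := by
  obtain ⟨W, hW, rfl⟩ := h.ann
  obtain ⟨e1, e2⟩ := val_valN (m := m) hP hW hn hl.ok'
  obtain ⟨e3, e4⟩ := val_sub hP hs hW hl
  have h1 := hW.subst hl.mor
  have h2 : WN (er (sub σ W)) := hP _ _ _ h1.er
  obtain ⟨W', h3, h4⟩ := steps_sim h2.red_nf
  obtain ⟨e5, e6⟩ := val_valN (m := m) hP (h1.srs h3) (h4 ▸ nf_nf _) hl.ok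
  have eK := (hl.sub_eq h).2
  obtain ⟨Θ, hθ, -⟩ := hl.ok
  have key : ∀ o, (o = some (nf (Tm.sub η'.th A)) ∨ (o = none ∧ ∃ s, nf (Tm.sub η'.th A) = .srt s ∧ NotD P D s)) →
      AgrO m (val m (sub σ W) η) (val m W' η) o := fun o ho =>
    (vbe_steps hP hs h1 h3 hl.ok ⟨eK ▸ ho, okm_sub hP hs hW hl.mor hθ hl.th (fun a ha =>
      (hl.at' a ha).imp (fun ⟨b, hb, _⟩ => ⟨b, hb⟩) fun hb => ⟨hb.1, okm_nf (hσ a ha) _ _⟩)
      ⟨ho, okm_nf hn _ _⟩⟩).1
  rw [h4, er_sub] at e5 e6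
  rw [eK] at e6
  exact ⟨e6.symm.trans ((key _ (.inl rfl)).symm.trans (e3.trans e2)), fun s h5 h6 =>
    e5.symm.trans ((key _ (.inr ⟨rfl, s, h5, h6⟩)).symm.trans ((e4 s h5 h6).trans e1))⟩

theorem vf_nf_atm (a : Atom S) : Nf (Tm.atm a) := fun _ h => by cases h

theorem vf_nf_app {M N : Tm S} {a : Atom S} (hM : Nf M) (hN : Nf N) (h : Sp a M) : Nf (.app M N) := by
  intro L hb
  rcases b1_app_inv hb with ⟨A, Q, e, -⟩ | ⟨M', h1, -⟩ | ⟨N', h1, -⟩
  · subst e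
    cases h
  · exact hM _ h1
  · exact hN _ h1

theorem vf_bd (σ : ASb S) (Γ : List (Atom S)) : ∃ L, ∀ a ∈ Γ, mx (σ (.inr a)) ≤ L := by
  induction Γ with
  | nil => exact ⟨0, fun _ h => absurd h List.not_mem_nil⟩
  | cons b Γ ih =>
    obtain ⟨L, hL⟩ := ih
    refine ⟨max L (mx (σ (.inr b))), fun a ha => ?_⟩
    rcases List.mem_cons.1 ha with rfl | ha
    · exact le_max_right _ _
    · exact (hL a ha).trans (le_max_left _ _)

theorem vf_grd {T T' : Tm S} (h : Cv T T') (c : CR P (d ∪ D)) : grd P d D T c = grd P d D T' c := by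
  unfold grd
  rw [lv_cv h]

/-- the instance of the normal form of the substituted term -/
theorem vf_cv (hP : HWN P) {σ : ASb S} {η η' : Env S m.V} (hl : Lnk m Δ Γ σ η η') {M A : Tm S} (hM : Ty P Γ M A) :
    Cv (Tm.sub η.th (nf (Tm.sub (ers σ) M))) (Tm.sub η'.th M) := by
  rw [← (hl.sub_eq hM).1]
  exact cv_sub (.symm _ _ ((hM.subst hl.mor.mor).cv_nf hP).1) _

theorem vf_sp (hP : HWN P) (hs : Stage P d D) {T : Tm S} {s : S} {σ : ASb S} {η η' : Env S m.V} {a b : Atom S}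
    (hT : Ty P Γ T (.srt s)) (hn : Nf T) (hl : Lnk m Δ Γ σ η η') (hσ : ∀ a ∈ Γ, Nf (er (σ (.inr a)))) (hsp : Sp a T)
    (h1 : σ (.inr a) = atm b) (h2 : η' (.inr a) = η (.inr b)) :
    (valN m (nf (Tm.sub (ers σ) T)) η).1 = (valN m T η').1 := by
  have e1 : ers σ (.inr a) = Tm.atm b := congrArg er h1
  cases hsp with
  | hd =>
    have e2 : Tm.sub (ers σ) (Tm.atm a) = Tm.atm b := e1
    rw [e2, (vf_nf_atm b).nf_eq]
    show (mkn m (η (.inr b)).1 (η (.inr b)).2.1 (η (.inr b)).2.2).1 =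
      (mkn m (η' (.inr a)).1 (η' (.inr a)).2.1 (η' (.inr a)).2.2).1
    rw [h2]
  | @app M N hM =>
    obtain ⟨A, B, hM1, hN1, -⟩ := hT.gen_app
    have hM2 := hM1.subst hl.mor.mor
    have hN2 := hN1.subst hl.mor.mor
    have s2 : Sp b (nf (Tm.sub (ers σ) M)) := (hM.sub e1).red (hP _ _ _ hM2).red_nf
    have e2 : nf (Tm.sub (ers σ) (.app M N)) = .app (nf (Tm.sub (ers σ) M)) (nf (Tm.sub (ers σ) N)) :=
      (nf_cv (cv_app (hM2.cv_nf hP).1 (hN2.cv_nf hP).1)).trans (vf_nf_app (nf_nf _) (nf_nf _) s2).nf_eq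
    have c1 := vf_cv hP hl hT
    rw [e2] at c1 ⊢
    have k1 : kin M η' = nf (Tm.sub η'.th (.pi A B)) := kin_sp hP hM hM1 hl.ok'
    have k2 : kin (nf (Tm.sub (ers σ) M)) η = nf (Tm.sub η'.th (.pi A B)) := by
      rw [← (hl.sub_eq hM1).2]
      exact kin_sp hP s2 (hM2.nf_tm hP) hl.ok
    have k3 : dom (nf (Tm.sub η'.th (.pi A B))) = nf (Tm.sub η'.th A) := by
      obtain ⟨Θ, h3, -⟩ := hl.ok'
      have h4 : WN (.pi (Tm.sub η'.th A) (Tm.sub (Tm.up η'.th) B)) := hP.ty (hM1.subst h3)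
      exact congrArg dom h4.pi.2.2
    have k4 : nf (Tm.sub η.th (nf (Tm.sub (ers σ) N))) = nf (Tm.sub η'.th N) := nf_cv (vf_cv hP hl hN1)
    have v1 := (valN_sub hP hs hM1 hn.app.1 hl hσ).1
    have v2 := (valN_sub hP hs hN1 hn.app.2.1 hl hσ).1
    simp only [valN, mkn, mkv]
    rw [k1, k2, k3, k4, v1, v2]
    exact vf_grd c1 _

theorem vf_elim (hP : HWN P) (hs : Stage P d D) (k : ℕ) : ∀ (T : Tm S) (Γ Δ Δg : List (Atom S)) (s : S) (σ : ASb S)
    (η η' : Env S m.V) (θg : Sb S), Tm.sz T ≤ k → Ty P Γ T (.srt s) → Nf T → Lnk m Δ Γ σ η η' →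
    (∀ a ∈ Γ, Nf (er (σ (.inr a)))) → Mor P Δg Γ θg → lv P (Tm.sub θg T) ∉ D →
    (∀ a ∈ Γ, (∃ b, σ (.inr a) = atm b ∧ η' (.inr a) = η (.inr b)) ∨ ∃ b, θg (.inr a) = Tm.atm b) →
    (valN m (nf (Tm.sub (ers σ) T)) η).1 = (valN m T η').1 := by
  induction k with
  | zero => exact fun T _ _ _ _ _ _ _ _ h => absurd (lvb_sz_pos T) (by omega)
  | succ k ih =>
    intro T Γ Δ Δg s σ η η' θg hk hT hn hl hσ hg hD hat
    rcases hT.nf_type hn with ⟨t, rfl⟩ | ⟨C, E, rfl⟩ | ⟨a, ha, hsp⟩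
    · have e : nf (Tm.sub (ers σ) (.srt t)) = .srt t := (nf_srt t).nf_eq
      rw [e]
      rfl
    · obtain ⟨s₁, s₂, s₃, -, -, hC, hE⟩ := hT.gen_pi
      have hT2 : Ty P Δ (.pi (Tm.sub (ers σ) C) (Tm.sub (Tm.up (ers σ)) E)) (.srt s) := hT.subst hl.mor.mor
      have hTg : Ty P Δg (.pi (Tm.sub θg C) (Tm.sub (Tm.up θg) E)) (.srt s) := hT.subst hg
      have hC2 : Ty P Δ (Tm.sub (ers σ) C) (.srt s₁) := hC.subst hl.mor.mor
      have hCg : Ty P Δg (Tm.sub θg C) (.srt s₁) := hC.subst hg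
      obtain ⟨-, w2, e2⟩ := (hP _ _ _ hT2).pi
      have e2' : nf (Tm.sub (ers σ) (.pi C E)) = .pi (nf (Tm.sub (ers σ) C)) (nf (Tm.sub (Tm.up (ers σ)) E)) := e2
      have c1 := vf_cv hP hl hT
      rw [e2'] at c1 ⊢
      have k1 : nf (Tm.sub η.th (nf (Tm.sub (ers σ) C))) = nf (Tm.sub η'.th C) := nf_cv (vf_cv hP hl hC)
      have i1 := ih C Γ Δ Δg s₁ σ η η' θg (lvb_sz hk 0).1 hC (nf_pi_iff.1 hn).1 hl hσ hg
        (fun h => hD (hs.clo _ _ h (reach_dom hP hTg))) hat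
      simp only [valN, mkp, mkv]
      rw [k1, i1, vf_grd c1]
      congr 1
      refine arrC_congr (nf_cv c1) rfl fun N hN => ?_
      congr 2
      funext v
      obtain ⟨L, hL⟩ := vf_bd σ Γ
      obtain ⟨n, hn1, hn2⟩ : ∃ n, cmx Γ ≤ n ∧ Tm.mx E ≤ n := ⟨max _ _, le_max_left _ _, le_max_right _ _⟩
      obtain ⟨n', hn3, hn4, hn5⟩ : ∃ n', cmx Δ ≤ n' ∧ L ≤ n' ∧ Tm.mx (nf (Tm.sub (Tm.up (ers σ)) E)) ≤ n' :=
        ⟨max (cmx Δ) (max L _), le_max_left _ _, (le_max_left _ _).trans (le_max_right _ _),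
          (le_max_right _ _).trans (le_max_right _ _)⟩
      have f1 : (n, C) ∉ Γ := not_mem_of_cmx hn1
      have f2 : ¬ Tm.Occ (n, C) E := R298.not_occ_of_mx hn2
      have f3 : ∀ a ∈ Γ, ¬ Occ (n', nf (Tm.sub (ers σ) C)) (σ (.inr a)) :=
        fun a ha => ATm.not_occ_of_mx ((hL a ha).trans hn4)
      have f4 : ¬ Tm.Occ (n', nf (Tm.sub (ers σ) C)) (nf (Tm.sub (Tm.up (ers σ)) E)) := R298.not_occ_of_mx hn5
      have hl' := hl.up hP hC (hC2.nf_tm hP) (.symm _ _ (hC2.cv_nf hP).1) f1 f3 (not_mem_of_cmx hn3) hN v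
      have hE1 := hE n C s₁ hC (.refl _)
      have hg' := typa_ext (n' := 0) hg hE1.ok f1 hCg
      have i2 := ih (Tm.inst (.fv n C) E) _ _ _ s₂ _ _ _ _ (lvb_sz hk n).2 hE1
        ((nf_inst_atm_iff (n, C) E).2 (nf_pi_iff.1 hn).2) hl' ?_ hg' ?_ ?_
      · have e3 : nf (Tm.sub (ers (vupd σ (n, C) (fv n' (nf (Tm.sub (ers σ) C))))) (Tm.inst (.fv n C) E)) =
            Tm.inst (Tm.atm (n', nf (Tm.sub (ers σ) C))) (nf (Tm.sub (Tm.up (ers σ)) E)) := by
          rw [← w2.nf_inst_atm, ers_vupd, R298.inst_sub_up]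
          exact congrArg nf (R298.sub_vupd_inst f2 _ _)
        rw [e3, valN_opn f4] at i2
        rw [i2]
        exact congrArg Prod.fst (valN_opn f2 _ _)
      · intro a ha
        rcases List.mem_cons.1 ha with rfl | ha
        · rw [vupd_self]
          exact vf_nf_atm (n', _)
        · rw [vupd_ne _ (fun e : a = (n, C) => f1 (e ▸ ha))]
          exact hσ a ha
      · intro h
        have e4 : Tm.sub (vupd θg (n, C) (.fv 0 (Tm.sub θg C))) (Tm.inst (.fv n C) E) =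
            Tm.inst (.fv 0 (Tm.sub θg C)) (Tm.sub (Tm.up θg) E) := by
          rw [R298.inst_sub_up]
          exact R298.sub_vupd_inst f2 _ _
        rw [e4] at h
        exact hD (hs.clo _ _ h (ps_cod hP (Ty.weak (a := (0, Tm.sub θg C)) hTg hCg)
          (Ty.start (a := (0, Tm.sub θg C)) hCg)).reach)
      · intro a ha
        rcases List.mem_cons.1 ha with rfl | ha
        · exact Or.inr ⟨(0, _), vupd_self _ _ _⟩
        · have ne : a ≠ (n, C) := fun e => f1 (e ▸ ha)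
          rw [vupd_ne _ ne, vupd_ne _ ne, vupd_ne _ ne]
          refine (hat a ha).imp_left fun ⟨b, h1, h2⟩ => ⟨b, h1, ?_⟩
          rw [vupd_ne _ (fun e : b = (n', nf (Tm.sub (ers σ) C)) => f3 a ha (by rw [h1, e]; rfl))]
          exact h2
    · by_cases hnd : NotD P D s
      · exact (valN_sub hP hs hT hn hl hσ).2 s (nf_srt s).nf_eq hnd
      · rcases hat a ha with ⟨b, h1, h2⟩ | ⟨b, h1⟩
        · exact vf_sp hP hs hT hn hl hσ hsp h1 h2
        · refine (hnd fun l h2 h3 h4 => hD ?_).elim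
          obtain ⟨e, t, ht⟩ := lv_sp hP (hT.subst hg) (hsp.sub h1)
          rw [e]
          exact hs.clo _ _ h4 ⟨false, Wk.single (.cum h2 (.sg ht) (Set.singleton_subset_iff.2 h3))⟩

/-- part f, elimination.  Induction on `sz T`.  Sort: trivial.  `pi C E`: `WN.pi`, open with fresh atoms (`Lnk.up` with
`C' = nf (C[σ])`, `θg` extended by a fresh atom; the generic levels of both parts are outside `D`), `arrC_congr`, `valN_opn`.
Spine of sort `s` with head `y`: if `NotD s` use `valN_sub`.  Otherwise `{s} ∈ D`, so `θg y` is not an atom (`lv_sp`), so `y` is renamed;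
`T = y` is trivial, for `T = app M N` the normal form of `T[σ]` is `app (nf M[σ]) (nf N[σ])`, `kin_sp` on both sides and the first
components of `valN_sub` for `M` and `N`. -/
theorem valN_elim (hP : HWN P) (hs : Stage P d D) : ∀ (T : Tm S) (Γ Δ Δg : List (Atom S)) (s : S) (σ : ASb S) (η η' : Env S m.V)
    (θg : Sb S), Ty P Γ T (.srt s) → Nf T → Lnk m Δ Γ σ η η' → (∀ a ∈ Γ, Nf (er (σ (.inr a)))) → Mor P Δg Γ θg →
    lv P (Tm.sub θg T) ∉ D →
    (∀ a ∈ Γ, (∃ b, σ (.inr a) = atm b ∧ η' (.inr a) = η (.inr b)) ∨ ∃ b, θg (.inr a) = Tm.atm b) →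
    (valN m (nf (Tm.sub (ers σ) T)) η).1 = (valN m T η').1 := by
  exact fun T Γ Δ Δg s σ η η' θg => vf_elim hP hs _ T Γ Δ Δg s σ η η' θg le_rfl

theorem vf_sem (hP : HWN P) (hs : Stage P d D) {A B N : Tm S} {s : S} {η : Env S m.V} (hT : Ty P Γ (.pi A B) (.srt s))
    (hn : Nf (.pi A B)) (hN : Ty P Γ N A) (hη : EOk P Γ η) (hd : lv P (Tm.sub η.th (.pi A B)) ∈ d)
    (hd' : lv P (Tm.sub η.th (nf (Tm.inst N B))) ∈ d) : ∃ v ∈ m.q (nf (Tm.sub η.th A)),
      (valN m B (vcons (Tm.sub η.th N, nf (Tm.sub η.th A), v) η)).1 = (valN m (nf (Tm.inst N B)) η).1 := by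
  obtain ⟨Θ, hθ, -⟩ := id hη
  obtain ⟨s₁, s₂, s₃, -, -, hA, hB⟩ := hT.gen_pi
  obtain ⟨s', hI⟩ := hT.pi_inst hN
  have hT2 : Ty P Θ (.pi (Tm.sub η.th A) (Tm.sub (Tm.up η.th) B)) (.srt s) := hT.subst hθ
  have hA2 : Ty P Θ (Tm.sub η.th A) (.srt s₁) := hA.subst hθ
  have hN2 := hN.subst hθ
  have hd2 : lv P (.pi (Tm.sub η.th A) (Tm.sub (Tm.up η.th) B)) ∈ d := hd
  rw [← lv_cv (cv_sub (hI.cv_nf hP).1 _), b1_sub_inst] at hd'
  have hg : glv P (Tm.sub η.th A) (Tm.sub (Tm.up η.th) B) ∈ d :=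
    hs.mem_of_reach hd' hd2 (ps_inst_glv hP hT2 hN2).reach (ps_glv hP hT2).reach
  have hq : Lg P d (lv P (Tm.sub η.th A)) → Qn P d (lv P (Tm.sub η.th A)) := fun h =>
    ⟨h, _, hg, glv_lev hP hT2, (lc_dom hP hT2).2, lv_pi hP hT2 ▸ hd2⟩
  obtain ⟨W, hW, eW⟩ := (hN.nf_tm hP).ann
  refine ⟨(val m W η).2 (nf (Tm.sub η.th A)), ?_, ?_⟩
  · rw [← val_nrm]
    refine m.q_nrm _ _ ?_
    rw [lv_nf (hP _ _ _ hA2)]
    exact (em _).imp hq fun h h' => h h'.1
  obtain ⟨n, hn1, hn2⟩ : ∃ n, cmx Γ ≤ n ∧ Tm.mx B ≤ n := ⟨max _ _, le_max_left _ _, le_max_right _ _⟩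
  have f1 : (n, A) ∉ Γ := not_mem_of_cmx hn1
  have f2 : ¬ Tm.Occ (n, A) B := R298.not_occ_of_mx hn2
  have f3 : ¬ Tm.Occ (n, A) A := fun h => f1 (hA.occ (Or.inl h))
  have hB1 := hB n A s₁ hA (.refl _)
  have ne : ∀ a ∈ Γ, a ≠ (n, A) := fun a ha e => f1 (e ▸ ha)
  have hl : Lnk m Γ ((n, A) :: Γ) (vupd vr (n, A) W) η
      (vupd η (n, A) (Tm.sub η.th (nf N), nf (Tm.sub η.th A), (val m W η).2 (nf (Tm.sub η.th A)))) := by
    refine ⟨AMor.upd ⟨hA.ok, fun a ha => ?_⟩ hB1.ok f1 ?_, hη,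
      hη.upd hP hB1.ok f1 ⟨Θ, ((hN.nf_tm hP).subst hθ).nf_ty hP⟩ _, fun a ha => ?_, fun a ha => ?_⟩
    · rw [ers_vr, R298.sub_vr]
      exact hA.ok.avar ha
    · rw [ers_vr, R298.sub_vr]
      exact hW
    · rw [Env.th_vupd]
      rcases List.mem_cons.1 ha with rfl | ha
      · rw [vupd_self, vupd_self, eW]
      · rw [vupd_ne _ (ne a ha), vupd_ne _ (ne a ha)]
        rfl
    · rcases List.mem_cons.1 ha with rfl | ha
      · right
        rw [Env.th_vupd, sub_vupd f3, vupd_self, vupd_self]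
        exact ⟨fun h => (hq h).need, rfl⟩
      · exact Or.inl ⟨a, vupd_ne _ (ne a ha) _, vupd_ne _ (ne a ha) _⟩
  have key := valN_elim hP hs (Tm.inst (.fv n A) B) _ _ _ s₂ _ _ _ _ hB1
    ((nf_inst_atm_iff (n, A) B).2 (nf_pi_iff.1 hn).2) hl ?_ (typa_ext (n' := 0) hθ hB1.ok f1 hA2) ?_ ?_
  · have e3 : nf (Tm.sub (ers (vupd vr (n, A) W)) (Tm.inst (.fv n A) B)) = nf (Tm.inst N B) := by
      rw [ers_vupd, ers_vr, eW]
      exact (congrArg nf (R298.sub_vupd_inst f2 _ _)).trans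
        (nf_cv (cv_inst (.symm _ _ (hN.cv_nf hP).1) (.refl _)))
    rw [e3] at key
    rw [key]
    refine (congrArg Prod.fst ((valN_opn f2 _ _).trans (valN_eeq B fun x => ?_).1)).symm
    rcases x with (_ | i) | a
    · exact ⟨cv_sub (.symm _ _ (hN.cv_nf hP).1) _, rfl, rfl⟩
    · exact ⟨.refl _, rfl, rfl⟩
    · exact ⟨.refl _, rfl, rfl⟩
  · intro a ha
    rcases List.mem_cons.1 ha with rfl | ha
    · rw [vupd_self, eW]
      exact nf_nf _
    · rw [vupd_ne _ (ne a ha)]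
      exact vf_nf_atm a
  · intro h
    have e4 : Tm.sub (vupd η.th (n, A) (.fv 0 (Tm.sub η.th A))) (Tm.inst (.fv n A) B) =
        Tm.inst (.fv 0 (Tm.sub η.th A)) (Tm.sub (Tm.up η.th) B) := by
      rw [R298.inst_sub_up]
      exact R298.sub_vupd_inst f2 _ _
    rw [e4] at h
    exact hs.dis _ hd2 (hs.clo _ _ h (ps_cod hP (Ty.weak (a := (0, Tm.sub η.th A)) hT2 hA2)
      (Ty.start (a := (0, Tm.sub η.th A)) hA2)).reach)
  · intro a ha
    rcases List.mem_cons.1 ha with rfl | ha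
    · exact Or.inr ⟨(0, _), vupd_self _ _ _⟩
    · exact Or.inl ⟨a, vupd_ne _ (ne a ha) _, vupd_ne _ (ne a ha) _⟩

/-- part f.  `cand T η = (valN m T η).1`.  `elim`: if the level of `(inst N B)[θ]` is outside `d` use `valN_out`.  Otherwise the generic
level of the codomain is in `d`, so `K = nf (A[θ])` is `Qn` if large; annotate `nf N` to `N̂`, `v = (val m N̂ η).2 K ∈ q K` (`val_nrm`,
`q_nrm`), `valN_elim` with `T = inst (atm a) B`, `σ = vupd vr a N̂`, `η' = vupd η a (nf N [θ], K, v)`; the instance `N[θ]` versus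
`(nf N)[θ]` is harmless (`valN_eeq`). -/
theorem sem_vm (hP : HWN P) (hs : Stage P d D) (m : VMc P d D) : Nonempty (Sem P d D) := by
  refine ⟨⟨m.V, m.dv, m.q, fun T η => (valN m T η).1, valN_out, fun _ _ => rfl, fun Γ A B s η _ _ _ h => if_pos h,
    fun a B η x h => congrArg Prod.fst (valN_opn h η x), fun a T η x h => congrArg Prod.fst (valN_loc h η x),
    fun Γ A B s N η hT hn hN hη hd t ht => ?_⟩⟩
  by_cases hd' : lv P (Tm.sub η.th (nf (Tm.inst N B))) ∈ d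
  · obtain ⟨v, hv, e⟩ := vf_sem hP hs hT hn hN hη hd hd'
    show t ∈ (valN m (nf (Tm.inst N B)) η).1.1
    rw [← e]
    exact Set.mem_iInter₂.1 ht.2 _ ⟨v, hv, rfl⟩
  · show t ∈ (valN m (nf (Tm.inst N B)) η).1.1
    rw [valN_out _ _ hd']
    exact ht.1

end Crest.Agent.R298
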