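import Crest.Agent.R298.Bridge
import Crest.Agent.R298.FL
import Crest.Agent.R298.P1
import Crest.Agent.R298.P2
import Crest.Agent.R298.VDom
import Crest.Agent.R298.ValB
import Crest.Agent.R298.X.Real

/-! # Row 298.  Assembly. -/

set_option autoImplicit false

namespace Crest.Agent.R298

open Crest.LogicCS.PTS (Spec)

theorem sem_exists {S : Type} [Finite S] {P : Spec S} (hP : HWN P) (d D : Set (Set S)) (hs : Stage P d D) :
    Nonempty (Sem P d D) := by
  by_cases ho : OddC P d
  · by_cases hb : Bin P d
    · obtain ⟨m⟩ := exists_vm hP (paradox hP hs ho hb) (CR P (d ∪ D))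
      exact sem_vm hP hs m
    · exact sem_p2 hP hs hb
  · exact sem_p1 hP hs ho

theorem mainFin : MainFin := fun _ _ hP _ _ _ h => acc_of_sem hP (sem_exists hP) h

end Crest.Agent.R298
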