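import Mathlib
import Crest.Prelude.Def_PTS

/-!
# Row 298 (Barendregt-Geuvers-Klop).  Syntax: de Bruijn bound variables, Church-style atoms `fv n A`.
One parallel substitution acts on bound variables and (top-level) atoms; all autosubst laws hold without side conditions.
Plan of the whole proof: `R298/Plan.lean`.
-/

set_option autoImplicit false
set_option linter.unusedSectionVars false
set_option linter.unusedVariables false

namespace Crest.Agent.R298

open scoped Classical

inductive Tm (S : Type) : Type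
  | bv : ℕ → Tm S
  | fv : ℕ → Tm S → Tm S
  | srt : S → Tm S
  | app : Tm S → Tm S → Tm S
  | lam : Tm S → Tm S → Tm S
  | pi : Tm S → Tm S → Tm S

abbrev Atom (S : Type) := ℕ × Tm S
abbrev Var (S : Type) := ℕ ⊕ Atom S
abbrev Sb (S : Type) := Var S → Tm S

variable {S : Type}

/-- `cons` for functions on variables (new bound variable `0`) -/
def vcons {α : Type*} (x : α) (f : Var S → α) : Var S → α
  | .inl 0 => x
  | .inl (i + 1) => f (.inl i)
  | .inr a => f (.inr a)

/-- update at an atom -/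
noncomputable def vupd {α : Type*} (f : Var S → α) (a : Atom S) (x : α) : Var S → α := Function.update f (.inr a) x

def upr (ξ : ℕ → ℕ) : ℕ → ℕ
  | 0 => 0
  | i + 1 => ξ i + 1

namespace Tm

def atm (a : Atom S) : Tm S := fv a.1 a.2

def vr : Sb S
  | .inl i => bv i
  | .inr a => atm a

def ren (ξ : ℕ → ℕ) : Tm S → Tm S
  | bv i => bv (ξ i)
  | fv n A => fv n A
  | srt s => srt s
  | app M N => app (ren ξ M) (ren ξ N)
  | lam A M => lam (ren ξ A) (ren (upr ξ) M)
  | pi A B => pi (ren ξ A) (ren (upr ξ) B)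

def lift (M : Tm S) : Tm S := ren Nat.succ M

def up (σ : Sb S) : Sb S := vcons (bv 0) fun x => lift (σ x)

def sub (σ : Sb S) : Tm S → Tm S
  | bv i => σ (.inl i)
  | fv n A => σ (.inr (n, A))
  | srt s => srt s
  | app M N => app (sub σ M) (sub σ N)
  | lam A M => lam (sub σ A) (sub (up σ) M)
  | pi A B => pi (sub σ A) (sub (up σ) B)

/-- `inst N M`: the body `M` with `N` for the bound variable `0` -/
def inst (N M : Tm S) : Tm S := sub (vcons N vr) M

/-- abstract the atom `a` -/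
noncomputable def cls (a : Atom S) (M : Tm S) : Tm S := sub (vupd (fun x => lift (vr x)) a (bv 0)) M

/-- non-dependent product -/
def arr (A B : Tm S) : Tm S := pi A (lift B)

/-- top-level occurrence of an atom -/
def Occ (a : Atom S) : Tm S → Prop
  | bv _ => False
  | fv n A => a = (n, A)
  | srt _ => False
  | app M N => Occ a M ∨ Occ a N
  | lam A M => Occ a A ∨ Occ a M
  | pi A B => Occ a A ∨ Occ a B

/-- bound for all atom indices, hereditarily -/
def mx : Tm S → ℕ
  | bv _ => 0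
  | fv n A => max (n + 1) (mx A)
  | srt _ => 0
  | app M N => max (mx M) (mx N)
  | lam A M => max (mx A) (mx M)
  | pi A B => max (mx A) (mx B)

/-- size (atoms count `1`) -/
def sz : Tm S → ℕ
  | bv _ => 1
  | fv _ _ => 1
  | srt _ => 1
  | app M N => sz M + sz N + 1
  | lam A M => sz A + sz M + 1
  | pi A B => sz A + sz B + 1

/-- deep action of a permutation of the atom indices -/
def prm (π : Equiv.Perm ℕ) : Tm S → Tm S
  | bv i => bv i
  | fv n A => fv (π n) (prm π A)
  | srt s => srt s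
  | app M N => app (prm π M) (prm π N)
  | lam A M => lam (prm π A) (prm π M)
  | pi A B => pi (prm π A) (prm π B)

/-- deep action of a map of sorts -/
def smap {S' : Type} (f : S → S') : Tm S → Tm S'
  | bv i => .bv i
  | fv n A => .fv n (smap f A)
  | srt s => .srt (f s)
  | app M N => .app (smap f M) (smap f N)
  | lam A M => .lam (smap f A) (smap f M)
  | pi A B => .pi (smap f A) (smap f B)

/-- locally closed: fixed by every substitution that fixes the atoms -/
def LC (M : Tm S) : Prop := ∀ σ : Sb S, (∀ a, σ (.inr a) = atm a) → sub σ M = M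

end Tm

open Tm

inductive Beta : Tm S → Tm S → Prop
  | redex (A M N : Tm S) : Beta (app (lam A M) N) (inst N M)
  | appL {M M' : Tm S} (N : Tm S) : Beta M M' → Beta (app M N) (app M' N)
  | appR (M : Tm S) {N N' : Tm S} : Beta N N' → Beta (app M N) (app M N')
  | lamA {A A' : Tm S} (M : Tm S) : Beta A A' → Beta (lam A M) (lam A' M)
  | lamM (A : Tm S) {M M' : Tm S} : Beta M M' → Beta (lam A M) (lam A M')
  | piA {A A' : Tm S} (B : Tm S) : Beta A A' → Beta (pi A B) (pi A' B)
  | piB (A : Tm S) {B B' : Tm S} : Beta B B' → Beta (pi A B) (pi A B')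

abbrev Red (M N : Tm S) : Prop := Relation.ReflTransGen Beta M N
abbrev Cv (M N : Tm S) : Prop := Relation.EqvGen Beta M N
def Nf (M : Tm S) : Prop := ∀ N, ¬ Beta M N
def WN (M : Tm S) : Prop := ∃ N, Red M N ∧ Nf N
/-- the normal form (junk value `bv 0`) -/
noncomputable def nf (M : Tm S) : Tm S := if h : WN M then h.choose else bv 0

/-- a spine with head atom `a` -/
inductive Sp (a : Atom S) : Tm S → Prop
  | hd : Sp a (atm a)
  | app {M : Tm S} (N : Tm S) : Sp a M → Sp a (app M N)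

/-! ### part a: substitution algebra -/

theorem sa_ext {α : Type*} {f g : Var S → α} (h0 : f (.inl 0) = g (.inl 0))
    (h1 : ∀ i, f (.inl (i + 1)) = g (.inl (i + 1))) (h2 : ∀ a, f (.inr a) = g (.inr a)) : f = g := by
  funext x
  rcases x with (_ | i) | a
  exacts [h0, h1 i, h2 a]

theorem sa_upr (ξ ζ : ℕ → ℕ) : upr ξ ∘ upr ζ = upr (ξ ∘ ζ) := by
  funext i
  cases i <;> rfl

theorem sa_ren_ren (ξ ζ : ℕ → ℕ) (M : Tm S) : ren ξ (ren ζ M) = ren (ξ ∘ ζ) M := by
  induction M generalizing ξ ζ with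
  | bv i => rfl
  | fv n A _ => rfl
  | srt s => rfl
  | app M N h1 h2 => simp only [ren, h1, h2]
  | lam M N h1 h2 => simp only [ren, h1, h2, sa_upr]
  | pi M N h1 h2 => simp only [ren, h1, h2, sa_upr]

theorem sa_up_ren (σ : Sb S) (ξ : ℕ → ℕ) :
    (fun x => up σ (Sum.map (upr ξ) id x)) = up fun x => σ (Sum.map ξ id x) :=
  sa_ext rfl (fun _ => rfl) fun _ => rfl

theorem sa_sub_ren (σ : Sb S) (ξ : ℕ → ℕ) (M : Tm S) :
    Tm.sub σ (ren ξ M) = Tm.sub (fun x => σ (Sum.map ξ id x)) M := by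
  induction M generalizing σ ξ with
  | bv i => rfl
  | fv n A _ => rfl
  | srt s => rfl
  | app M N h1 h2 => simp only [ren, Tm.sub, h1, h2]
  | lam M N h1 h2 => simp only [ren, Tm.sub, h1, h2, sa_up_ren]
  | pi M N h1 h2 => simp only [ren, Tm.sub, h1, h2, sa_up_ren]

theorem sa_ren_lift (ξ : ℕ → ℕ) (M : Tm S) : ren (upr ξ) (lift M) = lift (ren ξ M) := by
  rw [lift, lift, sa_ren_ren, sa_ren_ren]
  rfl

theorem sa_ren_up (ξ : ℕ → ℕ) (σ : Sb S) :
    (fun x => ren (upr ξ) (up σ x)) = up fun x => ren ξ (σ x) :=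
  sa_ext rfl (fun _ => sa_ren_lift _ _) fun _ => sa_ren_lift _ _

theorem sa_ren_sub (ξ : ℕ → ℕ) (σ : Sb S) (M : Tm S) :
    ren ξ (Tm.sub σ M) = Tm.sub (fun x => ren ξ (σ x)) M := by
  induction M generalizing σ ξ with
  | bv i => rfl
  | fv n A _ => rfl
  | srt s => rfl
  | app M N h1 h2 => simp only [ren, Tm.sub, h1, h2]
  | lam M N h1 h2 => simp only [ren, Tm.sub, h1, h2, sa_ren_up]
  | pi M N h1 h2 => simp only [ren, Tm.sub, h1, h2, sa_ren_up]

theorem sa_sub_up_lift (σ : Sb S) (M : Tm S) : Tm.sub (up σ) (lift M) = lift (Tm.sub σ M) := by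
  rw [lift, lift, sa_sub_ren, sa_ren_sub]
  congr 1
  funext x
  cases x <;> rfl

theorem sa_up_up (σ τ : Sb S) : (fun x => Tm.sub (up τ) (up σ x)) = up fun x => Tm.sub τ (σ x) :=
  sa_ext rfl (fun _ => sa_sub_up_lift _ _) fun _ => sa_sub_up_lift _ _

theorem sa_up_vr : up (vr : Sb S) = vr := sa_ext rfl (fun _ => rfl) fun _ => rfl

theorem sa_occ_ren (a : Atom S) (ξ : ℕ → ℕ) (M : Tm S) : Occ a (ren ξ M) ↔ Occ a M := by
  induction M generalizing ξ with
  | bv i => rfl
  | fv n A _ => rfl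
  | srt s => rfl
  | app M N h1 h2 => simp only [ren, Occ, h1, h2]
  | lam M N h1 h2 => simp only [ren, Occ, h1, h2]
  | pi M N h1 h2 => simp only [ren, Occ, h1, h2]

theorem sa_mx_ren (ξ : ℕ → ℕ) (M : Tm S) : mx (ren ξ M) = mx M := by
  induction M generalizing ξ with
  | bv i => rfl
  | fv n A _ => rfl
  | srt s => rfl
  | app M N h1 h2 => simp only [ren, mx, h1, h2]
  | lam M N h1 h2 => simp only [ren, mx, h1, h2]
  | pi M N h1 h2 => simp only [ren, mx, h1, h2]

theorem sa_sz_ren (ξ : ℕ → ℕ) (M : Tm S) : sz (ren ξ M) = sz M := by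
  induction M generalizing ξ with
  | bv i => rfl
  | fv n A _ => rfl
  | srt s => rfl
  | app M N h1 h2 => simp only [ren, sz, h1, h2]
  | lam M N h1 h2 => simp only [ren, sz, h1, h2]
  | pi M N h1 h2 => simp only [ren, sz, h1, h2]

theorem vupd_self {α : Type*} (f : Var S → α) (a : Atom S) (x : α) : vupd f a x (.inr a) = x :=
  Function.update_self _ _ _

theorem vupd_inl {α : Type*} (f : Var S → α) (a : Atom S) (x : α) (i : ℕ) : vupd f a x (.inl i) = f (.inl i) :=
  Function.update_of_ne Sum.inl_ne_inr _ _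

theorem vupd_ne {α : Type*} (f : Var S → α) {a b : Atom S} (h : b ≠ a) (x : α) :
    vupd f a x (.inr b) = f (.inr b) :=
  Function.update_of_ne (fun e => h (Sum.inr_injective e)) _ _

theorem sub_vr (M : Tm S) : sub vr M = M := by
  induction M with
  | bv i => rfl
  | fv n A _ => rfl
  | srt s => rfl
  | app M N h1 h2 => simp only [Tm.sub, h1, h2]
  | lam M N h1 h2 => simp only [Tm.sub, sa_up_vr, h1, h2]
  | pi M N h1 h2 => simp only [Tm.sub, sa_up_vr, h1, h2]

theorem sub_sub (σ τ : Sb S) (M : Tm S) : sub τ (sub σ M) = sub (fun x => sub τ (σ x)) M := by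
  induction M generalizing σ τ with
  | bv i => rfl
  | fv n A _ => rfl
  | srt s => rfl
  | app M N h1 h2 => simp only [Tm.sub, h1, h2]
  | lam M N h1 h2 => simp only [Tm.sub, h1, h2, sa_up_up]
  | pi M N h1 h2 => simp only [Tm.sub, h1, h2, sa_up_up]

theorem lift_eq_sub (M : Tm S) : lift M = sub (fun x => lift (vr x)) M := by
  conv_lhs => rw [← sub_vr M]
  exact sa_ren_sub _ _ _

theorem sub_up_lift (σ : Sb S) (M : Tm S) : sub (up σ) (lift M) = lift (sub σ M) := by
  exact sa_sub_up_lift σ M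

theorem sub_vcons_lift (N : Tm S) (σ : Sb S) (M : Tm S) : sub (vcons N σ) (lift M) = sub σ M := by
  rw [lift, sa_sub_ren]
  congr 1
  funext x
  cases x <;> rfl

theorem inst_lift (N M : Tm S) : inst N (lift M) = M := by
  rw [inst, sub_vcons_lift, sub_vr]

theorem inst_sub_up (N : Tm S) (σ : Sb S) (M : Tm S) : inst N (sub (up σ) M) = sub (vcons N σ) M := by
  rw [inst, sub_sub]
  congr 1
  exact sa_ext rfl (fun _ => inst_lift _ _) fun _ => inst_lift _ _

theorem sub_inst (σ : Sb S) (N M : Tm S) : sub σ (inst N M) = sub (vcons (sub σ N) σ) M := by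
  rw [inst, sub_sub]
  congr 1
  exact sa_ext rfl (fun _ => rfl) fun _ => rfl

theorem sub_arr (σ : Sb S) (A B : Tm S) : sub σ (arr A B) = arr (sub σ A) (sub σ B) := by
  simp only [arr, Tm.sub, sub_up_lift]

theorem sub_congr {σ τ : Sb S} {M : Tm S} (h1 : ∀ i, σ (.inl i) = τ (.inl i))
    (h2 : ∀ a, Occ a M → σ (.inr a) = τ (.inr a)) : sub σ M = sub τ M := by
  have u : ∀ {σ τ : Sb S}, (∀ i, σ (.inl i) = τ (.inl i)) → ∀ i, up σ (.inl i) = up τ (.inl i) :=
    fun h i => by
      cases i with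
      | zero => rfl
      | succ i => exact congrArg lift (h i)
  induction M generalizing σ τ with
  | bv i => exact h1 i
  | fv n A _ => exact h2 _ rfl
  | srt s => rfl
  | app M N k1 k2 =>
    simp only [Tm.sub]
    rw [k1 h1 fun a h => h2 a (Or.inl h), k2 h1 fun a h => h2 a (Or.inr h)]
  | lam M N k1 k2 =>
    simp only [Tm.sub]
    rw [k1 h1 fun a h => h2 a (Or.inl h), k2 (u h1) fun a h => congrArg lift (h2 a (Or.inr h))]
  | pi M N k1 k2 =>
    simp only [Tm.sub]
    rw [k1 h1 fun a h => h2 a (Or.inl h), k2 (u h1) fun a h => congrArg lift (h2 a (Or.inr h))]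

theorem sub_vupd {a : Atom S} {M : Tm S} (h : ¬ Occ a M) (σ : Sb S) (N : Tm S) : sub (vupd σ a N) M = sub σ M := by
  exact sub_congr (vupd_inl _ _ _) fun b hb => vupd_ne _ (fun e : b = a => h (e ▸ hb)) _

theorem sub_vupd_inst {a : Atom S} {B : Tm S} (h : ¬ Occ a B) (σ : Sb S) (N : Tm S) :
    sub (vupd σ a N) (inst (atm a) B) = sub (vcons N σ) B := by
  rw [sub_inst]
  refine sub_congr (fun i => ?_) fun b hb => vupd_ne σ (fun e : b = a => h (e ▸ hb)) _
  cases i with
  | zero => exact vupd_self σ a N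
  | succ i => exact vupd_inl σ a N i

theorem inst_cls (a : Atom S) (M : Tm S) : inst (atm a) (cls a M) = M := by
  rw [inst, cls, sub_sub]
  refine (sub_congr (fun i => ?_) fun b _ => ?_).trans (sub_vr M)
  · rw [vupd_inl]
    rfl
  · by_cases e : b = a
    · rw [e, vupd_self]
      rfl
    · rw [vupd_ne _ e]
      rfl

theorem cls_inst {a : Atom S} {M : Tm S} (h : ¬ Occ a M) : cls a (inst (atm a) M) = M := by
  rw [cls, sub_vupd_inst h]
  exact (congrArg (fun σ => Tm.sub σ M) sa_up_vr).trans (sub_vr M)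

theorem sa_occ_sub {a : Atom S} {σ : Sb S} {M : Tm S} (h : Occ a (Tm.sub σ M)) :
    (∃ i, Occ a (σ (.inl i))) ∨ ∃ b, Occ b M ∧ Occ a (σ (.inr b)) := by
  have u : ∀ {σ : Sb S} {M : Tm S}, ((∃ i, Occ a (up σ (.inl i))) ∨ ∃ b, Occ b M ∧ Occ a (up σ (.inr b))) →
      (∃ i, Occ a (σ (.inl i))) ∨ ∃ b, Occ b M ∧ Occ a (σ (.inr b)) := by
    rintro σ M (⟨_ | i, h⟩ | ⟨b, h, h'⟩)
    · exact h.elim
    · exact Or.inl ⟨i, (sa_occ_ren _ _ _).1 h⟩
    · exact Or.inr ⟨b, h, (sa_occ_ren _ _ _).1 h'⟩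
  induction M generalizing σ with
  | bv i => exact Or.inl ⟨i, h⟩
  | fv n A _ => exact Or.inr ⟨_, rfl, h⟩
  | srt s => exact h.elim
  | app M N k1 k2 =>
    rcases h with h | h
    · exact (k1 h).imp_right fun ⟨b, h, h'⟩ => ⟨b, Or.inl h, h'⟩
    · exact (k2 h).imp_right fun ⟨b, h, h'⟩ => ⟨b, Or.inr h, h'⟩
  | lam M N k1 k2 =>
    rcases h with h | h
    · exact (k1 h).imp_right fun ⟨b, h, h'⟩ => ⟨b, Or.inl h, h'⟩
    · exact (u (k2 h)).imp_right fun ⟨b, h, h'⟩ => ⟨b, Or.inr h, h'⟩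
  | pi M N k1 k2 =>
    rcases h with h | h
    · exact (k1 h).imp_right fun ⟨b, h, h'⟩ => ⟨b, Or.inl h, h'⟩
    · exact (u (k2 h)).imp_right fun ⟨b, h, h'⟩ => ⟨b, Or.inr h, h'⟩

theorem not_occ_cls (a : Atom S) (M : Tm S) : ¬ Occ a (cls a M) := by
  intro h
  rcases sa_occ_sub h with ⟨i, h⟩ | ⟨b, -, h⟩
  · rw [vupd_inl] at h
    exact h
  · by_cases e : b = a
    · rw [e, vupd_self] at h
      exact h
    · rw [vupd_ne _ e] at h
      exact e (Eq.symm h)

theorem occ_sub {a : Atom S} {σ : Sb S} {M : Tm S} (h : Occ a (sub σ M)) :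
    (∃ i, Occ a (σ (.inl i))) ∨ ∃ b, Occ b M ∧ Occ a (σ (.inr b)) := by
  exact sa_occ_sub h

theorem sa_occ_of_occ {a b : Atom S} {M : Tm S} (h : Occ b M) {σ : Sb S} (hσ : Occ a (σ (.inr b))) :
    Occ a (Tm.sub σ M) := by
  induction M generalizing σ with
  | bv i => exact h.elim
  | fv n A _ =>
    obtain rfl : b = (n, A) := h
    exact hσ
  | srt s => exact h.elim
  | app M N k1 k2 => exact h.imp (fun h => k1 h hσ) fun h => k2 h hσ
  | lam M N k1 k2 => exact h.imp (fun h => k1 h hσ) fun h => k2 h ((sa_occ_ren _ _ _).2 hσ)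
  | pi M N k1 k2 => exact h.imp (fun h => k1 h hσ) fun h => k2 h ((sa_occ_ren _ _ _).2 hσ)

theorem occ_inst_of_occ {a : Atom S} {M : Tm S} (N : Tm S) (h : Occ a M) : Occ a (inst N M) := by
  exact sa_occ_of_occ h rfl

theorem occ_lt_mx {a : Atom S} {M : Tm S} (h : Occ a M) : a.1 < mx M ∧ mx a.2 ≤ mx M := by
  induction M with
  | bv i => exact h.elim
  | fv n A _ =>
    obtain rfl : a = (n, A) := h
    simp only [mx]
    omega
  | srt s => exact h.elim
  | app M N k1 k2 =>
    simp only [mx]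
    rcases h with h | h
    · have := k1 h; omega
    · have := k2 h; omega
  | lam M N k1 k2 =>
    simp only [mx]
    rcases h with h | h
    · have := k1 h; omega
    · have := k2 h; omega
  | pi M N k1 k2 =>
    simp only [mx]
    rcases h with h | h
    · have := k1 h; omega
    · have := k2 h; omega

theorem sa_sz_sub {σ : Sb S} (h : ∀ x, sz (σ x) = 1) (M : Tm S) : sz (Tm.sub σ M) = sz M := by
  have u : ∀ {σ : Sb S}, (∀ x, sz (σ x) = 1) → ∀ x, sz (up σ x) = 1 := fun h x => by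
    rcases x with (_ | i) | b
    · rfl
    · exact (sa_sz_ren _ _).trans (h _)
    · exact (sa_sz_ren _ _).trans (h _)
  induction M generalizing σ with
  | bv i => exact h _
  | fv n A _ => exact h _
  | srt s => rfl
  | app M N k1 k2 => simp only [Tm.sub, sz, k1 h, k2 h]
  | lam M N k1 k2 => simp only [Tm.sub, sz, k1 h, k2 (u h)]
  | pi M N k1 k2 => simp only [Tm.sub, sz, k1 h, k2 (u h)]

theorem sz_inst_atm (a : Atom S) (M : Tm S) : sz (inst (atm a) M) = sz M := by
  refine sa_sz_sub (fun x => ?_) M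
  rcases x with (_ | i) | b <;> rfl

theorem sa_mx_sub {σ : Sb S} {k : ℕ} (h1 : ∀ i, mx (σ (.inl i)) ≤ k)
    (h2 : ∀ a, mx (σ (.inr a)) ≤ max k (mx (atm a))) (M : Tm S) : mx (Tm.sub σ M) ≤ max k (mx M) := by
  have u : ∀ {σ : Sb S}, (∀ i, mx (σ (.inl i)) ≤ k) → ∀ i, mx (up σ (.inl i)) ≤ k := fun h i => by
    cases i with
    | zero => exact Nat.zero_le _
    | succ i => exact (sa_mx_ren _ _).trans_le (h _)
  induction M generalizing σ with
  | bv i => exact (h1 i).trans (le_max_left _ _)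
  | fv n A _ => exact h2 (n, A)
  | srt s => exact Nat.zero_le _
  | app M N k1 k2 =>
    have := k1 h1 h2
    have := k2 h1 h2
    simp only [Tm.sub, mx]
    omega
  | lam M N k1 k2 =>
    have := k1 h1 h2
    have := k2 (u h1) fun a => (sa_mx_ren _ _).trans_le (h2 a)
    simp only [Tm.sub, mx]
    omega
  | pi M N k1 k2 =>
    have := k1 h1 h2
    have := k2 (u h1) fun a => (sa_mx_ren _ _).trans_le (h2 a)
    simp only [Tm.sub, mx]
    omega

theorem mx_inst (N M : Tm S) : mx (inst N M) ≤ max (mx N) (mx M) := by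
  refine sa_mx_sub (fun i => ?_) (fun a => le_max_right _ _) M
  cases i with
  | zero => exact le_rfl
  | succ i => exact Nat.zero_le _

theorem LC.lift_eq {M : Tm S} (h : LC M) : lift M = M := by
  rw [lift_eq_sub]
  exact h _ fun _ => rfl

theorem LC.sub_congr {M : Tm S} (h : LC M) {σ τ : Sb S} (h2 : ∀ a, Occ a M → σ (.inr a) = τ (.inr a)) :
    sub σ M = sub τ M := by
  have n : ¬ Occ (mx M, bv 0) M := fun h => lt_irrefl _ (occ_lt_mx h).1
  have e := h (Sum.elim (fun _ => atm (mx M, bv 0)) atm) fun _ => rfl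
  rw [← sub_vupd n σ (bv 0), ← sub_vupd n τ (bv 0), ← e, sub_sub, sub_sub, e]
  refine _root_.Crest.Agent.R298.sub_congr (fun _ => ?_) fun b hb => ?_
  · exact (vupd_self σ _ _).trans (vupd_self τ _ _).symm
  · have k : b ≠ (mx M, bv 0) := fun e => n (e ▸ hb)
    exact (vupd_ne σ k _).trans ((h2 b hb).trans (vupd_ne τ k _).symm)

theorem Sp.sub {a b : Atom S} {M : Tm S} (h : Sp a M) {σ : Sb S} (hσ : σ (.inr a) = atm b) : Sp b (sub σ M) := by
  induction h with
  | hd => exact (show Tm.sub σ (atm a) = atm b from hσ) ▸ Sp.hd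
  | app N _ ih => exact Sp.app _ ih

theorem Sp.occ {a : Atom S} {M : Tm S} (h : Sp a M) : Occ a M := by
  induction h with
  | hd => exact rfl
  | app N _ ih => exact Or.inl ih

/-! ### part b: reduction, Church-Rosser, normal forms -/

theorem b1_sub_inst (σ : Sb S) (N M : Tm S) : sub σ (inst N M) = inst (sub σ N) (sub (up σ) M) := by
  rw [sub_inst, inst_sub_up]

theorem Beta.sub {M N : Tm S} (h : Beta M N) (σ : Sb S) : Beta (sub σ M) (sub σ N) := by
  induction h generalizing σ with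
  | redex A M N => rw [b1_sub_inst]; exact Beta.redex _ _ _
  | appL N _ ih => exact Beta.appL _ (ih σ)
  | appR M _ ih => exact Beta.appR _ (ih σ)
  | lamA M _ ih => exact Beta.lamA _ (ih σ)
  | lamM A _ ih => exact Beta.lamM _ (ih _)
  | piA B _ ih => exact Beta.piA _ (ih σ)
  | piB A _ ih => exact Beta.piB _ (ih _)

theorem b1_map (f : Tm S → Tm S) (hf : ∀ a b, Beta a b → Beta (f a) (f b)) {M N : Tm S} (h : Red M N) :
    Red (f M) (f N) := by
  induction h with
  | refl => exact .refl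
  | tail _ k ih => exact ih.tail (hf _ _ k)

theorem b1_red_sub {M N : Tm S} (h : Red M N) (σ : Sb S) : Red (sub σ M) (sub σ N) :=
  b1_map (sub σ) (fun _ _ h => h.sub σ) h

theorem b1_red_app {M M' N N' : Tm S} (h1 : Red M M') (h2 : Red N N') : Red (app M N) (app M' N') :=
  (b1_map (fun M => app M N) (fun _ _ h => Beta.appL N h) h1).trans
    (b1_map (fun N => app M' N) (fun _ _ h => Beta.appR M' h) h2)

theorem b1_red_lam {M M' N N' : Tm S} (h1 : Red M M') (h2 : Red N N') : Red (lam M N) (lam M' N') :=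
  (b1_map (fun M => lam M N) (fun _ _ h => Beta.lamA N h) h1).trans
    (b1_map (fun N => lam M' N) (fun _ _ h => Beta.lamM M' h) h2)

theorem b1_red_pi {M M' N N' : Tm S} (h1 : Red M M') (h2 : Red N N') : Red (pi M N) (pi M' N') :=
  (b1_map (fun M => pi M N) (fun _ _ h => Beta.piA N h) h1).trans
    (b1_map (fun N => pi M' N) (fun _ _ h => Beta.piB M' h) h2)

theorem b1_up {R : Tm S → Tm S → Prop} (h0 : ∀ M, R M M)
    (hs : ∀ M N, R M N → ∀ σ, R (sub σ M) (sub σ N)) {σ τ : Sb S} (h : ∀ x, R (σ x) (τ x)) (x : Var S) :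
    R (up σ x) (up τ x) := by
  have hl : ∀ y, R (lift (σ y)) (lift (τ y)) := fun y => by
    rw [lift_eq_sub, lift_eq_sub (τ y)]; exact hs _ _ (h y) _
  rcases x with (_ | i) | a
  · exact h0 _
  · exact hl _
  · exact hl _

theorem b1_vcons {R : Tm S → Tm S → Prop} (h0 : ∀ M, R M M) {N N' : Tm S} (h : R N N') (x : Var S) :
    R (vcons N vr x) (vcons N' vr x) := by
  rcases x with (_ | i) | a
  · exact h
  · exact h0 _
  · exact h0 _

theorem red_sub_args {σ τ : Sb S} (h : ∀ x, Red (σ x) (τ x)) (M : Tm S) : Red (sub σ M) (sub τ M) := by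
  induction M generalizing σ τ with
  | bv i => exact h _
  | fv n A _ => exact h _
  | srt s => exact Relation.ReflTransGen.refl
  | app M N ih1 ih2 => exact b1_red_app (ih1 h) (ih2 h)
  | lam A M ih1 ih2 =>
    exact b1_red_lam (ih1 h) (ih2 (b1_up (fun _ => Relation.ReflTransGen.refl) (fun _ _ => b1_red_sub) h))
  | pi A M ih1 ih2 =>
    exact b1_red_pi (ih1 h) (ih2 (b1_up (fun _ => Relation.ReflTransGen.refl) (fun _ _ => b1_red_sub) h))

theorem b1_up_var (f : Var S → Var S) :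
    ∃ g : Var S → Var S, up (fun x => vr (f x)) = fun x => vr (g x) := by
  have h : ∀ y : Var S, lift (vr y) = vr (Sum.map Nat.succ id y) := by
    rintro (i | a) <;> rfl
  refine ⟨vcons (.inl 0) fun x => Sum.map Nat.succ id (f x), funext fun x => ?_⟩
  rcases x with (_ | i) | a
  · rfl
  · exact h _
  · exact h _

theorem b1_not_beta_vr (x : Var S) (N : Tm S) : ¬ Beta (vr x) N := by
  rcases x with i | a <;> exact fun h => by cases h

theorem b1_vr_ne_lam (x : Var S) (A P : Tm S) : vr x ≠ lam A P := by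
  rcases x with i | a <;> exact fun h => by cases h

theorem b1_app_inv {M N L : Tm S} (h : Beta (app M N) L) : (∃ A P, M = lam A P ∧ L = inst N P) ∨
    (∃ M', Beta M M' ∧ L = app M' N) ∨ ∃ N', Beta N N' ∧ L = app M N' := by
  cases h with
  | redex A P => exact .inl ⟨_, _, rfl, rfl⟩
  | appL _ h => exact .inr (.inl ⟨_, h, rfl⟩)
  | appR _ h => exact .inr (.inr ⟨_, h, rfl⟩)

/-- a substitution of variables for variables reflects steps -/
theorem beta_sub_var {f : Var S → Var S} {M N : Tm S} (h : Beta (sub (fun x => vr (f x)) M) N) :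
    ∃ M', Beta M M' ∧ N = sub (fun x => vr (f x)) M' := by
  induction M generalizing f N with
  | bv i => exact absurd h (b1_not_beta_vr _ _)
  | fv n A _ => exact absurd h (b1_not_beta_vr _ _)
  | srt s => cases h
  | app M₁ M₂ ih1 ih2 =>
    rcases b1_app_inv h with ⟨A, P, h1, rfl⟩ | ⟨M', h1, rfl⟩ | ⟨N', h1, rfl⟩
    · cases M₁ with
      | bv i => exact absurd h1 (b1_vr_ne_lam _ _ _)
      | fv n A => exact absurd h1 (b1_vr_ne_lam _ _ _)
      | lam A' P' =>
        cases h1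
        exact ⟨_, Beta.redex _ _ _, (b1_sub_inst _ _ _).symm⟩
      | srt s => cases h1
      | app _ _ => cases h1
      | pi _ _ => cases h1
    · obtain ⟨M'', h2, rfl⟩ := ih1 h1
      exact ⟨_, Beta.appL _ h2, rfl⟩
    · obtain ⟨M'', h2, rfl⟩ := ih2 h1
      exact ⟨_, Beta.appR _ h2, rfl⟩
  | lam A M ih1 ih2 =>
    obtain ⟨g, hg⟩ := b1_up_var f
    cases h with
    | lamA _ h1 =>
      obtain ⟨M'', h2, rfl⟩ := ih1 h1
      exact ⟨_, Beta.lamA _ h2, rfl⟩
    | lamM _ h1 =>
      rw [hg] at h1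
      obtain ⟨M'', h2, rfl⟩ := ih2 h1
      exact ⟨_, Beta.lamM _ h2, by rw [← hg]; rfl⟩
  | pi A M ih1 ih2 =>
    obtain ⟨g, hg⟩ := b1_up_var f
    cases h with
    | piA _ h1 =>
      obtain ⟨M'', h2, rfl⟩ := ih1 h1
      exact ⟨_, Beta.piA _ h2, rfl⟩
    | piB _ h1 =>
      rw [hg] at h1
      obtain ⟨M'', h2, rfl⟩ := ih2 h1
      exact ⟨_, Beta.piB _ h2, by rw [← hg]; rfl⟩

/-- parallel reduction -/
inductive B1Par : Tm S → Tm S → Prop
  | bv (i : ℕ) : B1Par (bv i) (bv i)
  | fv (n : ℕ) (A : Tm S) : B1Par (fv n A) (fv n A)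
  | srt (s : S) : B1Par (srt s) (srt s)
  | app {M M' N N' : Tm S} : B1Par M M' → B1Par N N' → B1Par (app M N) (app M' N')
  | lam {M M' N N' : Tm S} : B1Par M M' → B1Par N N' → B1Par (lam M N) (lam M' N')
  | pi {M M' N N' : Tm S} : B1Par M M' → B1Par N N' → B1Par (pi M N) (pi M' N')
  | redex (A : Tm S) {M M' N N' : Tm S} : B1Par M M' → B1Par N N' → B1Par (app (lam A M) N) (inst N' M')

theorem B1Par.refl (M : Tm S) : B1Par M M := by
  induction M with
  | bv i => exact .bv i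
  | fv n A _ => exact .fv n A
  | srt s => exact .srt s
  | app _ _ a b => exact .app a b
  | lam _ _ a b => exact .lam a b
  | pi _ _ a b => exact .pi a b

theorem B1Par.sub₁ {M N : Tm S} (h : B1Par M N) (σ : Sb S) : B1Par (Tm.sub σ M) (Tm.sub σ N) := by
  induction h generalizing σ with
  | bv i => exact .refl _
  | fv n A => exact .refl _
  | srt s => exact .refl _
  | app _ _ a b => exact .app (a _) (b _)
  | lam _ _ a b => exact .lam (a _) (b _)
  | pi _ _ a b => exact .pi (a _) (b _)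
  | redex A _ _ a b => rw [b1_sub_inst]; exact .redex _ (a _) (b _)

theorem B1Par.sub₂ {M N : Tm S} (h : B1Par M N) {σ τ : Sb S} (hσ : ∀ x, B1Par (σ x) (τ x)) :
    B1Par (Tm.sub σ M) (Tm.sub τ N) := by
  induction h generalizing σ τ with
  | bv i => exact hσ _
  | fv n A => exact hσ _
  | srt s => exact .srt s
  | app _ _ a b => exact .app (a hσ) (b hσ)
  | lam _ _ a b => exact .lam (a hσ) (b (b1_up B1Par.refl (fun _ _ => B1Par.sub₁) hσ))
  | pi _ _ a b => exact .pi (a hσ) (b (b1_up B1Par.refl (fun _ _ => B1Par.sub₁) hσ))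
  | redex A _ _ a b =>
    rw [b1_sub_inst]; exact .redex _ (a (b1_up B1Par.refl (fun _ _ => B1Par.sub₁) hσ)) (b hσ)

theorem B1Par.inst {M M' N N' : Tm S} (h : B1Par M M') (h' : B1Par N N') :
    B1Par (Tm.inst N M) (Tm.inst N' M') := h.sub₂ (b1_vcons B1Par.refl h')

theorem B1Par.of_beta {M N : Tm S} (h : Beta M N) : B1Par M N := by
  induction h with
  | redex A M N => exact .redex A (.refl _) (.refl _)
  | appL N _ ih => exact .app ih (.refl _)
  | appR M _ ih => exact .app (.refl _) ih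
  | lamA M _ ih => exact .lam ih (.refl _)
  | lamM A _ ih => exact .lam (.refl _) ih
  | piA B _ ih => exact .pi ih (.refl _)
  | piB A _ ih => exact .pi (.refl _) ih

theorem B1Par.red {M N : Tm S} (h : B1Par M N) : Red M N := by
  induction h with
  | bv i => exact .refl
  | fv n A => exact .refl
  | srt s => exact .refl
  | app _ _ a b => exact b1_red_app a b
  | lam _ _ a b => exact b1_red_lam a b
  | pi _ _ a b => exact b1_red_pi a b
  | redex A _ _ a b => exact (b1_red_app (b1_red_lam .refl a) b).tail (Beta.redex _ _ _)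

theorem B1Par.diamond {M N N' : Tm S} (h : B1Par M N) (h' : B1Par M N') : ∃ L, B1Par N L ∧ B1Par N' L := by
  induction h generalizing N' with
  | bv i => exact ⟨_, h', .refl _⟩
  | fv n A => exact ⟨_, h', .refl _⟩
  | srt s => exact ⟨_, h', .refl _⟩
  | app h1 h2 a b =>
    cases h' with
    | app k1 k2 =>
      obtain ⟨L1, a1, a2⟩ := a k1
      obtain ⟨L2, b1, b2⟩ := b k2
      exact ⟨_, .app a1 b1, .app a2 b2⟩
    | redex A k1 k2 =>
      obtain ⟨L1, a1, a2⟩ := a (.lam (.refl A) k1)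
      obtain ⟨L2, b1, b2⟩ := b k2
      cases h1 with
      | lam _ _ =>
        cases a1 with
        | lam _ c1 =>
          cases a2 with
          | lam _ c2 => exact ⟨_, .redex _ c1 b1, c2.inst b2⟩
  | lam h1 h2 a b =>
    cases h' with
    | lam k1 k2 =>
      obtain ⟨L1, a1, a2⟩ := a k1
      obtain ⟨L2, b1, b2⟩ := b k2
      exact ⟨_, .lam a1 b1, .lam a2 b2⟩
  | pi h1 h2 a b =>
    cases h' with
    | pi k1 k2 =>
      obtain ⟨L1, a1, a2⟩ := a k1
      obtain ⟨L2, b1, b2⟩ := b k2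
      exact ⟨_, .pi a1 b1, .pi a2 b2⟩
  | redex A h1 h2 a b =>
    cases h' with
    | app k1 k2 =>
      cases k1 with
      | lam _ k1 =>
        obtain ⟨L1, a1, a2⟩ := a k1
        obtain ⟨L2, b1, b2⟩ := b k2
        exact ⟨_, a1.inst b1, .redex _ a2 b2⟩
    | redex _ k1 k2 =>
      obtain ⟨L1, a1, a2⟩ := a k1
      obtain ⟨L2, b1, b2⟩ := b k2
      exact ⟨_, a1.inst b1, a2.inst b2⟩

theorem b1_confl {M N N' : Tm S} (h : Red M N) (h' : Red M N') : ∃ L, Red N L ∧ Red N' L := by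
  have e : ∀ {a b : Tm S}, Relation.ReflTransGen B1Par a b → Red a b := fun h => by
    induction h with
    | refl => exact .refl
    | tail _ k ih => exact ih.trans k.red
  have e' : ∀ {a b : Tm S}, Red a b → Relation.ReflTransGen B1Par a b := fun h => by
    induction h with
    | refl => exact .refl
    | tail _ k ih => exact ih.tail (.of_beta k)
  obtain ⟨L, h1, h2⟩ := Relation.church_rosser (r := B1Par) (fun a b c hb hc => by
    obtain ⟨d, h1, h2⟩ := hb.diamond hc
    exact ⟨d, .single h1, .single h2⟩) (e' h) (e' h')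
  exact ⟨L, e h1, e h2⟩

theorem church_rosser {M N : Tm S} (h : Cv M N) : ∃ L, Red M L ∧ Red N L := by
  induction h with
  | rel a b h => exact ⟨b, .single h, .refl⟩
  | refl a => exact ⟨a, .refl, .refl⟩
  | symm a b _ ih => obtain ⟨L, h1, h2⟩ := ih; exact ⟨L, h2, h1⟩
  | trans a b c _ _ ih1 ih2 =>
    obtain ⟨L1, h1, h2⟩ := ih1
    obtain ⟨L2, h3, h4⟩ := ih2
    obtain ⟨L, h5, h6⟩ := b1_confl h2 h3
    exact ⟨L, h1.trans h5, h4.trans h6⟩

theorem Red.cv {M N : Tm S} (h : Red M N) : Cv M N := by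
  induction h with
  | refl => exact .refl _
  | tail _ k ih => exact .trans _ _ _ ih (.rel _ _ k)

theorem b1_cv_of_red {M N L : Tm S} (h1 : Red M L) (h2 : Red N L) : Cv M N :=
  .trans _ _ _ (Red.cv h1) (.symm _ _ (Red.cv h2))

theorem cv_sub {M N : Tm S} (h : Cv M N) (σ : Sb S) : Cv (sub σ M) (sub σ N) := by
  obtain ⟨L, h1, h2⟩ := church_rosser h
  exact b1_cv_of_red (b1_red_sub h1 σ) (b1_red_sub h2 σ)

theorem cv_sub_args {σ τ : Sb S} (h : ∀ x, Cv (σ x) (τ x)) (M : Tm S) : Cv (sub σ M) (sub τ M) := by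
  choose L h1 h2 using fun x => church_rosser (h x)
  exact b1_cv_of_red (red_sub_args h1 M) (red_sub_args h2 M)

theorem cv_inst {N N' M M' : Tm S} (h1 : Cv N N') (h2 : Cv M M') : Cv (inst N M) (inst N' M') := by
  exact .trans _ _ _ (cv_sub h2 _) (cv_sub_args (b1_vcons (R := Cv) (fun _ => .refl _) h1) M')

theorem cv_app {M M' N N' : Tm S} (h1 : Cv M M') (h2 : Cv N N') : Cv (app M N) (app M' N') := by
  obtain ⟨L, a1, a2⟩ := church_rosser h1
  obtain ⟨L', b1, b2⟩ := church_rosser h2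
  exact b1_cv_of_red (b1_red_app a1 b1) (b1_red_app a2 b2)

theorem cv_pi {A A' B B' : Tm S} (h1 : Cv A A') (h2 : Cv B B') : Cv (pi A B) (pi A' B') := by
  obtain ⟨L, a1, a2⟩ := church_rosser h1
  obtain ⟨L', b1, b2⟩ := church_rosser h2
  exact b1_cv_of_red (b1_red_pi a1 b1) (b1_red_pi a2 b2)

theorem b1_pi_inv {A B L : Tm S} (h : Red (pi A B) L) : ∃ A' B', L = pi A' B' ∧ Red A A' ∧ Red B B' := by
  induction h with
  | refl => exact ⟨A, B, rfl, .refl, .refl⟩
  | tail _ k ih =>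
    obtain ⟨A', B', rfl, h1, h2⟩ := ih
    cases k with
    | piA _ k => exact ⟨_, _, rfl, h1.tail k, h2⟩
    | piB _ k => exact ⟨_, _, rfl, h1, h2.tail k⟩

theorem b1_srt_inv {s : S} {L : Tm S} (h : Red (srt s) L) : L = srt s := by
  induction h with
  | refl => rfl
  | tail _ k ih => subst ih; cases k

theorem cv_pi_inj {A A' B B' : Tm S} (h : Cv (pi A B) (pi A' B')) : Cv A A' ∧ Cv B B' := by
  obtain ⟨L, h1, h2⟩ := church_rosser h
  obtain ⟨A₁, B₁, rfl, a1, b1⟩ := b1_pi_inv h1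
  obtain ⟨A₂, B₂, e, a2, b2⟩ := b1_pi_inv h2
  cases e
  exact ⟨b1_cv_of_red a1 a2, b1_cv_of_red b1 b2⟩

theorem cv_srt_inj {s t : S} (h : Cv (srt s) (srt t)) : s = t := by
  obtain ⟨L, h1, h2⟩ := church_rosser h
  have e := (b1_srt_inv h1).symm.trans (b1_srt_inv h2)
  cases e
  rfl

theorem not_cv_srt_pi {s : S} {A B : Tm S} : ¬ Cv (srt s) (pi A B) := by
  intro h
  obtain ⟨L, h1, h2⟩ := church_rosser h
  obtain ⟨A₂, B₂, e, -⟩ := b1_pi_inv h2
  rw [b1_srt_inv h1] at e
  cases e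

theorem red_pi_inv {A B L : Tm S} (h : Red (pi A B) L) : ∃ A' B', L = pi A' B' ∧ Red A A' ∧ Red B B' := by
  exact b1_pi_inv h

theorem b2_sp_beta {a : Atom S} {M N : Tm S} (h : Sp a M) (hb : Beta M N) : Sp a N := by
  induction h generalizing N with
  | hd => cases hb
  | app N' h ih =>
    cases hb with
    | redex A P _ => cases h
    | appL _ hb => exact (ih hb).app _
    | appR _ hb => exact h.app _

theorem Sp.red {a : Atom S} {M N : Tm S} (h : Sp a M) (hr : Red M N) : Sp a N := by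
  induction hr with
  | refl => exact h
  | tail _ hb ih => exact b2_sp_beta ih hb

theorem Beta.occ {a : Atom S} {M N : Tm S} (h : Beta M N) (ho : Occ a N) : Occ a M := by
  induction h with
  | redex A M N =>
    rcases occ_sub ho with ⟨i, hi⟩ | ⟨b, hb, hi⟩
    · cases i with
      | zero => exact Or.inr hi
      | succ i => exact hi.elim
    · obtain rfl : a = b := hi
      exact Or.inl (Or.inr hb)
  | appL _ _ ih => exact ho.imp ih id
  | appR _ _ ih => exact ho.imp id ih
  | lamA _ _ ih => exact ho.imp ih id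
  | lamM _ _ ih => exact ho.imp id ih
  | piA _ _ ih => exact ho.imp ih id
  | piB _ _ ih => exact ho.imp id ih

theorem Beta.mx_le {M N : Tm S} (h : Beta M N) : mx N ≤ mx M := by
  induction h with
  | redex A M N =>
    have := mx_inst N M
    simp only [mx]
    omega
  | appL _ _ ih => simp only [mx]; omega
  | appR _ _ ih => simp only [mx]; omega
  | lamA _ _ ih => simp only [mx]; omega
  | lamM _ _ ih => simp only [mx]; omega
  | piA _ _ ih => simp only [mx]; omega
  | piB _ _ ih => simp only [mx]; omega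

theorem nf_nf (M : Tm S) : Nf (nf M) := by
  unfold nf
  split_ifs with h
  · exact h.choose_spec.2
  · intro N hN
    cases hN

theorem WN.red_nf {M : Tm S} (h : WN M) : Red M (nf M) := by
  unfold nf
  rw [dif_pos h]
  exact h.choose_spec.1

theorem b2_nf_red {M N : Tm S} (h : Nf M) (hr : Red M N) : M = N := by
  rcases hr.cases_head with rfl | ⟨_, hb, _⟩
  · rfl
  · exact (h _ hb).elim

theorem b2_nf_eq {M N : Tm S} (h : Nf M) (h' : Nf N) (hc : Cv M N) : M = N := by
  obtain ⟨L, h1, h2⟩ := church_rosser hc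
  exact (b2_nf_red h h1).trans (b2_nf_red h' h2).symm

theorem b2_wn_cv {M N : Tm S} (h : WN M) (hc : Cv M N) : WN N := by
  obtain ⟨P, h1, h2⟩ := h
  obtain ⟨L, h3, h4⟩ := church_rosser (.trans _ _ _ (.symm _ _ h1.cv) hc)
  exact ⟨P, b2_nf_red h2 h3 ▸ h4, h2⟩

theorem nf_cv {M N : Tm S} (h : Cv M N) : nf M = nf N := by
  by_cases hM : WN M
  · have hN := b2_wn_cv hM h
    exact b2_nf_eq (nf_nf M) (nf_nf N) (.trans _ _ _ (.symm _ _ hM.red_nf.cv) (.trans _ _ _ h hN.red_nf.cv))
  · have hN : ¬ WN N := fun hN => hM (b2_wn_cv hN (.symm _ _ h))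
    unfold nf
    rw [dif_neg hM, dif_neg hN]

theorem WN.cv {M N : Tm S} (h : WN M) (hc : Cv M N) : WN N := by
  exact b2_wn_cv h hc

theorem Nf.nf_eq {M : Tm S} (h : Nf M) : nf M = M := by
  exact (b2_nf_red h (WN.red_nf ⟨M, .refl, h⟩)).symm

theorem Nf.eq_of_cv {M N : Tm S} (h : Nf M) (h' : Nf N) (hc : Cv M N) : M = N := by
  exact b2_nf_eq h h' hc

theorem nf_srt (s : S) : Nf (srt s : Tm S) := by
  intro N hN
  cases hN

theorem nf_pi_iff {A B : Tm S} : Nf (pi A B) ↔ Nf A ∧ Nf B := by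
  refine ⟨fun h => ⟨fun _ hb => h _ (.piA _ hb), fun _ hb => h _ (.piB _ hb)⟩, fun h N hN => ?_⟩
  cases hN with
  | piA _ hb => exact h.1 _ hb
  | piB _ hb => exact h.2 _ hb

theorem nf_lam_iff {A B : Tm S} : Nf (lam A B) ↔ Nf A ∧ Nf B := by
  refine ⟨fun h => ⟨fun _ hb => h _ (.lamA _ hb), fun _ hb => h _ (.lamM _ hb)⟩, fun h N hN => ?_⟩
  cases hN with
  | lamA _ hb => exact h.1 _ hb
  | lamM _ hb => exact h.2 _ hb

theorem Nf.app {M N : Tm S} (h : Nf (app M N)) : Nf M ∧ Nf N ∧ ∀ A P, M ≠ lam A P := by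
  refine ⟨fun _ hb => h _ (.appL _ hb), fun _ hb => h _ (.appR _ hb), ?_⟩
  rintro A P rfl
  exact h _ (.redex _ _ _)

theorem b2_beta_inst_atm {a : Atom S} {M N : Tm S} (h : Beta (inst (atm a) M) N) :
    ∃ M', Beta M M' ∧ N = inst (atm a) M' := by
  have e : (vcons (atm a) vr : Sb S) = fun x => vr (vcons (.inr a) id x) := by
    funext x
    rcases x with (_ | i) | b <;> rfl
  unfold inst at h ⊢
  rw [e] at h ⊢
  exact beta_sub_var h

theorem b2_red_inst_atm {a : Atom S} {M N : Tm S} (h : Red (inst (atm a) M) N) :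
    ∃ M', Red M M' ∧ N = inst (atm a) M' := by
  induction h with
  | refl => exact ⟨M, .refl, rfl⟩
  | tail _ hb ih =>
    obtain ⟨M', h1, rfl⟩ := ih
    obtain ⟨M'', h2, rfl⟩ := b2_beta_inst_atm hb
    exact ⟨M'', h1.tail h2, rfl⟩

theorem nf_inst_atm_iff (a : Atom S) (M : Tm S) : Nf (inst (atm a) M) ↔ Nf M := by
  refine ⟨fun h N hN => h _ (hN.sub _), fun h N hN => ?_⟩
  obtain ⟨M', hM', -⟩ := b2_beta_inst_atm hN
  exact h _ hM'

theorem WN.pi {A B : Tm S} (h : WN (pi A B)) : WN A ∧ WN B ∧ nf (pi A B) = pi (nf A) (nf B) := by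
  obtain ⟨L, h1, h2⟩ := h
  obtain ⟨A', B', rfl, hA, hB⟩ := red_pi_inv h1
  obtain ⟨nA, nB⟩ := nf_pi_iff.1 h2
  refine ⟨⟨A', hA, nA⟩, ⟨B', hB, nB⟩, ?_⟩
  rw [nf_cv h1.cv, nf_cv hA.cv, nf_cv hB.cv, h2.nf_eq, nA.nf_eq, nB.nf_eq]

theorem WN.nf_inst_atm {M : Tm S} (h : WN M) (a : Atom S) : nf (inst (atm a) M) = inst (atm a) (nf M) := by
  have h1 : Cv (inst (atm a) M) (inst (atm a) (nf M)) := cv_sub h.red_nf.cv _
  rw [nf_cv h1]
  exact ((nf_inst_atm_iff a _).2 (nf_nf M)).nf_eq

theorem wn_of_inst_atm {M : Tm S} {a : Atom S} (h : WN (inst (atm a) M)) : WN M := by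
  obtain ⟨L, h1, h2⟩ := h
  obtain ⟨M', h3, rfl⟩ := b2_red_inst_atm h1
  exact ⟨M', h3, (nf_inst_atm_iff a _).1 h2⟩

theorem mx_nf (M : Tm S) : mx (nf M) ≤ mx M := by
  by_cases h : WN M
  · have h1 := h.red_nf
    generalize nf M = N at h1
    induction h1 with
    | refl => exact le_rfl
    | tail _ hb ih => exact hb.mx_le.trans ih
  · unfold nf
    rw [dif_neg h]
    exact Nat.zero_le _

theorem occ_nf {a : Atom S} {M : Tm S} (h : Occ a (nf M)) : Occ a M := by
  by_cases hM : WN M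
  · have h1 := hM.red_nf
    generalize nf M = N at h1 h
    induction h1 with
    | refl => exact h
    | tail _ hb ih => exact ih (hb.occ h)
  · unfold nf at h
    rw [dif_neg hM] at h
    exact h.elim

/-! ### part c: permutations and maps of sorts -/

theorem prm_prm (π π' : Equiv.Perm ℕ) (M : Tm S) : prm π (prm π' M) = prm (π * π') M := by
  induction M <;> simp [prm, *]

theorem prm_one (M : Tm S) : prm 1 M = M := by
  induction M <;> simp [prm, *]

theorem prm_fix {π : Equiv.Perm ℕ} {M : Tm S} (h : ∀ n < mx M, π n = n) : prm π M = M := by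
  induction M with
  | bv i => rfl
  | srt s => rfl
  | fv n A ih =>
    simp only [mx, lt_max_iff] at h
    rw [prm, h n (Or.inl n.lt_succ_self), ih fun k hk => h k (Or.inr hk)]
  | app M N i1 i2 | lam M N i1 i2 | pi M N i1 i2 =>
    simp only [mx, lt_max_iff] at h
    rw [prm, i1 fun k hk => h k (Or.inl hk), i2 fun k hk => h k (Or.inr hk)]

theorem sync_prm_ren (π : Equiv.Perm ℕ) (ξ : ℕ → ℕ) (M : Tm S) : prm π (ren ξ M) = ren ξ (prm π M) := by
  induction M generalizing ξ <;> simp [prm, ren, *]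

theorem sync_prm_sub (π : Equiv.Perm ℕ) (M : Tm S) {σ τ : Sb S} (h1 : ∀ a, σ (.inr a) = atm a)
    (h2 : ∀ a, τ (.inr a) = atm a) (h : ∀ i, prm π (σ (.inl i)) = τ (.inl i)) :
    prm π (sub σ M) = sub τ (prm π M) := by
  induction M generalizing σ τ with
  | bv i => exact h i
  | srt s => rfl
  | fv n A ih => simp only [sub, prm, h1, h2, atm]
  | app M N i1 i2 => simp only [sub, prm, i1 h1 h2 h, i2 h1 h2 h]
  | lam M N i1 i2 | pi M N i1 i2 =>
    simp only [sub, prm]
    rw [i1 h1 h2 h, i2 (σ := up σ) (τ := up τ) (fun a => congrArg lift (h1 a)) fun a => congrArg lift (h2 a)]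
    rintro (_ | i)
    · rfl
    · exact (sync_prm_ren π _ _).trans (congrArg lift (h i))

theorem prm_inst (π : Equiv.Perm ℕ) (N M : Tm S) : prm π (inst N M) = inst (prm π N) (prm π M) := by
  refine sync_prm_sub π M (fun _ => rfl) (fun _ => rfl) ?_
  rintro (_ | i) <;> rfl

theorem sync_prm_inv (π : Equiv.Perm ℕ) (M : Tm S) : prm π⁻¹ (prm π M) = M := by
  rw [prm_prm, inv_mul_cancel, prm_one]

theorem prm_occ (π : Equiv.Perm ℕ) (a : Atom S) (M : Tm S) : Occ (π a.1, prm π a.2) (prm π M) ↔ Occ a M := by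
  induction M with
  | fv n A ih =>
    simp only [prm, Occ, Prod.ext_iff, π.injective.eq_iff,
      (Function.LeftInverse.injective (sync_prm_inv (S := S) π)).eq_iff]
  | _ => simp only [prm, Occ, *]

theorem Beta.prm {M N : Tm S} (h : Beta M N) (π : Equiv.Perm ℕ) : Beta (prm π M) (prm π N) := by
  induction h with
  | redex A M N => rw [prm_inst]; exact .redex _ _ _
  | appL N _ ih => exact .appL _ ih
  | appR N _ ih => exact .appR _ ih
  | lamA N _ ih => exact .lamA _ ih
  | lamM N _ ih => exact .lamM _ ih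
  | piA N _ ih => exact .piA _ ih
  | piB N _ ih => exact .piB _ ih

theorem sync_red_prm {M N : Tm S} (h : Red M N) (π : Equiv.Perm ℕ) : Red (prm π M) (prm π N) :=
  h.lift (prm π) fun _ _ h => h.prm π

theorem sync_nf_prm {M : Tm S} (h : Nf M) (π : Equiv.Perm ℕ) : Nf (prm π M) := fun N hN =>
  h (prm π⁻¹ N) (sync_prm_inv π M ▸ hN.prm π⁻¹)

theorem prm_nf (π : Equiv.Perm ℕ) (M : Tm S) : prm π (nf M) = nf (prm π M) := by
  by_cases h : WN M
  · rw [nf_cv (sync_red_prm h.red_nf π).cv, (sync_nf_prm (nf_nf M) π).nf_eq]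
  · have h' : ¬ WN (prm π M) := fun ⟨N, h1, h2⟩ =>
      h ⟨_, sync_prm_inv π M ▸ sync_red_prm h1 π⁻¹, sync_nf_prm h2 π⁻¹⟩
    rw [nf, nf, dif_neg h, dif_neg h', prm]

theorem sync_smap_ren {S' : Type} (f : S → S') (ξ : ℕ → ℕ) (M : Tm S) : smap f (ren ξ M) = ren ξ (smap f M) := by
  induction M generalizing ξ <;> simp [smap, ren, *]

theorem sync_smap_sub {S' : Type} (f : S → S') (M : Tm S) {σ : Sb S} {τ : Sb S'} (h1 : ∀ a, σ (.inr a) = atm a)
    (h2 : ∀ a, τ (.inr a) = atm a) (h : ∀ i, smap f (σ (.inl i)) = τ (.inl i)) :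
    smap f (sub σ M) = sub τ (smap f M) := by
  induction M generalizing σ τ with
  | bv i => exact h i
  | srt s => rfl
  | fv n A ih => simp only [sub, smap, h1, h2, atm]
  | app M N i1 i2 => simp only [sub, smap, i1 h1 h2 h, i2 h1 h2 h]
  | lam M N i1 i2 | pi M N i1 i2 =>
    simp only [sub, smap]
    rw [i1 h1 h2 h, i2 (σ := up σ) (τ := up τ) (fun a => congrArg lift (h1 a)) fun a => congrArg lift (h2 a)]
    rintro (_ | i)
    · rfl
    · exact (sync_smap_ren f _ _).trans (congrArg lift (h i))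

theorem smap_inst {S' : Type} (f : S → S') (N M : Tm S) : smap f (inst N M) = inst (smap f N) (smap f M) := by
  refine sync_smap_sub f M (fun _ => rfl) (fun _ => rfl) ?_
  rintro (_ | i) <;> rfl

theorem Beta.smap {S' : Type} (f : S → S') {M N : Tm S} (h : Beta M N) : Beta (smap f M) (smap f N) := by
  induction h with
  | redex A M N => rw [smap_inst]; exact .redex _ _ _
  | appL N _ ih => exact .appL _ ih
  | appR N _ ih => exact .appR _ ih
  | lamA N _ ih => exact .lamA _ ih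
  | lamM N _ ih => exact .lamM _ ih
  | piA N _ ih => exact .piA _ ih
  | piB N _ ih => exact .piB _ ih

theorem sync_beta_of_smap {S' : Type} (f : S → S') {M : Tm S} {L : Tm S'} (h : Beta (smap f M) L) :
    ∃ N, Beta M N ∧ L = smap f N := by
  induction M generalizing L with
  | bv i => cases h
  | srt s => cases h
  | fv n A ih => cases h
  | lam M N i1 i2 =>
    cases h with
    | lamA _ h => obtain ⟨P, h1, rfl⟩ := i1 h; exact ⟨_, .lamA _ h1, rfl⟩
    | lamM _ h => obtain ⟨P, h1, rfl⟩ := i2 h; exact ⟨_, .lamM _ h1, rfl⟩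
  | pi M N i1 i2 =>
    cases h with
    | piA _ h => obtain ⟨P, h1, rfl⟩ := i1 h; exact ⟨_, .piA _ h1, rfl⟩
    | piB _ h => obtain ⟨P, h1, rfl⟩ := i2 h; exact ⟨_, .piB _ h1, rfl⟩
  | app M N i1 i2 =>
    rw [smap] at h
    generalize e : smap f M = M' at h
    cases h with
    | redex A P Q =>
      cases M <;> simp only [smap, reduceCtorEq, lam.injEq] at e
      obtain ⟨rfl, rfl⟩ := e
      exact ⟨_, .redex _ _ _, (smap_inst f _ _).symm⟩
    | appL _ h => subst e; obtain ⟨P, h1, rfl⟩ := i1 h; exact ⟨_, .appL _ h1, rfl⟩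
    | appR _ h => subst e; obtain ⟨P, h1, rfl⟩ := i2 h; exact ⟨_, .appR _ h1, rfl⟩

theorem wn_of_smap {S' : Type} (f : S → S') {M : Tm S} (h : WN (smap f M)) : WN M := by
  obtain ⟨L, h1, h2⟩ := h
  have : ∃ N, Red M N ∧ L = smap f N := by
    clear h2
    induction h1 with
    | refl => exact ⟨M, .refl, rfl⟩
    | tail _ h ih =>
      obtain ⟨N, h3, rfl⟩ := ih
      obtain ⟨P, h4, rfl⟩ := sync_beta_of_smap f h
      exact ⟨P, h3.tail h4, rfl⟩
  obtain ⟨N, h3, rfl⟩ := this
  exact ⟨N, h3, fun P h => h2 _ (h.smap f)⟩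

/-- code of a term -/
def syncEnc (e : S → ℕ) : Tm S → ℕ
  | bv i => Nat.pair 0 i
  | fv n A => Nat.pair 1 (Nat.pair n (syncEnc e A))
  | srt s => Nat.pair 2 (e s)
  | app M N => Nat.pair 3 (Nat.pair (syncEnc e M) (syncEnc e N))
  | lam M N => Nat.pair 4 (Nat.pair (syncEnc e M) (syncEnc e N))
  | pi M N => Nat.pair 5 (Nat.pair (syncEnc e M) (syncEnc e N))

instance [Countable S] : Countable (Tm S) := by
  obtain ⟨e, he⟩ := exists_injective_nat S
  refine ⟨syncEnc e, fun M N h => ?_⟩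
  induction M generalizing N with
  | bv i => cases N <;> simp_all [syncEnc]
  | srt s => cases N <;> simp_all [syncEnc, he.eq_iff]
  | fv n A ih =>
    cases N <;> simp only [syncEnc, Nat.pair_eq_pair, Nat.reduceEqDiff, false_and, true_and] at h
    rw [h.1, ih _ h.2]
  | app M P i1 i2 | lam M P i1 i2 | pi M P i1 i2 =>
    cases N <;> simp only [syncEnc, Nat.pair_eq_pair, Nat.reduceEqDiff, false_and, true_and] at h
    rw [i1 _ h.1, i2 _ h.2]

end Crest.Agent.R298
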