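import Crest.Agent.R298.Syn

/-!
# Row 298.  Typing with atoms.  Contexts are lists of atoms (an atom carries its type), duplicates allowed,
so contexts can be appended and `GT` is a context-free typing relation.
-/

set_option autoImplicit false
set_option linter.unusedSectionVars false
set_option linter.unusedVariables false

namespace Crest.Agent.R298

open scoped Classical
open Tm
open Crest.LogicCS.PTS (Spec)

variable {S : Type}

inductive Ty (P : Spec S) : List (Atom S) → Tm S → Tm S → Prop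
  | ax {s t : S} : P.ax s t → Ty P [] (srt s) (srt t)
  | start {Γ : List (Atom S)} {a : Atom S} {s : S} : Ty P Γ a.2 (srt s) → Ty P (a :: Γ) (atm a) a.2
  | weak {Γ : List (Atom S)} {M B : Tm S} {a : Atom S} {s : S} :
      Ty P Γ M B → Ty P Γ a.2 (srt s) → Ty P (a :: Γ) M B
  | prod {Γ : List (Atom S)} {A B : Tm S} {n : ℕ} {s₁ s₂ s₃ : S} :
      Ty P Γ A (srt s₁) → (n, A) ∉ Γ → ¬ Occ (n, A) B → Ty P ((n, A) :: Γ) (inst (fv n A) B) (srt s₂) →
      P.rule s₁ s₂ s₃ → Ty P Γ (pi A B) (srt s₃)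
  | abs {Γ : List (Atom S)} {A M B : Tm S} {n : ℕ} {s : S} :
      (n, A) ∉ Γ → ¬ Occ (n, A) M → ¬ Occ (n, A) B →
      Ty P ((n, A) :: Γ) (inst (fv n A) M) (inst (fv n A) B) → Ty P Γ (pi A B) (srt s) →
      Ty P Γ (lam A M) (pi A B)
  | appl {Γ : List (Atom S)} {M N A B : Tm S} :
      Ty P Γ M (pi A B) → Ty P Γ N A → Ty P Γ (app M N) (inst N B)
  | conv {Γ : List (Atom S)} {M A B : Tm S} {s : S} :
      Ty P Γ M A → Ty P Γ B (srt s) → Cv A B → Ty P Γ M B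

inductive Ok (P : Spec S) : List (Atom S) → Prop
  | nil : Ok P []
  | cons {Γ : List (Atom S)} {a : Atom S} {s : S} : Ty P Γ a.2 (srt s) → Ok P (a :: Γ)

/-- typable in some context -/
def GT (P : Spec S) (M A : Tm S) : Prop := ∃ Γ, Ty P Γ M A

/-- the hypothesis of the theorem -/
def HWN (P : Spec S) : Prop := ∀ Γ M A, Ty P Γ M A → WN M

/-- typed parallel substitutions `Δ ⊢ θ : Γ` -/
def Mor (P : Spec S) (Δ Γ : List (Atom S)) (θ : Sb S) : Prop :=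
  Ok P Δ ∧ ∀ a ∈ Γ, Ty P Δ (θ (.inr a)) (sub θ a.2)

/-- a bound for all atom indices of a context -/
def cmx (Γ : List (Atom S)) : ℕ := (Γ.map fun a => mx (atm a)).foldr max 0

def prmA (π : Equiv.Perm ℕ) (a : Atom S) : Atom S := (π a.1, prm π a.2)

variable {P : Spec S} {Γ Δ : List (Atom S)} {M N A B T : Tm S} {s : S}

/-! ### part a: contexts, substitution -/

theorem Ty.ok (h : Ty P Γ M A) : Ok P Γ := by
  induction h with
  | ax _ => exact .nil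
  | start h _ => exact .cons h
  | weak _ h _ _ => exact .cons h
  | prod _ _ _ _ _ ih _ => exact ih
  | abs _ _ _ _ _ _ ih => exact ih
  | appl _ _ ih _ => exact ih
  | conv _ _ _ ih _ => exact ih

theorem not_mem_of_cmx {a : Atom S} (h : cmx Γ ≤ a.1) : a ∉ Γ := by
  induction Γ with
  | nil => exact List.not_mem_nil
  | cons b Γ ih =>
    have h' : max (max (b.1 + 1) (mx b.2)) (cmx Γ) ≤ a.1 := h
    intro hm
    rcases List.mem_cons.1 hm with rfl | hm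
    · omega
    · exact ih (by omega) hm

theorem not_occ_of_mx {a : Atom S} (h : mx M ≤ a.1) : ¬ Occ a M :=
  fun ho => absurd (occ_lt_mx ho).1 (not_lt.2 h)

theorem Ok.var (h : Ok P Γ) {a : Atom S} (ha : a ∈ Γ) : Ty P Γ (atm a) a.2 := by
  induction Γ with
  | nil => exact absurd ha List.not_mem_nil
  | cons b Γ ih =>
    cases h with
    | cons h =>
      rcases List.mem_cons.1 ha with rfl | ha
      · exact .start h
      · exact .weak (ih h.ok ha) h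

theorem Ok.sort (h : Ok P Γ) {a : Atom S} (ha : a ∈ Γ) : ∃ s, Ty P Γ a.2 (srt s) := by
  induction Γ with
  | nil => exact absurd ha List.not_mem_nil
  | cons b Γ ih =>
    cases h with
    | cons h =>
      rcases List.mem_cons.1 ha with rfl | ha
      · exact ⟨_, .weak h h⟩
      · obtain ⟨t, ht⟩ := ih h.ok ha
        exact ⟨t, .weak ht h⟩

theorem Ok.ax (h : Ok P Γ) {s t : S} (hs : P.ax s t) : Ty P Γ (srt s) (srt t) := by
  induction Γ with
  | nil => exact .ax hs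
  | cons b Γ ih =>
    cases h with
    | cons h => exact .weak (ih h.ok) h

theorem Ty.occ (h : Ty P Γ M A) {a : Atom S} (ha : Occ a M ∨ Occ a A) : a ∈ Γ := by
  induction h with
  | ax _ => exact ha.elim False.elim False.elim
  | start _ ih =>
    rcases ha with ha | ha
    · exact List.mem_cons.2 (Or.inl ha)
    · exact List.mem_cons_of_mem _ (ih (Or.inl ha))
  | weak _ _ ih _ => exact List.mem_cons_of_mem _ (ih ha)
  | prod _ _ hB _ _ ih1 ih2 =>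
    rcases ha with (ha | ha) | ha
    · exact ih1 (Or.inl ha)
    · exact (List.mem_cons.1 (ih2 (Or.inl (occ_inst_of_occ _ ha)))).resolve_left fun e => hB (e ▸ ha)
    · exact ha.elim
  | abs _ hM _ _ _ ih1 ih2 =>
    rcases ha with (ha | ha) | ha
    · exact ih2 (Or.inl (Or.inl ha))
    · exact (List.mem_cons.1 (ih1 (Or.inl (occ_inst_of_occ _ ha)))).resolve_left fun e => hM (e ▸ ha)
    · exact ih2 (Or.inl ha)
  | appl _ _ ih1 ih2 =>
    rcases ha with (ha | ha) | ha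
    · exact ih1 (Or.inl ha)
    · exact ih2 (Or.inl ha)
    · rcases occ_sub ha with ⟨i, hi⟩ | ⟨b, hb, e⟩
      · cases i with
        | zero => exact ih2 (Or.inl hi)
        | succ i => exact hi.elim
      · obtain rfl : a = b := e
        exact ih1 (Or.inr (Or.inr hb))
  | conv _ _ _ ih1 ih2 =>
    rcases ha with ha | ha
    · exact ih1 (Or.inl ha)
    · exact ih2 (Or.inl ha)

theorem typa_pi_dom (h : Ty P Γ T M) (e : T = pi A B) : ∃ s, Ty P Γ A (srt s) := by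
  induction h with
  | ax _ => cases e
  | start _ _ => cases e
  | weak _ h ih _ =>
    obtain ⟨t, ht⟩ := ih e
    exact ⟨t, .weak ht h⟩
  | prod h _ _ _ _ _ _ =>
    cases e
    exact ⟨_, h⟩
  | abs _ _ _ _ _ _ _ => cases e
  | appl _ _ _ _ => cases e
  | conv _ _ _ ih _ => exact ih e

theorem typa_upd {θ : Sb S} {a : Atom S} (h : Mor P Δ Γ θ) (hΓ : Ok P (a :: Γ)) (ha : a ∉ Γ)
    (hN : Ty P Δ N (sub θ a.2)) : Mor P Δ (a :: Γ) (vupd θ a N) := by
  cases hΓ with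
  | cons hA =>
    refine ⟨h.1, fun b hb => ?_⟩
    rcases List.mem_cons.1 hb with rfl | hb
    · rw [sub_vupd fun ho => ha (hA.occ (Or.inl ho)), vupd, Function.update_self]
      exact hN
    · obtain ⟨t, ht⟩ := hA.ok.sort hb
      rw [sub_vupd fun ho => ha (ht.occ (Or.inl ho)), vupd, Function.update_of_ne]
      · exact h.2 b hb
      · rintro ⟨⟩
        exact ha hb

theorem typa_ext {θ : Sb S} {n n' : ℕ} (h : Mor P Δ Γ θ) (hΓ : Ok P ((n, A) :: Γ)) (ha : (n, A) ∉ Γ)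
    (hA : Ty P Δ (sub θ A) (srt s)) :
    Mor P ((n', sub θ A) :: Δ) ((n, A) :: Γ) (vupd θ (n, A) (fv n' (sub θ A))) :=
  typa_upd ⟨.cons hA, fun b hb => .weak (h.2 b hb) hA⟩ hΓ ha (Ty.start (a := (n', sub θ A)) hA)

/-- the substitution lemma.  Induction on `h`, generalizing `Δ θ`; under a binder `(n, A)` go to the fresh atom
`(n', A[θ])`, `n'` large, with `vupd θ (n, A) (fv n' A[θ])` and `sub_vupd_inst`, `inst_sub_up`. -/
theorem Ty.subst (h : Ty P Γ M A) {θ : Sb S} (hθ : Mor P Δ Γ θ) : Ty P Δ (sub θ M) (sub θ A) := by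
  induction h generalizing Δ θ with
  | ax hs => exact hθ.1.ax hs
  | start _ _ => exact hθ.2 _ List.mem_cons_self
  | weak _ _ ih _ => exact ih ⟨hθ.1, fun b hb => hθ.2 b (List.mem_cons_of_mem _ hb)⟩
  | @prod Γ A B n s₁ s₂ s₃ _ hn hB h2 hr ih1 ih2 =>
    have h3 := ih2 (typa_ext (n' := max (cmx Δ) (mx (sub (up θ) B))) hθ h2.ok hn (ih1 hθ))
    rw [show fv n A = atm (n, A) from rfl, sub_vupd_inst hB, ← inst_sub_up] at h3
    exact .prod (ih1 hθ) (not_mem_of_cmx (le_max_left _ _)) (not_occ_of_mx (le_max_right _ _)) h3 hr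
  | @abs Γ A M B n s hn hM hB h1 _ ih1 ih2 =>
    obtain ⟨t, ht⟩ := typa_pi_dom (ih2 hθ) rfl
    have h3 := ih1 (typa_ext (n' := max (cmx Δ) (max (mx (sub (up θ) M)) (mx (sub (up θ) B)))) hθ h1.ok hn ht)
    rw [show fv n A = atm (n, A) from rfl, sub_vupd_inst hM, sub_vupd_inst hB, ← inst_sub_up,
      ← inst_sub_up] at h3
    exact .abs (not_mem_of_cmx (le_max_left _ _))
      (not_occ_of_mx ((le_max_left _ _).trans (le_max_right _ _)))
      (not_occ_of_mx ((le_max_right _ _).trans (le_max_right _ _))) h3 (ih2 hθ)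
  | appl _ _ ih1 ih2 =>
    rw [sub_inst, ← inst_sub_up]
    exact .appl (ih1 hθ) (ih2 hθ)
  | conv _ _ hc ih1 ih2 => exact .conv (ih1 hθ) (ih2 hθ) (cv_sub hc θ)

theorem Mor.id (h : Ok P Δ) (hs : ∀ a ∈ Γ, a ∈ Δ) : Mor P Δ Γ vr :=
  ⟨h, fun a ha => by rw [sub_vr]; exact h.var (hs a ha)⟩

theorem Ty.thin (h : Ty P Γ M A) (hΔ : Ok P Δ) (hs : ∀ a ∈ Γ, a ∈ Δ) : Ty P Δ M A := by
  have := h.subst (Mor.id hΔ hs)
  rwa [sub_vr, sub_vr] at this

theorem Ok.append (h : Ok P Γ) (h' : Ok P Δ) : Ok P (Γ ++ Δ) := by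
  induction Γ with
  | nil => exact h'
  | cons b Γ ih =>
    cases h with
    | cons h => exact .cons (h.thin (ih h.ok) fun a ha => List.mem_append_left _ ha)

theorem Mor.thin {θ : Sb S} {Δ' : List (Atom S)} (h : Mor P Δ Γ θ) (hΔ : Ok P Δ') (hs : ∀ a ∈ Δ, a ∈ Δ') :
    Mor P Δ' Γ θ :=
  ⟨hΔ, fun a ha => (h.2 a ha).thin hΔ hs⟩

theorem Mor.comp {θ ξ : Sb S} {Θ : List (Atom S)} (h : Mor P Δ Γ θ) (h' : Mor P Θ Δ ξ) :
    Mor P Θ Γ (fun x => sub ξ (θ x)) :=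
  ⟨h'.1, fun a ha => by rw [← sub_sub]; exact (h.2 a ha).subst h'⟩

theorem Mor.upd {θ : Sb S} {a : Atom S} (h : Mor P Δ Γ θ) (hΓ : Ok P (a :: Γ)) (ha : a ∉ Γ)
    (hN : Ty P Δ N (sub θ a.2)) : Mor P Δ (a :: Γ) (vupd θ a N) :=
  typa_upd h hΓ ha hN

theorem Mor.tail {θ : Sb S} {a : Atom S} (h : Mor P Δ (a :: Γ) θ) : Mor P Δ Γ θ :=
  ⟨h.1, fun b hb => h.2 b (List.mem_cons_of_mem _ hb)⟩

theorem ta2_body {a : Atom S} (ho : ¬ Occ a B) (h : LC (inst (atm a) B)) {σ : Sb S}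
    (hσ : ∀ b, σ (.inr b) = atm b) : sub (up σ) B = B := by
  rw [← cls_inst ho, cls, sub_sub]
  refine LC.sub_congr h fun b _ => ?_
  by_cases e : b = a
  · subst e
    simp only [vupd, Function.update_self]
    rfl
  · rw [vupd, Function.update_of_ne (fun e' => e (Sum.inr.inj e'))]
    show lift (σ (.inr b)) = _
    rw [hσ]
    rfl

/-- typed terms are locally closed (for a binder: `LC (inst (atm a) B)` gives `sub (up σ) B = B`, apply `cls a'`
for a fresh `a'` or use injectivity of `inst (atm a')` on terms without `a'`) -/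
theorem Ty.lc (h : Ty P Γ M A) : LC M ∧ LC A := by
  induction h with
  | ax _ => exact ⟨fun _ _ => rfl, fun _ _ => rfl⟩
  | start _ ih => exact ⟨fun σ hσ => hσ _, ih.1⟩
  | weak _ _ ih _ => exact ih
  | prod _ _ ho _ _ ih ih' =>
    refine ⟨fun σ hσ => ?_, fun _ _ => rfl⟩
    rw [sub, ih.1 σ hσ, ta2_body ho ih'.1 hσ]
  | abs _ ho _ _ _ ih ih' =>
    refine ⟨fun σ hσ => ?_, ih'.1⟩
    rw [sub, (Tm.pi.inj (ih'.1 σ hσ)).1, ta2_body ho ih.1 hσ]
  | appl _ _ ih ih' =>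
    refine ⟨fun σ hσ => ?_, fun σ hσ => ?_⟩
    · rw [sub, ih.1 σ hσ, ih'.1 σ hσ]
    · rw [sub_inst, ← inst_sub_up, ih'.1 σ hσ, (Tm.pi.inj (ih.2 σ hσ)).2]
  | conv _ _ _ ih ih' => exact ⟨ih.1, ih'.1⟩

theorem Ty.inst_eq (h : Ty P Γ M A) (N : Tm S) : inst N M = M := by
  exact h.lc.1 _ fun _ => rfl

/-- product formation with an arbitrary atom of the right type: abstract a fresh atom -/
theorem Ty.prod_cls {a : Atom S} {s₁ s₂ s₃ : S} (hA : Ty P Γ a.2 (srt s₁)) (ha : a ∉ Γ)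
    (hB : Ty P (a :: Γ) B (srt s₂)) (hr : P.rule s₁ s₂ s₃) : Ty P Γ (pi a.2 (cls a B)) (srt s₃) := by
  rw [← inst_cls a B] at hB
  exact Ty.prod (n := a.1) hA ha (not_occ_cls a B) hB hr

theorem Ty.abs_cls {a : Atom S} (ha : a ∉ Γ) (hM : Ty P (a :: Γ) M B) (hp : Ty P Γ (pi a.2 (cls a B)) (srt s)) :
    Ty P Γ (lam a.2 (cls a M)) (pi a.2 (cls a B)) := by
  rw [← inst_cls a B, ← inst_cls a M] at hM
  exact Ty.abs (n := a.1) ha (not_occ_cls a M) (not_occ_cls a B) hM hp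

theorem Ty.arr_intro {s₁ s₂ s₃ : S} (hA : Ty P Γ A (srt s₁)) (hB : Ty P Γ B (srt s₂)) (hr : P.rule s₁ s₂ s₃) :
    Ty P Γ (arr A B) (srt s₃) := by
  have ha : (cmx Γ, A) ∉ Γ := not_mem_of_cmx le_rfl
  refine Ty.prod (s₂ := s₂) hA ha (fun ho => ha (hB.occ (Or.inl ?_))) ?_ hr
  · rwa [LC.lift_eq hB.lc.1] at ho
  · rw [inst_lift]
    exact Ty.weak hB hA

theorem Ty.arr_elim (hM : Ty P Γ M (arr A B)) (hN : Ty P Γ N A) : Ty P Γ (app M N) B := by
  have := Ty.appl hM hN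
  rwa [inst_lift] at this

/-! ### part b: generation, correctness of types, subject reduction -/

/-- instantiate the atom of an opened binder -/
theorem tb_open {n : ℕ} (h : Ty P ((n, A) :: Γ) (inst (fv n A) M) (inst (fv n A) B)) (ha : (n, A) ∉ Γ)
    (hM : ¬ Occ (n, A) M) (hB : ¬ Occ (n, A) B) (hs : ∀ a ∈ Γ, a ∈ Δ) (hN : Ty P Δ N A) :
    Ty P Δ (inst N M) (inst N B) := by
  have h1 := h.subst (Mor.upd (N := N) (Mor.id hN.ok hs) h.ok ha (by rwa [sub_vr]))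
  change Ty P Δ (sub _ (inst (atm (n, A)) M)) (sub _ (inst (atm (n, A)) B)) at h1
  rwa [sub_vupd_inst hM, sub_vupd_inst hB] at h1

theorem tb_var {A' : Tm S} {s' : S} (n : ℕ) (hA : Ty P Γ A (srt s)) (hA' : Ty P Γ A' (srt s'))
    (hc : Cv A A') : Ty P ((n, A') :: Γ) (fv n A') A :=
  .conv (.start (a := (n, A')) hA') (.weak (a := (n, A')) hA hA') (.symm _ _ hc)

theorem tb_gen_pi (h : Ty P Γ (pi A B) T) : ∃ s₁ s₂ s₃, P.rule s₁ s₂ s₃ ∧ Cv T (srt s₃) ∧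
    Ty P Γ A (srt s₁) ∧ ∀ Δ N, (∀ a ∈ Γ, a ∈ Δ) → Ty P Δ N A → Ty P Δ (inst N B) (srt s₂) := by
  generalize hX : pi A B = X at h
  induction h with
  | ax _ => cases hX
  | start _ _ => cases hX
  | weak _ h2 ih _ =>
    obtain ⟨s₁, s₂, s₃, hr, hc, hA, hB⟩ := ih hX
    exact ⟨s₁, s₂, s₃, hr, hc, hA.weak h2, fun Δ N hs => hB Δ N fun a ha => hs a (List.mem_cons_of_mem _ ha)⟩
  | prod h1 h2 h3 h4 hr _ _ =>
    cases hX
    exact ⟨_, _, _, hr, .refl _, h1, fun Δ N hs hN => tb_open (B := srt _) h4 h2 h3 id hs hN⟩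
  | abs _ _ _ _ _ _ _ => cases hX
  | appl _ _ _ _ => cases hX
  | conv _ _ hc ih _ =>
    obtain ⟨s₁, s₂, s₃, hr, hc', hA, hB⟩ := ih hX
    exact ⟨s₁, s₂, s₃, hr, .trans _ _ _ (.symm _ _ hc) hc', hA, hB⟩

theorem tb_gen_lam (h : Ty P Γ (lam A M) T) : ∃ B s, Cv T (pi A B) ∧ Ty P Γ (pi A B) (srt s) ∧
    ∀ Δ N, (∀ a ∈ Γ, a ∈ Δ) → Ty P Δ N A → Ty P Δ (inst N M) (inst N B) := by
  generalize hX : lam A M = X at h
  induction h with
  | ax _ => cases hX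
  | start _ _ => cases hX
  | weak _ h2 ih _ =>
    obtain ⟨B, s, hc, hA, hB⟩ := ih hX
    exact ⟨B, s, hc, hA.weak h2, fun Δ N hs => hB Δ N fun a ha => hs a (List.mem_cons_of_mem _ ha)⟩
  | prod _ _ _ _ _ _ _ => cases hX
  | abs h1 h2 h3 h4 h5 _ _ =>
    cases hX
    exact ⟨_, _, .refl _, h5, fun Δ N hs hN => tb_open h4 h1 h2 h3 hs hN⟩
  | appl _ _ _ _ => cases hX
  | conv _ _ hc ih _ =>
    obtain ⟨B, s, hc', hA, hB⟩ := ih hX
    exact ⟨B, s, .trans _ _ _ (.symm _ _ hc) hc', hA, hB⟩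

theorem Ty.gen_srt (h : Ty P Γ (srt s) A) : ∃ t, P.ax s t ∧ Cv A (srt t) := by
  generalize hX : srt s = X at h
  induction h with
  | ax h => cases hX; exact ⟨_, h, .refl _⟩
  | start _ _ => cases hX
  | weak _ _ ih _ => exact ih hX
  | prod _ _ _ _ _ _ _ => cases hX
  | abs _ _ _ _ _ _ _ => cases hX
  | appl _ _ _ _ => cases hX
  | conv _ _ hc ih _ =>
    obtain ⟨t, ht, hc'⟩ := ih hX
    exact ⟨t, ht, .trans _ _ _ (.symm _ _ hc) hc'⟩

theorem Ty.gen_fv {n : ℕ} (h : Ty P Γ (fv n B) A) : (n, B) ∈ Γ ∧ Cv A B := by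
  refine ⟨h.occ (Or.inl rfl), ?_⟩
  generalize hX : fv n B = X at h
  induction h with
  | ax h => cases hX
  | start _ _ => cases hX; exact .refl _
  | weak _ _ ih _ => exact ih hX
  | prod _ _ _ _ _ _ _ => cases hX
  | abs _ _ _ _ _ _ _ => cases hX
  | appl _ _ _ _ => cases hX
  | conv _ _ hc ih _ => exact .trans _ _ _ (.symm _ _ hc) (ih hX)

theorem Ty.not_bv {i : ℕ} : ¬ Ty P Γ (bv i) A := by
  intro h
  generalize hX : (bv i : Tm S) = X at h
  induction h with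
  | ax h => cases hX
  | start _ _ => cases hX
  | weak _ _ ih _ => exact ih hX
  | prod _ _ _ _ _ _ _ => cases hX
  | abs _ _ _ _ _ _ _ => cases hX
  | appl _ _ _ _ => cases hX
  | conv _ _ hc ih _ => exact ih hX

/-- opened with any atom `(n, A')` whose type is a legal convertible copy of the domain (no freshness needed) -/
theorem Ty.gen_pi (h : Ty P Γ (pi A B) T) : ∃ s₁ s₂ s₃, P.rule s₁ s₂ s₃ ∧ Cv T (srt s₃) ∧ Ty P Γ A (srt s₁) ∧
    ∀ n A' s', Ty P Γ A' (srt s') → Cv A A' → Ty P ((n, A') :: Γ) (inst (fv n A') B) (srt s₂) := by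
  obtain ⟨s₁, s₂, s₃, hr, hc, hA, hB⟩ := tb_gen_pi h
  exact ⟨s₁, s₂, s₃, hr, hc, hA, fun n A' s' hA' hc' =>
    hB _ _ (fun a ha => List.mem_cons_of_mem _ ha) (tb_var n hA hA' hc')⟩

theorem Ty.gen_lam (h : Ty P Γ (lam A M) T) : ∃ B s, Cv T (pi A B) ∧ Ty P Γ (pi A B) (srt s) ∧
    ∀ n A' s', Ty P Γ A' (srt s') → Cv A A' → Ty P ((n, A') :: Γ) (inst (fv n A') M) (inst (fv n A') B) := by
  obtain ⟨B, s, hc, hp, hB⟩ := tb_gen_lam h
  obtain ⟨s₁, -, -, -, -, hA, -⟩ := tb_gen_pi hp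
  exact ⟨B, s, hc, hp, fun n A' s' hA' hc' =>
    hB _ _ (fun a ha => List.mem_cons_of_mem _ ha) (tb_var n hA hA' hc')⟩

theorem Ty.gen_app (h : Ty P Γ (app M N) T) : ∃ A B, Ty P Γ M (pi A B) ∧ Ty P Γ N A ∧ Cv T (inst N B) := by
  generalize hX : app M N = X at h
  induction h with
  | ax h => cases hX
  | start _ _ => cases hX
  | weak _ h2 ih _ =>
    obtain ⟨A, B, h3, h4, hc⟩ := ih hX
    exact ⟨A, B, h3.weak h2, h4.weak h2, hc⟩
  | prod _ _ _ _ _ _ _ => cases hX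
  | abs _ _ _ _ _ _ _ => cases hX
  | appl h1 h2 _ _ => cases hX; exact ⟨_, _, h1, h2, .refl _⟩
  | conv _ _ hc ih _ =>
    obtain ⟨A, B, h3, h4, hc'⟩ := ih hX
    exact ⟨A, B, h3, h4, .trans _ _ _ (.symm _ _ hc) hc'⟩

theorem Ty.pi_inst (h : Ty P Γ (pi A B) T) (hN : Ty P Γ N A) : ∃ s, Ty P Γ (inst N B) (srt s) := by
  obtain ⟨-, s₂, -, -, -, -, hB⟩ := tb_gen_pi h
  exact ⟨s₂, hB _ _ (fun _ => id) hN⟩

/-- correctness of types -/
theorem Ty.corr (h : Ty P Γ M A) : (∃ s, A = srt s) ∨ ∃ s, Ty P Γ A (srt s) := by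
  induction h with
  | ax _ => exact Or.inl ⟨_, rfl⟩
  | start h _ => exact Or.inr ⟨_, h.weak h⟩
  | weak _ h2 ih _ => exact ih.imp id fun ⟨s, hs⟩ => ⟨s, hs.weak h2⟩
  | prod _ _ _ _ _ _ _ => exact Or.inl ⟨_, rfl⟩
  | abs _ _ _ _ h _ _ => exact Or.inr ⟨_, h⟩
  | appl _ h2 ih _ =>
    rcases ih with ⟨s, hs⟩ | ⟨s, hs⟩
    · cases hs
    · exact Or.inr (hs.pi_inst h2)
  | conv _ h _ _ _ => exact Or.inr ⟨_, h⟩

theorem Ty.pi_ty (h : Ty P Γ M (pi A B)) : ∃ s, Ty P Γ (pi A B) (srt s) := by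
  rcases h.corr with ⟨s, hs⟩ | hs
  · cases hs
  · exact hs

/-- the type of an application is itself typable -/
theorem Ty.app_ty (h : Ty P Γ (app M N) T) : ∃ B s, Cv T B ∧ Ty P Γ B (srt s) := by
  obtain ⟨A, B, h1, h2, hc⟩ := h.gen_app
  obtain ⟨s, hs⟩ := h1.pi_ty
  obtain ⟨t, ht⟩ := hs.pi_inst h2
  exact ⟨_, t, hc, ht⟩

theorem Ty.sr (h : Ty P Γ M A) (hb : Beta M N) : Ty P Γ N A := by
  induction h generalizing N with
  | ax _ => cases hb
  | start _ _ => cases hb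
  | weak _ h2 ih _ => exact (ih hb).weak h2
  | @prod Γ A B n s₁ s₂ s₃ h1 h2 h3 h4 hr ih1 ih2 =>
    cases hb with
    | @piA _ A' _ hb =>
      exact .prod (n := max (cmx Γ) (mx B)) (ih1 hb) (not_mem_of_cmx (le_max_left _ _))
        (not_occ_of_mx (le_max_right _ _))
        (tb_open (B := srt _) h4 h2 h3 id (fun a ha => List.mem_cons_of_mem _ ha)
          (tb_var _ h1 (ih1 hb) (.rel _ _ hb))) hr
    | piB _ hb => exact .prod h1 h2 (fun h => h3 (hb.occ h)) (ih2 (hb.sub _)) hr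
  | @abs Γ A M B n s h1 h2 h3 h4 h5 ih1 ih2 =>
    cases hb with
    | @lamA _ A' _ hb =>
      have h6 := ih2 (.piA B hb)
      obtain ⟨s₁, -, -, -, -, hA, -⟩ := tb_gen_pi h5
      obtain ⟨s₁', -, -, -, -, hA', -⟩ := tb_gen_pi h6
      exact .conv (.abs (n := max (cmx Γ) (max (mx M) (mx B))) (not_mem_of_cmx (le_max_left _ _))
        (not_occ_of_mx (le_max_of_le_right (le_max_left _ _)))
        (not_occ_of_mx (le_max_of_le_right (le_max_right _ _)))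
        (tb_open h4 h1 h2 h3 (fun a ha => List.mem_cons_of_mem _ ha) (tb_var _ hA hA' (.rel _ _ hb))) h6)
        h5 (.symm _ _ (.rel _ _ (.piA B hb)))
    | lamM _ hb => exact .abs h1 (fun h => h2 (hb.occ h)) h3 (ih1 (hb.sub _)) h5
  | @appl Γ M N₀ A B h1 h2 ih1 ih2 =>
    obtain ⟨s, hs⟩ := h1.pi_ty
    obtain ⟨t, ht⟩ := hs.pi_inst h2
    cases hb with
    | redex A₀ M₀ _ =>
      obtain ⟨B₀, s₀, hc, hp, hB⟩ := tb_gen_lam h1
      obtain ⟨s₁, -, -, -, -, hA, -⟩ := tb_gen_pi hp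
      exact .conv (hB _ _ (fun _ => id) (h2.conv hA (cv_pi_inj hc).1)) ht
        (cv_inst (.refl _) (.symm _ _ (cv_pi_inj hc).2))
    | appL _ hb => exact .appl (ih1 hb) h2
    | appR _ hb => exact .conv (.appl h1 (ih2 hb)) ht (cv_inst (.symm _ _ (.rel _ _ hb)) (.refl _))
  | conv _ h2 hc ih _ => exact (ih hb).conv h2 hc

theorem Ty.srs (h : Ty P Γ M A) (hb : Red M N) : Ty P Γ N A := by
  induction hb with
  | refl => exact h
  | tail _ hb ih => exact ih.sr hb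

theorem Ty.conv_red (h : Ty P Γ M A) (hb : Red A B) : Ty P Γ M B := by
  rcases h.corr with ⟨s, rfl⟩ | ⟨s, hs⟩
  · exact b2_nf_red (nf_srt s) hb ▸ h
  · exact h.conv (hs.srs hb) hb.cv

theorem Ty.conv_srt (h : Ty P Γ M A) (hc : Cv A (srt s)) : Ty P Γ M (srt s) := by
  obtain ⟨L, h1, h2⟩ := church_rosser hc
  exact h.conv_red (b2_nf_red (nf_srt s) h2 ▸ h1)

theorem HWN.ty (hP : HWN P) (h : Ty P Γ M A) : WN A := by
  rcases h.corr with ⟨s, rfl⟩ | ⟨s, hs⟩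
  · exact ⟨_, .refl, nf_srt s⟩
  · exact hP _ _ _ hs

theorem Ty.nf_tm (hP : HWN P) (h : Ty P Γ M A) : Ty P Γ (nf M) A := by
  exact h.srs (hP _ _ _ h).red_nf

theorem Ty.nf_ty (hP : HWN P) (h : Ty P Γ M A) : Ty P Γ M (nf A) := by
  exact h.conv_red (hP.ty h).red_nf

theorem Ty.cv_nf (hP : HWN P) (h : Ty P Γ M A) : Cv M (nf M) ∧ Cv A (nf A) := by
  exact ⟨(hP _ _ _ h).red_nf.cv, (hP.ty h).red_nf.cv⟩

/-! ### part c: spines, equivariance, morphisms of specifications, `GT` -/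

theorem Sp.uniq {a : Atom S} {Γ' : List (Atom S)} (hs : Sp a M) (h : Ty P Γ M A) (h' : Ty P Γ' M B) : Cv A B := by
  induction hs generalizing A B with
  | hd => exact .trans _ _ _ (Ty.gen_fv h).2 (.symm _ _ (Ty.gen_fv h').2)
  | app N _ ih =>
    obtain ⟨A₁, B₁, h1, -, h2⟩ := h.gen_app
    obtain ⟨A₂, B₂, h3, -, h4⟩ := h'.gen_app
    exact .trans _ _ _ h2 (.trans _ _ _ (cv_inst (.refl _) (cv_pi_inj (ih h1 h3)).2) (.symm _ _ h4))

theorem Ty.nf_cases (h : Ty P Γ M A) (hn : Nf M) :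
    (∃ s, M = srt s) ∨ (∃ B C, M = pi B C) ∨ (∃ B C, M = lam B C) ∨ ∃ a, a ∈ Γ ∧ Sp a M := by
  induction M generalizing A with
  | bv i => exact (Ty.not_bv h).elim
  | fv n B => exact .inr (.inr (.inr ⟨(n, B), (Ty.gen_fv h).1, .hd⟩))
  | srt s => exact .inl ⟨s, rfl⟩
  | lam B C => exact .inr (.inr (.inl ⟨B, C, rfl⟩))
  | pi B C => exact .inr (.inl ⟨B, C, rfl⟩)
  | app M N ih _ =>
    obtain ⟨A₁, B₁, h1, -, -⟩ := h.gen_app
    obtain ⟨n1, -, n2⟩ := hn.app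
    rcases ih h1 n1 with ⟨s, rfl⟩ | ⟨B, C, rfl⟩ | ⟨B, C, rfl⟩ | ⟨a, ha, hs⟩
    · obtain ⟨t, -, h2⟩ := h1.gen_srt
      exact (not_cv_srt_pi (.symm _ _ h2)).elim
    · obtain ⟨_, _, _, -, h2, -⟩ := h1.gen_pi
      exact (not_cv_srt_pi (.symm _ _ h2)).elim
    · exact (n2 _ _ rfl).elim
    · exact .inr (.inr (.inr ⟨a, ha, hs.app N⟩))

theorem Ty.nf_type (h : Ty P Γ M (srt s)) (hn : Nf M) :
    (∃ t, M = srt t) ∨ (∃ B C, M = pi B C) ∨ ∃ a, a ∈ Γ ∧ Sp a M := by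
  rcases h.nf_cases hn with h1 | h1 | ⟨B, C, rfl⟩ | h1
  · exact .inl h1
  · exact .inr (.inl h1)
  · obtain ⟨_, _, h2, -⟩ := h.gen_lam
    exact (not_cv_srt_pi h2).elim
  · exact .inr (.inr h1)

theorem Ty.nf_fun (h : Ty P Γ M (pi A B)) (hn : Nf M) : (∃ C D, M = lam C D) ∨ ∃ a, a ∈ Γ ∧ Sp a M := by
  rcases h.nf_cases hn with ⟨s, rfl⟩ | ⟨B, C, rfl⟩ | h1 | h1
  · obtain ⟨t, -, h2⟩ := h.gen_srt
    exact (not_cv_srt_pi (.symm _ _ h2)).elim
  · obtain ⟨_, _, _, -, h2, -⟩ := h.gen_pi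
    exact (not_cv_srt_pi (.symm _ _ h2)).elim
  · exact .inl h1
  · exact .inr h1

theorem typc_srt {a : Atom S} (h : Sp a M) : ¬ Cv M (srt s) := fun hc => by
  obtain ⟨L, h1, h2⟩ := church_rosser hc
  obtain rfl := b2_nf_red (nf_srt s) h2
  cases h.red h1

theorem typc_pi {a : Atom S} (h : Sp a M) : ¬ Cv M (pi A B) := fun hc => by
  obtain ⟨L, h1, h2⟩ := church_rosser hc
  obtain ⟨A', B', rfl, -⟩ := red_pi_inv h2
  cases h.red h1

/-- inhabitants of a neutral type -/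
theorem Ty.nf_neu {b : Atom S} (h : Ty P Γ M A) (hn : Nf M) (hA : Sp b A) : ∃ a, a ∈ Γ ∧ Sp a M := by
  rcases h.nf_cases hn with ⟨s, rfl⟩ | ⟨B, C, rfl⟩ | ⟨B, C, rfl⟩ | h1
  · obtain ⟨t, -, h2⟩ := h.gen_srt
    exact (typc_srt hA h2).elim
  · obtain ⟨_, _, _, -, h2, -⟩ := h.gen_pi
    exact (typc_srt hA h2).elim
  · obtain ⟨_, _, h2, -⟩ := h.gen_lam
    exact (typc_pi hA h2).elim
  · exact h1

theorem Sp.not_cv_srt {a : Atom S} (h : Sp a M) : ¬ Cv M (srt s) := by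
  exact typc_srt h

theorem Sp.not_cv_pi {a : Atom S} (h : Sp a M) : ¬ Cv M (pi A B) := by
  exact typc_pi h

theorem typc_head {a b : Atom S} (h : Sp a M) (h' : Sp b M) : a = b := by
  induction h with
  | hd =>
    generalize e : atm a = L at h'
    cases h' with
    | hd =>
      injection e with e1 e2
      exact Prod.ext e1 e2
    | app => cases e
  | app N _ ih =>
    generalize e : app _ N = L at h'
    cases h' with
    | hd => cases e
    | app N' h'' =>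
      injection e with e1 e2
      exact ih (e1 ▸ h'')

theorem Sp.cv_head {a b : Atom S} (h : Sp a M) (h' : Sp b N) (hc : Cv M N) : a = b := by
  obtain ⟨L, h1, h2⟩ := church_rosser hc
  exact typc_head (h.red h1) (h'.red h2)

theorem typc_prmA_inj (π : Equiv.Perm ℕ) : Function.Injective (prmA π : Atom S → Atom S) := by
  intro a b h
  obtain ⟨h1, h2⟩ := Prod.mk.inj h
  have h3 := congrArg (prm π⁻¹) h2
  rw [prm_prm, prm_prm, inv_mul_cancel, prm_one, prm_one] at h3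
  exact Prod.ext (π.injective h1) h3

theorem typc_cv_prm (π : Equiv.Perm ℕ) (h : Cv M N) : Cv (prm π M) (prm π N) := by
  induction h with
  | rel _ _ h => exact .rel _ _ (h.prm π)
  | refl => exact .refl _
  | symm _ _ _ ih => exact .symm _ _ ih
  | trans _ _ _ _ _ ih ih' => exact .trans _ _ _ ih ih'

theorem Ty.prm (h : Ty P Γ M A) (π : Equiv.Perm ℕ) : Ty P (Γ.map (prmA π)) (prm π M) (prm π A) := by
  have hnm : ∀ {Γ : List (Atom S)} {a : Atom S}, a ∉ Γ → prmA π a ∉ Γ.map (prmA π) := fun {Γ a} h h' => by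
    obtain ⟨b, hb, e⟩ := List.mem_map.1 h'
    exact h (typc_prmA_inj π e ▸ hb)
  induction h with
  | ax h => exact .ax h
  | start _ ih => exact .start (a := prmA π _) ih
  | weak _ _ ih ih' => exact .weak (a := prmA π _) ih ih'
  | prod _ h1 h2 _ hr ih ih' =>
    rw [prm_inst] at ih'
    exact .prod ih (hnm h1) (mt (prm_occ π (_, _) _).1 h2) ih' hr
  | abs h1 h2 h3 _ _ ih ih' =>
    rw [prm_inst, prm_inst] at ih
    exact .abs (hnm h1) (mt (prm_occ π (_, _) _).1 h2) (mt (prm_occ π (_, _) _).1 h3) ih ih'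
  | appl _ _ ih ih' =>
    rw [prm_inst]
    exact .appl ih ih'
  | conv _ _ hc ih ih' => exact .conv ih ih' (typc_cv_prm π hc)

theorem typc_cv_smap {S' : Type} (f : S → S') (h : Cv M N) : Cv (smap f M) (smap f N) := by
  induction h with
  | rel _ _ h => exact .rel _ _ (h.smap f)
  | refl => exact .refl _
  | symm _ _ _ ih => exact .symm _ _ ih
  | trans _ _ _ _ _ ih ih' => exact .trans _ _ _ ih ih'

theorem typc_upd {S' : Type} {P' : Spec S'} (f : S → S') {Δ : List (Atom S')} {θ : Sb S} {n n' : ℕ} {s' : S'}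
    (hA : Ty P Γ A (srt s)) (hn : (n, A) ∉ Γ) (hA' : Ty P' Δ (smap f (sub θ A)) (srt s'))
    (hθ : ∀ a ∈ Γ, Ty P' Δ (smap f (θ (.inr a))) (smap f (sub θ a.2))) :
    ∀ a ∈ (n, A) :: Γ, Ty P' ((n', smap f (sub θ A)) :: Δ)
      (smap f (vupd θ (n, A) (fv n' (sub θ A)) (.inr a)))
      (smap f (sub (vupd θ (n, A) (fv n' (sub θ A))) a.2)) := by
  intro a ha
  rcases List.mem_cons.1 ha with rfl | ha
  · rw [sub_vupd fun h => hn (hA.occ (.inl h)), vupd, Function.update_self]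
    exact .start (a := (n', smap f (sub θ A))) hA'
  · obtain ⟨t, ht⟩ := hA.ok.sort ha
    rw [sub_vupd fun h => hn (ht.occ (.inl h)), vupd,
      Function.update_of_ne fun h : (Sum.inr a : Var S) = .inr (n, A) => hn (Sum.inr.inj h ▸ ha)]
    exact .weak (a := (n', smap f (sub θ A))) (hθ a ha) hA'

theorem typc_smap {S' : Type} {P' : Spec S'} (f : S → S') (hax : ∀ s t, P.ax s t → P'.ax (f s) (f t))
    (hr : ∀ a b c, P.rule a b c → P'.rule (f a) (f b) (f c)) (h : Ty P Γ M A) :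
    ∀ (Δ : List (Atom S')) (θ : Sb S), Ok P' Δ →
      (∀ a ∈ Γ, Ty P' Δ (smap f (θ (.inr a))) (smap f (sub θ a.2))) →
      Ty P' Δ (smap f (sub θ M)) (smap f (sub θ A)) := by
  induction h with
  | ax h => exact fun Δ θ hΔ _ => hΔ.ax (hax _ _ h)
  | start _ _ => exact fun Δ θ _ hθ => hθ _ List.mem_cons_self
  | weak _ _ ih _ => exact fun Δ θ hΔ hθ => ih Δ θ hΔ fun a ha => hθ a (List.mem_cons_of_mem _ ha)
  | @prod Γ A B n s₁ s₂ s₃ hA h1 h2 _ hr' ih ih' =>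
    intro Δ θ hΔ hθ
    have hA' := ih Δ θ hΔ hθ
    have := ih' _ _ (.cons (a := (max (cmx Δ) (mx (smap f (sub (up θ) B))), smap f (sub θ A))) hA')
      (typc_upd f hA h1 hA' hθ)
    rw [show fv n A = atm (n, A) from rfl, sub_vupd_inst h2, ← inst_sub_up, smap_inst] at this
    exact .prod hA' (not_mem_of_cmx (le_max_left _ _)) (not_occ_of_mx (le_max_right _ _)) this
      (hr _ _ _ hr')
  | @abs Γ A M B n s h1 h2 h3 _ hp ih ih' =>
    intro Δ θ hΔ hθ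
    have hp' := ih' Δ θ hΔ hθ
    obtain ⟨_, _, _, -, -, hA, -⟩ := hp.gen_pi
    obtain ⟨_, _, _, -, -, hA', -⟩ := Ty.gen_pi hp'
    have := ih _ _ (.cons (a := (max (cmx Δ) (max (mx (smap f (sub (up θ) M)))
      (mx (smap f (sub (up θ) B)))), smap f (sub θ A))) hA') (typc_upd f hA h1 hA' hθ)
    rw [show fv n A = atm (n, A) from rfl, sub_vupd_inst h2, sub_vupd_inst h3, ← inst_sub_up,
      ← inst_sub_up, smap_inst, smap_inst] at this
    exact .abs (not_mem_of_cmx (le_max_left _ _))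
      (not_occ_of_mx ((le_max_left _ _).trans (le_max_right _ _)))
      (not_occ_of_mx ((le_max_right _ _).trans (le_max_right _ _))) this hp'
  | appl _ _ ih ih' =>
    intro Δ θ hΔ hθ
    rw [sub_inst, ← inst_sub_up, smap_inst]
    exact .appl (ih Δ θ hΔ hθ) (ih' Δ θ hΔ hθ)
  | conv _ _ hc ih ih' =>
    exact fun Δ θ hΔ hθ => .conv (ih Δ θ hΔ hθ) (ih' Δ θ hΔ hθ) (typc_cv_smap f (cv_sub hc θ))

theorem Ty.smap {S' : Type} {P' : Spec S'} (f : S → S') (hax : ∀ s t, P.ax s t → P'.ax (f s) (f t))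
    (hr : ∀ a b c, P.rule a b c → P'.rule (f a) (f b) (f c)) (h : Ty P Γ M A) :
    ∃ Γ', Ty P' Γ' (smap f M) (smap f A) := by
  have key : ∀ {Γ : List (Atom S)} {M A : Tm S}, Ty P Γ M A →
      Ok P' (Γ.map fun a => (a.1, Tm.smap f a.2)) →
      Ty P' (Γ.map fun a => (a.1, Tm.smap f a.2)) (Tm.smap f M) (Tm.smap f A) := fun {Γ M A} h hΓ => by
    have := typc_smap f hax hr h _ vr hΓ fun a ha => by
      rw [sub_vr]
      exact hΓ.var (a := (a.1, Tm.smap f a.2)) (List.mem_map.2 ⟨a, ha, rfl⟩)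
    rwa [sub_vr, sub_vr] at this
  have hok : ∀ Γ : List (Atom S), Ok P Γ → Ok P' (Γ.map fun a => (a.1, Tm.smap f a.2)) := by
    intro Γ
    induction Γ with
    | nil => exact fun _ => .nil
    | cons a Γ ih =>
      intro hΓ
      cases hΓ with
      | cons h => exact .cons (a := (a.1, Tm.smap f a.2)) (key h (ih h.ok))
  exact ⟨_, key h (hok _ h.ok)⟩

theorem HWN.of_map {S' : Type} {P' : Spec S'} (f : S → S') (hax : ∀ s t, P.ax s t → P'.ax (f s) (f t))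
    (hr : ∀ a b c, P.rule a b c → P'.rule (f a) (f b) (f c)) (h : HWN P') : HWN P := by
  intro Γ M A hM
  obtain ⟨Γ', h'⟩ := hM.smap f hax hr
  exact wn_of_smap f (h _ _ _ h')

theorem GT.merge (h : GT P M A) (hΓ : Ok P Γ) : ∃ Δ, Ok P Δ ∧ (∀ a ∈ Γ, a ∈ Δ) ∧ Ty P Δ M A := by
  obtain ⟨Δ, hΔ⟩ := h
  have := hΓ.append hΔ.ok
  exact ⟨Γ ++ Δ, this, fun a ha => List.mem_append_left _ ha,
    hΔ.thin this fun a ha => List.mem_append_right _ ha⟩

theorem GT.conv (h : GT P M A) (hB : GT P B (srt s)) (hc : Cv A B) : GT P M B := by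
  obtain ⟨Γ, hΓ⟩ := hB
  obtain ⟨Δ, h1, h2, h3⟩ := h.merge hΓ.ok
  exact ⟨Δ, .conv h3 (hΓ.thin h1 h2) hc⟩

theorem GT.prm (h : GT P M A) (π : Equiv.Perm ℕ) : GT P (prm π M) (prm π A) := by
  obtain ⟨Γ, hΓ⟩ := h
  exact ⟨_, hΓ.prm π⟩

end Crest.Agent.R298
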