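import Crest.Agent.R298.Lev

/-!
# Row 298.  Interface of the value model: values of elements of needed kinds, with a notion of continuity (small support in the
coordinates of the `Pl` variables) under which the `beta` law holds.  Constructed in `VDom.lean`, used in `Val*.lean`.
-/

set_option autoImplicit false
set_option linter.unusedVariables false

namespace Crest.Agent.R298

open scoped Classical
open Tm
open Crest.LogicCS.PTS (Spec)

variable {S : Type}

def dom : Tm S → Tm S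
  | .pi A _ => A
  | _ => .bv 0

def cod : Tm S → Tm S
  | .pi _ B => B
  | _ => .bv 0

/-- kind of the result of an application -/
noncomputable def res (K N : Tm S) : Tm S := nf (inst N (cod K))

/-- legal normal kinds -/
def Kd (P : Spec S) (K : Tm S) : Prop := Nf K ∧ ∃ s, GT P K (srt s)

def tl {V : Type 1} (p : ℕ → V) : ℕ → V := fun n => p (n + 1)

def Fam {V : Type 1} (Pl : Tm S → Prop) (Ct : Tm S → ((ℕ → V) → V) → Prop) (K : Tm S)
    (F : (ℕ → V) → Tm S → V → V) : Prop :=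
  (∀ N v, Ct (res K N) fun p => F p N v) ∧ (Pl (dom K) → ∀ N, Ct (res K N) fun p => F (tl p) N (p 0))

structure VM (P : Spec S) (d : Set (Set S)) (C : Type) where
  V : Type 1
  dv : V
  Pl : Tm S → Prop
  nrm : Tm S → V → V
  App : Tm S → V → Tm S → V → V
  Lam : Tm S → (Tm S → V → V) → V
  rd : Tm S → V → C
  ofc : C → V
  q : Tm S → Set V
  Ct : Tm S → ((ℕ → V) → V) → Prop
  C0 : ((ℕ → V) → C) → Prop
  nrm_nrm : ∀ K v, nrm K (nrm K v) = nrm K v
  nrm_dv : ∀ K v, ¬ Need P d (lv P K) → nrm K v = dv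
  app_dv : ∀ K f N v, ¬ Need P d (lv P K) → App K f N v = dv
  rd_ofc : ∀ K c, Need P d (lv P K) → rd K (nrm K (ofc c)) = c
  q_nrm : ∀ K v, Qn P d (lv P K) ∨ ¬ Need P d (lv P K) → nrm K v ∈ q K
  beta : ∀ K N v F p, Kd P K → (∃ A B, K = pi A B) → Need P d (lv P K) → GT P N (dom K) → Fam Pl Ct K F →
    nrm (res K N) (App K (nrm K (Lam K (F p))) N v) = nrm (res K N) (F p N (nrm (dom K) v))
  ct_const : ∀ K v, Ct K fun _ => v
  ct_cast : ∀ K K' f, Ct K' f → Ct K fun p => nrm K (nrm K' (f p))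
  ct_var : ∀ K, Pl K → Ct K fun p => p 0
  ct_tl : ∀ K f, Ct K f → Ct K fun p => f (tl p)
  ct_app : ∀ K N f w, Ct K f → Ct (dom K) w → Ct (res K N) fun p => App K (f p) N (w p)
  ct_lam : ∀ K F, Fam Pl Ct K F → Ct K fun p => Lam K (F p)
  ct_ofc : ∀ K c, C0 c → Ct K fun p => ofc (c p)
  c0_rd : ∀ K f, Ct K f → C0 fun p => rd K (nrm K (f p))
  c0_fam : ∀ (ι : Type) (f : ι → (ℕ → V) → C) (G : (ι → C) → C), (∀ i, C0 (f i)) → C0 fun p => G fun i => f i p
  c0_q : ∀ K (f : (ℕ → V) → V → C) (G : Set C → C), (∀ v, C0 fun p => f p v) → (Pl K → C0 fun p => f (tl p) (p 0)) →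
    C0 fun p => G (f p '' q K)

end Crest.Agent.R298
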