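import Crest.Agent.R298.Cand
import Crest.Agent.R298.VM

/-!
# Row 298.  Valuation of terms in a value model.  `val W η = (candidate of W as a type, value of W at a kind)` on annotated terms,
`valN` the same on plain normal terms (kinds are inferred from the recorded kinds of the variables).
-/

set_option autoImplicit false
set_option linter.unusedSectionVars false
set_option linter.unusedVariables false

namespace Crest.Agent.R298

open scoped Classical
open ATm
open Crest.LogicCS.PTS (Spec)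

variable {S : Type} {P : Spec S} {d D : Set (Set S)}

abbrev VMc (P : Spec S) (d D : Set (Set S)) := VM P d (CR P (d ∪ D))

def isR (P : Spec S) (d : Set (Set S)) (K : Tm S) : Prop := ∃ s, K = .srt s ∧ Rs P d s

section defs
variable (m : VMc P d D)

noncomputable def mkv (c : CR P (d ∪ D)) (f : Tm S → m.V) : CR P (d ∪ D) × (Tm S → m.V) :=
  (c, fun K => if isR P d K then m.nrm K (m.ofc c) else m.nrm K (f K))

noncomputable def grd (P : Spec S) (d D : Set (Set S)) (T : Tm S) (c : CR P (d ∪ D)) : CR P (d ∪ D) :=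
  if lv P T ∈ d then c else ndC P _

/-- neutral node: instance `T`, kind `K`, value `i` -/
noncomputable def mkn (T K : Tm S) (i : m.V) : CR P (d ∪ D) × (Tm S → m.V) :=
  mkv m (grd P d D T (m.rd K (m.nrm K i))) fun _ => m.nrm K i

noncomputable def mkl (η : Env S m.V) (b : Env S m.V → Tm S → m.V) : CR P (d ∪ D) × (Tm S → m.V) :=
  mkv m (ndC P _) fun K => m.Lam K fun N v => if GT P N (dom K) then b (vcons (N, dom K, v) η) (res K N) else m.dv

noncomputable def mkp (η : Env S m.V) (A B : Tm S) (a : CR P (d ∪ D)) (b : Env S m.V → CR P (d ∪ D)) :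
    CR P (d ∪ D) × (Tm S → m.V) :=
  mkv m (grd P d D (Tm.sub η.th (.pi A B)) (arrC (Tm.sub η.th (.pi A B)) (nf (Tm.sub η.th A)) a fun N =>
    infC ((fun v => b (vcons (er N, nf (Tm.sub η.th A), v) η)) '' m.q (nf (Tm.sub η.th A))))) fun _ => m.dv

noncomputable def val : ATm S → Env S m.V → CR P (d ∪ D) × (Tm S → m.V)
  | .bv i, η => mkn m (η (.inl i)).1 (η (.inl i)).2.1 (η (.inl i)).2.2
  | .fv n A, η => mkn m (η (.inr (n, A))).1 (η (.inr (n, A))).2.1 (η (.inr (n, A))).2.2
  | .srt _, _ => mkv m (ndC P _) fun _ => m.dv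
  | .app T M N, η =>
      mkn m (Tm.sub η.th (.app (er M) (er N))) (res (nf (Tm.sub η.th T)) (nf (Tm.sub η.th (er N))))
        (m.App (nf (Tm.sub η.th T)) ((val M η).2 (nf (Tm.sub η.th T))) (nf (Tm.sub η.th (er N)))
          ((val N η).2 (dom (nf (Tm.sub η.th T)))))
  | .lam _ M, η => mkl m η fun η' => (val M η').2
  | .pi A B, η => mkp m η (er A) (er B) (val A η).1 fun η' => (val B η').1
  | .mem M _, η => val M η

/-- inferred kind of a spine -/
noncomputable def kin {V : Type 1} : Tm S → Env S V → Tm S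
  | .bv i, η => (η (.inl i)).2.1
  | .fv n A, η => (η (.inr (n, A))).2.1
  | .app M N, η => res (kin M η) (nf (Tm.sub η.th N))
  | _, _ => .bv 0

noncomputable def valN : Tm S → Env S m.V → CR P (d ∪ D) × (Tm S → m.V)
  | .bv i, η => mkn m (η (.inl i)).1 (η (.inl i)).2.1 (η (.inl i)).2.2
  | .fv n A, η => mkn m (η (.inr (n, A))).1 (η (.inr (n, A))).2.1 (η (.inr (n, A))).2.2
  | .srt _, _ => mkv m (ndC P _) fun _ => m.dv
  | .app M N, η =>
      mkn m (Tm.sub η.th (.app M N)) (res (kin M η) (nf (Tm.sub η.th N)))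
        (m.App (kin M η) ((valN M η).2 (kin M η)) (nf (Tm.sub η.th N)) ((valN N η).2 (dom (kin M η))))
  | .lam _ M, η => mkl m η fun η' => (valN M η').2
  | .pi A B, η => mkp m η A B (valN A η).1 fun η' => (valN B η').1

end defs

/-- not headed by an abstraction -/
def HN : Tm S → Prop
  | .app M _ => HN M
  | .lam _ _ => False
  | _ => True

def mko (P : Spec S) (d : Set (Set S)) (T : Tm S) (s : Prop) (c : Tm S → Prop) : Option (Tm S) → Prop
  | none => lv P T ∈ d → s
  | some K => Need P d (lv P K) → (isR P d K → lv P T ∈ d → s) ∧ (¬ isR P d K → c K)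

/-- in relevant positions, an application node of unneeded kind is not headed by an abstraction.
Mode `none`: as a type; mode `some K`: as an element of `K`. -/
def okm (P : Spec S) (d : Set (Set S)) : ATm S → Sb S → Option (Tm S) → Prop
  | .app T M N, θ =>
      let i : Prop := (Need P d (lv P (Tm.sub θ T)) → okm P d M θ (some (nf (Tm.sub θ T))) ∧
        okm P d N θ (some (dom (nf (Tm.sub θ T))))) ∧ (¬ Need P d (lv P (Tm.sub θ T)) → HN (er M))
      mko P d (Tm.sub θ (.app (er M) (er N))) i fun _ => i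
  | .lam A M, θ => mko P d (Tm.sub θ (.lam (er A) (er M))) True fun K =>
      ∀ N, GT P N (dom K) → okm P d M (vcons N θ) (some (res K N))
  | .pi A B, θ => mko P d (Tm.sub θ (.pi (er A) (er B)))
      (okm P d A θ none ∧ ∀ N, GT P N (nf (Tm.sub θ (er A))) → okm P d B (vcons N θ) none) fun _ => True
  | .mem M _, θ => okm P d M θ
  | _, _ => fun _ => True

variable {m : VMc P d D}

/-- environments that cannot be told apart -/
def EEq (m : VMc P d D) (x y : Tm S × Tm S × m.V) : Prop :=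
  Cv x.1 y.1 ∧ x.2.1 = y.2.1 ∧ m.nrm x.2.1 x.2.2 = m.nrm y.2.1 y.2.2

/-! ### part a: untyped facts (structural inductions) -/

/-- the variable map under a binder -/
def vala_up (f : Var S → Var S) : Var S → Var S := vcons (.inl 0) fun x => Sum.map Nat.succ id (f x)

theorem vala_up_tm (f : Var S → Var S) : (Tm.up fun x => Tm.vr (f x) : Sb S) = fun x => Tm.vr (vala_up f x) := by
  have h : ∀ y : Var S, Tm.lift (Tm.vr y) = Tm.vr (Sum.map Nat.succ id y) := by
    rintro (i | a) <;> rfl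
  funext x
  rcases x with (_ | i) | a
  · rfl
  · exact h _
  · exact h _

theorem vala_up_atm (f : Var S → Var S) : (up fun x => vr (f x) : ASb S) = fun x => vr (vala_up f x) := by
  have h : ∀ y : Var S, lift (vr y) = vr (Sum.map Nat.succ id y) := by
    rintro (i | a) <;> rfl
  funext x
  rcases x with (_ | i) | a
  · rfl
  · exact h _
  · exact h _

theorem vala_vcons {α : Type*} (x : α) (η : Var S → α) (y : Var S) : vcons x η (Sum.map Nat.succ id y) = η y := by
  rcases y with i | a <;> rfl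

theorem vala_ers (f : Var S → Var S) : ers (fun x => vr (f x) : ASb S) = fun x => Tm.vr (f x) := by
  funext x
  show er (vr (f x)) = Tm.vr (f x)
  rcases f x with i | a <;> rfl

theorem vala_eeq_refl (x : Tm S × Tm S × m.V) : EEq m x x := ⟨.refl _, rfl, rfl⟩

theorem vala_eeq_of_eq {x y : Tm S × Tm S × m.V} (h : x = y) : EEq m x y := h ▸ vala_eeq_refl x

theorem vala_up1 {f : Var S → Var S} {η η' : Env S m.V} (h1 : ∀ i, EEq m (η' (.inl i)) (η (f (.inl i))))
    (x : Tm S × Tm S × m.V) (i : ℕ) : EEq m (vcons x η' (.inl i)) (vcons x η (vala_up f (.inl i))) := by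
  cases i with
  | zero => exact vala_eeq_refl x
  | succ i =>
    show EEq m (η' (.inl i)) (vcons x η (Sum.map Nat.succ id (f (.inl i))))
    rw [vala_vcons]
    exact h1 i

theorem vala_up2 {f : Var S → Var S} {η η' : Env S m.V} {a : Atom S} (h : EEq m (η' (.inr a)) (η (f (.inr a))))
    (x : Tm S × Tm S × m.V) : EEq m (vcons x η' (.inr a)) (vcons x η (vala_up f (.inr a))) := by
  show EEq m (η' (.inr a)) (vcons x η (Sum.map Nat.succ id (f (.inr a))))
  rw [vala_vcons]
  exact h

theorem vala_cv {f : Var S → Var S} {T : Tm S} {θ θ' : Sb S} (h1 : ∀ i, Cv (θ' (.inl i)) (θ (f (.inl i))))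
    (h2 : ∀ a, Tm.Occ a T → Cv (θ' (.inr a)) (θ (f (.inr a)))) :
    Cv (Tm.sub θ (Tm.sub (fun x => Tm.vr (f x)) T)) (Tm.sub θ' T) := by
  have e : ∀ y : Var S, Tm.sub θ (Tm.vr y) = θ y := by
    rintro (i | a) <;> rfl
  have e2 : Tm.sub θ (Tm.sub (fun x => Tm.vr (f x)) T) =
      Tm.sub (fun x => if Cv (θ' x) (θ (f x)) then θ (f x) else θ' x) T := by
    rw [R298.sub_sub]
    exact R298.sub_congr (fun i => by rw [e, if_pos (h1 i)]) fun a ha => by rw [e, if_pos (h2 a ha)]
  rw [e2]
  refine cv_sub_args (fun x => ?_) T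
  split_ifs with h
  · exact .symm _ _ h
  · exact .refl _

theorem vala_mkn {T T' K K' : Tm S} {i i' : m.V} (h : Cv T T') (hK : K = K') (hi : m.nrm K i = m.nrm K' i') :
    mkn m T K i = mkn m T' K' i' := by
  subst hK
  simp only [mkn, grd, lv_cv h, hi]

theorem vala_mkl {η η' : Env S m.V} {b b' : Env S m.V → Tm S → m.V} (h : ∀ x, b (vcons x η) = b' (vcons x η')) :
    mkl m η b = mkl m η' b' := by
  simp only [mkl, h]

theorem vala_mkp {η η' : Env S m.V} {A B A' B' : Tm S} {a a' : CR P (d ∪ D)} {b b' : Env S m.V → CR P (d ∪ D)}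
    (h : Cv (Tm.sub η.th (.pi A B)) (Tm.sub η'.th (.pi A' B'))) (ha : a = a') (hb : ∀ x, b (vcons x η) = b' (vcons x η')) :
    mkp m η A B a b = mkp m η' A' B' a' b' := by
  have hA : nf (Tm.sub η.th A) = nf (Tm.sub η'.th A') := nf_cv (cv_pi_inj h).1
  simp only [mkp, grd, lv_cv h, hA, hb]
  rw [arrC_congr (nf_cv h) ha fun _ _ => rfl]

theorem vala_var (η : Env S m.V) (y : Var S) : val m (vr y) η = mkn m (η y).1 (η y).2.1 (η y).2.2 := by
  rcases y with i | a <;> rfl

/-- general renaming/locality lemma: variables for variables, environments up to `EEq`, only at occurring atoms -/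
theorem val_ren (f : Var S → Var S) (W : ATm S) (η η' : Env S m.V) (h1 : ∀ i, EEq m (η' (.inl i)) (η (f (.inl i))))
    (h2 : ∀ a, Occ a W → EEq m (η' (.inr a)) (η (f (.inr a)))) :
    val m (sub (fun x => vr (f x)) W) η = val m W η' := by
  induction W generalizing f η η' with
  | bv i =>
    show val m (vr (f (.inl i))) η = _
    rw [vala_var]
    exact vala_mkn (.symm _ _ (h1 i).1) (h1 i).2.1.symm (h1 i).2.2.symm
  | fv n A =>
    show val m (vr (f (.inr (n, A)))) η = _
    rw [vala_var]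
    have h := h2 (n, A) rfl
    exact vala_mkn (.symm _ _ h.1) h.2.1.symm h.2.2.symm
  | srt s => rfl
  | app T M N ihM ihN =>
    have c1 : ∀ i, Cv (η'.th (.inl i)) (η.th (f (.inl i))) := fun i => (h1 i).1
    have eT := nf_cv (vala_cv (T := T) c1 fun a ha => (h2 a (Or.inl ha)).1)
    have eN := nf_cv (vala_cv (T := er N) c1 fun a ha => (h2 a (Or.inr (Or.inr (occ_er ha)))).1)
    have eMN := vala_cv (T := .app (er M) (er N)) c1 fun a ha =>
      (h2 a (Or.inr (ha.imp occ_er occ_er))).1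
    have iM := ihM f η η' h1 fun a ha => h2 a (Or.inr (Or.inl ha))
    have iN := ihN f η η' h1 fun a ha => h2 a (Or.inr (Or.inr ha))
    simp only [sub, val, er_sub, vala_ers, eT, eN, iM, iN]
    exact vala_mkn eMN rfl rfl
  | lam A M ihA ihM =>
    simp only [sub, val, vala_up_atm]
    exact vala_mkl fun x => congrArg Prod.snd
      (ihM _ _ _ (vala_up1 h1 x) fun a ha => vala_up2 (h2 a (Or.inr ha)) x)
  | pi A B ihA ihB =>
    have c1 : ∀ i, Cv (η'.th (.inl i)) (η.th (f (.inl i))) := fun i => (h1 i).1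
    have e := vala_cv (T := .pi (er A) (er B)) c1 fun a ha => (h2 a (ha.imp occ_er occ_er)).1
    simp only [sub, val]
    refine vala_mkp ?_ (congrArg Prod.fst (ihA f η η' h1 fun a ha => h2 a (Or.inl ha))) fun x => ?_
    · rw [er_sub, er_sub, ers_up, vala_ers]
      exact e
    · rw [vala_up_atm]
      exact congrArg Prod.fst (ihB _ _ _ (vala_up1 h1 x) fun a ha => vala_up2 (h2 a (Or.inr ha)) x)
  | mem M G ihM ihG =>
    simp only [sub, val]
    exact ihM f η η' h1 fun a ha => h2 a (Or.inl ha)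

theorem val_opn {a : Atom S} {W : ATm S} (h : ¬ Occ a W) (η : Env S m.V) (x : Tm S × Tm S × m.V) :
    val m (inst (atm a) W) (vupd η a x) = val m W (vcons x η) := by
  have e : (vcons (atm a) vr : ASb S) = fun y => vr (vcons (.inr a) id y) := sa_ext rfl (fun _ => rfl) fun _ => rfl
  rw [inst, e]
  refine val_ren _ W _ _ (fun i => vala_eeq_of_eq ?_) fun b hb => vala_eeq_of_eq ?_
  · cases i with
    | zero => exact (vupd_self η a x).symm
    | succ i => exact (vupd_inl η a x i).symm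
  · exact (vupd_ne η (fun e : b = a => h (e ▸ hb)) x).symm

theorem val_loc {a : Atom S} {W : ATm S} (h : ¬ Occ a W) (η : Env S m.V) (x : Tm S × Tm S × m.V) :
    val m W (vupd η a x) = val m W η := by
  have := val_ren (m := m) id W (vupd η a x) η (fun i => vala_eeq_of_eq (vupd_inl η a x i).symm)
    fun b hb => vala_eeq_of_eq (vupd_ne η (fun e : b = a => h (e ▸ hb)) x).symm
  rwa [show (fun x => vr (id x) : ASb S) = vr from rfl, ATm.sub_vr] at this

theorem val_eeq (W : ATm S) {η η' : Env S m.V} (h : ∀ x, EEq m (η x) (η' x)) : val m W η = val m W η' := by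
  have := val_ren (m := m) id W η' η (fun i => h _) fun b _ => h _
  rw [show (fun x => vr (id x) : ASb S) = vr from rfl, ATm.sub_vr] at this
  exact this.symm

theorem vala_mkv_nrm (c : CR P (d ∪ D)) (f : Tm S → m.V) (K : Tm S) : m.nrm K ((mkv m c f).2 K) = (mkv m c f).2 K := by
  simp only [mkv]
  split_ifs <;> exact m.nrm_nrm _ _

theorem val_nrm (W : ATm S) (η : Env S m.V) (K : Tm S) : m.nrm K ((val m W η).2 K) = (val m W η).2 K := by
  induction W generalizing η with
  | mem M G ihM _ => exact ihM η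
  | _ => exact vala_mkv_nrm _ _ K

theorem val_out (W : ATm S) (η : Env S m.V) (h : lv P (Tm.sub η.th (er W)) ∉ d) : (val m W η).1 = ndC P _ := by
  induction W generalizing η with
  | mem M G ihM _ => exact ihM η h
  | srt s => rfl
  | lam A M _ _ => rfl
  | _ => exact if_neg h

theorem val_isR (W : ATm S) (η : Env S m.V) {K : Tm S} (h : isR P d K) :
    (val m W η).2 K = m.nrm K (m.ofc (val m W η).1) := by
  induction W generalizing η with
  | mem M G ihM _ => exact ihM η
  | _ => exact if_pos h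

theorem vala_varN (η : Env S m.V) (y : Var S) :
    valN m (Tm.vr y) η = mkn m (η y).1 (η y).2.1 (η y).2.2 ∧ kin (Tm.vr y) η = (η y).2.1 := by
  rcases y with i | a <;> exact ⟨rfl, rfl⟩

theorem vala_valN (f : Var S → Var S) (T : Tm S) (η η' : Env S m.V) (h1 : ∀ i, EEq m (η' (.inl i)) (η (f (.inl i))))
    (h2 : ∀ a, Tm.Occ a T → EEq m (η' (.inr a)) (η (f (.inr a)))) :
    valN m (Tm.sub (fun x => Tm.vr (f x)) T) η = valN m T η' ∧ kin (Tm.sub (fun x => Tm.vr (f x)) T) η = kin T η' := by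
  induction T generalizing f η η' with
  | bv i =>
    exact ⟨(vala_varN η (f (.inl i))).1.trans (vala_mkn (.symm _ _ (h1 i).1) (h1 i).2.1.symm (h1 i).2.2.symm),
      (vala_varN η (f (.inl i))).2.trans (h1 i).2.1.symm⟩
  | fv n A _ =>
    have h := h2 (n, A) rfl
    exact ⟨(vala_varN η (f (.inr (n, A)))).1.trans (vala_mkn (.symm _ _ h.1) h.2.1.symm h.2.2.symm),
      (vala_varN η (f (.inr (n, A)))).2.trans h.2.1.symm⟩
  | srt s => exact ⟨rfl, rfl⟩
  | app M N ihM ihN =>
    have c1 : ∀ i, Cv (η'.th (.inl i)) (η.th (f (.inl i))) := fun i => (h1 i).1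
    have eN := nf_cv (vala_cv (T := N) c1 fun a ha => (h2 a (Or.inr ha)).1)
    have eMN := vala_cv (T := .app M N) c1 fun a ha => (h2 a ha).1
    have iM := ihM f η η' h1 fun a ha => h2 a (Or.inl ha)
    have iN := ihN f η η' h1 fun a ha => h2 a (Or.inr ha)
    refine ⟨?_, ?_⟩
    · rw [Tm.sub, valN, valN, eN, iM.1, iM.2, iN.1]
      exact vala_mkn eMN rfl rfl
    · rw [Tm.sub, kin, kin, eN, iM.2]
  | lam A M ihA ihM =>
    refine ⟨?_, rfl⟩
    rw [Tm.sub, valN, valN, vala_up_tm]
    exact vala_mkl fun x => congrArg Prod.snd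
      (ihM _ _ _ (vala_up1 h1 x) fun a ha => vala_up2 (h2 a (Or.inr ha)) x).1
  | pi A B ihA ihB =>
    refine ⟨?_, rfl⟩
    have c1 : ∀ i, Cv (η'.th (.inl i)) (η.th (f (.inl i))) := fun i => (h1 i).1
    have e := vala_cv (T := .pi A B) c1 fun a ha => (h2 a ha).1
    rw [Tm.sub, valN, valN]
    refine vala_mkp e (congrArg Prod.fst (ihA f η η' h1 fun a ha => h2 a (Or.inl ha)).1) fun x => ?_
    rw [vala_up_tm]
    exact congrArg Prod.fst (ihB _ _ _ (vala_up1 h1 x) fun a ha => vala_up2 (h2 a (Or.inr ha)) x).1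

theorem valN_ren (f : Var S → Var S) (T : Tm S) (η η' : Env S m.V) (h1 : ∀ i, η' (.inl i) = η (f (.inl i)))
    (h2 : ∀ a, Tm.Occ a T → η' (.inr a) = η (f (.inr a))) :
    valN m (Tm.sub (fun x => Tm.vr (f x)) T) η = valN m T η' ∧ kin (Tm.sub (fun x => Tm.vr (f x)) T) η = kin T η' := by
  exact vala_valN f T η η' (fun i => vala_eeq_of_eq (h1 i)) fun a ha => vala_eeq_of_eq (h2 a ha)

theorem valN_opn {a : Atom S} {T : Tm S} (h : ¬ Tm.Occ a T) (η : Env S m.V) (x : Tm S × Tm S × m.V) :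
    valN m (Tm.inst (Tm.atm a) T) (vupd η a x) = valN m T (vcons x η) := by
  have e : (vcons (Tm.atm a) Tm.vr : Sb S) = fun y => Tm.vr (vcons (.inr a) id y) := sa_ext rfl (fun _ => rfl) fun _ => rfl
  rw [Tm.inst, e]
  refine (valN_ren _ T _ _ (fun i => ?_) fun b hb => ?_).1
  · cases i with
    | zero => exact (vupd_self η a x).symm
    | succ i => exact (vupd_inl η a x i).symm
  · exact (vupd_ne η (fun e : b = a => h (e ▸ hb)) x).symm

theorem valN_loc {a : Atom S} {T : Tm S} (h : ¬ Tm.Occ a T) (η : Env S m.V) (x : Tm S × Tm S × m.V) :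
    valN m T (vupd η a x) = valN m T η := by
  have := (valN_ren (m := m) id T (vupd η a x) η (fun i => (vupd_inl η a x i).symm)
    fun b hb => (vupd_ne η (fun e : b = a => h (e ▸ hb)) x).symm).1
  rwa [show (fun x => Tm.vr (id x) : Sb S) = Tm.vr from rfl, R298.sub_vr] at this

theorem valN_eeq (T : Tm S) {η η' : Env S m.V} (h : ∀ x, EEq m (η x) (η' x)) :
    valN m T η = valN m T η' ∧ kin T η = kin T η' := by
  have := vala_valN (m := m) id T η' η (fun i => h _) fun b _ => h _
  rw [show (fun x => Tm.vr (id x) : Sb S) = Tm.vr from rfl, R298.sub_vr] at this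
  exact ⟨this.1.symm, this.2.symm⟩

theorem valN_out (T : Tm S) (η : Env S m.V) (h : lv P (Tm.sub η.th T) ∉ d) : (valN m T η).1 = ndC P _ := by
  cases T with
  | srt s => rfl
  | lam A M => rfl
  | _ => exact if_neg h

/-! ### part b: continuity, `okm` -/

theorem vb_c0 (c : CR P (d ∪ D)) : m.C0 fun _ => c :=
  m.c0_fam Empty (fun e => e.elim) (fun _ => c) fun e => e.elim

theorem vb_nrm {K : Tm S} {f : (ℕ → m.V) → m.V} (h : m.Ct K f) : m.Ct K fun p => m.nrm K (f p) := by
  simpa only [m.nrm_nrm] using m.ct_cast K K f h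

theorem vb_mkv {c : (ℕ → m.V) → CR P (d ∪ D)} {f : (ℕ → m.V) → Tm S → m.V} (hc : m.C0 c)
    (hf : ∀ K, m.Ct K fun p => m.nrm K (f p K)) :
    m.C0 (fun p => (mkv m (c p) (f p)).1) ∧ ∀ K, m.Ct K fun p => (mkv m (c p) (f p)).2 K := by
  refine ⟨hc, fun K => ?_⟩
  by_cases h : isR P d K
  · simpa only [mkv, if_pos h] using vb_nrm (m.ct_ofc K c hc)
  · simpa only [mkv, if_neg h] using hf K

theorem vb_grd (T : Tm S) {c : (ℕ → m.V) → CR P (d ∪ D)} (hc : m.C0 c) : m.C0 fun p => grd P d D T (c p) := by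
  by_cases h : lv P T ∈ d
  · simpa only [grd, if_pos h] using hc
  · simpa only [grd, if_neg h] using vb_c0 _

theorem vb_mkn (T : Tm S) {K : Tm S} {i : (ℕ → m.V) → m.V} (h : m.Ct K i) :
    m.C0 (fun p => (mkn m T K (i p)).1) ∧ ∀ K', m.Ct K' fun p => (mkn m T K (i p)).2 K' :=
  vb_mkv (vb_grd T (m.c0_rd K i h)) fun K' => m.ct_cast K' K i h

theorem vb_vcons {V : Type 1} (N K : Tm S) (v : V) (θ κ : Var S → Tm S) (ν : Var S → V) :
    (vcons (N, K, v) fun x => (θ x, κ x, ν x)) = fun x => (vcons N θ x, vcons K κ x, vcons v ν x) :=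
  sa_ext rfl (fun _ => rfl) fun _ => rfl

theorem vb_h1 {κ : Var S → Tm S} {ν : (ℕ → m.V) → Var S → m.V} (h : ∀ x, m.Ct (κ x) fun p => ν p x) (K : Tm S) (v : m.V) :
    ∀ x, m.Ct (vcons K κ x) fun p => vcons v (ν p) x
  | .inl 0 => m.ct_const K v
  | .inl (_ + 1) => h _
  | .inr _ => h _

theorem vb_h2 {κ : Var S → Tm S} {ν : (ℕ → m.V) → Var S → m.V} (h : ∀ x, m.Ct (κ x) fun p => ν p x) {K : Tm S}
    (hK : m.Pl K) : ∀ x, m.Ct (vcons K κ x) fun p => vcons (p 0) (ν (tl p)) x
  | .inl 0 => m.ct_var K hK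
  | .inl (_ + 1) => m.ct_tl _ _ (h _)
  | .inr _ => m.ct_tl _ _ (h _)

theorem vb_fam {M : ATm S} (ih : ∀ (θ κ : Var S → Tm S) (ν : (ℕ → m.V) → Var S → m.V), (∀ x, m.Ct (κ x) fun p => ν p x) →
      ∀ K, m.Ct K fun p => (val m M fun x => (θ x, κ x, ν p x)).2 K)
    (θ κ : Var S → Tm S) (ν : (ℕ → m.V) → Var S → m.V) (h : ∀ x, m.Ct (κ x) fun p => ν p x) (K : Tm S) :
    Fam m.Pl m.Ct K fun p N v =>
      if GT P N (dom K) then (val m M (vcons (N, dom K, v) fun x => (θ x, κ x, ν p x))).2 (res K N) else m.dv := by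
  refine ⟨fun N v => ?_, fun hK N => ?_⟩ <;> by_cases hN : GT P N (dom K)
  · simpa only [if_pos hN, vb_vcons] using ih (vcons N θ) _ _ (vb_h1 h (dom K) v) (res K N)
  · simpa only [if_neg hN] using m.ct_const _ _
  · simpa only [if_pos hN, vb_vcons] using ih (vcons N θ) _ _ (vb_h2 h hK) (res K N)
  · simpa only [if_neg hN] using m.ct_const _ _

/-- continuity (laws `ct_*`, `c0_*`; under a binder use `vcons (N, K, v) (H p)` and `vcons (N, K, p 0) (H (tl p))`) -/
theorem val_ct (W : ATm S) (θ κ : Var S → Tm S) (ν : (ℕ → m.V) → Var S → m.V) (h : ∀ x, m.Ct (κ x) fun p => ν p x) :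
    m.C0 (fun p => (val m W fun x => (θ x, κ x, ν p x)).1) ∧
      ∀ K, m.Ct K fun p => (val m W fun x => (θ x, κ x, ν p x)).2 K := by
  induction W generalizing θ κ ν with
  | bv i => exact vb_mkn _ (h (.inl i))
  | fv n A => exact vb_mkn _ (h (.inr (n, A)))
  | srt s => exact ⟨vb_c0 _, fun K => m.ct_const _ _⟩
  | app T M N ihM ihN =>
    exact vb_mkn (Tm.sub θ (.app (er M) (er N))) (m.ct_app (nf (Tm.sub θ T)) (nf (Tm.sub θ (er N))) _ _
      ((ihM θ κ ν h).2 _) ((ihN θ κ ν h).2 _))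
  | lam A M _ ih =>
    exact vb_mkv (vb_c0 _) fun K => vb_nrm (m.ct_lam K _ (vb_fam (fun θ κ ν h => (ih θ κ ν h).2) θ κ ν h K))
  | pi A B ihA ihB =>
    refine vb_mkv (vb_grd (Tm.sub θ (.pi (er A) (er B))) (m.c0_fam (Option (ATm S))
      (fun o p => o.elim (val m A fun x => (θ x, κ x, ν p x)).1 fun N =>
      infC ((fun v => (val m B (vcons (er N, nf (Tm.sub θ (er A)), v) fun x => (θ x, κ x, ν p x))).1) ''
        m.q (nf (Tm.sub θ (er A)))))
      (fun g => arrC (Tm.sub θ (.pi (er A) (er B))) (nf (Tm.sub θ (er A))) (g none) fun N => g (some N)) ?_))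
      fun K => m.ct_const _ _
    rintro (_ | N)
    · exact (ihA θ κ ν h).1
    · refine m.c0_q _ _ infC (fun v => ?_) fun hK => ?_
      · simpa only [vb_vcons] using (ihB (vcons (er N) θ) _ _ (vb_h1 h _ v)).1
      · simpa only [vb_vcons] using (ihB (vcons (er N) θ) _ _ (vb_h2 h hK)).1
  | mem M G ih _ => exact ih θ κ ν h

theorem val_fam (M : ATm S) (η : Env S m.V) (K : Tm S) : Fam m.Pl m.Ct K fun _ N v =>
    if GT P N (dom K) then (val m M (vcons (N, dom K, v) η)).2 (res K N) else m.dv := by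
  exact vb_fam (fun θ κ ν h => (val_ct M θ κ ν h).2) (fun x => (η x).1) (fun x => (η x).2.1) (fun _ x => (η x).2.2)
    (fun x => m.ct_const _ _) K

theorem vb_sub_vr (θ : Sb S) (y : Var S) : Tm.sub θ (er (vr y)) = θ y := by
  rcases y with i | a <;> rfl

theorem vb_cv {f : Var S → Var S} {θ θ' : Sb S} {T : Tm S} (h1 : ∀ i, Cv (θ' (.inl i)) (θ (f (.inl i))))
    (h2 : ∀ a, Tm.Occ a T → Cv (θ' (.inr a)) (θ (f (.inr a)))) :
    Cv (Tm.sub θ (Tm.sub (ers fun x => vr (f x)) T)) (Tm.sub θ' T) := by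
  rw [Crest.Agent.R298.sub_sub, Crest.Agent.R298.sub_congr (σ := θ')
    (τ := Sum.elim (fun i => θ' (.inl i)) fun a => if Tm.Occ a T then θ' (.inr a) else θ (f (.inr a))) (fun _ => rfl)
    fun a ha => (if_pos ha).symm]
  refine cv_sub_args (fun x => ?_) T
  rw [ers, vb_sub_vr]
  rcases x with i | a
  · exact .symm _ _ (h1 i)
  · by_cases ha : Tm.Occ a T
    · simpa only [Sum.elim_inr, if_pos ha] using .symm _ _ (h2 a ha)
    · simpa only [Sum.elim_inr, if_neg ha] using .refl _

theorem vb_cv' {f : Var S → Var S} {θ θ' : Sb S} {W : ATm S} (h1 : ∀ i, Cv (θ' (.inl i)) (θ (f (.inl i))))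
    (h2 : ∀ a, Occ a W → Cv (θ' (.inr a)) (θ (f (.inr a)))) :
    Cv (Tm.sub θ (er (sub (fun x => vr (f x)) W))) (Tm.sub θ' (er W)) := by
  rw [er_sub]
  exact vb_cv h1 fun a ha => h2 a (occ_er ha)

theorem vb_hn_vr (y : Var S) : HN (er (vr y)) := by
  rcases y with i | a <;> trivial

theorem vb_hn (f : Var S → Var S) (M : Tm S) : HN (Tm.sub (ers fun x => vr (f x)) M) ↔ HN M := by
  induction M with
  | bv i => exact iff_of_true (vb_hn_vr _) trivial
  | fv n A => exact iff_of_true (vb_hn_vr _) trivial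
  | app M N ih _ => exact ih
  | _ => rfl

theorem vb_mko {T T' : Tm S} (h : Cv T T') : mko P d T = mko P d T' := by
  funext s c o
  cases o <;> simp only [mko, lv_cv h]

theorem vb_okm_vr (y : Var S) (θ : Sb S) : okm P d (vr y) θ = fun _ => True := by
  rcases y with i | a <;> rfl

/-- a renaming under a binder -/
def vbUp (f : Var S → Var S) : Var S → Var S := vcons (.inl 0) fun x => Sum.map Nat.succ id (f x)

theorem vb_up (f : Var S → Var S) : (up fun x => vr (f x) : ASb S) = fun x => vr (vbUp f x) := by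
  have h : ∀ y : Var S, (lift (vr y) : ATm S) = vr (Sum.map Nat.succ id y) := by
    rintro (i | a) <;> rfl
  exact sa_ext rfl (fun _ => h _) fun _ => h _

theorem vb_shift (N : Tm S) (θ : Sb S) (y : Var S) : vcons N θ (Sum.map Nat.succ id y) = θ y := by
  rcases y with i | a <;> rfl

theorem vb_up1 {f : Var S → Var S} {θ θ' : Sb S} (h1 : ∀ i, Cv (θ' (.inl i)) (θ (f (.inl i)))) (N : Tm S) :
    ∀ i, Cv (vcons N θ' (.inl i)) (vcons N θ (vbUp f (.inl i)))
  | 0 => .refl _
  | i + 1 => (vb_shift N θ (f (.inl i))).symm ▸ h1 i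

theorem vb_up2 {f : Var S → Var S} {θ θ' : Sb S} {a : Atom S} (h : Cv (θ' (.inr a)) (θ (f (.inr a)))) (N : Tm S) :
    Cv (vcons N θ' (.inr a)) (vcons N θ (vbUp f (.inr a))) :=
  (vb_shift N θ (f (.inr a))).symm ▸ h

theorem okm_ren (f : Var S → Var S) (W : ATm S) (θ θ' : Sb S) (h1 : ∀ i, Cv (θ' (.inl i)) (θ (f (.inl i))))
    (h2 : ∀ a, Occ a W → Cv (θ' (.inr a)) (θ (f (.inr a)))) : okm P d (sub (fun x => vr (f x)) W) θ = okm P d W θ' := by
  have h0 := vb_mko (P := P) (d := d) (vb_cv' h1 h2)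
  induction W generalizing f θ θ' with
  | bv i => exact vb_okm_vr _ _
  | fv n A => exact vb_okm_vr _ _
  | srt s => rfl
  | app T M N ihM ihN =>
    have hT := vb_cv h1 fun a ha => h2 a (Or.inl ha)
    have hM := fun a ha => h2 a (Or.inr (Or.inl ha))
    have hN := fun a ha => h2 a (Or.inr (Or.inr ha))
    simp only [sub, er] at h0
    simp only [sub, okm, h0, lv_cv hT, nf_cv hT, ihM f θ θ' h1 hM (vb_mko (vb_cv' h1 hM)),
      ihN f θ θ' h1 hN (vb_mko (vb_cv' h1 hN))]
    rw [er_sub, vb_hn]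
  | lam A M _ ih =>
    have hM := fun N a ha => vb_up2 (h2 a (Or.inr ha)) N
    simp only [sub, er] at h0
    simp only [sub, okm, h0]
    simp only [vb_up, fun N => ih _ _ _ (vb_up1 h1 N) (hM N) (vb_mko (vb_cv' (vb_up1 h1 N) (hM N)))]
  | pi A B ihA ih =>
    have hA := fun a ha => h2 a (Or.inl ha)
    have hM := fun N a ha => vb_up2 (h2 a (Or.inr ha)) N
    simp only [sub, er] at h0
    simp only [sub, okm, h0, nf_cv (vb_cv' h1 hA), ihA f θ θ' h1 hA (vb_mko (vb_cv' h1 hA))]
    simp only [vb_up, fun N => ih _ _ _ (vb_up1 h1 N) (hM N) (vb_mko (vb_cv' (vb_up1 h1 N) (hM N)))]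
  | mem M G ih _ => exact ih f θ θ' h1 (fun a ha => h2 a (Or.inl ha)) h0

theorem okm_opn {a : Atom S} {W : ATm S} (h : ¬ Occ a W) (θ : Sb S) (N : Tm S) :
    okm P d (inst (atm a) W) (vupd θ a N) = okm P d W (vcons N θ) := by
  have e : (vcons (atm a) vr : ASb S) = fun x => vr (vcons (.inr a) id x) := sa_ext rfl (fun _ => rfl) fun _ => rfl
  rw [inst, e]
  refine okm_ren _ W _ _ ?_ fun b hb => ?_
  · rintro (_ | i)
    · exact (vupd_self θ a N).symm ▸ .refl _
    · exact (vupd_inl θ a N i).symm ▸ .refl _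
  · exact (vupd_ne θ (fun e : b = a => h (e ▸ hb)) N).symm ▸ .refl _

theorem vb_mko_of {T : Tm S} {s : Prop} {c : Tm S → Prop} (hs : s) (hc : ∀ K, c K) :
    ∀ o, mko P d T s c o
  | none => fun _ => hs
  | some K => fun _ => ⟨fun _ _ => hs, fun _ => hc K⟩

theorem vb_nf_hn {M N : Tm S} (h : Nf (.app M N)) : HN M := by
  induction M generalizing N with
  | app M N ih _ => exact ih h.app.1
  | lam A M => exact h.app.2.2 _ _ rfl
  | _ => trivial

theorem okm_nf {W : ATm S} (h : Nf (er W)) (θ : Sb S) (o : Option (Tm S)) : okm P d W θ o := by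
  induction W generalizing θ o with
  | app T M N ihM ihN =>
    have hi := And.intro (fun _ : Need P d (lv P (Tm.sub θ T)) => And.intro (ihM h.app.1 θ (some (nf (Tm.sub θ T))))
      (ihN h.app.2.1 θ (some (dom (nf (Tm.sub θ T)))))) fun _ : ¬ Need P d (lv P (Tm.sub θ T)) => vb_nf_hn h
    exact vb_mko_of hi (fun _ => hi) o
  | lam A M _ ih => exact vb_mko_of trivial (fun K N _ => ih (nf_lam_iff.1 h).2 _ _) o
  | pi A B ihA ihB =>
    exact vb_mko_of ⟨ihA (nf_pi_iff.1 h).1 _ _, fun N _ => ihB (nf_pi_iff.1 h).2 _ _⟩ (fun _ => trivial) o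
  | mem M G ih _ => exact ih h θ o
  | _ => trivial

theorem okm_none_of {W : ATm S} {θ : Sb S} (h : lv P (Tm.sub θ (er W)) ∉ d) : okm P d W θ none := by
  induction W with
  | app T M N => exact fun h' => absurd h' h
  | lam A M => exact fun h' => absurd h' h
  | pi A B => exact fun h' => absurd h' h
  | mem M G ih _ => exact ih h
  | _ => trivial

theorem okm_some_of {W : ATm S} {θ : Sb S} {K : Tm S} (h : ¬ Need P d (lv P K)) : okm P d W θ (some K) := by
  induction W with
  | app T M N => exact fun h' => absurd h' h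
  | lam A M => exact fun h' => absurd h' h
  | pi A B => exact fun h' => absurd h' h
  | mem M G ih _ => exact ih
  | _ => trivial

theorem okm_isR {W : ATm S} {θ : Sb S} {K : Tm S} (h : isR P d K) :
    okm P d W θ (some K) ↔ (Need P d (lv P K) → okm P d W θ none) := by
  have h0 : ∀ T s c, mko P d T s c (some K) ↔ (Need P d (lv P K) → mko P d T s c none) := fun T s c =>
    forall_congr' fun _ => ⟨fun h' => h'.1 h, fun h' => ⟨fun _ => h', fun h'' => absurd h h''⟩⟩
  induction W with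
  | app T M N => simpa only [okm] using h0 _ _ _
  | lam A M => exact h0 _ _ _
  | pi A B => exact h0 _ _ _
  | mem M G ih _ => exact ih
  | _ => exact iff_of_true trivial fun _ => trivial

theorem HN.sp {Γ : List (Atom S)} {M A B : Tm S} (h : HN M) (hM : Ty P Γ M (.pi A B)) : ∃ a, a ∈ Γ ∧ Sp a M := by
  induction M generalizing A B with
  | bv i => exact absurd hM Ty.not_bv
  | fv n C => exact ⟨(n, C), hM.gen_fv.1, .hd⟩
  | srt s =>
    obtain ⟨t, -, hc⟩ := hM.gen_srt
    exact absurd (.symm _ _ hc) not_cv_srt_pi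
  | app M N ih _ =>
    obtain ⟨A', B', h1, -⟩ := hM.gen_app
    obtain ⟨a, ha, hs⟩ := ih h h1
    exact ⟨a, ha, hs.app N⟩
  | lam C M => exact h.elim
  | pi C E =>
    obtain ⟨_, _, t, -, hc, -⟩ := hM.gen_pi
    exact absurd (.symm _ _ hc) not_cv_srt_pi

theorem Sp.hn {a : Atom S} {M : Tm S} (h : Sp a M) : HN M := by
  induction h with
  | hd => trivial
  | app _ _ ih => exact ih

theorem HN.red {M N : Tm S} (h : HN M) (hr : Red M N) : HN N := by
  induction hr with
  | refl => exact h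
  | tail _ hb ih =>
    clear * - hb ih
    induction hb with
    | redex => exact ih.elim
    | appL _ _ ih' => exact ih' ih
    | appR => exact ih
    | lamA => exact ih.elim
    | lamM => exact ih.elim
    | piA => trivial
    | piB => trivial

end Crest.Agent.R298
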